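import Vale.Agent.P315F.Scale
import Vale.Agent.P315.Conc

namespace Vale.Agent.P315F

open Finset Vale.Agent.P315

namespace Pm

variable {P : Pm}

theorem jv_lt (P : Pm) (ρ : ℕ → Bool) (c : ℕ) : P.jv ρ c < P.b := by
  unfold jv b
  generalize c * P.lb = e
  induction P.lb with
  | zero => simp
  | succ n ih =>
    rw [sum_range_succ, pow_succ]
    split_ifs <;> omega

theorem Jn_lt (P : Pm) (n : ℕ) {v : ℕ} (h : v < P.b) : P.Jn n v < P.b := by
  unfold Jn
  split_ifs
  · exact Nat.mod_lt _ P.b_pos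
  · exact h

theorem exN_fin {α : Type} (P : Pm) (d : α) (f : Fin P.N → α) (n : Fin P.N) :
    P.exN d f n = f n := dif_pos n.2

theorem pass1_congr (P : Pm) (X : Ctx) (k h i : ℕ) (L : ℕ → ℕ → Tab) {Jc Jc' : ℕ → ℕ}
    {Rr Rr' : ℕ → Tab} (hJ : ∀ n < P.N, Jc n = Jc' n) (hR : ∀ n < P.N, Rr n = Rr' n) :
    P.pass1 X k h i L Jc Rr = P.pass1 X k h i L Jc' Rr' := by
  have e : P.smpS i L Jc Rr = P.smpS i L Jc' Rr' := by
    funext g qq
    exact sum_congr rfl fun n hn => by rw [hJ n (mem_range.1 hn), hR n (mem_range.1 hn)]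
  unfold pass1
  rw [e]

theorem addr_mod {hb l m : ℕ} (hhb : hb % l = 0) (hm : m < l) : (hb + m) % l = m := by
  rw [Nat.add_mod, hhb, zero_add, Nat.mod_mod, Nat.mod_eq_of_lt hm]

theorem Pa_eq_passS (P : Pm) (w : ℕ → ℕ → ℕ) (ρ : ℕ → Bool) (k j hb : ℕ) (hhb : hb % P.ell = 0)
    (m : ℕ) (hm : m < P.ell) (a i ad : ℕ) :
    P.Pa w ρ (hb + m + 1) k a i j ad =
      P.passS w (P.A w ρ) k j hb m a i (fun u => ρ (P.pos m ad u)) := by
  induction m generalizing a i ad with
  | zero =>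
    rw [Pa_succ]
    unfold passF passS
    rw [Nat.add_zero, if_pos hhb]
  | succ m ih =>
    have e : (hb + (m + 1)) % P.ell = m + 1 := addr_mod hhb hm
    have ej : ∀ n : Fin P.N, P.jv ρ (P.sad m ad n) =
        P.jb (fun t => ρ (P.pos (m + 1) ad (n, Sum.inl t))) := fun n =>
      (Fin.sum_univ_eq_sum_range
        (fun t => if ρ (P.sad m ad n * P.lb + t) then 2 ^ t else 0) P.lb).symm
    rw [Pa_succ]
    unfold passF passS
    rw [e, if_neg (Nat.succ_ne_zero m), Nat.add_sub_cancel]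
    refine if_congr Iff.rfl (P.pass1_congr _ _ _ _ _ (fun n hn => ?_) fun n hn => ?_) rfl
    · rw [P.exN_fin _ _ ⟨n, hn⟩, ← ej]
    · rw [P.exN_fin _ _ ⟨n, hn⟩, ← ej]
      exact ih (by omega) _ _ _

theorem addr_SZ (P : Pm) (m : ℕ) : 0 < P.SZ m := by unfold SZ N NS b; positivity

theorem addr_sad (P : Pm) (m ad : ℕ) (i : Fin P.N) :
    P.sad m ad i + 2 * P.SZ m ≤ ad + P.SZ (m + 1) := by
  have h : (i + 1) * (2 * P.SZ m) ≤ P.N * (2 * P.SZ m) := Nat.mul_le_mul_right _ i.2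
  have e : P.SZ (m + 1) = P.N * (2 * P.SZ m) := by unfold SZ; ring
  unfold sad
  rw [e, add_assoc, ← add_one_mul]
  exact Nat.add_le_add_left h _

theorem addr_blk (P : Pm) (m ad : ℕ) (i : Fin P.N) (v : Fin P.lb ⊕ P.Idx m)
    (ih : ∀ u : P.Idx m, (P.sad m ad i + P.SZ m) * P.lb ≤ P.pos m (P.sad m ad i + P.SZ m) u ∧
      P.pos m (P.sad m ad i + P.SZ m) u < (P.sad m ad i + P.SZ m + P.SZ m) * P.lb) :
    P.sad m ad i * P.lb ≤ P.pos (m + 1) ad (i, v) ∧
      P.pos (m + 1) ad (i, v) < (P.sad m ad i + 2 * P.SZ m) * P.lb := by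
  rcases v with t | u
  · have h3 : 1 * P.lb ≤ 2 * P.SZ m * P.lb :=
      Nat.mul_le_mul_right _ (by have := P.addr_SZ m; omega)
    have h4 := t.2
    change _ ≤ P.sad m ad i * P.lb + t ∧ P.sad m ad i * P.lb + t < _
    rw [add_mul]
    omega
  · refine ⟨(Nat.mul_le_mul_right _ (Nat.le_add_right _ _)).trans (ih u).1, ?_⟩
    rw [two_mul, ← add_assoc]
    exact (ih u).2

theorem pos_range (P : Pm) (m ad : ℕ) (u : P.Idx m) :
    ad * P.lb ≤ P.pos m ad u ∧ P.pos m ad u < (ad + P.SZ m) * P.lb := by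
  induction m generalizing ad with
  | zero => exact Empty.elim u
  | succ m ih =>
    obtain ⟨i, v⟩ := u
    have h1 := P.addr_blk m ad i v (ih _)
    have h2 := P.addr_sad m ad i
    exact ⟨(Nat.mul_le_mul_right _ (Nat.le_add_right _ _)).trans h1.1,
      h1.2.trans_le (Nat.mul_le_mul_right _ h2)⟩

theorem pos_inj (P : Pm) (m ad : ℕ) : Function.Injective (P.pos m ad) := by
  induction m generalizing ad with
  | zero => exact fun u => Empty.elim u
  | succ m ih =>
    rintro ⟨i, v⟩ ⟨i', v'⟩ h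
    have h1 := P.addr_blk m ad i v (P.pos_range m _)
    have h2 := P.addr_blk m ad i' v' (P.pos_range m _)
    have hlt : ∀ i i' : Fin P.N, i < i' →
        (P.sad m ad i + 2 * P.SZ m) * P.lb ≤ P.sad m ad i' * P.lb := fun i i' hi => by
      refine Nat.mul_le_mul_right _ ?_
      unfold sad
      rw [add_assoc, ← add_one_mul]
      exact Nat.add_le_add_left (Nat.mul_le_mul_right _ hi) _
    obtain rfl : i = i' := by
      rcases lt_trichotomy i i' with h3 | h3 | h3
      · have := hlt _ _ h3; omega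
      · exact h3
      · have := hlt _ _ h3; omega
    have hx : ∀ (t : Fin P.lb) (u : P.Idx m),
        P.pos (m + 1) ad (i, Sum.inl t) < P.pos (m + 1) ad (i, Sum.inr u) := fun t u => by
      refine lt_of_lt_of_le ?_ (P.pos_range m _ u).1
      have h3 : 1 * P.lb ≤ P.SZ m * P.lb := Nat.mul_le_mul_right _ (P.addr_SZ m)
      have h4 := t.2
      change P.sad m ad i * P.lb + t < _
      rw [add_mul]
      omega
    rcases v with t | u <;> rcases v' with t' | u'
    · have h3 : P.sad m ad i * P.lb + t = P.sad m ad i * P.lb + t' := h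
      rw [Fin.ext (Nat.add_left_cancel h3)]
    · exact absurd h (hx _ _).ne
    · exact absurd h (hx _ _).ne'
    · rw [ih _ h]

theorem addr_radix {u M x c R : ℕ} (h : u * M ≤ x ∧ x + 1 ≤ (u + 1) * M) (hc : c < R) :
    u * (M * R) ≤ x * R + c ∧ x * R + c + 1 ≤ (u + 1) * (M * R) := by
  have h1 := Nat.mul_le_mul_right R h.1
  have h2 := Nat.mul_le_mul_right R h.2
  rw [add_one_mul] at h2
  rw [← mul_assoc, ← mul_assoc]
  omega

theorem SZ_mono (P : Pm) {m m' : ℕ} (h : m ≤ m') : P.SZ m ≤ P.SZ m' :=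
  Nat.pow_le_pow_right (by unfold N NS b; positivity) h

theorem base_range (hP : P.Good) (h k a i j s : ℕ) :
    h * P.HS ≤ P.base h k a i j s ∧ P.base h k a i j s + P.SZ P.ell ≤ (h + 1) * P.HS := by
  have hK : 0 < P.KK := by have := hP.K_pos; unfold KK; omega
  have hA : 0 < P.NA := pow_pos P.b_pos _
  have h2 := addr_radix (addr_radix (addr_radix (addr_radix
    (u := 0) (M := P.KK) (x := k % P.KK) ⟨by simp, by simpa using Nat.mod_lt k hK⟩
    (Nat.mod_lt a hA)) (Nat.mod_lt i (Nat.succ_pos _ : 0 < P.NI)))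
    (Nat.mod_lt j (Nat.succ_pos P.k0))) (Nat.mod_lt s hP.S_pos)
  have h3 := Nat.mul_le_mul_right (P.SZ P.ell) h2.2
  rw [zero_add, one_mul, add_one_mul] at h3
  unfold base
  rw [add_one_mul, add_assoc]
  exact ⟨Nat.le_add_right _ _, Nat.add_le_add_left h3 _⟩

theorem base_lt (P : Pm) (h k a i j : ℕ) {s s' : ℕ} (hs : s < s') (hs' : s' < P.S) :
    P.base h k a i j s + P.SZ P.ell ≤ P.base h k a i j s' := by
  unfold base
  rw [Nat.mod_eq_of_lt hs', Nat.mod_eq_of_lt (hs.trans hs'), add_assoc, ← add_one_mul]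
  exact Nat.add_le_add_left (Nat.mul_le_mul_right _ (by omega)) _

theorem passS_congr (P : Pm) (w : ℕ → ℕ → ℕ) {A A' : ℕ → ℕ → ℕ → ℕ → ℕ → Tab} (k j hb m : ℕ)
    (H : ∀ h ≤ hb + m, A h = A' h) (a i : ℕ) (s : P.Idx m → Bool) :
    P.passS w A k j hb m a i s = P.passS w A' k j hb m a i s := by
  induction m generalizing a i with
  | zero => simp only [passS, H hb le_rfl]
  | succ m ih =>
    have h1 := H (hb + m + 1) le_rfl
    have h2 := ih fun h hh => H h (by omega)
    simp only [passS, h1, h2]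

theorem refV_congr (P : Pm) (w : ℕ → ℕ → ℕ) {A A' : ℕ → ℕ → ℕ → ℕ → ℕ → Tab} (k h : ℕ)
    (H : ∀ h' < h, A h' = A' h') : P.refV w A k h = P.refV w A' k h := by
  induction h with
  | zero => rfl
  | succ h ih =>
    simp only [refV, H h (Nat.lt_succ_self h), ih fun h' hh => H h' (by omega)]

theorem addr_split (hP : P.Good) (h : ℕ) :
    ∃ hb m, hb % P.ell = 0 ∧ m < P.ell ∧ h = hb + m :=
  ⟨P.ell * (h / P.ell), h % P.ell, Nat.mul_mod_right _ _, Nat.mod_lt _ hP.ell_pos,
    (Nat.div_add_mod _ _).symm⟩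

/-- Official tables of height `h` only read the tape below `(h+1) * HS * lb`. -/
theorem A_congr (hP : P.Good) (w : ℕ → ℕ → ℕ) (ρ ρ' : ℕ → Bool) (h : ℕ)
    (hρ : ∀ i < (h + 1) * P.HS * P.lb, ρ i = ρ' i) : P.A w ρ h = P.A w ρ' h := by
  induction h using Nat.strong_induction_on with
  | _ h ih =>
  cases h with
  | zero => rfl
  | succ h =>
    obtain ⟨hb, m, hhb, hm, rfl⟩ := addr_split hP h
    funext k a i j p p'
    rw [A_succ, A_succ]
    refine if_congr Iff.rfl (if_congr Iff.rfl rfl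
      (congrArg (· / P.S) (sum_congr rfl fun s _ => ?_))) rfl
    rw [P.Pa_eq_passS w ρ k j hb hhb m hm, P.Pa_eq_passS w ρ' k j hb hhb m hm,
      P.passS_congr w k j hb m fun h' hh => ih h' (by omega) fun i hi => hρ i
        (hi.trans_le (Nat.mul_le_mul_right _ (Nat.mul_le_mul_right _ (by omega))))]
    congr 1
    funext u
    refine hρ _ ((P.pos_range _ _ u).2.trans_le (Nat.mul_le_mul_right _ ?_))
    have h1 := (base_range hP (hb + m + 1) k a i j s).2
    have h2 := P.SZ_mono hm.le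
    omega

end Pm

end Vale.Agent.P315F
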