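import Vale.Agent.P315F.Scale

/-! Sums of band tables. -/

namespace Vale.Agent.P315F

open Finset Vale.Agent.P315

theorem xi_small {m : ℕ} {y : ℝ} (hm : 2 ≤ m) (hy : 0 ≤ y) (h : y ≤ 1 / 2) :
    xi m y ≤ y * (1 / 2) ^ (m - 1) := by
  obtain ⟨n, rfl⟩ : ∃ n, m = n + 1 := ⟨m - 1, by omega⟩
  rw [xi_low (h.trans (by norm_num)), Nat.add_sub_cancel, pow_succ']
  have h1 : y ^ n ≤ (1 / 2) ^ n := pow_le_pow_left₀ hy h n
  have h2 : (1 : ℝ) ≤ (n + 1 : ℕ) := by exact_mod_cast Nat.succ_pos n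
  have h3 : 0 ≤ y * y ^ n := by positivity
  exact (div_le_self h3 h2).trans (mul_le_mul_of_nonneg_left h1 hy)

namespace Pm

variable {P : Pm}

theorem band_geo (n : ℕ) : ∑ β ∈ range n, 2 ^ β + 1 = 2 ^ n := by
  induction n with
  | zero => rfl
  | succ n ih => rw [sum_range_succ, pow_succ]; omega

theorem band_geoI (a c : ℕ) : ∑ i ∈ Icc a c, (2 : ℝ) ^ i ≤ 2 ^ (c + 1) := by
  have h1 : ∑ i ∈ Icc a c, (2 : ℝ) ^ i ≤ ∑ i ∈ range (c + 1), (2 : ℝ) ^ i :=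
    sum_le_sum_of_subset_of_nonneg
      (fun i hi => mem_range.2 (Nat.lt_succ_of_le (mem_Icc.1 hi).2)) (fun _ _ _ => by positivity)
  have h2 : ((∑ β ∈ range (c + 1), 2 ^ β + 1 : ℕ) : ℝ) = (2 ^ (c + 1) : ℕ) := by rw [band_geo]
  push_cast at h2
  linarith

theorem band_tele (m : ℕ) (v : ℝ) {a c : ℕ} (h : a ≤ c) :
    ∑ i ∈ Icc a c, 2 ^ i * hh m (v / 2 ^ i) =
      2 ^ a * xi m (v / 2 ^ a) - 2 ^ (c + 1) * xi m (v / 2 ^ (c + 1)) := by
  have h1 := hh_tele m v a (c + 1 - a)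
  rw [show a + (c + 1 - a) = c + 1 by omega] at h1
  rw [← h1, ← Ico_add_one_right_eq_Icc, sum_Ico_eq_sum_range]

theorem band_avg {S : ℕ} (hS : 1 ≤ S) (x : ℕ) :
    ((x / S : ℕ) : ℝ) ≤ x / S ∧ (x : ℝ) / S < (x / S : ℕ) + 1 := by
  have h2 := Nat.lt_floor_add_one ((x : ℝ) / S)
  rw [Nat.floor_div_eq_div] at h2
  exact ⟨Nat.cast_div_le, h2⟩

theorem band_eta (hP : P.Good) : 12 * P.eta ≤ P.del ∧ P.del ≤ 1 / 64 := by
  have h1 := eta_le hP
  have h2 := del_le hP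
  have h3 := eps_le hP
  have h4 := P.eta_pos
  have h5 := P.del_pos
  have hD : (1 : ℝ) ≤ P.D := by exact_mod_cast hP.D_pos
  constructor <;> nlinarith

theorem bandR_min (hP : P.Good) (i : ℕ) {v : ℝ} (hv : 0 ≤ v) :
    P.bandR i (min v (2 ^ (i + 1))) = P.bandR i v := by
  have h : min v (2 ^ (i + 1)) / 2 ^ i = min (v / 2 ^ i) 2 := by
    rw [← min_div_div_right (by positivity), pow_succ, mul_div_cancel_left₀ _ (by positivity)]
  unfold bandR
  rw [h, hh_min]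

/-- The sum in `zX` runs over the bands `lo g, …, hi g`. -/
theorem zX_un (hP : P.Good) (t : ℕ → Tab) (g p p' : ℕ) :
    (P.zX t g p p' : ℝ) * P.un g = (1 - 1 / P.mm) * 2 ^ P.lo g +
      ∑ i ∈ Icc (P.lo g) (P.hi g), 2 ^ i * (t i p p' : ℝ) / P.U1 := by
  have hU : (0 : ℝ) < P.U1 := by exact_mod_cast P.U1_pos
  have hm : (0 : ℝ) < P.mm := by exact_mod_cast P.mm_pos
  have hb : ((P.U1 - P.U1 / P.mm : ℕ) : ℝ) = P.U1 * (1 - 1 / P.mm) := by
    rw [Nat.cast_sub (Nat.div_le_self _ _), Nat.cast_div (mm_dvd hP) hm.ne']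
    ring
  have hf : (Ico (P.lo g) (P.lo g + P.nbm)).filter (fun i => i ≤ P.hi g) =
      Icc (P.lo g) (P.hi g) := by
    ext i
    have := P.hi_lt g
    simp only [mem_filter, mem_Ico, mem_Icc]
    omega
  rw [← hf, sum_filter, sum_Ico_eq_sum_range, Nat.add_sub_cancel_left]
  unfold zX
  rw [Nat.cast_add, hb, Nat.cast_sum, add_mul, sum_mul]
  refine congrArg₂ _ ?_ (sum_congr rfl fun β _ => ?_)
  · unfold un
    field_simp
  · split_ifs
    · unfold un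
      push_cast
      rw [pow_add]
      ring
    · rw [Nat.cast_zero, zero_mul]

theorem zX_le (P : Pm) {t : ℕ → Tab} (g : ℕ) {p p' : ℕ} (h : ∀ i, t i p p' ≤ P.U1) :
    P.zX t g p p' ≤ 2 ^ (P.nbm + 1) * P.U1 := by
  have h1 : ∑ β ∈ range P.nbm, (if P.lo g + β ≤ P.hi g then 2 ^ β * t (P.lo g + β) p p' else 0) ≤
      ∑ β ∈ range P.nbm, 2 ^ β * P.U1 := by
    refine sum_le_sum fun β _ => ?_
    split_ifs
    · exact Nat.mul_le_mul_left _ (h _)
    · exact Nat.zero_le _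
  rw [← sum_mul] at h1
  have h2 := band_geo P.nbm
  have h3 : P.U1 - P.U1 / P.mm ≤ P.U1 := Nat.sub_le _ _
  have h4 : (∑ β ∈ range P.nbm, 2 ^ β + 1) * P.U1 ≤ 2 ^ (P.nbm + 1) * P.U1 := by
    rw [h2]
    exact Nat.mul_le_mul_right _ (Nat.pow_le_pow_right (by norm_num) (Nat.le_succ _))
  rw [add_mul, one_mul] at h4
  unfold zX
  omega

/-- Lower bound.  Replace `v` by `min v (2^hi)`; `∑ 2^i hh (v / 2^i)` telescopes to
`2^lo xi (v / 2^lo) - 2^(hi+1) xi (v / 2^(hi+1))`; use `hh_tele`, `xi_base`, `xi_small`, `tiny_hi`. -/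
theorem ZL (hP : P.Good) (t : ℕ → Tab) (g p p' : ℕ) {v : ℝ} (hv : 0 ≤ v)
    (h : ∀ i, P.lo g ≤ i → i ≤ P.hi g →
      (1 - P.eta) * P.bandR i v - 2 * P.eta * P.t0 ≤ t i p p') :
    (1 - 2 * P.eta) * min v (2 ^ P.hi g) ≤ P.zX t g p p' * P.un g := by
  have hU : (0 : ℝ) < P.U1 := by exact_mod_cast P.U1_pos
  have hm : (16 : ℝ) ≤ P.mm := by exact_mod_cast mm_ge hP
  have hη := P.eta_pos
  obtain ⟨e1, e2⟩ := band_eta hP
  have hv0 : 0 ≤ min v (2 ^ P.hi g) := le_min hv (by positivity)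
  have hv1 : min v (2 ^ P.hi g) ≤ v := min_le_left _ _
  have hv2 : min v (2 ^ P.hi g) ≤ 2 ^ P.hi g := min_le_right _ _
  generalize min v (2 ^ P.hi g) = u at hv0 hv1 hv2
  have hterm : ∀ i ∈ Icc (P.lo g) (P.hi g),
      (1 - P.eta) * (2 ^ i * hh P.mm (u / 2 ^ i)) - 2 * P.eta * P.tiny * 2 ^ i ≤
        2 ^ i * (t i p p' : ℝ) / P.U1 := by
    intro i hi
    have h1 := h i (mem_Icc.1 hi).1 (mem_Icc.1 hi).2
    have h2 := P.bandR_mono i hv0 hv1
    have h3 : (1 - P.eta) * P.bandR i u - 2 * P.eta * P.t0 ≤ t i p p' := by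
      have : (1 - P.eta) * P.bandR i u ≤ (1 - P.eta) * P.bandR i v :=
        mul_le_mul_of_nonneg_left h2 (by linarith)
      linarith
    rw [t0_eq, bandR] at h3
    rw [le_div_iff₀ hU]
    have h4 := mul_le_mul_of_nonneg_left h3 (show (0 : ℝ) ≤ 2 ^ i by positivity)
    linarith
  have hs := sum_le_sum hterm
  rw [sum_sub_distrib, ← mul_sum, ← mul_sum, band_tele _ _ (P.lo_le_hi g)] at hs
  have g1 := band_geoI (P.lo g) (P.hi g)
  have g2 := (tiny_hi hP g).2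
  have hti : 0 < P.tiny := by unfold tiny; positivity
  have hL : (0 : ℝ) < 2 ^ P.lo g := by positivity
  have hH : (0 : ℝ) < 2 ^ (P.hi g + 1) := by positivity
  have b1 := (xi_base P.mm_pos (y := u / 2 ^ P.lo g) (by positivity)).1
  rw [div_le_iff₀ hL] at b1
  have b2 : xi P.mm (u / 2 ^ (P.hi g + 1)) ≤ u / 2 ^ (P.hi g + 1) * (1 / 2) ^ (P.mm - 1) := by
    refine xi_small (le_trans (by norm_num) (mm_ge hP)) (by positivity) ?_
    rw [div_le_iff₀ hH, pow_succ]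
    linarith
  have b3 : 2 ^ (P.hi g + 1) * xi P.mm (u / 2 ^ (P.hi g + 1)) ≤ u * P.eta := by
    have := mul_le_mul_of_nonneg_left b2 hH.le
    rw [← mul_assoc, mul_div_cancel₀ _ hH.ne'] at this
    exact this.trans (mul_le_mul_of_nonneg_left (half_pow_le hP) hv0)
  have b4 : 1 / (P.mm : ℝ) ≤ 1 / 2 := one_div_le_one_div_of_le (by norm_num) (by linarith)
  have b5 : 2 * P.eta * P.tiny * ∑ i ∈ Icc (P.lo g) (P.hi g), (2 : ℝ) ^ i ≤
      P.eta * ((1 - 1 / P.mm) * 2 ^ P.lo g) := by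
    have c1 : 2 * P.eta * P.tiny * ∑ i ∈ Icc (P.lo g) (P.hi g), (2 : ℝ) ^ i ≤
        2 * P.eta * P.tiny * 2 ^ (P.hi g + 1) := mul_le_mul_of_nonneg_left g1 (by positivity)
    have c2 : 2 * (P.tiny * 2 ^ (P.hi g + 1)) ≤ (1 - 1 / P.mm) * 2 ^ P.lo g := by nlinarith
    have c3 := mul_le_mul_of_nonneg_left c2 hη.le
    linarith
  rw [zX_un hP]
  have b6 : (1 - P.eta) * u ≤ (1 - P.eta) * ((1 - 1 / P.mm + xi P.mm (u / 2 ^ P.lo g)) *
      2 ^ P.lo g) := mul_le_mul_of_nonneg_left b1 (by linarith)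
  have b7 : (1 - P.eta) * (2 ^ (P.hi g + 1) * xi P.mm (u / 2 ^ (P.hi g + 1))) ≤
      (1 - P.eta) * (u * P.eta) := mul_le_mul_of_nonneg_left b3 (by linarith)
  have b8 : 0 ≤ P.eta * (u * P.eta) := by positivity
  linarith

/-- Upper bound.  `hh_rel` with `d = 2 mu` (`mu_le`), `hh_high` in the saturated case; the base is
at most `fl g` if `lo g > 0` and at most `1 = del * J0 ≤ 2 * del * x` otherwise. -/
theorem ZU (hP : P.Good) (t : ℕ → Tab) (g p p' : ℕ) (V : ℕ → ℝ) {x : ℝ}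
    (hx : (P.J0 : ℝ) ≤ 2 * x)
    (h : ∀ i, P.lo g ≤ i → i ≤ P.hi g → 0 ≤ V i ∧
      (t i p p' : ℝ) ≤ (1 + P.eta) * P.bandR i (V i) + P.eta * P.t0 ∧
      (V i ≤ x + 2 * P.mu * 2 ^ i ∨ 2 ^ (i + 1) ≤ x)) :
    P.zX t g p p' * P.un g ≤ (1 + 3 * P.del) * x + 2 * P.fl g := by
  have hU : (0 : ℝ) < P.U1 := by exact_mod_cast P.U1_pos
  have hm : (16 : ℝ) ≤ P.mm := by exact_mod_cast mm_ge hP
  have hη := P.eta_pos
  have hμ := P.mu_pos
  have hδ := P.del_pos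
  have hμη := mu_le hP
  obtain ⟨e1, e2⟩ := band_eta hP
  have hJ : (0 : ℝ) < P.J0 := by exact_mod_cast P.J0_pos
  have hx0 : 0 < x := by linarith
  have hti : 0 < P.tiny := by unfold tiny; positivity
  have hterm : ∀ i ∈ Icc (P.lo g) (P.hi g), 2 ^ i * (t i p p' : ℝ) / P.U1 ≤
      (1 + P.eta) ^ 2 * (2 ^ i * hh P.mm (x / 2 ^ i)) + 3 * P.eta * P.tiny * 2 ^ i := by
    intro i hi
    obtain ⟨h0, h1, h2⟩ := h i (mem_Icc.1 hi).1 (mem_Icc.1 hi).2
    have hI : (0 : ℝ) < 2 ^ i := by positivity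
    have hx1 : 0 ≤ x / 2 ^ i := by positivity
    have hn := hh_nonneg P.mm_pos hx1
    have h3 : hh P.mm (V i / 2 ^ i) ≤ (1 + P.eta) * hh P.mm (x / 2 ^ i) + P.eta * P.tiny := by
      rcases h2 with h2 | h2
      · have a1 : V i / 2 ^ i ≤ x / 2 ^ i + 2 * P.mu := by
          rw [div_le_iff₀ hI, add_mul, div_mul_cancel₀ _ hI.ne']
          exact h2
        have a2 := hh_mono P.mm_pos (by positivity) a1
        have a3 := hh_rel (mm_ge hP) hx1 (y' := x / 2 ^ i + 2 * P.mu) (δ := 2 * P.mu)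
          (tiny := P.tiny) (by positivity)
          (by rw [add_sub_cancel_left, abs_of_pos (by positivity)])
          (by rw [le_div_iff₀ (by positivity)]; linarith)
          (by have := tiny_ge hP; rwa [one_div_pow] at this)
        have a4 := (abs_le.1 a3).2
        have a5 : 12 * P.mm * (2 * P.mu) * (hh P.mm (x / 2 ^ i) + P.tiny) ≤
            P.eta * (hh P.mm (x / 2 ^ i) + P.tiny) := by
          refine mul_le_mul_of_nonneg_right ?_ (by positivity)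
          have : 0 < P.mm * P.mu := by positivity
          linarith
        linarith
      · have a1 : hh P.mm (x / 2 ^ i) = 1 - 1 / P.mm := by
          refine hh_high ?_
          rw [le_div_iff₀ hI, ← pow_succ']
          exact h2
        have a2 := hh_le P.mm_pos (y := V i / 2 ^ i) (by positivity)
        have a3 : 0 ≤ P.eta * hh P.mm (x / 2 ^ i) := by positivity
        have a4 : 0 ≤ P.eta * P.tiny := by positivity
        linarith
    rw [t0_eq, bandR] at h1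
    have h4 : (1 + P.eta) * (P.U1 * hh P.mm (V i / 2 ^ i)) ≤
        (1 + P.eta) * (P.U1 * ((1 + P.eta) * hh P.mm (x / 2 ^ i) + P.eta * P.tiny)) := by
      gcongr
    have h5 : P.eta * (P.eta * (P.U1 * P.tiny)) ≤ 1 * (P.eta * (P.U1 * P.tiny)) :=
      mul_le_mul_of_nonneg_right (by linarith) (by positivity)
    have h6 : (t i p p' : ℝ) ≤ ((1 + P.eta) ^ 2 * hh P.mm (x / 2 ^ i) + 3 * P.eta * P.tiny) *
        P.U1 := by linarith
    rw [div_le_iff₀ hU]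
    have h7 := mul_le_mul_of_nonneg_left h6 hI.le
    linarith
  have hs := sum_le_sum hterm
  rw [sum_add_distrib, ← mul_sum, ← mul_sum, band_tele _ _ (P.lo_le_hi g)] at hs
  have g1 := band_geoI (P.lo g) (P.hi g)
  have g2 := (tiny_hi hP g).1
  have hfl := P.fl_pos g
  have hL : (0 : ℝ) < 2 ^ P.lo g := by positivity
  have b1 := (xi_base P.mm_pos (y := x / 2 ^ P.lo g) (by positivity)).2
  have b2 : (1 - 1 / P.mm + xi P.mm (x / 2 ^ P.lo g)) * 2 ^ P.lo g ≤ x + 2 ^ P.lo g := by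
    have c1 : max (x / 2 ^ P.lo g) 1 ≤ x / 2 ^ P.lo g + 1 :=
      max_le (by linarith) (by have : 0 ≤ x / 2 ^ P.lo g := by positivity
                               linarith)
    have c2 := mul_le_mul_of_nonneg_right (b1.trans c1) hL.le
    rwa [add_mul (x / 2 ^ P.lo g), div_mul_cancel₀ _ hL.ne', one_mul] at c2
  have b3 : 0 ≤ (1 + P.eta) ^ 2 * (2 ^ (P.hi g + 1) * xi P.mm (x / 2 ^ (P.hi g + 1))) := by
    have := xi_nonneg P.mm_pos (y := x / 2 ^ (P.hi g + 1)) (by positivity)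
    positivity
  have b4 : 3 * P.eta * P.tiny * ∑ i ∈ Icc (P.lo g) (P.hi g), (2 : ℝ) ^ i ≤
      3 * P.eta * P.fl g := by
    have c1 : 3 * P.eta * P.tiny * ∑ i ∈ Icc (P.lo g) (P.hi g), (2 : ℝ) ^ i ≤
        3 * P.eta * P.tiny * 2 ^ (P.hi g + 1) := mul_le_mul_of_nonneg_left g1 (by positivity)
    have c3 := mul_le_mul_of_nonneg_left g2 (show 0 ≤ 3 * P.eta by positivity)
    linarith
  have b5 : 1 / (P.mm : ℝ) ≤ 1 / 2 := one_div_le_one_div_of_le (by norm_num) (by linarith)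
  have b6 : 1 * ((1 - 1 / (P.mm : ℝ)) * 2 ^ P.lo g) ≤
      (1 + P.eta) ^ 2 * ((1 - 1 / P.mm) * 2 ^ P.lo g) :=
    mul_le_mul_of_nonneg_right (by nlinarith) (mul_nonneg (by linarith) hL.le)
  have b7 := mul_le_mul_of_nonneg_left b2 (show 0 ≤ (1 + P.eta) ^ 2 by positivity)
  have b8 : (1 + P.eta) ^ 2 * (x + 2 ^ P.lo g) ≤ (1 + 3 * P.eta) * (x + 2 ^ P.lo g) :=
    mul_le_mul_of_nonneg_right (by nlinarith) (by positivity)
  have b9 : (P.zX t g p p' : ℝ) * P.un g ≤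
      (1 + 3 * P.eta) * (x + 2 ^ P.lo g) + 3 * P.eta * P.fl g := by
    rw [zX_un hP]
    linarith
  have c1 : P.eta * P.fl g ≤ 1 / 6 * P.fl g := mul_le_mul_of_nonneg_right (by linarith) hfl.le
  have c2 : 12 * P.eta * x ≤ P.del * x := mul_le_mul_of_nonneg_right e1 hx0.le
  have c3 : 0 ≤ P.del * x := by positivity
  rcases P.lo_case g with ⟨h0, -⟩ | h0
  · rw [h0, pow_zero] at b9
    have d1 : 1 ≤ 2 * (P.del * x) := by
      have := mul_le_mul_of_nonneg_left hx hδ.le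
      rw [P.del_J0] at this
      linarith
    have d2 : P.eta * 1 ≤ P.eta * (2 * (P.del * x)) := mul_le_mul_of_nonneg_left d1 hη.le
    have d3 : P.eta * (P.del * x) ≤ 1 / 12 * (P.del * x) :=
      mul_le_mul_of_nonneg_right (by linarith) c3
    linarith
  · rw [h0] at b9
    linarith

theorem ZLip (hP : P.Good) (t : ℕ → Tab) (g : ℕ) (h : ∀ i, P.LipR i (P.toR (t i)))
    (p p' q q' : ℕ) : P.zX t g p p' * P.un g ≤ P.zX t g q q' * P.un g +
      (P.nbm + 1) * (P.dR p q + P.dR p' q') + P.fl g := by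
  have hU : (0 : ℝ) < P.U1 := by exact_mod_cast P.U1_pos
  have hD := add_nonneg (P.dR_nonneg p q) (P.dR_nonneg p' q')
  have hterm : ∀ i ∈ Icc (P.lo g) (P.hi g), 2 ^ i * (t i p p' : ℝ) / P.U1 ≤
      2 ^ i * (t i q q' : ℝ) / P.U1 + (P.dR p q + P.dR p' q') + 6 / P.U1 * 2 ^ i := by
    intro i _
    have hI : (0 : ℝ) < 2 ^ i := by positivity
    have h1 := h i p p' q q'
    unfold toR at h1
    have h2 : 2 ^ i * (t i p p' : ℝ) / P.U1 ≤ 2 ^ i * ((t i q q' : ℝ) +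
        (P.dR p q + P.dR p' q') * P.U1 / 2 ^ i + 6) / P.U1 := by gcongr
    refine h2.trans (le_of_eq ?_)
    field_simp
  have hs := sum_le_sum hterm
  rw [sum_add_distrib, sum_add_distrib, ← mul_sum, sum_const, nsmul_eq_mul, Nat.card_Icc] at hs
  have g1 := band_geoI (P.lo g) (P.hi g)
  have g2 := slack_hi hP g
  have g3 : 6 / (P.U1 : ℝ) * ∑ i ∈ Icc (P.lo g) (P.hi g), (2 : ℝ) ^ i ≤
      6 / P.U1 * 2 ^ (P.hi g + 1) := mul_le_mul_of_nonneg_left g1 (by positivity)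
  have g4 : ((P.hi g + 1 - P.lo g : ℕ) : ℝ) ≤ P.nbm + 1 := by
    have := P.hi_lt g
    exact_mod_cast (by omega : P.hi g + 1 - P.lo g ≤ P.nbm + 1)
  have g5 := mul_le_mul_of_nonneg_right g4 hD
  rw [div_mul_eq_mul_div, div_mul_eq_mul_div] at g3
  rw [div_mul_eq_mul_div] at hs
  rw [zX_un hP, zX_un hP]
  linarith

theorem band_mean (hP : P.Good) (t : ℕ → ℕ → Tab) (g p p' : ℕ) :
    (∑ k ∈ range P.K, P.zX (t k) g p p' * P.un g) / P.K = (1 - 1 / P.mm) * 2 ^ P.lo g +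
      ∑ i ∈ Icc (P.lo g) (P.hi g),
        2 ^ i * (((∑ k ∈ range P.K, t k i p p' : ℕ) : ℝ) / P.K) / P.U1 := by
  have hK : (0 : ℝ) < P.K := by exact_mod_cast hP.K_pos
  rw [sum_congr rfl fun k _ => zX_un hP (t k) g p p', sum_add_distrib, sum_const, card_range,
    nsmul_eq_mul, add_div, mul_div_cancel_left₀ _ hK.ne', sum_comm, sum_div]
  refine congrArg _ (sum_congr rfl fun i _ => ?_)
  rw [← sum_div, ← mul_sum, Nat.cast_sum]
  ring

theorem zX_avg_le (hP : P.Good) (t : ℕ → ℕ → Tab) (g p p' : ℕ) :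
    P.zX (fun i p p' => (∑ k ∈ range P.K, t k i p p') / P.K) g p p' * P.un g ≤
      (∑ k ∈ range P.K, P.zX (t k) g p p' * P.un g) / P.K := by
  have hU : (0 : ℝ) < P.U1 := by exact_mod_cast P.U1_pos
  rw [band_mean hP, zX_un hP]
  refine add_le_add_right (sum_le_sum fun i _ => ?_) _
  have := (band_avg hP.K_pos (∑ k ∈ range P.K, t k i p p')).1
  gcongr

theorem zX_avg_ge (hP : P.Good) (t : ℕ → ℕ → Tab) (g p p' : ℕ) :
    (∑ k ∈ range P.K, P.zX (t k) g p p' * P.un g) / P.K ≤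
      P.zX (fun i p p' => (∑ k ∈ range P.K, t k i p p') / P.K) g p p' * P.un g + P.fl g := by
  have hU : (0 : ℝ) < P.U1 := by exact_mod_cast P.U1_pos
  rw [band_mean hP, zX_un hP]
  have hterm : ∀ i ∈ Icc (P.lo g) (P.hi g),
      2 ^ i * (((∑ k ∈ range P.K, t k i p p' : ℕ) : ℝ) / P.K) / P.U1 ≤
        2 ^ i * (((∑ k ∈ range P.K, t k i p p') / P.K : ℕ) : ℝ) / P.U1 + 1 / P.U1 * 2 ^ i := by
    intro i _
    have h1 := (band_avg hP.K_pos (∑ k ∈ range P.K, t k i p p')).2.le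
    have h2 : 2 ^ i * (((∑ k ∈ range P.K, t k i p p' : ℕ) : ℝ) / P.K) / P.U1 ≤
        2 ^ i * ((((∑ k ∈ range P.K, t k i p p') / P.K : ℕ) : ℝ) + 1) / P.U1 := by gcongr
    refine h2.trans (le_of_eq ?_)
    ring
  have hs := sum_le_sum hterm
  rw [sum_add_distrib, ← mul_sum] at hs
  have g1 := band_geoI (P.lo g) (P.hi g)
  have g2 := slack_hi hP g
  have g3 : 1 / (P.U1 : ℝ) * ∑ i ∈ Icc (P.lo g) (P.hi g), (2 : ℝ) ^ i ≤
      1 / P.U1 * 2 ^ (P.hi g + 1) := mul_le_mul_of_nonneg_left g1 (by positivity)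
  have g4 : 6 * 2 ^ (P.hi g + 1) / (P.U1 : ℝ) = 6 * (1 / P.U1 * 2 ^ (P.hi g + 1)) := by ring
  have g5 : 0 ≤ 1 / (P.U1 : ℝ) * 2 ^ (P.hi g + 1) := by positivity
  linarith

end Pm

end Vale.Agent.P315F
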