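import Vale.Agent.P315F.Scale
import Vale.Agent.P315.Step

namespace Vale.Agent.P315F

open Finset Vale.Agent.P315

namespace Pm

variable {P : Pm}

theorem dR_lip (P : Pm) (p p' q q' : ℕ) : P.dR p p' ≤ P.dR q q' + (P.dR p q + P.dR p' q') := by
  have h1 := P.dR_tri p q p'
  have h2 := P.dR_tri q q' p'
  rw [P.dR_comm q' p'] at h2
  linarith

theorem basic_div (x i : ℕ) :
    ((x / 2 ^ i : ℕ) : ℝ) ≤ x / 2 ^ i ∧ (x : ℝ) / 2 ^ i < (x / 2 ^ i : ℕ) + 1 := by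
  have h1 : ((x / 2 ^ i : ℕ) : ℝ) ≤ x / (2 ^ i : ℕ) := Nat.cast_div_le
  have h2 := Nat.lt_floor_add_one ((x : ℝ) / (2 ^ i : ℕ))
  rw [Nat.floor_div_eq_div] at h2
  push_cast at h1 h2
  exact ⟨h1, h2⟩

theorem dN_real (P : Pm) (i p q : ℕ) : (P.dN i p q : ℝ) ≤ P.dR p q * P.U1 / 2 ^ i ∧
    P.dR p q * P.U1 / 2 ^ i < P.dN i p q + 1 := by
  have h := basic_div (Nat.dist p q * P.J * P.U1) i
  push_cast at h
  exact h

/-- Lipschitz property with additive slack `c`. -/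
def LipC (P : Pm) (i : ℕ) (c : ℝ) (t : TabR) : Prop :=
  ∀ p p' q q', t p p' ≤ t q q' + (P.dR p q + P.dR p' q') * P.U1 / 2 ^ i + c

theorem LipC.mono {i : ℕ} {c c' : ℝ} {t : TabR} (h : P.LipC i c t) (hc : c ≤ c') :
    P.LipC i c' t := fun p p' q q' => (h p p' q q').trans (by linarith)

theorem basic_D (P : Pm) (i p p' q q' : ℕ) : 0 ≤ (P.dR p q + P.dR p' q') * P.U1 / 2 ^ i := by
  have := P.dR_nonneg p q
  have := P.dR_nonneg p' q'
  positivity

theorem dN_tri (P : Pm) (i p q x : ℕ) :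
    (P.dN i p x : ℝ) ≤ P.dN i q x + P.dR p q * P.U1 / 2 ^ i + 1 := by
  have h1 := (P.dN_real i p x).1
  have h2 := (P.dN_real i q x).2
  have h3 : P.dR p x * P.U1 / 2 ^ i ≤ (P.dR p q + P.dR q x) * P.U1 / 2 ^ i := by
    gcongr; exact P.dR_tri p q x
  rw [add_mul, add_div] at h3
  linarith

theorem dN_lip (P : Pm) (i : ℕ) : P.LipC i 1 (P.toR (P.dN i)) := fun p p' q q' => by
  have h1 := (P.dN_real i p p').1
  have h2 := (P.dN_real i q q').2
  have h3 : P.dR p p' * P.U1 / 2 ^ i ≤ (P.dR q q' + (P.dR p q + P.dR p' q')) * P.U1 / 2 ^ i := by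
    gcongr; exact P.dR_lip p p' q q'
  rw [add_mul, add_div] at h3
  unfold toR
  linarith

theorem basic_fold {α : Type} (s : Finset α) {b b' : ℝ} {f g : α → ℝ} {c : ℝ} (hb : b ≤ b' + c)
    (h : ∀ x ∈ s, f x ≤ g x + c) : s.fold min b f ≤ s.fold min b' g + c := by
  rcases (fold_min_le (s := s) (b := b') (f := g) _).1 le_rfl with h1 | ⟨x, hx, h1⟩
  · have : s.fold min b f ≤ b := (fold_min_le _).2 (Or.inl le_rfl)
    linarith
  · have : s.fold min b f ≤ f x := (fold_min_le _).2 (Or.inr ⟨x, hx, le_rfl⟩)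
    linarith [h x hx]

theorem VN_cast (P : Pm) (X : Ctx) (k h i : ℕ) (Ps : ℕ → ℕ → ℕ → ℕ) (p p' : ℕ) :
    (P.VN X k h i Ps p p' : ℝ) = max (P.dN i p p' : ℝ) ((P.opts X k i).fold min
      (min (2 * P.U1 : ℝ) (P.dN i p p' + P.lenN h i)) (fun o => (P.dN i p (P.r o.1 * o.2.1) : ℝ) +
        P.dN i p' (P.r o.1 * o.2.2) + P.TN X k i Ps o.1 o.2.1 o.2.2)) := by
  rw [VN, Nat.cast_max, step_fold_cast]
  push_cast
  rfl

theorem VN_lip (P : Pm) (X : Ctx) (k h i : ℕ) (Ps : ℕ → ℕ → ℕ → ℕ) :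
    P.LipC i 2 (P.toR (P.VN X k h i Ps)) := fun p p' q q' => by
  have h0 := P.basic_D i p p' q q'
  have h1 := P.dN_lip i p p' q q'
  unfold toR at *
  rw [VN_cast, VN_cast, add_assoc]
  refine max_le (le_trans (by linarith) (add_le_add_left (le_max_left _ _) _))
    (le_trans (basic_fold _ ?_ fun o _ => ?_) (add_le_add_left (le_max_right _ _) _))
  · rw [← min_add_add_right]
    exact min_le_min (by linarith) (by linarith)
  · have h2 := P.dN_tri i p q (P.r o.1 * o.2.1)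
    have h3 := P.dN_tri i p' q' (P.r o.1 * o.2.2)
    rw [add_mul, add_div]
    linarith

theorem H_lipC (hP : P.Good) {i : ℕ} {c : ℝ} (hc : 0 ≤ c) {t : Tab} (h : P.LipC i c (P.toR t)) :
    P.LipC i c (P.toR fun p p' => P.H (t p p')) := fun p p' q q' => by
  have h0 := P.basic_D i p p' q q'
  have h1 := h p p' q q'
  unfold toR at *
  rw [add_assoc] at h1 ⊢
  exact H_lip hP (by linarith) h1

theorem leafE_lip {w : ℕ → ℕ → ℕ} (hw : WOk w) (a p p' q q' : ℕ) :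
    leafE w a p p' ≤ leafE w a q q' + (Nat.dist p q + Nat.dist p' q') := by
  have h1 := hw.1 a p
  unfold leafE
  by_cases e : p = q ∧ p' = q'
  · rw [e.1, e.2]; exact Nat.le_add_right _ _
  · unfold Nat.dist
    split_ifs <;> omega

theorem det_le (hP : P.Good) (w : ℕ → ℕ → ℕ) (h a i p p' : ℕ) : P.det w h a i p p' ≤ P.U1 :=
  H_le hP _

theorem det_lip (hP : P.Good) {w : ℕ → ℕ → ℕ} (hw : WOk w) (h a i : ℕ) :
    P.LipC i 1 (P.toR (P.det w h a i)) := by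
  refine H_lipC hP zero_le_one fun p p' q q' => ?_
  unfold toR
  split_ifs
  · have h1 := (basic_div ((P.J * leafE w a p p' + P.J0) * P.U1) i).1
    have h2 := (basic_div ((P.J * leafE w a q q' + P.J0) * P.U1) i).2
    have h3 : (leafE w a p p' : ℝ) ≤ leafE w a q q' + (Nat.dist p q + Nat.dist p' q') := by
      exact_mod_cast leafE_lip hw a p p' q q'
    have h4 : ((P.J : ℝ) * leafE w a p p' + P.J0) * P.U1 / 2 ^ i ≤
        (P.J * (leafE w a q q' + (Nat.dist p q + Nat.dist p' q')) + P.J0) * P.U1 / 2 ^ i := by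
      gcongr
    have h5 : ((P.J : ℝ) * (leafE w a q q' + (Nat.dist p q + Nat.dist p' q')) + P.J0) * P.U1 /
        2 ^ i = (P.J * leafE w a q q' + P.J0) * P.U1 / 2 ^ i +
          (P.dR p q + P.dR p' q') * P.U1 / 2 ^ i := by unfold dR; ring
    push_cast at h1 h2
    linarith
  · have h1 := P.dN_lip i p p' q q'
    unfold toR at h1
    push_cast
    linarith

theorem low_le (hP : P.Good) (i p p' : ℕ) : P.low i p p' ≤ P.U1 := H_le hP _

theorem low_lip (hP : P.Good) (i : ℕ) : P.LipC i 1 (P.toR (P.low i)) :=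
  H_lipC hP zero_le_one (P.dN_lip i)

theorem passF_le (hP : P.Good) (w : ℕ → ℕ → ℕ) (ρ : ℕ → Bool) (A : ℕ → ℕ → ℕ → ℕ → Tab)
    (Pp : ℕ → ℕ → ℕ → ℕ → ℕ → Tab) (h k a i j ad p p' : ℕ) :
    P.passF w ρ A Pp h k a i j ad p p' ≤ P.U1 := by
  unfold passF
  split_ifs <;> exact H_le hP _

theorem passF_lip (hP : P.Good) {w : ℕ → ℕ → ℕ} (hw : WOk w) (ρ : ℕ → Bool)
    (A : ℕ → ℕ → ℕ → ℕ → Tab) (Pp : ℕ → ℕ → ℕ → ℕ → ℕ → Tab) (h k a i j ad : ℕ) :
    P.LipC i 2 (P.toR (P.passF w ρ A Pp h k a i j ad)) := by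
  unfold passF
  split_ifs
  · exact H_lipC hP zero_le_two (P.VN_lip _ _ _ _ _)
  · exact H_lipC hP zero_le_two (P.VN_lip _ _ _ _ _)
  · exact (det_lip hP hw _ _ _).mono one_le_two

theorem passS_le (hP : P.Good) (w : ℕ → ℕ → ℕ) (A : ℕ → ℕ → ℕ → ℕ → ℕ → Tab) (k j hb m a i : ℕ)
    (s : P.Idx m → Bool) (p p' : ℕ) : P.passS w A k j hb m a i s p p' ≤ P.U1 := by
  cases m <;> unfold passS <;> split_ifs <;> exact H_le hP _

theorem passS_lip (hP : P.Good) {w : ℕ → ℕ → ℕ} (hw : WOk w) (A : ℕ → ℕ → ℕ → ℕ → ℕ → Tab)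
    (k j hb m a i : ℕ) (s : P.Idx m → Bool) :
    P.LipC i 2 (P.toR (P.passS w A k j hb m a i s)) := by
  cases m <;> unfold passS <;> split_ifs
  · exact H_lipC hP zero_le_two (P.VN_lip _ _ _ _ _)
  · exact (det_lip hP hw _ _ _).mono one_le_two
  · exact H_lipC hP zero_le_two (P.VN_lip _ _ _ _ _)
  · exact (det_lip hP hw _ _ _).mono one_le_two

theorem Pa_le (hP : P.Good) (w : ℕ → ℕ → ℕ) (ρ : ℕ → Bool) (h k a i j ad p p' : ℕ) :
    P.Pa w ρ h k a i j ad p p' ≤ P.U1 := by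
  cases h with
  | zero => exact det_le hP _ _ _ _ _ _
  | succ h => exact passF_le hP _ _ _ _ _ _ _ _ _ _ _ _

theorem A_le (hP : P.Good) (w : ℕ → ℕ → ℕ) (ρ : ℕ → Bool) (h k a i j p p' : ℕ) :
    P.A w ρ h k a i j p p' ≤ P.U1 := by
  cases h with
  | zero => exact det_le hP _ _ _ _ _ _
  | succ h =>
    rw [A_succ]
    split_ifs
    · exact low_le hP _ _ _
    · refine Nat.div_le_of_le_mul ?_
      simpa using sum_le_card_nsmul (range P.S) _ _ fun s _ => Pa_le hP w ρ (h + 1) k a i j _ p p'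
    · exact det_le hP _ _ _ _ _ _

theorem basic_avg {S : ℕ} (hS : 1 ≤ S) (x : ℕ) :
    ((x / S : ℕ) : ℝ) ≤ x / S ∧ (x : ℝ) / S < (x / S : ℕ) + 1 := by
  have h2 := Nat.lt_floor_add_one ((x : ℝ) / S)
  rw [Nat.floor_div_eq_div] at h2
  exact ⟨Nat.cast_div_le, h2⟩

/-- The rounded mean of tables with slack `c` has slack `c + 1`. -/
theorem avg_lip {S : ℕ} (hS : 1 ≤ S) {i : ℕ} {c : ℝ} (t : ℕ → Tab)
    (h : ∀ s < S, P.LipC i c (P.toR (t s))) :
    P.LipC i (c + 1) (P.toR fun p p' => (∑ s ∈ range S, t s p p') / S) := fun p p' q q' => by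
  have hS' : (0 : ℝ) < S := by exact_mod_cast hS
  have h1 := (basic_avg hS (∑ s ∈ range S, t s p p')).1
  have h2 := (basic_avg hS (∑ s ∈ range S, t s q q')).2
  have h3 := sum_le_sum fun s (hs : s ∈ range S) => h s (mem_range.1 hs) p p' q q'
  unfold toR at *
  simp only [add_assoc, sum_add_distrib, sum_const, card_range, nsmul_eq_mul] at h3
  have h4 := div_le_div_of_nonneg_right h3 hS'.le
  rw [← mul_add, add_div, mul_div_cancel_left₀ _ hS'.ne'] at h4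
  push_cast at h1 h2
  linarith

theorem A_lip (hP : P.Good) {w : ℕ → ℕ → ℕ} (hw : WOk w) (ρ : ℕ → Bool) (h k a i j : ℕ) :
    P.LipC i 3 (P.toR (P.A w ρ h k a i j)) := by
  cases h with
  | zero => exact (det_lip hP hw _ _ _).mono (by norm_num)
  | succ h =>
    intro p p' q q'
    unfold toR
    rw [A_succ, A_succ]
    split_ifs
    · exact (low_lip hP i).mono (by norm_num) p p' q q'
    · exact (avg_lip hP.S_pos (fun s => P.Pa w ρ (h + 1) k a i j (P.base (h + 1) k a i j s))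
        fun s _ => passF_lip hP hw ρ _ _ h k a i j _).mono (by norm_num) p p' q q'
    · exact (det_lip hP hw _ _ _).mono (by norm_num) p p' q q'

theorem tameX_A (hP : P.Good) {w : ℕ → ℕ → ℕ} (hw : WOk w) (ρ : ℕ → Bool) (h a : ℕ) :
    P.TameX (P.ctx (P.A w ρ h) a) :=
  ⟨fun k _ i => (A_lip hP hw ρ h k _ i _).mono (by norm_num),
    fun _ _ _ _ _ => A_le hP _ _ _ _ _ _ _ _ _⟩

theorem tame_of {i : ℕ} {c : ℝ} {t : Tab} (h1 : ∀ p p', t p p' ≤ P.U1)
    (h2 : P.LipC i c (P.toR t)) (hc : c ≤ 6) : P.Tame i (P.toR t) :=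
  ⟨fun p p' => ⟨Nat.cast_nonneg _, Nat.cast_le.2 (h1 p p')⟩, h2.mono hc⟩

theorem TameX.tame {X : Ctx} (h : P.TameX X) (k j i : ℕ) : P.Tame i (P.toR (X k j i)) :=
  tame_of (h.2 k j i) (c := 5) (h.1 k j i) (by norm_num)

theorem tame_A (hP : P.Good) {w : ℕ → ℕ → ℕ} (hw : WOk w) (ρ : ℕ → Bool) (h k a i j : ℕ) :
    P.Tame i (P.toR (P.A w ρ h k a i j)) :=
  tame_of (A_le hP w ρ h k a i j) (A_lip hP hw ρ h k a i j) (by norm_num)

theorem dR_le_VG (P : Pm) (X : Ctx) (k h i : ℕ) (Ps : ℕ → ℕ → ℕ → ℝ) (p p' : ℕ) :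
    P.dR p p' ≤ P.VG X k h i Ps p p' := le_max_left _ _

theorem VG_nonneg (P : Pm) (X : Ctx) (k h i : ℕ) (Ps : ℕ → ℕ → ℕ → ℝ) (p p' : ℕ) :
    0 ≤ P.VG X k h i Ps p p' := (P.dR_nonneg p p').trans (P.dR_le_VG X k h i Ps p p')

theorem VG_lip (P : Pm) (X : Ctx) (k h i : ℕ) (Ps : ℕ → ℕ → ℕ → ℝ) (p p' q q' : ℕ) :
    P.VG X k h i Ps p p' ≤ P.VG X k h i Ps q q' + (P.dR p q + P.dR p' q') := by
  have h0 := add_nonneg (P.dR_nonneg p q) (P.dR_nonneg p' q')
  have h1 := P.dR_lip p p' q q'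
  unfold VG
  refine max_le (h1.trans (add_le_add_left (le_max_left _ _) _))
    (le_trans (basic_fold _ ?_ fun o _ => ?_) (add_le_add_left (le_max_right _ _) _))
  · rw [← min_add_add_right]
    exact min_le_min (by linarith) (by linarith)
  · have h2 := P.dR_tri p q (P.r o.1 * o.2.1)
    have h3 := P.dR_tri p' q' (P.r o.1 * o.2.2)
    unfold xo
    linarith

theorem stepR_tame (P : Pm) (X : Ctx) (k h i : ℕ) (V : ℕ → ℕ → TabR) :
    P.Tame i (P.stepR X k h i V) := by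
  refine ⟨fun p p' => ⟨P.bandR_nonneg i (P.VG_nonneg _ _ _ _ _ _ _),
    P.bandR_le i (P.VG_nonneg _ _ _ _ _ _ _)⟩, fun p p' q q' => ?_⟩
  have h0 := add_nonneg (P.dR_nonneg p q) (P.dR_nonneg p' q')
  have h1 := P.bandR_mono i (P.VG_nonneg X k h i (P.PsR X k (P.valR V)) p p')
    (P.VG_lip X k h i _ p p' q q')
  have h2 := P.VG_nonneg X k h i (P.PsR X k (P.valR V)) q q'
  have h3 := (abs_le.1 (P.bandR_abs i h2 (add_nonneg h2 h0))).2
  rw [add_sub_cancel_left, abs_of_nonneg h0] at h3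
  unfold stepR
  linarith

theorem refV_tame (hP : P.Good) {w : ℕ → ℕ → ℕ} (hw : WOk w) (A : ℕ → ℕ → ℕ → ℕ → ℕ → Tab)
    (k h a i : ℕ) : P.Tame i (P.refV w A k h a i) := by
  have h1 : ∀ h, P.Tame i (P.toR (P.det w h a i)) := fun h =>
    tame_of (det_le hP w h a i) (det_lip hP hw h a i) (by norm_num)
  cases h with
  | zero => exact h1 0
  | succ h =>
    unfold refV
    by_cases hs : P.smp (h + 1) i
    · rw [if_pos hs]
      exact P.stepR_tame _ _ _ _ _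
    · rw [if_neg hs]
      exact h1 _

/-! Saturation far from the diagonal. -/

theorem dN_sat (P : Pm) {i p p' : ℕ} (h : 2 ^ (i + 1) ≤ Nat.dist p p' * P.J) :
    2 * P.U1 ≤ P.dN i p p' := by
  rw [dN, Nat.le_div_iff_mul_le (by positivity), mul_right_comm, ← pow_succ']
  exact Nat.mul_le_mul_right _ h

theorem det_sat (P : Pm) (w : ℕ → ℕ → ℕ) (h a : ℕ) {i p p' : ℕ}
    (hd : 2 ^ (i + 1) ≤ Nat.dist p p' * P.J) : P.det w h a i p p' = P.H (2 * P.U1) := by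
  refine P.H_sat ?_
  have h1 := P.dN_sat hd
  split_ifs
  · have h2 : p ≠ p' := by
      rintro rfl
      simp at hd
    refine h1.trans (Nat.div_le_div_right (Nat.mul_le_mul_right _ ?_))
    rw [leafE, if_neg h2, mul_comm]
    exact Nat.le_add_right _ _
  · omega

theorem Pa_sat (P : Pm) (w : ℕ → ℕ → ℕ) (ρ : ℕ → Bool) (h k a j ad : ℕ) {i p p' : ℕ}
    (hd : 2 ^ (i + 1) ≤ Nat.dist p p' * P.J) : P.Pa w ρ h k a i j ad p p' = P.H (2 * P.U1) := by
  cases h with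
  | zero => exact P.det_sat w 0 a hd
  | succ h =>
    rw [Pa_succ]
    unfold passF
    split_ifs
    · exact P.H_sat ((P.dN_sat hd).trans (le_max_left _ _))
    · exact P.H_sat ((P.dN_sat hd).trans (le_max_left _ _))
    · exact P.det_sat w _ a hd

theorem A_sat (hP : P.Good) (w : ℕ → ℕ → ℕ) (ρ : ℕ → Bool) (h k a j : ℕ) {i p p' : ℕ}
    (hd : 2 ^ (i + 1) ≤ Nat.dist p p' * P.J) : P.A w ρ h k a i j p p' = P.H (2 * P.U1) := by
  cases h with
  | zero => exact P.det_sat w 0 a hd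
  | succ h =>
    rw [A_succ]
    split_ifs
    · exact P.H_sat (P.dN_sat hd)
    · simp only [P.Pa_sat w ρ _ k a j _ hd, sum_const, card_range, smul_eq_mul]
      exact Nat.mul_div_cancel_left _ hP.S_pos
    · exact P.det_sat w _ a hd

end Pm

end Vale.Agent.P315F
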