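import Vale.Agent.P315.Conc
import Vale.Agent.P315.Soft

namespace Vale.Agent.P315F

open Finset Vale.Agent.P315

theorem bern_mgf {σ ι : Type} [Fintype σ] [Nonempty σ] [Fintype ι] [DecidableEq ι]
    (ξ : ι → σ → ℝ) {B t : ℝ} (h0 : ∀ i, av (ξ i) = 0) (hB : ∀ i s, |ξ i s| ≤ B)
    (ht : |t| * B ≤ 1) :
    av (fun u : ι → σ => Real.exp (t * ∑ i, ξ i (u i))) ≤
      Real.exp (t ^ 2 * B * ∑ i, av (fun s => |ξ i s|)) := by
  have h1 : av (fun u : ι → σ => Real.exp (t * ∑ i, ξ i (u i))) =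
      ∏ i, av (fun s => Real.exp (t * ξ i s)) := by
    simp only [av, mul_sum, Real.exp_sum]
    rw [prod_div_distrib, prod_univ_sum, Fintype.piFinset_univ, prod_const, card_univ,
      Fintype.card_fun, Nat.cast_pow]
  have h2 : ∀ i, av (fun s => Real.exp (t * ξ i s)) ≤
      Real.exp (t ^ 2 * B * av (fun s => |ξ i s|)) := by
    intro i
    have h3 : av (fun s => Real.exp (t * ξ i s)) ≤
        av (fun s => t ^ 2 * B * |ξ i s| + 1 + t * ξ i s) := by
      refine av_mono fun s => ?_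
      have e1 : |t * ξ i s| ≤ |t| * B := by
        rw [abs_mul]
        exact mul_le_mul_of_nonneg_left (hB i s) (abs_nonneg _)
      have e2 := (abs_le.1 (Real.abs_exp_sub_one_sub_id_le (e1.trans ht))).2
      have e3 : (t * ξ i s) ^ 2 ≤ t ^ 2 * B * |ξ i s| := by
        rw [mul_pow, ← sq_abs (ξ i s), mul_assoc, sq (|ξ i s|)]
        exact mul_le_mul_of_nonneg_left
          (mul_le_mul_of_nonneg_right (hB i s) (abs_nonneg _)) (sq_nonneg _)
      linarith
    rw [av_add, av_add, av_const, av_mul, av_mul, h0, mul_zero, add_zero] at h3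
    exact h3.trans (Real.add_one_le_exp _)
  rw [h1, mul_sum, Real.exp_sum]
  exact prod_le_prod (fun i _ => div_nonneg (sum_nonneg fun _ _ => (Real.exp_pos _).le)
    (Nat.cast_nonneg _)) fun i _ => h2 i

theorem pr_le_av {σ : Type} [Fintype σ] {p : σ → Prop} {f : σ → ℝ} (h0 : ∀ s, 0 ≤ f s)
    (h : ∀ s, p s → 1 ≤ f s) : pr p ≤ av f := by
  classical
  rw [pr_eq_av]
  refine av_mono fun s => ?_
  split_ifs with hs
  · exact h s hs
  · exact h0 s

/-- Bernstein inequality: the terms `X i` are bounded by `c`, the sum of their mean absolute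
values is at most `V`; a deviation of `σ * (V + A)` with `M * c ≤ A`-scale has probability at most
`2 exp (-σ^2 (V + A) / (32 c))`. -/
theorem bern {σ ι : Type} [Fintype σ] [Nonempty σ] [Fintype ι] [DecidableEq ι]
    (X : ι → σ → ℝ) {c V y θ : ℝ} (hc : 0 < c) (hX : ∀ i s, |X i s| ≤ c)
    (hV : ∑ i, av (fun s => |X i s|) ≤ V) (hθ0 : 0 < θ) (hθ : θ ≤ 1) (hy : V ≤ y) :
    pr (fun u : ι → σ => θ * y < |∑ i, X i (u i) - ∑ i, av (X i)|) ≤
      2 * Real.exp (-(θ ^ 2 * y / (16 * c))) := by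
  classical
  have ha : ∀ i, |av (X i)| ≤ av (fun s => |X i s|) := fun i => abs_av_le _
  have hac : ∀ i, av (fun s => |X i s|) ≤ c := fun i =>
    (av_mono fun s => hX i s).trans_eq (av_const c)
  set ξ : ι → σ → ℝ := fun i s => X i s + -av (X i) with hξ
  have h0 : ∀ i, av (ξ i) = 0 := fun i => by
    simp only [hξ]; rw [av_add, av_const, add_neg_cancel]
  have hB : ∀ i s, |ξ i s| ≤ 2 * c := fun i s => by
    have := abs_add_le (X i s) (-av (X i))
    rw [abs_neg] at this
    linarith [hX i s, ha i, hac i]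
  have hm : ∑ i, av (fun s => |ξ i s|) ≤ 2 * V := by
    refine le_trans (sum_le_sum fun i _ => ?_ : _ ≤ ∑ i, 2 * av (fun s => |X i s|)) ?_
    · have : av (fun s => |ξ i s|) ≤ av (fun s => |X i s| + av (fun s => |X i s|)) :=
        av_mono fun s => by
          have := abs_add_le (X i s) (-av (X i))
          rw [abs_neg] at this
          simp only [hξ]; linarith [ha i]
      rw [av_add, av_const] at this
      linarith
    · rw [← mul_sum]; linarith
  set t := θ / (8 * c) with ht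
  have ht0 : 0 < t := by positivity
  have ht1 : |t| * (2 * c) ≤ 1 := by
    rw [abs_of_pos ht0, ht, div_mul_eq_mul_div, div_le_one (by positivity)]
    nlinarith
  have e1 := bern_mgf ξ h0 hB ht1
  have e2 := bern_mgf ξ (t := -t) h0 hB (by rwa [abs_neg])
  rw [neg_sq] at e2
  have hV0 : 0 ≤ V := le_trans (sum_nonneg fun i _ => (abs_nonneg _).trans (ha i)) hV
  have e3 : Real.exp (t ^ 2 * (2 * c) * ∑ i, av (fun s => |ξ i s|)) ≤
      Real.exp (t ^ 2 * (2 * c) * (2 * y)) :=
    Real.exp_le_exp.2 (mul_le_mul_of_nonneg_left (by linarith) (by positivity))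
  have h2 := pr_le_av (p := fun u : ι → σ => θ * y < |∑ i, X i (u i) - ∑ i, av (X i)|)
    (f := fun u => Real.exp (-(t * (θ * y))) * (Real.exp (t * ∑ i, ξ i (u i)) +
      Real.exp (-t * ∑ i, ξ i (u i)))) (fun u => by positivity) fun u hu => by
      have e : ∑ i, ξ i (u i) = ∑ i, X i (u i) - ∑ i, av (X i) := by
        simp only [hξ, sum_add_distrib, sum_neg_distrib, sub_eq_add_neg]
      rw [Real.exp_neg, le_inv_mul_iff₀ (Real.exp_pos _), mul_one]
      refine le_trans (Real.exp_le_exp.2 (mul_le_mul_of_nonneg_left ?_ ht0.le)) (Conc_abs _)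
      rw [e]; exact hu.le
  rw [av_mul, av_add] at h2
  refine h2.trans ((mul_le_mul_of_nonneg_left (add_le_add (e1.trans e3) (e2.trans e3))
    (Real.exp_pos _).le).trans (le_of_eq ?_))
  rw [← two_mul, mul_left_comm, ← Real.exp_add, ht]
  congr 2
  field_simp
  ring

/-- Gibbs weights of `X`: Jensen lower bound and first order expansion. -/
theorem sm_gibbs {τ : ℝ} (hτ : 0 < τ) {n : ℕ} (hn : 1 ≤ n) (C F : ℕ → ℝ) :
    ∃ ν : ℕ → ℝ, (∀ o, 0 ≤ ν o) ∧ ∑ o ∈ range n, ν o = 1 ∧
      ∑ o ∈ range n, ν o * F o ≤ sm τ n (fun o => C o + F o) - sm τ n C ∧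
      ∀ (Z : ℕ → ℝ) (osc : ℝ), (∀ o < n, ∀ o' < n, |Z o - Z o'| ≤ osc) → osc ≤ τ →
        |sm τ n (fun o => C o + F o + Z o) - sm τ n (fun o => C o + F o) -
          ∑ o ∈ range n, ν o * Z o| ≤ 2 * (osc / τ) * ∑ o ∈ range n, ν o * |Z o| := by
  set X : ℕ → ℝ := fun o => C o + F o with hX
  have S0 := soft_pos hn fun o => -X o / τ
  obtain ⟨ν, h0, h1, h2⟩ : ∃ ν : ℕ → ℝ, (∀ o, 0 ≤ ν o) ∧ ∑ o ∈ range n, ν o = 1 ∧
      ∀ o, Real.exp (-X o / τ) = (∑ o ∈ range n, Real.exp (-X o / τ)) * ν o :=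
    ⟨fun o => Real.exp (-X o / τ) / ∑ o ∈ range n, Real.exp (-X o / τ), fun _ => by positivity,
      by rw [← sum_div, div_self S0.ne'], fun _ => (mul_div_cancel₀ _ S0.ne').symm⟩
  have key : ∀ Z : ℕ → ℝ,
      1 ≤ ∑ o ∈ range n, ν o * Real.exp (-(Z o - ∑ o ∈ range n, ν o * Z o) / τ) ∧
      sm τ n (fun o => X o + Z o) = sm τ n X + ∑ o ∈ range n, ν o * Z o - τ * Real.log
        (∑ o ∈ range n, ν o * Real.exp (-(Z o - ∑ o ∈ range n, ν o * Z o) / τ)) := by
    intro Z
    set m := ∑ o ∈ range n, ν o * Z o with hm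
    have a2 : ∑ o ∈ range n, ν o * (-(Z o - m) / τ + 1) = 1 := by
      simp only [mul_add, sum_add_distrib, ← mul_div_assoc, ← sum_div, neg_sub, mul_sub,
        sum_sub_distrib, ← sum_mul, h1, ← hm, one_mul, sub_self, zero_div, zero_add]
    have a3 : 1 ≤ ∑ o ∈ range n, ν o * Real.exp (-(Z o - m) / τ) :=
      a2.ge.trans (sum_le_sum fun o _ => mul_le_mul_of_nonneg_left (Real.add_one_le_exp _) (h0 _))
    have a5 := soft_mul (X := X) (Y := fun o => X o + (Z o - m)) (τ := τ) hn (one_pos.trans_le a3)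
      (by
        rw [mul_sum]
        exact sum_congr rfl fun o _ => by rw [← mul_assoc, ← h2, ← Real.exp_add, neg_add, add_div])
    have a6 := soft_shift hτ hn (fun o => X o + (Z o - m)) m
    simp only [add_assoc, sub_add_cancel] at a6
    exact ⟨a3, by linarith⟩
  refine ⟨ν, h0, h1, ?_, fun Z osc hZ ho => ?_⟩
  · obtain ⟨k1, k2⟩ := key fun o => -F o
    have e : (fun o => X o + -F o) = C := funext fun o => by simp only [hX]; ring
    have e' : ∑ o ∈ range n, ν o * -F o = -∑ o ∈ range n, ν o * F o := by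
      simp only [mul_neg, sum_neg_distrib]
    rw [e] at k2
    have := mul_nonneg hτ.le (Real.log_nonneg k1)
    rw [e'] at k2
    rw [e'] at this
    linarith
  obtain ⟨a3, a5⟩ := key Z
  set m := ∑ o ∈ range n, ν o * Z o with hm
  have a1 : ∀ o ∈ range n, |-(Z o - m) / τ| ≤ osc / τ := fun o h => by
    rw [abs_div, abs_neg, abs_of_pos hτ, show Z o - m = ∑ o' ∈ range n, ν o' * (Z o - Z o') by
      simp only [mul_sub, sum_sub_distrib, ← sum_mul, h1, one_mul, hm],
      ← one_mul osc, ← h1, sum_mul]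
    refine div_le_div_of_nonneg_right ((abs_sum_le_sum_abs _ _).trans (sum_le_sum fun o' h' => ?_))
      hτ.le
    rw [abs_mul, abs_of_nonneg (h0 _)]
    exact mul_le_mul_of_nonneg_left (hZ o (mem_range.1 h) o' (mem_range.1 h')) (h0 _)
  set Y := ∑ o ∈ range n, ν o * |Z o| with hY
  have hmY : |m| ≤ Y := (abs_sum_le_sum_abs _ _).trans (le_of_eq (sum_congr rfl fun o _ => by
    rw [abs_mul, abs_of_nonneg (h0 _)]))
  have ho0 : 0 ≤ osc / τ := (abs_nonneg _).trans (a1 0 (mem_range.2 hn))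
  have a2 : ∑ o ∈ range n, ν o * (-(Z o - m) / τ + 1 + osc / τ / τ * (|Z o| + Y)) =
      1 + osc / τ / τ * (2 * Y) := by
    have b1 : ∑ o ∈ range n, ν o * (-(Z o - m) / τ) = 0 := by
      simp only [← mul_div_assoc, ← sum_div, neg_sub, mul_sub, sum_sub_distrib, ← sum_mul, h1,
        ← hm, one_mul, sub_self, zero_div]
    have b2 : ∑ o ∈ range n, ν o * (osc / τ / τ * (|Z o| + Y)) = osc / τ / τ * (2 * Y) := by
      have : ∀ o, ν o * (osc / τ / τ * (|Z o| + Y)) =
          osc / τ / τ * (ν o * |Z o|) + osc / τ / τ * Y * ν o := fun o => by ring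
      simp only [this, sum_add_distrib, ← mul_sum, h1, ← hY]
      ring
    simp only [mul_add (ν _), sum_add_distrib, b1, b2, mul_one, h1, zero_add]
  have a4 : ∑ o ∈ range n, ν o * Real.exp (-(Z o - m) / τ) ≤ 1 + osc / τ / τ * (2 * Y) :=
    (sum_le_sum fun o h => mul_le_mul_of_nonneg_left (by
      have c1 := (abs_le.1
        (Real.abs_exp_sub_one_sub_id_le ((a1 o h).trans ((div_le_one hτ).2 ho)))).2
      have c2 : |-(Z o - m) / τ| ≤ (|Z o| + Y) / τ := by
        rw [abs_div, abs_neg, abs_of_pos hτ]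
        exact div_le_div_of_nonneg_right ((abs_sub _ _).trans (by linarith)) hτ.le
      have c3 : (-(Z o - m) / τ) ^ 2 ≤ osc / τ * ((|Z o| + Y) / τ) := by
        rw [← sq_abs, sq]
        exact mul_le_mul (a1 o h) c2 (abs_nonneg _) ho0
      have c4 : osc / τ * ((|Z o| + Y) / τ) = osc / τ / τ * (|Z o| + Y) := by ring
      linarith) (h0 _)).trans_eq a2
  have a7 := mul_nonneg hτ.le (Real.log_nonneg a3)
  have a8 := mul_le_mul_of_nonneg_left ((Real.log_le_sub_one_of_pos (one_pos.trans_le a3)).trans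
    (sub_le_iff_le_add'.2 a4)) hτ.le
  rw [show τ * (osc / τ / τ * (2 * Y)) = 2 * (osc / τ) * Y by field_simp] at a8
  have hY0 : 0 ≤ 2 * (osc / τ) * Y := by
    have := (abs_nonneg _).trans hmY
    positivity
  rw [abs_le]
  constructor <;> linarith

end Vale.Agent.P315F
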