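import Vale.Agent.P315F.Crude2

/-! Consistency of the bands after stage 0. -/

namespace Vale.Agent.P315F

open Finset Vale.Agent.P315

namespace Pm

variable {P : Pm} {w : ℕ → ℕ → ℕ} {A : ℕ → ℕ → ℕ → ℕ → ℕ → Tab}

theorem cons_small (hP : P.Good) : 0 < P.del ∧ P.del ≤ 1 / 100 ∧ 8 * P.eta ≤ P.del := by
  have h1 := del_le hP
  have h2 := eps_le hP
  have h3 := eta_le hP
  have h4 := P.del_pos
  have h5 := P.eta_pos
  have h6 : (0 : ℝ) ≤ P.D := Nat.cast_nonneg _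
  exact ⟨h4, by nlinarith, by nlinarith⟩

theorem cons_pow {e e' : ℕ} (g : ℕ) (h : e ≤ e') : (2 : ℝ) ^ e * P.G g ≤ 2 ^ e' * P.G g :=
  mul_le_mul_of_nonneg_right (pow_le_pow_right₀ one_le_two h) (P.G_pos g).le

theorem cons_eR (P : Pm) (g : ℕ) : P.eR g ≤ P.G g := by
  rw [P.G_eq g]
  exact le_mul_of_one_le_left (P.eR_pos g).le (one_le_pow₀ one_le_two)

theorem cons_TmR (P : Pm) (X : Ctx) (k : ℕ) (Ps : ℕ → ℕ → ℕ → ℝ) (g Q Q' : ℕ) :
    0 ≤ P.TmR X k Ps g Q Q' := by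
  unfold TmR
  split_ifs
  · exact le_max_left _ _
  · exact le_min (Nat.cast_nonneg _) (le_max_left _ _)

theorem cons_xA (P : Pm) (A : ℕ → ℕ → ℕ → ℕ → ℕ → Tab) (h k a g Q Q' p p' : ℕ) :
    P.dR p (P.r g * Q) + P.dR p' (P.r g * Q') + P.eR g ≤ P.xA A h k a g Q Q' p p' := by
  have := mul_nonneg (P.cons_TmR (P.ctx (A h) a) k (P.PsA A h k a) g Q Q') (P.un_pos g).le
  unfold xA xo
  linarith

theorem cons_avg (hP : P.Good) {f f' : ℕ → ℝ} {c d e : ℝ}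
    (h : ∀ k < P.K, f k ≤ c * (f' k + d) + e) :
    (∑ k ∈ range P.K, f k) / P.K ≤ c * ((∑ k ∈ range P.K, f' k) / P.K + d) + e := by
  have hK : (0 : ℝ) < P.K := by exact_mod_cast hP.K_pos
  have h1 := sum_le_sum fun k hk => h k (mem_range.1 hk)
  rw [sum_add_distrib, ← mul_sum, sum_add_distrib, sum_const, sum_const, card_range, nsmul_eq_mul,
    nsmul_eq_mul] at h1
  rw [div_le_iff₀ hK]
  refine h1.trans_eq ?_
  field_simp

theorem cons_round (hP : P.Good) {s k : ℕ} (hs1 : 1 ≤ s) (hs : s < 3) (hk : k < P.K) :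
    P.K ≤ s * P.K + k ∧ s * P.K + k < P.KK ∧ (s * P.K + k) / P.K = s * P.K / P.K := by
  have h1 : 1 * P.K ≤ s * P.K := Nat.mul_le_mul_right _ hs1
  have h2 : s * P.K ≤ 2 * P.K := Nat.mul_le_mul_right _ (by omega)
  refine ⟨by omega, by unfold KK; omega, ?_⟩
  rw [Nat.mul_div_cancel _ hP.K_pos, mul_comm, Nat.mul_add_div hP.K_pos, Nat.div_eq_of_lt hk,
    add_zero]

/-- An option of any scale dominates every band.  Trivial band: `lenR_triv`.  Sampled band: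
`g` in range: `VG_le_opt`; `g ≥ i + NG`: `eR g ≥ 2^(i+2)`; `g < i`: `VA_lip`, `crude` at the option,
`opt_valid`, `gp2`. -/
theorem OD (hP : P.Good) (hS : P.Star w A) {h : ℕ} (hh : h + 1 ≤ P.D) {k : ℕ}
    (hK : P.K ≤ k) (hk : k < P.KK) {a : ℕ} (ha : a < P.b ^ (P.D - (h + 1))) {g Q Q' : ℕ}
    (ho : P.IsOpt (P.ctx (A h) a) k g Q Q') (i : ℕ) {p p' : ℕ} (hp : p ≤ P.Qm) (hp' : p' ≤ P.Qm) :
    P.VA w A (h + 1) k a i p p' ≤
        max (P.dR p p') (P.xA A h k a g Q Q' p p') + 2 * P.mu * 2 ^ i ∨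
      2 ^ (i + 1) ≤ P.xA A h k a g Q Q' p p' := by
  have hm : 0 ≤ P.mu * 2 ^ i := mul_nonneg P.mu_pos.le (by positivity)
  have hx := P.cons_xA A h k a g Q Q' p p'
  have d1 := P.dR_nonneg p (P.r g * Q)
  have d2 := P.dR_nonneg p' (P.r g * Q')
  have m1 := le_max_left (P.dR p p') (P.xA A h k a g Q Q' p p')
  have m2 := le_max_right (P.dR p p') (P.xA A h k a g Q Q' p p')
  rcases lt_or_ge ((h + 1) * P.lb + P.ie + P.sh) i with hi | hi
  · rw [VA_triv hi]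
    exact Or.inl (by linarith [lenR_triv hP hi])
  rcases lt_or_ge g i with h1 | h1
  · have a1 := VA_lip (A := A) hS.wok (h + 1) k a i hp hp' (P.rQ_le ho.1) (P.rQ_le ho.2.1)
    have a2 := crude hP hS hk hh ha i (P.rQ_le ho.1) (P.rQ_le ho.2.1)
    have a3 := mul_le_mul_of_nonneg_left (opt_valid hP hS hh hK hk ha ho).1
      (show (0 : ℝ) ≤ 2 ^ P.cs by positivity)
    have a4 : (2 : ℝ) ^ P.cs * (2 ^ (P.ga + 1) * P.G g) ≤ P.mu * 2 ^ i := by
      have b1 : (2 : ℝ) ^ g ≤ 2 ^ i := pow_le_pow_right₀ one_le_two h1.le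
      have b2 := cons_pow (P := P) g (show P.cs + (P.ga + 1) + P.nm ≤ P.gp by
        have := hP.gp2; omega)
      rw [mu, one_div, ← div_eq_inv_mul, le_div_iff₀ (by positivity), ← mul_assoc, ← pow_add,
        mul_right_comm, ← pow_add]
      linarith [P.two_pow_eq g]
    exact Or.inl (by linarith [P.eR_pos g])
  rcases lt_or_ge g (i + P.NG) with h2 | h2
  · rw [VA_smp ⟨by omega, hi⟩]
    exact Or.inl ((VG_le_opt _ h1 h2 ho p p').trans (le_add_of_nonneg_right (by linarith)))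
  · have a1 : (2 : ℝ) ^ (i + 1) ≤ P.eR g := by
      rw [eR, G, div_div, le_div_iff₀ (by positivity), ← pow_add, ← pow_add]
      exact pow_le_pow_right₀ one_le_two (by unfold NG at h2; omega)
    exact Or.inr (by linarith)

theorem Zt_opt (hP : P.Good) (hS : P.Star w A) {h : ℕ} (hh : h + 1 ≤ P.D) {k : ℕ}
    (hK : P.K ≤ k) (hk : k < P.KK) {a : ℕ} (ha : a < P.b ^ (P.D - (h + 1))) {g Q Q' : ℕ}
    (ho : P.IsOpt (P.ctx (A h) a) k g Q Q') (g2 : ℕ) {p p' : ℕ} (hp : p ≤ P.Qm)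
    (hp' : p' ≤ P.Qm) : P.Zt A (h + 1) k a g2 p p' ≤
      (1 + 6 * P.del) * P.xA A h k a g Q Q' p p' + 2 * P.fl g2 := by
  obtain ⟨d0, d1, -⟩ := cons_small hP
  have a1 := (opt_valid hP hS hh hK hk ha ho).2 p p'
  have a2 := P.En_ge (w := w) (h + 1) a p p'
  have a3 := P.dR_nonneg p p'
  have a4 : (0 : ℝ) ≤ P.J0 := Nat.cast_nonneg _
  have m2 := le_max_right (P.dR p p') (P.xA A h k a g Q Q' p p')
  have a5 := Zt_le hP hS hh hk ha g2 hp hp' (x := max (P.dR p p') (P.xA A h k a g Q Q' p p'))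
    (by nlinarith) fun i => (OD hP hS hh hK hk ha ho i hp hp').imp id fun h => h.trans m2
  refine a5.trans (add_le_add ?_ le_rfl)
  have a6 : (1 - P.del) * P.dR p p' ≤ P.xA A h k a g Q Q' p p' := by nlinarith
  have a7 : 0 ≤ P.xA A h k a g Q Q' p p' := by nlinarith
  rcases le_total (P.dR p p') (P.xA A h k a g Q Q' p p') with h1 | h1
  · rw [max_eq_right h1]
    nlinarith
  · rw [max_eq_left h1]
    have a8 := mul_le_mul_of_nonneg_left a6 (show 0 ≤ 1 + 6 * P.del by linarith)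
    have a9 : 0 ≤ P.del * (1 - 3 * P.del) * P.dR p p' :=
      mul_nonneg (mul_nonneg d0.le (by linarith)) a3
    nlinarith

theorem Zt_leaf (hP : P.Good) (hS : P.Star w A) {k : ℕ} (hk : k < P.KK) {a : ℕ}
    (ha : a < P.b ^ P.D) (g : ℕ) {p p' : ℕ} (hp : p ≤ P.Qm) (hp' : p' ≤ P.Qm) :
    P.Zt A 0 k a g p p' ≤ (1 + 3 * P.del) * P.En w 0 a p p' + 2 * P.fl g := by
  have a2 := P.En_ge (w := w) 0 a p p'
  have a3 := P.dR_nonneg p p'
  have a4 : (0 : ℝ) ≤ P.J0 := Nat.cast_nonneg _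
  refine Zt_le hP hS (Nat.zero_le _) hk ha g hp hp' (by linarith) fun i => Or.inl ?_
  have hm : 0 ≤ P.mu * 2 ^ i := mul_nonneg P.mu_pos.le (by positivity)
  rcases lt_or_ge (0 * P.lb + P.ie + P.sh) i with hi | hi
  · rw [VA_triv hi]
    linarith [lenR_triv hP hi]
  · rw [VA_leaf hS.wok (by omega) hp hp']
    linarith

/-- An unsaturated band dominates every band. -/
theorem BD (hP : P.Good) (hS : P.Star w A) {h : ℕ} (hh : h ≤ P.D) {k : ℕ} (hK : P.K ≤ k)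
    (hk : k < P.KK) {a : ℕ} (ha : a < P.b ^ (P.D - h)) (i i' : ℕ) {p p' : ℕ} (hp : p ≤ P.Qm)
    (hp' : p' ≤ P.Qm) (hlt : P.VA w A h k a i' p p' < 2 ^ (i' + 1)) :
    P.VA w A h k a i p p' ≤ (1 + 2 * P.del) * P.VA w A h k a i' p p' + 2 * P.mu * 2 ^ i ∨
      2 ^ (i + 1) ≤ P.VA w A h k a i' p p' := by
  obtain ⟨d0, d1, -⟩ := cons_small hP
  have a1 := valid' hP hS hh hk ha i' hp hp' hlt
  have a2 := VA_ge (A := A) hS.wok h k a i' hp hp'
  have a3 := P.dR_nonneg p p'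
  have a4 : 0 ≤ P.del * P.VA w A h k a i' p p' := mul_nonneg d0.le (by linarith)
  have hm : 0 ≤ P.mu * 2 ^ i := mul_nonneg P.mu_pos.le (by positivity)
  rcases lt_or_ge (h * P.lb + P.ie + P.sh) i with hi | hi
  · rw [VA_triv hi]
    exact Or.inl (by linarith [lenR_triv hP hi])
  cases h with
  | zero =>
    rw [VA_leaf hS.wok (by omega) hp hp']
    have a5 := mul_le_mul_of_nonneg_left a1 (show 0 ≤ 1 + 2 * P.del by linarith)
    have a6 : 0 ≤ P.del * (1 - 2 * P.del) * P.En w 0 a p p' :=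
      mul_nonneg (mul_nonneg d0.le (by linarith)) (Nat.cast_nonneg _)
    exact Or.inl (by nlinarith)
  | succ h =>
    have key : P.dR p p' + P.lenR (h + 1) i' ≤ P.VA w A (h + 1) k a i' p p' →
        P.VA w A (h + 1) k a i p p' ≤ P.VA w A (h + 1) k a i' p p' := fun h1 => by
      rw [VA_smp ⟨by omega, hi⟩]
      linarith [P.VG_le_triv (P.ctx (A h) a) k (h + 1) i (P.PsA A h k a) p p', lenR_smp hP hi,
        P.lenR_ge (h + 1) i']
    rcases lt_or_ge ((h + 1) * P.lb + P.ie + P.sh) i' with hi' | hi'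
    · exact Or.inl (by linarith [key (VA_triv hi' p p').ge])
    have h2 := P.VG_cases (P.ctx (A h) a) k (h + 1) i' (P.PsA A h k a) p p'
    rw [← VA_smp (w := w) ⟨by omega, hi'⟩] at h2
    rcases h2 with h2 | h2 | ⟨g, Q, Q', -, -, ho, h2⟩
    · exact absurd hlt h2.not_gt
    · exact Or.inl (by linarith [key h2])
    · exact (OD hP hS hh hK hk ha ho i hp hp').imp
        (fun h3 => by linarith [max_le a2 (show P.xA A h k a g Q Q' p p' ≤ _ from h2)])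
        fun h3 => h3.trans h2

theorem cons_ZL (hP : P.Good) (hS : P.Star w A) {h : ℕ} (hh : h ≤ P.D) {k : ℕ} (hk : k < P.KK)
    {a : ℕ} (ha : a < P.b ^ (P.D - h)) (g : ℕ) {q q' : ℕ} (hq : q ≤ P.Qm) (hq' : q' ≤ P.Qm)
    {v : ℝ} (hv : 0 ≤ v)
    (h1 : ∀ i, P.lo g ≤ i → i ≤ P.hi g → min v (2 ^ (i + 1)) ≤ P.VA w A h k a i q q') :
    (1 - 2 * P.eta) * min v (2 ^ (g + 2)) ≤ P.Zt A h k a g q q' := by
  obtain ⟨d0, d1, d2⟩ := cons_small hP
  refine ZL hP _ g q q' hv fun i a1 a2 => ?_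
  have b1 := (abs_le.1 (hS.near h hh k hk a ha i q hq q' hq')).1
  have b2 := P.bandR_mono i (le_min hv (by positivity)) (h1 i a1 a2)
  rw [bandR_min hP i hv] at b2
  have b3 := mul_le_mul_of_nonneg_left b2 (show 0 ≤ 1 - P.eta by linarith)
  have b4 := mul_pos P.eta_pos P.t0_pos
  linarith

/-- `x0` = least unsaturated `VA` over the bands of `g1` at `(q, q')` (if all are saturated, `ZL`
with `v = 2^(hi+1)` contradicts the hypothesis); `ZL` with `v = x0`; `BD`, `VA_lip`, `Zt_le` with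
`x = (1 + 2 del) x0 + dR p q + dR p' q'`. -/
theorem CONS (hP : P.Good) (hS : P.Star w A) {h : ℕ} (hh : h ≤ P.D) {k : ℕ} (hK : P.K ≤ k)
    (hk : k < P.KK) {a : ℕ} (ha : a < P.b ^ (P.D - h)) (g1 g2 : ℕ) {p p' q q' : ℕ}
    (hp : p ≤ P.Qm) (hp' : p' ≤ P.Qm) (hq : q ≤ P.Qm) (hq' : q' ≤ P.Qm)
    (hlt : P.Zt A h k a g1 q q' ≤ 2 ^ (g1 + 1)) :
    P.Zt A h k a g2 p p' ≤
      (1 + 7 * P.del) * (P.Zt A h k a g1 q q' + P.dR p q + P.dR p' q') + 2 * P.fl g2 := by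
  obtain ⟨d0, d1, d2⟩ := cons_small hP
  have e0 := P.eta_pos
  have hp2 : (0 : ℝ) < 2 ^ (g1 + 1) := by positivity
  have e2 : (2 : ℝ) ^ (g1 + 2) = 2 * 2 ^ (g1 + 1) := by ring
  have hsat : ¬ (1 - 2 * P.eta) * 2 ^ (g1 + 2) ≤ P.Zt A h k a g1 q q' := by
    rw [e2, not_le]
    nlinarith
  obtain ⟨i0, h0, h1⟩ := exists_min_image ((Icc (P.lo g1) (P.hi g1)).filter
      fun i => P.VA w A h k a i q q' < 2 ^ (i + 1)) (fun i => P.VA w A h k a i q q') (by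
    by_contra hne
    have := cons_ZL hP hS hh hk ha g1 hq hq' (v := 2 ^ (g1 + 2)) (by positivity) fun i a1 a2 =>
      min_le_of_right_le (not_lt.1 fun h' => hne ⟨i, mem_filter.2 ⟨mem_Icc.2 ⟨a1, a2⟩, h'⟩⟩)
    rw [min_self] at this
    exact hsat this)
  have h2 := (mem_filter.1 h0).2
  have x0 := (P.dR_nonneg q q').trans (VA_ge (A := A) hS.wok h k a i0 hq hq')
  have h3 := cons_ZL hP hS hh hk ha g1 hq hq' x0 fun i a1 a2 => by
    by_cases h' : P.VA w A h k a i q q' < 2 ^ (i + 1)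
    · exact min_le_of_left_le (h1 i (mem_filter.2 ⟨mem_Icc.2 ⟨a1, a2⟩, h'⟩))
    · exact min_le_of_right_le (not_lt.1 h')
  have h4 : (1 - 2 * P.eta) * P.VA w A h k a i0 q q' ≤ P.Zt A h k a g1 q q' := by
    rcases le_total (P.VA w A h k a i0 q q') (2 ^ (g1 + 2)) with h' | h'
    · rwa [min_eq_left h'] at h3
    · rw [min_eq_right h'] at h3
      exact absurd h3 hsat
  have a1 := valid' hP hS hh hk ha i0 hq hq' h2
  have a2 := P.En_ge (w := w) h a q q'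
  have a3 := P.dR_nonneg q q'
  have a4 : (0 : ℝ) ≤ P.J0 := Nat.cast_nonneg _
  have a5 := P.dR_nonneg p q
  have a6 := P.dR_nonneg p' q'
  have a7 := mul_nonneg d0.le x0
  have a8 := Zt_le hP hS hh hk ha g2 hp hp'
    (x := (1 + 2 * P.del) * P.VA w A h k a i0 q q' + P.dR p q + P.dR p' q') (by nlinarith)
    fun i => (BD hP hS hh hK hk ha i i0 hq hq' h2).imp
      (fun h' => by linarith [VA_lip (A := A) hS.wok h k a i hp hp' hq hq']) fun h' => by linarith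
  refine a8.trans (add_le_add ?_ le_rfl)
  have a9 := mul_le_mul_of_nonneg_left h4 (show 0 ≤ 1 + 7 * P.del by linarith)
  have b1 : (1 + 3 * P.del) * (1 + 2 * P.del) ≤ (1 + 7 * P.del) * (1 - 2 * P.eta) := by nlinarith
  have b2 := mul_le_mul_of_nonneg_right b1 x0
  have b3 := mul_nonneg d0.le (add_nonneg a5 a6)
  nlinarith

/-- The closure `nut` used in stage 2 dominates the stage 1 averages (`nut_att`, `Zb_valid`,
`Zt_crude` give the hypothesis of `CONS` in every round). -/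
theorem NU (hP : P.Good) (hS : P.Star w A) {h : ℕ} (hh : h ≤ P.D) {a : ℕ}
    (ha : a < P.b ^ (P.D - h)) {g1 Q Q' : ℕ} (hQ : Q ≤ P.Qg g1) (hQ' : Q' ≤ P.Qg g1)
    (hle : P.nut A h (2 * P.K) a g1 Q Q' ≤ 2 ^ P.ga * P.G g1) (g : ℕ) :
    P.avZ A 1 h a g (P.r g1 * Q) (P.r g1 * Q') ≤
      (1 + 7 * P.del) * (P.nut A h (2 * P.K) a g1 Q Q' + P.fl g1) + 2 * P.fl g := by
  obtain ⟨d0, d1, -⟩ := cons_small hP
  have hG := P.G_pos g1
  have e1 : (2 : ℝ) ^ (P.ga + 1) * P.G g1 = 2 * (2 ^ P.ga * P.G g1) := by ring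
  have hG' : 0 < (2 : ℝ) ^ P.ga * P.G g1 := by positivity
  obtain ⟨M, hM, M', hM', h1⟩ := nut_att (P := P) (A := A) (h := h) (k := 2 * P.K) (a := a)
    (g := g1) (Q := Q) (Q' := Q') (by omega) (by linarith)
  rw [Nat.mul_div_cancel _ hP.K_pos] at h1
  have h2 := Zb_valid hP hS hh (s := 1) (by omega) ha g1 (P.rQ_le hM) (P.rQ_le hM')
  have a5 := P.dR_nonneg (P.r g1 * Q) (P.r g1 * M)
  have a6 := P.dR_nonneg (P.r g1 * Q') (P.r g1 * M')
  have hgp := hP.gp2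
  have b1 := cons_pow (P := P) g1 (show P.ga ≤ P.gp by omega)
  have b2 := cons_pow (P := P) g1 (show P.cs + 1 + (P.ga + 1) ≤ P.gp by omega)
  have b3 := cons_pow (P := P) g1 (show 1 ≤ P.gp by omega)
  rw [← P.two_pow_eq g1] at b1 b2 b3
  have e2 : (2 : ℝ) ^ (g1 + 2) = 4 * 2 ^ g1 := by ring
  have h3 : (P.En w h a (P.r g1 * M) (P.r g1 * M') : ℝ) ≤ 2 ^ (P.ga + 1) * P.G g1 := by
    have c0 : (0 : ℝ) ≤ P.En w h a (P.r g1 * M) (P.r g1 * M') := Nat.cast_nonneg _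
    rcases le_total (P.En w h a (P.r g1 * M) (P.r g1 * M') : ℝ) (2 ^ (g1 + 2)) with h' | h'
    · rw [min_eq_left h'] at h2
      nlinarith
    · rw [min_eq_right h', e2] at h2
      nlinarith
  have h4 := mul_le_mul_of_nonneg_left h3 (show (0 : ℝ) ≤ 2 ^ (P.cs + 1) by positivity)
  rw [← mul_assoc, ← pow_add] at h4
  have h5 := cons_avg hP (c := 1 + 7 * P.del)
    (d := P.dR (P.r g1 * Q) (P.r g1 * M) + P.dR (P.r g1 * Q') (P.r g1 * M')) (e := 2 * P.fl g)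
    (f := fun k => P.Zt A h (1 * P.K + k) a g (P.r g1 * Q) (P.r g1 * Q'))
    (f' := fun k => P.Zt A h (1 * P.K + k) a g1 (P.r g1 * M) (P.r g1 * M')) fun k hk => by
      obtain ⟨c1, c2, -⟩ := cons_round hP le_rfl (by omega) hk
      have c3 := Zt_crude hP hS c2 hh ha g1 (P.rQ_le hM) (P.rQ_le hM')
      rw [← add_assoc]
      refine CONS hP hS hh c1 c2 ha g1 g (P.rQ_le hQ) (P.rQ_le hQ') (P.rQ_le hM) (P.rQ_le hM') ?_
      rw [pow_succ]
      linarith [P.fl_le_eR g1, P.cons_eR g1]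
  refine h5.trans (add_le_add (mul_le_mul_of_nonneg_left ?_ (by linarith)) le_rfl)
  have h6 := (Zb_le hP A 1 h a g1 (P.r g1 * M) (P.r g1 * M')).2
  unfold avZ at h6
  linarith

end Pm

end Vale.Agent.P315F
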