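import Vale.Agent.P315F.Valid2

/-! Crude upper bounds, valid in every single round. -/

namespace Vale.Agent.P315F

open Finset Vale.Agent.P315

namespace Pm

variable {P : Pm} {w : ℕ → ℕ → ℕ} {A : ℕ → ℕ → ℕ → ℕ → ℕ → Tab}

/-- `ZU` for the official tables. -/
theorem Zt_le (hP : P.Good) (hS : P.Star w A) {h : ℕ} (hh : h ≤ P.D) {k : ℕ} (hk : k < P.KK)
    {a : ℕ} (ha : a < P.b ^ (P.D - h)) (g : ℕ) {p p' : ℕ} (hp : p ≤ P.Qm) (hp' : p' ≤ P.Qm)
    {x : ℝ} (hx : (P.J0 : ℝ) ≤ 2 * x)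
    (hV : ∀ i, P.VA w A h k a i p p' ≤ x + 2 * P.mu * 2 ^ i ∨ 2 ^ (i + 1) ≤ x) :
    P.Zt A h k a g p p' ≤ (1 + 3 * P.del) * x + 2 * P.fl g := by
  refine ZU hP (fun i => A h k a i P.k0) g p p' (fun i => P.VA w A h k a i p p') hx
    fun i _ _ => ⟨(P.dR_nonneg p p').trans (VA_ge hS.wok h k a i hp hp'), ?_, hV i⟩
  have h1 := (abs_le.1 (hS.near h hh k hk a ha i p hp p' hp')).2
  linarith

theorem crude_eR_le (P : Pm) (g : ℕ) : P.eR g ≤ P.G g := by
  rw [P.G_eq g]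
  exact le_mul_of_one_le_left (P.eR_pos g).le (one_le_pow₀ (by norm_num))

theorem crude_ga (hP : P.Good) : (16 : ℝ) ≤ 2 ^ P.ga := by
  have h1 := hP.ga2
  have h2 := hP.r1_pos
  calc (16 : ℝ) = 2 ^ 4 := by norm_num
    _ ≤ 2 ^ P.ga := pow_le_pow_right₀ (by norm_num) (by omega)

theorem crude_abs (hP : P.Good) (i : ℕ) :
    16 * (P.b * (P.nbm + 1)) * P.G i ≤ P.mu * 2 ^ i := by
  have h1 : (16 * P.b * (P.nbm + 1) * 2 ^ P.nm : ℝ) ≤ 2 ^ P.gp := by exact_mod_cast hP.gp1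
  have h2 := P.G_pos i
  have h3 : (0 : ℝ) < 2 ^ P.nm := by positivity
  rw [P.two_pow_eq i]
  unfold mu
  rw [one_div, inv_mul_eq_div, le_div_iff₀ h3]
  nlinarith [mul_le_mul_of_nonneg_right h1 h2.le]

/-- The members of the tube stay close to the optimal break points. -/
theorem crude_near {X : Ctx} {k g p p' : ℕ} (hp : p ≤ P.Qm) (hp' : p' ≤ P.Qm) {m : ℕ → ℕ}
    {E : ℝ} (hE : P.dR p p' ≤ E) (h0 : m 0 = p) (hb : m P.b = p')
    (hm : ∀ j ≤ P.b, P.dR p (m j) ≤ E) (o : ℕ) {j : ℕ} (hj : j ≤ P.b) :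
    P.dR (P.r g * P.q X k g (p / P.r g) (p' / P.r g) o j) (m j) ≤ 2 * E + 4 * P.G g := by
  have hE0 : 0 ≤ E := (P.dR_nonneg p p').trans hE
  have hG := P.G_pos g
  have he := P.crude_eR_le g
  have r1 := P.dR_round g p
  have r2 := P.dR_round g p'
  rcases Nat.eq_zero_or_pos j with rfl | hj0
  · rw [q_zero, h0, dR_comm]; linarith
  rcases hj.eq_or_lt with rfl | hjb
  · rw [q_last, hb, dR_comm]; linarith
  have hQ := P.div_le_Qg g hp
  have hQ' := P.div_le_Qg g hp'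
  have t1 := P.tube_le (q_near (X := X) (k := k) hQ hQ' o hj0 hjb)
  have t2 : P.dR (P.r g * (p / P.r g)) (P.r g * P.ref X k g (p / P.r g) (p' / P.r g) j) ≤
      P.dR (P.r g * (p / P.r g)) (P.r g * (p' / P.r g)) := by
    rw [dR_grid, dR_grid]
    refine mul_le_mul_of_nonneg_right ?_ (P.un_pos g).le
    exact_mod_cast Nat.mul_le_mul_right _ (P.ref_near X k g _ _ j)
  have t3 := P.dR_tri (P.r g * (p / P.r g)) p (P.r g * (p' / P.r g))
  have t4 := P.dR_tri p p' (P.r g * (p' / P.r g))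
  have t5 := P.dR_comm (P.r g * (p / P.r g)) p
  have t6 := P.dR_comm (P.r g * (p / P.r g)) (P.r g * P.ref X k g (p / P.r g) (p' / P.r g) j)
  have t7 := P.dR_tri (P.r g * P.q X k g (p / P.r g) (p' / P.r g) o j)
    (P.r g * P.ref X k g (p / P.r g) (p' / P.r g) j) (m j)
  have t8 := P.dR_tri (P.r g * P.ref X k g (p / P.r g) (p' / P.r g) j) (P.r g * (p / P.r g)) (m j)
  have t9 := P.dR_tri (P.r g * (p / P.r g)) p (m j)
  have := hm j hj
  linarith

/-- The soft-min increment in terms of the bound for the children. -/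
theorem crude_Ps (hP : P.Good) (hS : P.Star w A) {h : ℕ} (hh : h + 1 ≤ P.D) {k : ℕ}
    (hk : k < P.KK) {a : ℕ} (ha : a < P.b ^ (P.D - (h + 1))) {c : ℝ} (hc : 1 ≤ c)
    (ih : ∀ a < P.b ^ (P.D - h), ∀ i, ∀ p ≤ P.Qm, ∀ p' ≤ P.Qm,
      P.VA w A h k a i p p' ≤ c * P.En w h a p p' + P.mu * 2 ^ i)
    (g : ℕ) {p p' : ℕ} (hp : p ≤ P.Qm) (hp' : p' ≤ P.Qm) :
    P.PsA A h k a g (p / P.r g) (p' / P.r g) * P.un g ≤
      (1 + 3 * P.del) * c * P.En w (h + 1) a p p' + 3 * P.eR g +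
        P.b * (P.nbm + 1) * (4 * P.En w (h + 1) a p p' + 8 * P.G g) := by
  obtain ⟨m, h0, hb, hmQ, hm, hsum⟩ := P.En_split (w := w) h a hp hp'
  have hun := P.un_pos g
  have hJ : (0 : ℝ) < P.J0 := by exact_mod_cast P.J0_pos
  have hE : P.dR p p' ≤ P.En w (h + 1) a p p' := by linarith [P.En_ge (w := w) (h + 1) a p p']
  rw [← le_div_iff₀ hun]
  refine PsR_le hP _ fun o _ => ?_
  rw [le_div_iff₀ hun]
  have hv := P.val_un A h k a g (P.q (P.ctx (A h) a) k g (p / P.r g) (p' / P.r g) o)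
  rw [val_cast] at hv
  refine hv.le.trans ?_
  have hterm : ∀ j ∈ range P.b, P.Zt A h k (a * P.b + j) g
      (P.r g * P.q (P.ctx (A h) a) k g (p / P.r g) (p' / P.r g) o j)
      (P.r g * P.q (P.ctx (A h) a) k g (p / P.r g) (p' / P.r g) o (j + 1)) ≤
      (1 + 3 * P.del) * c * P.En w h (a * P.b + j) (m j) (m (j + 1)) + (3 * P.fl g +
        (P.nbm + 1) * (4 * P.En w (h + 1) a p p' + 8 * P.G g)) := by
    intro j hj
    have hj' := mem_range.1 hj
    have hch := P.child_lt hh ha hj'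
    have e1 := P.En_ge (w := w) h (a * P.b + j) (m j) (m (j + 1))
    have e2 := P.dR_nonneg (m j) (m (j + 1))
    have e3 : (P.En w h (a * P.b + j) (m j) (m (j + 1)) : ℝ) ≤
        c * P.En w h (a * P.b + j) (m j) (m (j + 1)) := le_mul_of_one_le_left (by linarith) hc
    have z1 := Zt_le hP hS (by omega : h ≤ P.D) hk hch g (hmQ j) (hmQ (j + 1))
      (x := c * P.En w h (a * P.b + j) (m j) (m (j + 1))) (by linarith) fun i => Or.inl (by
        have i1 := ih _ hch i _ (hmQ j) _ (hmQ (j + 1))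
        have i2 : 0 ≤ P.mu * 2 ^ i := mul_nonneg P.mu_pos.le (by positivity)
        linarith)
    have z2 := Zt_lip hP hS h k (a * P.b + j) g
      (P.r g * P.q (P.ctx (A h) a) k g (p / P.r g) (p' / P.r g) o j)
      (P.r g * P.q (P.ctx (A h) a) k g (p / P.r g) (p' / P.r g) o (j + 1)) (m j) (m (j + 1))
    have n1 := crude_near (X := P.ctx (A h) a) (k := k) (g := g) hp hp' hE h0 hb hm o hj'.le
    have n2 := crude_near (X := P.ctx (A h) a) (k := k) (g := g) hp hp' hE h0 hb hm o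
      (Nat.succ_le_of_lt hj')
    have n3 := mul_le_mul_of_nonneg_left (add_le_add n1 n2)
      (by positivity : (0 : ℝ) ≤ P.nbm + 1)
    linarith
  refine (sum_le_sum hterm).trans (le_of_eq ?_)
  rw [sum_add_distrib, ← mul_sum, hsum, sum_const, card_range, nsmul_eq_mul, P.eR_eq g]
  ring

theorem crude_step (hP : P.Good) (hS : P.Star w A) {h : ℕ} (hh : h + 1 ≤ P.D) {k : ℕ}
    (hk : k < P.K) {a : ℕ} (ha : a < P.b ^ (P.D - (h + 1))) {c : ℝ} (hc : 1 ≤ c)
    (ih : ∀ a < P.b ^ (P.D - h), ∀ i, ∀ p ≤ P.Qm, ∀ p' ≤ P.Qm,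
      P.VA w A h k a i p p' ≤ c * P.En w h a p p' + P.mu * 2 ^ i)
    (i : ℕ) {p p' : ℕ} (hp : p ≤ P.Qm) (hp' : p' ≤ P.Qm) :
    P.VA w A (h + 1) k a i p p' ≤
      ((1 + 3 * P.del) * c + 16 * (P.b * (P.nbm + 1))) * P.En w (h + 1) a p p' +
        P.mu * 2 ^ i := by
  have hJ : (0 : ℝ) < P.J0 := by exact_mod_cast P.J0_pos
  have hd0 := P.dR_nonneg p p'
  have hEg := P.En_ge (w := w) (h + 1) a p p'
  have hkK : k < P.KK := by unfold KK; omega
  have hPs := fun g => crude_Ps hP hS hh hkK ha hc ih g hp hp'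
  obtain ⟨E, hEq⟩ : ∃ E : ℝ, E = P.En w (h + 1) a p p' := ⟨_, rfl⟩
  rw [← hEq] at hEg hPs ⊢
  have hE0 : 0 < E := by linarith
  have hb4 : (4 : ℝ) ≤ P.b := by exact_mod_cast b_ge hP
  have hB : (4 : ℝ) ≤ P.b * (P.nbm + 1) :=
    hb4.trans (le_mul_of_one_le_right (by linarith) (by linarith [Nat.cast_nonneg (α := ℝ) P.nbm]))
  have habs := crude_abs hP i
  obtain ⟨B, hBq⟩ : ∃ B : ℝ, B = P.b * (P.nbm + 1) := ⟨_, rfl⟩
  rw [← hBq] at hB hPs habs ⊢
  have hdel := P.del_pos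
  have hmu : 0 ≤ P.mu * 2 ^ i := mul_nonneg P.mu_pos.le (by positivity)
  have hc1 : 1 ≤ (1 + 3 * P.del) * c := one_le_mul_of_one_le_of_one_le (by linarith) hc
  have hcE : E ≤ (1 + 3 * P.del) * c * E := le_mul_of_one_le_left hE0.le hc1
  have hBE : 0 ≤ B * E := mul_nonneg (by linarith) hE0.le
  by_cases hs : P.smp (h + 1) i
  swap
  · have hi : (h + 1) * P.lb + P.ie + P.sh < i := by
      by_contra hn
      exact hs ⟨by omega, not_lt.1 hn⟩
    rw [VA_triv hi]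
    have := lenR_triv hP hi
    nlinarith
  rw [VA_smp hs]
  by_cases hlt : (2 : ℝ) ^ (i + 1) ≤ E
  · refine (P.VG_le_cap _ k _ i _ p p').trans (max_le ?_ ?_) <;> nlinarith
  have hga := crude_ga hP
  have hga0 : (0 : ℝ) < 2 ^ P.ga := by positivity
  obtain ⟨g, hg1, hg2, hg3⟩ := P.exists_scale (2 * E / 2 ^ P.ga) i
  have hG := P.G_pos g
  have he := P.crude_eR_le g
  have he0 := P.eR_pos g
  rw [div_le_iff₀ hga0] at hg2
  have hg4 : g = i ∨ 4 * P.G g < E := by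
    refine hg3.imp id fun h3 => ?_
    rw [← mul_div_assoc, lt_div_iff₀ hga0] at h3
    nlinarith
  have hgN : g < i + P.NG := by
    unfold NG
    rcases hg4 with h4 | h4
    · omega
    · have h5 : (2 : ℝ) ^ g < 2 ^ (i + P.gp) := by
        rw [P.two_pow_eq g, pow_add, mul_comm]
        refine mul_lt_mul_of_pos_right ?_ (by positivity)
        rw [pow_succ] at hlt
        have : (0 : ℝ) < 2 ^ i := by positivity
        linarith [not_le.1 hlt]
      have := (pow_lt_pow_iff_right₀ (by norm_num : (1 : ℝ) < 2)).1 h5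
      omega
  have hQ := P.div_le_Qg g hp
  have hQ' := P.div_le_Qg g hp'
  have r1 := P.dR_round g p
  have r2 := P.dR_round g p'
  have hopt : P.IsOpt (P.ctx (A h) a) k g (p / P.r g) (p' / P.r g) := by
    rw [isOpt_iff hP, cap_zero hk hQ hQ']
    refine ⟨hQ, hQ', ?_⟩
    have t3 := P.dR_tri (P.r g * (p / P.r g)) p (P.r g * (p' / P.r g))
    have t4 := P.dR_tri p p' (P.r g * (p' / P.r g))
    have t5 := P.dR_comm (P.r g * (p / P.r g)) p
    nlinarith
  refine (VG_le_opt _ hg1 hgN hopt p p').trans (max_le (by nlinarith) ?_)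
  unfold xo TmR
  rw [if_pos hk]
  have hBG : 0 ≤ B * P.G g := mul_nonneg (by linarith) hG.le
  have hBG4 : 4 * P.G g ≤ B * P.G g := mul_le_mul_of_nonneg_right hB hG.le
  have hT : max 0 (P.PsA A h k a g (p / P.r g) (p' / P.r g)) * P.un g ≤
      (1 + 3 * P.del) * c * E + 3 * P.eR g + B * (4 * E + 8 * P.G g) := by
    rcases le_total 0 (P.PsA A h k a g (p / P.r g) (p' / P.r g)) with h0 | h0
    · rw [max_eq_right h0]; exact hPs g
    · rw [max_eq_left h0, zero_mul]; nlinarith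
  have hfin : 10 * (B * P.G g) ≤ 12 * (B * E) + P.mu * 2 ^ i := by
    rcases hg4 with h4 | h4
    · subst h4; nlinarith
    · have : B * P.G g ≤ B * E := mul_le_mul_of_nonneg_left (by linarith) (by linarith)
      linarith
  nlinarith

theorem crude_ind (hP : P.Good) (hS : P.Star w A) {k : ℕ} (hk : k < P.K) : ∀ h ≤ P.D,
    ∀ a < P.b ^ (P.D - h), ∀ i, ∀ p ≤ P.Qm, ∀ p' ≤ P.Qm, P.VA w A h k a i p p' ≤
      (1 + 3 * P.del) ^ h * (1 + 16 * h * (P.b * (P.nbm + 1))) * P.En w h a p p' +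
        P.mu * 2 ^ i := by
  have hJ : (0 : ℝ) < P.J0 := by exact_mod_cast P.J0_pos
  have hdel := P.del_pos
  intro h
  induction h with
  | zero =>
    intro _ a _ i p hp p' hp'
    have hmu : 0 ≤ P.mu * 2 ^ i := mul_nonneg P.mu_pos.le (by positivity)
    simp only [pow_zero, Nat.cast_zero, mul_zero, zero_mul, add_zero, one_mul]
    by_cases hi : i ≤ P.ie + P.sh
    · rw [VA_leaf hS.wok hi hp hp']; linarith
    · have hi' : 0 * P.lb + P.ie + P.sh < i := by omega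
      rw [VA_triv hi']
      linarith [lenR_triv hP hi', P.En_ge (w := w) 0 a p p']
  | succ h ih =>
    intro hh a ha i p hp p' hp'
    have hB : (0 : ℝ) ≤ P.b * (P.nbm + 1) := by positivity
    have h1 : (1 : ℝ) ≤ (1 + 3 * P.del) ^ h := one_le_pow₀ (by linarith)
    have h2 : (1 : ℝ) ≤ (1 + 3 * P.del) ^ (h + 1) := one_le_pow₀ (by linarith)
    have h3 : (0 : ℝ) ≤ 16 * h * (P.b * (P.nbm + 1)) := by positivity
    refine (crude_step hP hS hh hk ha (one_le_mul_of_one_le_of_one_le h1 (by linarith))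
      (ih (by omega)) i hp hp').trans (add_le_add_left (mul_le_mul_of_nonneg_right ?_
        (Nat.cast_nonneg _)) _)
    have h4 := mul_le_mul_of_nonneg_right h2 hB
    push_cast
    rw [← mul_assoc, ← pow_succ']
    nlinarith

/-- Stage 0.  Induction on `h` with the factor `c 0 = 1`,
`c (h+1) = (1 + 3 del) * c h + 16 b (nbm+1)`, bounded by `2 (1 + 16 D b (nbm+1)) ≤ 2^cs / 16`.
Sampled band, `En < 2^(i+1)`: least `g ≥ i` with `2 En ≤ 2^ga G g` (`exists_scale`; `g ≤ i+gp+1`,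
`G g ≤ En` or `g = i`), option `(g, p / r, p' / r)` (`cap_zero`), `PsR_le` with `En_split`, `Zt_le`,
`Zt_lip`, `q_near`, `ref_near`; `gp1` absorbs `12 b (nbm+1) G i`. -/
theorem crude0 (hP : P.Good) (hS : P.Star w A) {h : ℕ} (hh : h ≤ P.D) {k : ℕ} (hk : k < P.K)
    {a : ℕ} (ha : a < P.b ^ (P.D - h)) (i : ℕ) {p p' : ℕ} (hp : p ≤ P.Qm) (hp' : p' ≤ P.Qm) :
    P.VA w A h k a i p p' ≤ 2 ^ P.cs / 16 * P.En w h a p p' + P.mu * 2 ^ i := by
  refine (crude_ind hP hS hk h hh a ha i p hp p' hp').trans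
    (add_le_add_left (mul_le_mul_of_nonneg_right ?_ (Nat.cast_nonneg _)) _)
  have hdel := P.del_pos
  have h1 : (1 + 3 * P.del) ^ h ≤ 2 := by
    have e1 : (1 + 3 * P.del) ^ h ≤ (1 + 7 * P.del) ^ h :=
      pow_le_pow_left₀ (by linarith) (by linarith) h
    linarith [pow_del hP (by omega : h ≤ P.D + 1), eps_le hP]
  have h2 : (1024 * (P.D + 1) * P.b * (P.nbm + 1) : ℝ) ≤ 2 ^ P.cs := by exact_mod_cast hP.cs_ge
  have hb4 : (4 : ℝ) ≤ P.b := by exact_mod_cast b_ge hP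
  have hB : (4 : ℝ) ≤ P.b * (P.nbm + 1) :=
    hb4.trans (le_mul_of_one_le_right (by linarith) (by linarith [Nat.cast_nonneg (α := ℝ) P.nbm]))
  have h3 : (h : ℝ) ≤ P.D := by exact_mod_cast hh
  have h4 : (0 : ℝ) ≤ h := Nat.cast_nonneg _
  rw [mul_assoc (1024 * (P.D + 1) : ℝ)] at h2
  generalize (P.b * (P.nbm + 1) : ℝ) = B at h2 hB ⊢
  have h5 : 0 ≤ 1 + 16 * h * B := by positivity
  have h6 := mul_le_mul_of_nonneg_right h1 h5
  have h7 : h * B ≤ P.D * B := mul_le_mul_of_nonneg_right h3 (by linarith)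
  have h8 : 0 ≤ h * B := by positivity
  nlinarith

end Pm

end Vale.Agent.P315F
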