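import Vale.Agent.P315F.Crude

/-! Crude upper bounds in the later stages.  Induction on the stage `s = k / K`: if all rounds of
the stage `s - 1` have the factor `c`, then `capt (p / r) (p' / r) ≤ 2 c En + G / 2`
(`capt_chain` along the rounded path of `En_split`, `nut_le`, `Zb_le`, `avZ_lip`, `Zt_le`,
`om1_G`), and the rounds of stage `s` have the factor `2 c + 1 ≤ 4 c` (least `g ≥ i` with
`2^cs En ≤ 2^ga G g`, `TmR ≤ cap`). -/

namespace Vale.Agent.P315F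

open Finset Vale.Agent.P315

namespace Pm

variable {P : Pm} {w : ℕ → ℕ → ℕ} {A : ℕ → ℕ → ℕ → ℕ → ℕ → Tab}

theorem crude2_del (hP : P.Good) : 1 + 3 * P.del ≤ 2 := by
  have h1 := del_le hP
  have h2 := eps_le hP
  have h3 := P.del_pos
  have h4 : (0 : ℝ) ≤ P.D := Nat.cast_nonneg _
  nlinarith

theorem crude2_cs (hP : P.Good) : (16 : ℝ) ≤ 2 ^ P.cs := by
  have h1 := hP.cs_ge
  have h2 := P.b_pos
  have h3 : 16 ≤ 2 ^ P.cs := by
    refine le_trans ?_ h1
    have : 1 ≤ (P.D + 1) * P.b * (P.nbm + 1) := Nat.mul_pos (Nat.mul_pos (by omega) h2) (by omega)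
    calc 16 ≤ 1024 * 1 := by norm_num
      _ ≤ 1024 * ((P.D + 1) * P.b * (P.nbm + 1)) := Nat.mul_le_mul_left _ this
      _ = _ := by ring
  exact_mod_cast h3

theorem crude2_En (P : Pm) (w : ℕ → ℕ → ℕ) (h a p p' : ℕ) :
    (P.J0 : ℝ) ≤ P.En w h a p p' ∧ P.dR p p' ≤ P.En w h a p p' := by
  have h1 := P.En_ge (w := w) h a p p'
  have h2 := P.dR_nonneg p p'
  have h3 : (0 : ℝ) ≤ P.J0 := Nat.cast_nonneg _
  constructor <;> linarith

theorem crude2_Zt (hP : P.Good) (hS : P.Star w A) {k : ℕ} (hk : k < P.KK) {h : ℕ} (hh : h ≤ P.D)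
    {a : ℕ} (ha : a < P.b ^ (P.D - h)) (g : ℕ) {p p' : ℕ} (hp : p ≤ P.Qm) (hp' : p' ≤ P.Qm)
    {c : ℝ} (hc : 1 ≤ c)
    (hV : ∀ i, P.VA w A h k a i p p' ≤ c * P.En w h a p p' + P.mu * 2 ^ i) :
    P.Zt A h k a g p p' ≤ 2 * c * P.En w h a p p' + 2 * P.fl g := by
  have h1 := (crude2_En P w h a p p').1
  have h0 : (0 : ℝ) ≤ P.J0 := Nat.cast_nonneg _
  have hE : (0 : ℝ) ≤ P.En w h a p p' := Nat.cast_nonneg _
  have h2 : (P.En w h a p p' : ℝ) ≤ c * P.En w h a p p' := le_mul_of_one_le_left hE hc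
  have h3 := Zt_le hP hS hh hk ha g hp hp' (x := c * P.En w h a p p') (by linarith) fun i => by
    have := hV i
    have h4 : 0 ≤ P.mu * 2 ^ i := mul_nonneg P.mu_pos.le (by positivity)
    left; linarith
  have h5 := mul_le_mul_of_nonneg_right (crude2_del hP) (hE.trans h2)
  linarith

theorem crude2_eR (hP : P.Good) (g : ℕ) : 32 * (P.b * ((P.nbm + 1) * P.eR g)) ≤ P.G g := by
  have h1 := P.om1_G g
  have h2 := om1_le hP
  have h3 := eps_le hP
  have h4 := P.G_pos g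
  have h5 : P.om1 * P.G g ≤ 1 * P.G g := mul_le_mul_of_nonneg_right (by linarith) h4.le
  linarith

theorem crude2_capt (hP : P.Good) (hS : P.Star w A) {h : ℕ} (hh : h + 1 ≤ P.D) {k : ℕ}
    (hK : P.K ≤ k) (hk : k < P.KK) {c : ℝ} (hc : 1 ≤ c)
    (hV : ∀ k' < P.K, ∀ a < P.b ^ (P.D - h), ∀ i, ∀ p ≤ P.Qm, ∀ p' ≤ P.Qm,
      P.VA w A h ((k / P.K - 1) * P.K + k') a i p p' ≤ c * P.En w h a p p' + P.mu * 2 ^ i)
    {a : ℕ} (ha : a < P.b ^ (P.D - (h + 1))) (g : ℕ) {p p' : ℕ} (hp : p ≤ P.Qm) (hp' : p' ≤ P.Qm) :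
    P.capt A h k a g (p / P.r g) (p' / P.r g) ≤ 2 * c * P.En w (h + 1) a p p' + P.G g / 4 := by
  obtain ⟨m, hm0, hmb, hm, -, hsum⟩ := P.En_split (w := w) h a hp hp'
  have hKp : (0 : ℝ) < P.K := by exact_mod_cast hP.K_pos
  have hs : k / P.K < 3 := (Nat.div_lt_iff_lt_mul hP.K_pos).2 hk
  have h1 := P.capt_chain A h k a g (fun j => m j / P.r g) (fun j => P.div_le_Qg g (hm j))
  simp only [hm0, hmb] at h1
  have he := P.eR_pos g
  have hf := P.fl_le_eR g
  have hn : (0 : ℝ) ≤ P.nbm := Nat.cast_nonneg _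
  have h2 : ∀ j ∈ range P.b, P.nut A h k (a * P.b + j) g (m j / P.r g) (m (j + 1) / P.r g) ≤
      2 * c * P.En w h (a * P.b + j) (m j) (m (j + 1)) + 5 * ((P.nbm + 1) * P.eR g) := by
    intro j hj
    have hj' := P.child_lt hh ha (mem_range.1 hj)
    have hE : (0 : ℝ) ≤ P.En w h (a * P.b + j) (m j) (m (j + 1)) := Nat.cast_nonneg _
    have hE2 : (P.En w h (a * P.b + j) (m j) (m (j + 1)) : ℝ) ≤
        c * P.En w h (a * P.b + j) (m j) (m (j + 1)) := le_mul_of_one_le_left hE hc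
    have r1 := P.dR_round g (m j)
    have r2 := P.dR_round g (m (j + 1))
    have hne : P.eR g ≤ (P.nbm + 1) * P.eR g := le_mul_of_one_le_left he.le (by linarith)
    refine (nut_le hK (P.div_le_Qg g (hm j)) (P.div_le_Qg g (hm (j + 1)))).trans (max_le ?_ ?_)
    · have t1 := P.dR_tri (P.r g * (m j / P.r g)) (m j) (P.r g * (m (j + 1) / P.r g))
      have t2 := P.dR_tri (m j) (m (j + 1)) (P.r g * (m (j + 1) / P.r g))
      have t3 := (crude2_En P w h (a * P.b + j) (m j) (m (j + 1))).2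
      rw [P.dR_comm (P.r g * (m j / P.r g)) (m j)] at t1
      linarith
    · have z1 := (Zb_le hP A (k / P.K - 1) h (a * P.b + j) g (P.r g * (m j / P.r g))
        (P.r g * (m (j + 1) / P.r g))).1
      have z2 := avZ_lip hP hS (k / P.K - 1) h (a * P.b + j) g (P.r g * (m j / P.r g))
        (P.r g * (m (j + 1) / P.r g)) (m j) (m (j + 1))
      rw [P.dR_comm (P.r g * (m j / P.r g)) (m j),
        P.dR_comm (P.r g * (m (j + 1) / P.r g)) (m (j + 1))] at z2
      have z3 : P.avZ A (k / P.K - 1) h (a * P.b + j) g (m j) (m (j + 1)) ≤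
          2 * c * P.En w h (a * P.b + j) (m j) (m (j + 1)) + 2 * P.fl g := by
        unfold avZ
        rw [div_le_iff₀ hKp]
        refine (sum_le_card_nsmul _ _ _ fun k' hk' => crude2_Zt hP hS ?_ (by omega) hj' g (hm j)
          (hm (j + 1)) hc fun i => hV k' (mem_range.1 hk') _ hj' i _ (hm j) _ (hm (j + 1))).trans ?_
        · have h3 : (k / P.K - 1) * P.K ≤ 1 * P.K := Nat.mul_le_mul_right _ (by omega)
          have h4 := mem_range.1 hk'
          unfold KK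
          omega
        · rw [card_range, nsmul_eq_mul, mul_comm]
      have z4 : (P.nbm + 1) * (P.dR (m j) (P.r g * (m j / P.r g)) +
          P.dR (m (j + 1)) (P.r g * (m (j + 1) / P.r g))) ≤ (P.nbm + 1) * (2 * P.eR g) :=
        mul_le_mul_of_nonneg_left (by linarith) (by linarith)
      linarith
  have h3 := sum_le_sum h2
  rw [sum_add_distrib, ← mul_sum, hsum, sum_const, card_range, nsmul_eq_mul] at h3
  have h4 := crude2_eR hP g
  have h5 := P.G_pos g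
  linarith

theorem crude2_opt (hP : P.Good) {h k a g p p' : ℕ} {c : ℝ} (hc : 4 * c ≤ 2 ^ P.cs)
    (hp : p ≤ P.Qm) (hp' : p' ≤ P.Qm)
    (hcap : P.capt A h k a g (p / P.r g) (p' / P.r g) ≤
      2 * c * P.En w (h + 1) a p p' + P.G g / 4)
    (hg : 2 ^ P.cs * (P.En w (h + 1) a p p' : ℝ) ≤ 2 ^ P.ga * P.G g) :
    P.IsOpt (P.ctx (A h) a) k g (p / P.r g) (p' / P.r g) := by
  refine (isOpt_iff hP).2 ⟨P.div_le_Qg g hp, P.div_le_Qg g hp', le_trans hcap ?_⟩
  have hE : (0 : ℝ) ≤ P.En w (h + 1) a p p' := Nat.cast_nonneg _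
  have h1 := mul_le_mul_of_nonneg_right hc hE
  have h2 := P.G_pos g
  have h3 : P.G g ≤ 2 ^ P.ga * P.G g := le_mul_of_one_le_left h2.le (one_le_pow₀ one_le_two)
  linarith

theorem crude2_step (hP : P.Good) (hS : P.Star w A) {k : ℕ} (hK : P.K ≤ k) (hk : k < P.KK) {c : ℝ}
    (hc : 1 ≤ c) (hc' : 4 * c ≤ 2 ^ P.cs)
    (hV : ∀ h ≤ P.D, ∀ k' < P.K, ∀ a < P.b ^ (P.D - h), ∀ i, ∀ p ≤ P.Qm, ∀ p' ≤ P.Qm,
      P.VA w A h ((k / P.K - 1) * P.K + k') a i p p' ≤ c * P.En w h a p p' + P.mu * 2 ^ i)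
    {h : ℕ} (hh : h ≤ P.D) {a : ℕ} (ha : a < P.b ^ (P.D - h)) (i : ℕ) {p p' : ℕ} (hp : p ≤ P.Qm)
    (hp' : p' ≤ P.Qm) : P.VA w A h k a i p p' ≤ 4 * c * P.En w h a p p' + P.mu * 2 ^ i := by
  have hE : (0 : ℝ) ≤ P.En w h a p p' := Nat.cast_nonneg _
  have hE2 : (P.En w h a p p' : ℝ) ≤ c * P.En w h a p p' := le_mul_of_one_le_left hE hc
  have hmu : 0 ≤ P.mu * 2 ^ i := mul_nonneg P.mu_pos.le (by positivity)
  have hd := (crude2_En P w h a p p').2
  by_cases hi : h * P.lb + P.ie + P.sh < i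
  · rw [VA_triv hi]
    have := lenR_triv hP hi
    linarith
  cases h with
  | zero =>
    rw [VA_leaf hS.wok (by omega) hp hp']
    linarith
  | succ h =>
    rw [VA_smp ⟨by omega, by omega⟩]
    by_cases hsat : (2 : ℝ) ^ (i + 1) ≤ P.En w (h + 1) a p p'
    · exact (P.VG_le_cap _ _ _ _ _ _ _).trans (max_le (by linarith) (by linarith))
    rw [not_le] at hsat
    have hga : (0 : ℝ) < 2 ^ P.ga := by positivity
    obtain ⟨g, hg1, hg2, hg3⟩ := P.exists_scale (2 ^ P.cs * P.En w (h + 1) a p p' / 2 ^ P.ga) i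
    rw [div_le_iff₀ hga, mul_comm (P.G g)] at hg2
    have hG := P.G_pos g
    have hg4 : g = i ∨ P.G g ≤ P.En w (h + 1) a p p' := by
      refine hg3.imp id fun h3 => h3.le.trans ?_
      have h4 : (2 : ℝ) ^ (P.cs + 1) ≤ 2 ^ P.ga :=
        pow_le_pow_right₀ one_le_two (by have := hP.ga1; omega)
      rw [← mul_div_assoc, div_le_iff₀ hga, ← mul_assoc, ← pow_succ', mul_comm]
      exact mul_le_mul_of_nonneg_left h4 hE
    have hg5 : g < i + P.NG := by
      rcases hg4 with h4 | h4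
      · unfold NG; omega
      · have h5 : (2 : ℝ) ^ g < 2 ^ (P.gp + (i + 1)) := by
          rw [P.two_pow_eq g, pow_add]
          exact mul_lt_mul_of_pos_left (h4.trans_lt hsat) (by positivity)
        have h6 := (pow_lt_pow_iff_right₀ (one_lt_two (α := ℝ))).1 h5
        unfold NG; omega
    have hcap := crude2_capt hP hS hh hK hk hc (hV h (by omega)) ha g hp hp'
    have ho := crude2_opt hP hc' hp hp' hcap hg2
    refine (VG_le_opt _ hg1 hg5 ho p p').trans (max_le (by linarith) ?_)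
    have hT : P.TmR (P.ctx (A h) a) k (P.PsA A h k a) g (p / P.r g) (p' / P.r g) * P.un g ≤
        P.capt A h k a g (p / P.r g) (p' / P.r g) := by
      unfold TmR capt
      rw [if_neg (by omega)]
      exact mul_le_mul_of_nonneg_right (min_le_left _ _) (P.un_pos g).le
    have r1 := P.dR_round g p
    have r2 := P.dR_round g p'
    have he := P.eR_pos g
    have h7 := crude2_eR hP g
    have hn : (0 : ℝ) ≤ P.nbm := Nat.cast_nonneg _
    have hb : (1 : ℝ) ≤ P.b := by exact_mod_cast P.b_pos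
    have h8 : P.eR g ≤ (P.nbm + 1) * P.eR g := le_mul_of_one_le_left he.le (by linarith)
    have h9 : (P.nbm + 1) * P.eR g ≤ P.b * ((P.nbm + 1) * P.eR g) :=
      le_mul_of_one_le_left (by linarith) hb
    have h10 : P.G g ≤ P.En w (h + 1) a p p' + P.mu * 2 ^ i := by
      rcases hg4 with h4 | h4
      · have h5 : (2 : ℝ) ^ P.nm ≤ 2 ^ P.gp :=
          pow_le_pow_right₀ one_le_two (by have := hP.gp2; omega)
        have h6 : P.G g ≤ P.mu * 2 ^ i := by
          unfold G mu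
          rw [h4, one_div_mul_eq_div]
          exact div_le_div_of_nonneg_left (by positivity) (by positivity) h5
        linarith
      · linarith
    unfold xo
    linarith

theorem crude2_stage (hP : P.Good) (hS : P.Star w A) (s : ℕ) : ∀ k < P.KK, k / P.K = s →
    ∀ h ≤ P.D, ∀ a < P.b ^ (P.D - h), ∀ i, ∀ p ≤ P.Qm, ∀ p' ≤ P.Qm,
      P.VA w A h k a i p p' ≤ 2 ^ P.cs * 4 ^ s / 16 * P.En w h a p p' + P.mu * 2 ^ i := by
  have hcs := crude2_cs hP
  induction s with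
  | zero =>
    intro k _ hs h hh a ha i p hp p' hp'
    have hk : k < P.K := by
      have := (Nat.div_lt_iff_lt_mul hP.K_pos).1 (show k / P.K < 1 by omega)
      omega
    simpa using crude0 hP hS hh hk ha i hp hp'
  | succ s ih =>
    intro k hk hs h hh a ha i p hp p' hp'
    have hs3 : k / P.K < 3 := (Nat.div_lt_iff_lt_mul hP.K_pos).2 hk
    have hK : P.K ≤ k := by
      have := (Nat.le_div_iff_mul_le hP.K_pos).1 (show 1 ≤ k / P.K by omega)
      omega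
    have h4 : (1 : ℝ) ≤ 4 ^ s := one_le_pow₀ (by norm_num)
    have h5 : (4 : ℝ) ^ s ≤ 4 ^ 1 := pow_le_pow_right₀ (by norm_num) (by omega)
    have h6 := crude2_step hP hS hK hk (c := 2 ^ P.cs * 4 ^ s / 16) (by nlinarith) (by nlinarith)
      (fun h hh k' hk' => ih _ ?_ ?_ h hh) hh ha i hp hp'
    · rw [pow_succ]
      linarith
    · have h3 : (k / P.K - 1) * P.K ≤ 1 * P.K := Nat.mul_le_mul_right _ (by omega)
      unfold KK
      omega
    · rw [hs, Nat.add_sub_cancel, mul_comm, Nat.mul_add_div hP.K_pos, Nat.div_eq_of_lt hk']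
      rfl

theorem crude_st (hP : P.Good) (hS : P.Star w A) {k : ℕ} (hk : k < P.KK) {h : ℕ} (hh : h ≤ P.D)
    {a : ℕ} (ha : a < P.b ^ (P.D - h)) (i : ℕ) {p p' : ℕ} (hp : p ≤ P.Qm) (hp' : p' ≤ P.Qm) :
    P.VA w A h k a i p p' ≤ P.cr k * P.En w h a p p' + P.mu * 2 ^ i :=
  crude2_stage hP hS _ k hk rfl h hh a ha i p hp p' hp'

theorem crude (hP : P.Good) (hS : P.Star w A) {k : ℕ} (hk : k < P.KK) {h : ℕ} (hh : h ≤ P.D)
    {a : ℕ} (ha : a < P.b ^ (P.D - h)) (i : ℕ) {p p' : ℕ} (hp : p ≤ P.Qm) (hp' : p' ≤ P.Qm) :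
    P.VA w A h k a i p p' ≤ 2 ^ P.cs * P.En w h a p p' + P.mu * 2 ^ i := by
  have h1 := crude_st hP hS hk hh ha i hp hp'
  have hs3 : k / P.K < 3 := (Nat.div_lt_iff_lt_mul hP.K_pos).2 hk
  have h5 : (4 : ℝ) ^ (k / P.K) ≤ 4 ^ 2 := pow_le_pow_right₀ (by norm_num) (by omega)
  have h2 : P.cr k ≤ 2 ^ P.cs := by
    have : (0 : ℝ) < 2 ^ P.cs := by positivity
    unfold cr
    nlinarith
  have h3 := mul_le_mul_of_nonneg_right h2 (Nat.cast_nonneg (α := ℝ) (P.En w h a p p'))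
  linarith

theorem Zt_crude (hP : P.Good) (hS : P.Star w A) {k : ℕ} (hk : k < P.KK) {h : ℕ} (hh : h ≤ P.D)
    {a : ℕ} (ha : a < P.b ^ (P.D - h)) (g : ℕ) {p p' : ℕ} (hp : p ≤ P.Qm) (hp' : p' ≤ P.Qm) :
    P.Zt A h k a g p p' ≤ 2 ^ (P.cs + 1) * P.En w h a p p' + 2 * P.fl g := by
  rw [pow_succ']
  exact crude2_Zt hP hS hk hh ha g hp hp' (one_le_pow₀ one_le_two)
    fun i => crude hP hS hk hh ha i hp hp'

/-- The rounded state is an option as soon as the scale is not too small. -/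
theorem isOpt_round (hP : P.Good) (hS : P.Star w A) {h : ℕ} (hh : h + 1 ≤ P.D) {k : ℕ}
    (hK : P.K ≤ k) (hk : k < P.KK) {a : ℕ} (ha : a < P.b ^ (P.D - (h + 1))) {g p p' : ℕ}
    (hp : p ≤ P.Qm) (hp' : p' ≤ P.Qm)
    (hg : 2 ^ P.cs * (P.En w (h + 1) a p p' : ℝ) ≤ 2 ^ P.ga * P.G g) :
    P.IsOpt (P.ctx (A h) a) k g (p / P.r g) (p' / P.r g) := by
  have hcs := crude2_cs hP
  have hs3 : k / P.K < 3 := (Nat.div_lt_iff_lt_mul hP.K_pos).2 hk
  have h4 : (1 : ℝ) ≤ 4 ^ (k / P.K - 1) := one_le_pow₀ (by norm_num)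
  have h5 : (4 : ℝ) ^ (k / P.K - 1) ≤ 4 ^ 1 := pow_le_pow_right₀ (by norm_num) (by omega)
  refine crude2_opt hP (c := 2 ^ P.cs * 4 ^ (k / P.K - 1) / 16) (by nlinarith) hp hp'
    (crude2_capt hP hS hh hK hk (by nlinarith) (fun k' hk' =>
      crude2_stage hP hS _ _ ?_ ?_ h (by omega)) ha g hp hp') hg
  · have h3 : (k / P.K - 1) * P.K ≤ 1 * P.K := Nat.mul_le_mul_right _ (by omega)
    unfold KK
    omega
  · rw [mul_comm, Nat.mul_add_div hP.K_pos, Nat.div_eq_of_lt hk']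
    rfl

end Pm

end Vale.Agent.P315F
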