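import Vale.Agent.P315.Defs

/-! Near-linear `(1+ε)`-approximation of the edit distance for all distances: mathematical
description of the algorithm.  See `skeleton/P315F/PROOF.md`.

Shift model: step `u` is an antidiagonal, position `p = shift + O ∈ [0, Q]`, a path pays
`J * w u p + J0` for step `u` at position `p` and `J` per unit of movement.  Node `(h, a)` of a `b`-ary tree
covers the steps `[a * b^h, (a+1) * b^h)`.  A *band table* for band `i` stores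
`U1 * hh (V / 2^i)` where `V p p'` estimates the cost of the node from `p` to `p'`. -/

namespace Vale.Agent.P315F

open Finset Vale.Agent.P315

/-! ### The shift model -/

/-- Cheapest path over the steps `u, …, u + len - 1` from position `p` to position `p'`. -/
def E (w : ℕ → ℕ → ℕ) (Q : ℕ) : ℕ → ℕ → ℕ → ℕ → ℕ
  | 0, _, p, p' => Nat.dist p p'
  | len + 1, u, p, p' => (range (Q + 1)).inf' nonempty_range_add_one
      (fun q => Nat.dist p q + w u q + E w Q len (u + 1) q p')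

def WOk (w : ℕ → ℕ → ℕ) : Prop := (∀ u p, w u p ≤ 1) ∧ ∀ u p, w u p = 0 ∨ w u (p + 1) = 0

/-- The weights of a pair of strings. -/
def wt (x y : List ℕ) (O u p : ℕ) : ℕ :=
  if x.length + y.length ≤ u then 0
  else if (u + p + O) % 2 = 1 then 0
  else if O ≤ u + p ∧ p ≤ u + O ∧ (u + p - O) / 2 < x.length ∧ (u + O - p) / 2 < y.length ∧
      x.getD ((u + p - O) / 2) 0 = y.getD ((u + O - p) / 2) 0 then 0 else 1

def leafE (w : ℕ → ℕ → ℕ) (u p p' : ℕ) : ℕ := if p = p' then w u p else Nat.dist p p'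

/-! ### The band profile -/

noncomputable def xi (m : ℕ) (y : ℝ) : ℝ := if y ≤ 1 then y ^ m / m else y - 1 + 1 / m

noncomputable def hh (m : ℕ) (y : ℝ) : ℝ := xi m y - 2 * xi m (y / 2)

/-- Integer form of `U * hh m (y / U)`. -/
def Hn (m U y : ℕ) : ℕ :=
  if min y (2 * U) ≤ U then
    min y (2 * U) ^ m * (2 ^ (m - 1) - 1) / (m * U ^ (m - 1) * 2 ^ (m - 1))
  else ((min y (2 * U) - U + U / m) * (m * U ^ (m - 1) * 2 ^ (m - 1)) - min y (2 * U) ^ m) /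
    (m * U ^ (m - 1) * 2 ^ (m - 1))

/-! ### Integer soft minimum -/

/-- Fixed point table of `Wz * (1 - 1/T)^x`. -/
def EXg (Wz T : ℕ) : ℕ → ℕ
  | 0 => Wz
  | x + 1 => EXg Wz T x - EXg Wz T x / T

def Fh (Om Xm Wz T : ℕ) (X : ℕ → ℕ) : ℕ :=
  (range Om).fold min Xm X + ∑ y ∈ range Xm,
    if ∑ o ∈ range Om, EXg Wz T (X o - (range Om).fold min Xm X) ≤ Om * EXg Wz T (y + 1)
    then 1 else 0

noncomputable def tauT (T : ℕ) : ℝ := -1 / Real.log (1 - 1 / (T : ℝ))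

/-! ### Prediction of break points from a family `ν j n` of block tables
(`ν j n` belongs to the block of the children `j, …, j + n - 1`) -/

/-- Index of a minimum of `f 0, …, f (n-1)`. -/
def amin (n : ℕ) (f : ℕ → ℕ) : ℕ := (range n).fold min (f 0 * n) (fun d => f d * n + d) % n

/-- Candidate number `d` between `Q` and `Q'`. -/
def cand (Q Q' d : ℕ) : ℕ := min Q Q' + min d (Nat.dist Q Q')

/-- `⌊|φ|⌋` with `φ = ug * ((M - Q) - (Q' - Q) * x / (x + y))`. -/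
def phiN (ug x y Q M Q' : ℕ) : ℕ :=
  ug * Nat.dist (M * (x + y) + Q * x) (Q * (x + y) + Q' * x) / (x + y)

noncomputable def phiR (ug : ℕ) (x y : ℝ) (Q M Q' : ℕ) : ℝ :=
  ug * (((M : ℝ) - Q) - ((Q' : ℝ) - Q) * x / (x + y))

/-- Predicted break point number `j` of a node with `b` children and ends `Q, Q'`. -/
def pred (ν : ℕ → ℕ → Tab) (Rn ug b Q Q' j : ℕ) : ℕ :=
  cand Q Q' (amin (Rn + 1) (fun d =>
    phiN ug (ν 0 j Q (cand Q Q' d)) (ν j (b - j) (cand Q Q' d) Q') Q (cand Q Q' d) Q'))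

/-- Capped Lipschitz closure of a table given on grid coordinates. -/
def nuC (Qg ug Cn : ℕ) (z : Tab) : Tab := fun Q Q' =>
  max (Nat.dist Q Q' * ug) ((range (Qg + 1) ×ˢ range (Qg + 1)).fold min Cn
    (fun M => (Nat.dist Q M.1 + Nat.dist Q' M.2) * ug + z M.1 M.2))

/-- Capped min-plus product of the tables `ν0 j, …, ν0 (j + n - 1)`. -/
def nuF (Qg ug Cn : ℕ) (ν0 : ℕ → Tab) (j : ℕ) : ℕ → Tab
  | 0 => fun Q Q' => Nat.dist Q Q' * ug
  | n + 1 => fun Q Q' => max (Nat.dist Q Q' * ug) ((range (Qg + 1)).fold min Cn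
      (fun M => nuF Qg ug Cn ν0 j n Q M + ν0 (j + n) M Q'))

noncomputable def PsiP (d v : ℝ) : ℝ := d ^ 2 / v + v

/-! ### Parameters -/

structure Pm where
  lb : ℕ
  lm : ℕ
  ell : ℕ
  k0 : ℕ
  K : ℕ
  S : ℕ
  D : ℕ
  fp : ℕ
  gp : ℕ
  rh : ℕ
  ga : ℕ
  sh : ℕ
  ie : ℕ
  mh : ℕ
  s0 : ℕ
  wz : ℕ
  eh : ℕ
  dh : ℕ
  kp : ℕ
  /-- The remaining parameters occur in the analysis only. -/
  th : ℕ
  sg : ℕ
  ch : ℕ
  ne : ℕ
  nm : ℕ
  cs : ℕ
  an : ℕ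
  r1 : ℕ
  tt : ℕ

/-- Official tables of the children of a node: round, child, band. -/
abbrev Ctx := ℕ → ℕ → ℕ → Tab

namespace Pm

variable (P : Pm)

def b : ℕ := 2 ^ P.lb
def U1 : ℕ := 2 ^ P.fp
def mm : ℕ := 2 ^ P.mh
def J : ℕ := 2 ^ P.sh
def J0 : ℕ := 2 ^ P.dh
def O : ℕ := 2 ^ (P.kp + 1)
def Qm : ℕ := 2 ^ (P.kp + 2)
def NA : ℕ := P.b ^ P.D
def nbm : ℕ := P.gp + P.rh + P.lb + 3
def NG : ℕ := P.gp + P.rh + 2
def NS : ℕ := P.lm + P.lb + P.gp + P.rh + 4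
def N : ℕ := P.NS * P.b
def NI : ℕ := P.D * P.lb + P.ie + P.sh + 1
def KK : ℕ := 3 * P.K
def Bz : ℕ := 2 ^ (P.rh + 2)
def Om : ℕ := P.Bz ^ P.b
def Rn : ℕ := 2 ^ (P.ga + P.rh + 1)
def Wz : ℕ := 2 ^ P.wz
def Xmax : ℕ := (P.K + 4) * P.b * P.U1 * 2 ^ (P.nbm + 2)
def emax : ℕ := P.fp + P.rh + P.lb
def SZ (m : ℕ) : ℕ := (2 * P.N) ^ m
def HS : ℕ := P.KK * P.NA * P.NI * (P.k0 + 1) * P.S * P.SZ P.ell

/-- Grid step, number of grid steps in the box, tube radius in grid steps, lowest and highest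
band, `G` and one grid step in units of `2^lo / U1`, for the scale `g` (`G = 2^g / 2^gp`). -/
def r (g : ℕ) : ℕ := 2 ^ (g - P.gp - P.rh - P.sh)
def Qg (g : ℕ) : ℕ := P.Qm / P.r g
def rad (g : ℕ) : ℕ := 2 ^ g / 2 ^ (P.gp + P.sh) / P.r g
def lo (g : ℕ) : ℕ := g - P.gp - P.rh - P.lb
def hi (_P : Pm) (g : ℕ) : ℕ := g + 2
def ee (g : ℕ) : ℕ := g + P.fp - P.gp - P.lo g
def ug (g : ℕ) : ℕ := 2 ^ (g - P.gp - P.rh - P.sh + P.sh + P.fp - P.lo g)
def T (g : ℕ) : ℕ := 2 ^ (P.ee g + P.s0)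

def H (y : ℕ) : ℕ := Hn P.mm P.U1 y
/-- Distance in units of `2^i / U1`. -/
def dN (i p p' : ℕ) : ℕ := Nat.dist p p' * P.J * P.U1 / 2 ^ i
def lenN (h i : ℕ) : ℕ := 2 ^ (h * P.lb + P.sh + 1 + P.fp - i)

/-! Real constants of the analysis. -/
/-- Distance in true units. -/
noncomputable def dR (p p' : ℕ) : ℝ := Nat.dist p p' * P.J
noncomputable def G (g : ℕ) : ℝ := 2 ^ g / 2 ^ P.gp
noncomputable def eR (g : ℕ) : ℝ := P.G g / 2 ^ P.rh
noncomputable def fl (g : ℕ) : ℝ := P.eR g / P.b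
/-- One unit of the scale `g` in true units. -/
noncomputable def un (g : ℕ) : ℝ := 2 ^ P.lo g / P.U1
noncomputable def lenR (h i : ℕ) : ℝ := P.lenN h i * 2 ^ i / P.U1
noncomputable def tiny : ℝ := 1 / 2 ^ P.th
noncomputable def t0 : ℝ := P.U1 / 2 ^ P.th
noncomputable def eta : ℝ := 1 / 2 ^ P.ne
noncomputable def mu : ℝ := 1 / 2 ^ P.nm
noncomputable def del : ℝ := 1 / 2 ^ P.dh
noncomputable def eps : ℝ := 1 / 2 ^ P.eh
noncomputable def sig : ℝ := 1 / 2 ^ P.sg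
noncomputable def alpha (j : ℕ) : ℝ := 1 / 2 ^ (P.ch * j)
noncomputable def beta (m : ℕ) : ℝ := (2048 * P.mm) ^ (m + 1) * P.sig
/-- Number of options near a state. -/
def nOpt : ℕ := P.NG * 4 ^ (P.gp + P.rh + 3)
def Mc : ℕ := P.nOpt * (P.N * P.Bz ^ 2 + 1)
noncomputable def pf (m : ℕ) : ℝ := 4 * P.Mc ^ m * Real.exp (-(2 ^ P.lm * P.sig ^ 2) / 32)
noncomputable def om1 : ℝ := 32 * P.b * (P.nbm + 1) / 2 ^ P.rh
noncomputable def kR : ℝ := 2 ^ P.s0 * P.b * (P.rh + 2) / P.K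
noncomputable def kap : ℝ := P.om1 + P.kR
noncomputable def kD : ℝ := 14 * P.del + 32 * P.kap
noncomputable def cPsi : ℝ := 4 * (P.nbm + 1) + 10
noncomputable def om3 : ℝ := 32 * P.b * P.cPsi / 2 ^ P.rh
noncomputable def Th (h : ℕ) : ℝ := 2 * 2 ^ P.an + h * (P.kD * (2 ^ P.an + 1) + P.om3)
noncomputable def k4 : ℝ :=
  2 / 2 ^ P.r1 + 4 * 2 ^ P.eh * ((2 ^ P.an + 1) / (8 * 2 ^ P.tt) + 1 / P.U1)
/-- Crude approximation factor in round `k`. -/
noncomputable def cr (k : ℕ) : ℝ := 2 ^ P.cs * 4 ^ (k / P.K) / 16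

/-- Conditions on the parameters (none of them involves `kp`). -/
structure Good : Prop where
  lb_ge : 2 ≤ P.lb
  lm_le : P.lm ≤ P.gp + P.rh
  ell_pos : 1 ≤ P.ell
  K_pos : 1 ≤ P.K
  S_pos : 1 ≤ P.S
  D_pos : 1 ≤ P.D
  mh_ge : 4 ≤ P.mh
  mh_le : P.mh ≤ P.fp
  th_le : P.th ≤ 2 ^ P.mh
  ne_le : P.ne + 1 ≤ 2 ^ P.mh
  th_ge : P.nbm + 2 ≤ P.th
  fp1 : P.gp + P.rh + P.lb + 6 ≤ P.fp
  fp2 : P.ne + P.th + 3 ≤ P.fp
  fp3 : P.ie ≤ P.fp
  fp4 : P.th + P.ch * P.k0 + P.sg + 4 ≤ P.fp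
  nm_ge : P.ne + P.mh + 5 ≤ P.nm
  ie_ge : P.nm ≤ P.ie
  ne_ge : 4 * (P.D + 2) * 2 ^ P.dh ≤ 2 ^ P.ne
  dh_ge : 14 * (P.D + 1) * 2 ^ P.eh ≤ 2 ^ P.dh
  eh_ge : 6 ≤ P.eh
  sh_ge : P.dh + P.D * P.lb + P.eh + 3 ≤ P.sh
  k0_ge : P.ne + P.mh + 9 ≤ P.ch * P.k0
  ch_pos : 1 ≤ P.ch
  sg_ge : P.ell * (11 + P.mh) + 1 + P.ch ≤ P.sg
  sg_le : P.sg ≤ P.lm
  s0_ge : 40 * P.b * P.nbm * 2 ^ P.sg ≤ 2 ^ P.s0
  Wz_gt : P.Om * (2 ^ (P.emax + P.s0)) ^ 2 < P.Wz
  pf_le : P.pf P.ell * P.U1 ≤ 1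
  gp1 : 16 * P.b * (P.nbm + 1) * 2 ^ P.nm ≤ 2 ^ P.gp
  cs_ge : 1024 * (P.D + 1) * P.b * (P.nbm + 1) ≤ 2 ^ P.cs
  r1_pos : 1 ≤ P.r1
  ga1 : P.cs + 1 + P.r1 ≤ P.ga
  ga2 : P.an + P.r1 + 3 ≤ P.ga
  gp2 : P.cs + P.ga + P.nm + 3 ≤ P.gp
  rh_ge : 512 * P.b * (P.nbm + 1) * 2 ^ P.eh ≤ 2 ^ P.rh
  an_ge : 2 * (2 + 16 * P.D * P.kap) ≤ 2 ^ P.an
  fin1 : P.D * P.kap * P.k4 ≤ P.eps
  fin2 : P.kap * (8 * 2 ^ P.eh * 2 ^ P.tt) * (P.Th P.D + 1) ≤ P.eps

/-- Approximate Lipschitz property of a table of band `i`. -/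
def LipR (i : ℕ) (t : TabR) : Prop :=
  ∀ p p' q q', t p p' ≤ t q q' + (P.dR p q + P.dR p' q') * P.U1 / 2 ^ i + 6

def toR (_P : Pm) (t : Tab) : TabR := fun p p' => (t p p' : ℝ)

/-! ### One step of the recursion -/

/-- The value of a node at scale `g` (units `2^lo / U1`) from its band tables. -/
def zX (t : ℕ → Tab) (g : ℕ) : Tab := fun p p' =>
  (P.U1 - P.U1 / P.mm) + ∑ β ∈ range P.nbm,
    if P.lo g + β ≤ P.hi g then 2 ^ β * t (P.lo g + β) p p' else 0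

noncomputable def zR (t : ℕ → TabR) (g : ℕ) : TabR := fun p p' =>
  (P.U1 - P.U1 / P.mm : ℕ) + ∑ β ∈ range P.nbm,
    if P.lo g + β ≤ P.hi g then 2 ^ β * t (P.lo g + β) p p' else 0

/-- Sum over the children along the break points `qq` (grid coordinates of scale `g`). -/
def val (t : ℕ → ℕ → Tab) (g : ℕ) (qq : ℕ → ℕ) : ℕ :=
  ∑ j ∈ range P.b, P.zX (t j) g (P.r g * qq j) (P.r g * qq (j + 1))

noncomputable def valR (t : ℕ → ℕ → TabR) (g : ℕ) (qq : ℕ → ℕ) : ℝ :=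
  ∑ j ∈ range P.b, P.zR (t j) g (P.r g * qq j) (P.r g * qq (j + 1))

/-- The prior: the earlier rounds of the same stage (stage `k / K`). -/
def cum (X : Ctx) (k g : ℕ) (qq : ℕ → ℕ) : ℕ :=
  ∑ k' ∈ Ico (k / P.K * P.K) k, P.val (X k') g qq

/-- Average of the tables of the stage `s`. -/
def avT (X : Ctx) (s j i : ℕ) : Tab := fun p p' =>
  (∑ k ∈ range P.K, X (s * P.K + k) j i p p') / P.K

/-- Value of child `j` in the previous stage, on the grid of scale `g`. -/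
def zb (X : Ctx) (k g j : ℕ) : Tab := fun Q Q' =>
  if k < P.K then 0 else P.zX (P.avT X (k / P.K - 1) j) g (P.r g * Q) (P.r g * Q')

def nu0 (X : Ctx) (k g j : ℕ) : Tab := nuC (P.Qg g) (P.ug g) (P.Rn * P.ug g) (P.zb X k g j)

def nu (X : Ctx) (k g : ℕ) : ℕ → ℕ → Tab :=
  nuF (P.Qg g) (P.ug g) (P.Rn * P.ug g) (P.nu0 X k g)

/-- Value of the option `(g, Q, Q')` according to the previous stage. -/
def cap (X : Ctx) (k g Q Q' : ℕ) : ℕ := P.nu X k g 0 P.b Q Q'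

/-- The reference path of the option `(g, Q, Q')`. -/
def ref (X : Ctx) (k g Q Q' j : ℕ) : ℕ := pred (P.nu X k g) P.Rn (P.ug g) P.b Q Q' j

def qd (X : Ctx) (k g Q Q' j d : ℕ) : ℕ :=
  if j = 0 then Q else if P.b ≤ j then Q'
  else min (P.Qg g) (P.ref X k g Q Q' j + d % (2 * P.rad g + 1) - P.rad g)

/-- Break point `j` of the member `o` of the tube. -/
def q (X : Ctx) (k g Q Q' o j : ℕ) : ℕ := P.qd X k g Q Q' j (o / P.Bz ^ j % P.Bz)

/-- Sampling slot `n` of a pass for band `i`: band of the child, activity at scale `g`. -/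
def bd (i n : ℕ) : ℕ := i + n / P.b - (P.lm + P.lb)

def act (i n : ℕ) : Prop := P.lm + P.lb ≤ i + n / P.b ∧ n % P.b < 2 ^ (n / P.b)

instance (i n : ℕ) : Decidable (P.act i n) := inferInstanceAs (Decidable (_ ∧ _))

/-- Weight of slot `n` at scale `g` (zero if the slot is not used). -/
def wgt (i g n : ℕ) : ℕ :=
  if P.act i n ∧ P.lo g ≤ P.bd i n ∧ P.bd i n ≤ P.hi g then
    2 ^ (P.lb - n / P.b) * 2 ^ (P.bd i n - P.lo g) else 0

/-- Control variate correction, shifted up by `off`. -/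
def smpS (i : ℕ) (L : ℕ → ℕ → Tab) (Jc : ℕ → ℕ) (Rr : ℕ → Tab) (g : ℕ) (qq : ℕ → ℕ) : ℕ :=
  ∑ n ∈ range P.N, P.wgt i g n *
    (Rr n (P.r g * qq (Jc n)) (P.r g * qq (Jc n + 1)) + P.U1 -
      L (Jc n) (P.bd i n) (P.r g * qq (Jc n)) (P.r g * qq (Jc n + 1)))

def off (i g : ℕ) : ℕ := ∑ n ∈ range P.N, P.wgt i g n * P.U1

def FhP (g : ℕ) (Y : ℕ → ℕ) : ℕ := Fh P.Om P.Xmax P.Wz (P.T g) Y

/-- Integer soft-min increment for the values `Y g qq`, shifted by `c g`. -/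
def PsN (X : Ctx) (k : ℕ) (Y : ℕ → (ℕ → ℕ) → ℕ) (c : ℕ → ℕ) (g Q Q' : ℕ) : ℕ :=
  P.FhP g (fun o => P.cum X k g (P.q X k g Q Q' o) + Y g (P.q X k g Q Q' o)) -
    P.FhP g (fun o => P.cum X k g (P.q X k g Q Q' o)) - c g

/-- Real soft-min increment. -/
noncomputable def PsR (X : Ctx) (k : ℕ) (Y : ℕ → (ℕ → ℕ) → ℝ) (g Q Q' : ℕ) : ℝ :=
  sm (tauT (P.T g)) P.Om
      (fun o => (P.cum X k g (P.q X k g Q Q' o) : ℝ) + Y g (P.q X k g Q Q' o)) -
    sm (tauT (P.T g)) P.Om (fun o => (P.cum X k g (P.q X k g Q Q' o) : ℝ))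

def TmN (X : Ctx) (k : ℕ) (Ps : ℕ → ℕ → ℕ → ℕ) (g Q Q' : ℕ) : ℕ :=
  if k < P.K then Ps g Q Q' else min (P.cap X k g Q Q') (Ps g Q Q')

noncomputable def TmR (X : Ctx) (k : ℕ) (Ps : ℕ → ℕ → ℕ → ℝ) (g Q Q' : ℕ) : ℝ :=
  if k < P.K then max 0 (Ps g Q Q') else min (P.cap X k g Q Q' : ℝ) (max 0 (Ps g Q Q'))

/-- `(g, Q, Q')` is an option (of some band). -/
def IsOpt (X : Ctx) (k g Q Q' : ℕ) : Prop :=
  Q ≤ P.Qg g ∧ Q' ≤ P.Qg g ∧ P.cap X k g Q Q' ≤ 2 ^ (P.ga + P.ee g)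

instance (X : Ctx) (k g Q Q' : ℕ) : Decidable (P.IsOpt X k g Q Q') :=
  inferInstanceAs (Decidable (_ ∧ _))

def opts (X : Ctx) (k i : ℕ) : Finset (ℕ × ℕ × ℕ) :=
  (Ico i (i + P.NG) ×ˢ range (P.Qm + 1) ×ˢ range (P.Qm + 1)).filter
    (fun o => P.IsOpt X k o.1 o.2.1 o.2.2)

/-- Value of an option in units of `2^i / U1`, rounding allowance included. -/
def TN (X : Ctx) (k i : ℕ) (Ps : ℕ → ℕ → ℕ → ℕ) (g Q Q' : ℕ) : ℕ :=
  P.TmN X k Ps g Q Q' / 2 ^ (i - P.lo g) + 1 + 2 ^ (g + P.fp - P.gp - P.rh - i)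

def VN (X : Ctx) (k h i : ℕ) (Ps : ℕ → ℕ → ℕ → ℕ) : Tab := fun p p' =>
  max (P.dN i p p') ((P.opts X k i).fold min (min (2 * P.U1) (P.dN i p p' + P.lenN h i))
    (fun o => P.dN i p (P.r o.1 * o.2.1) + P.dN i p' (P.r o.1 * o.2.2) +
      P.TN X k i Ps o.1 o.2.1 o.2.2))

/-- Value (true units) of the state `(p, p')` through the option `(g, Q, Q')`. -/
noncomputable def xo (X : Ctx) (k : ℕ) (Ps : ℕ → ℕ → ℕ → ℝ) (g Q Q' p p' : ℕ) : ℝ :=
  P.dR p (P.r g * Q) + P.dR p' (P.r g * Q') + P.TmR X k Ps g Q Q' * P.un g + P.eR g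

noncomputable def VG (X : Ctx) (k h i : ℕ) (Ps : ℕ → ℕ → ℕ → ℝ) : TabR := fun p p' =>
  max (P.dR p p') ((P.opts X k i).fold min (min (2 ^ (i + 1)) (P.dR p p' + P.lenR h i))
    (fun o => P.xo X k Ps o.1 o.2.1 o.2.2 p p'))

/-- Band table of a value `V` given in true units. -/
noncomputable def bandR (i : ℕ) (V : ℝ) : ℝ := P.U1 * hh P.mm (V / 2 ^ i)

/-- A pass just above the bottom of a window. -/
def pass0 (X : Ctx) (k h i : ℕ) : Tab := fun p p' =>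
  P.H (P.VN X k h i (P.PsN X k (P.val (X k)) (fun _ => 0)) p p')

/-- A pass higher up in a window: control variates `L`, sampled children `Jc`, sub-passes `Rr`. -/
def pass1 (X : Ctx) (k h i : ℕ) (L : ℕ → ℕ → Tab) (Jc : ℕ → ℕ) (Rr : ℕ → Tab) : Tab :=
  fun p p' => P.H (P.VN X k h i (P.PsN X k
    (fun g qq => P.val L g qq + P.smpS i L Jc Rr g qq) (P.off i)) p p')

/-- The exact step for real tables `V` of the children. -/
noncomputable def stepR (X : Ctx) (k h i : ℕ) (V : ℕ → ℕ → TabR) : TabR := fun p p' =>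
  P.bandR i (P.VG X k h i (P.PsR X k (P.valR V)) p p')

/-! ### The algorithm -/

/-- Cost of the node `(h, a)`. -/
def En (w : ℕ → ℕ → ℕ) (h a : ℕ) : Tab := fun p p' =>
  P.J * E w P.Qm (P.b ^ h) (a * P.b ^ h) p p' + P.J0 * P.b ^ h

/-- The tables of band `i` at height `h` are computed by sampling. -/
def smp (h i : ℕ) : Prop := 1 ≤ h ∧ i ≤ h * P.lb + P.ie + P.sh

instance (h i : ℕ) : Decidable (P.smp h i) := inferInstanceAs (Decidable (_ ∧ _))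

def det (w : ℕ → ℕ → ℕ) (h a i : ℕ) : Tab := fun p p' =>
  P.H (if h = 0 ∧ i ≤ P.ie + P.sh then (P.J * leafE w a p p' + P.J0) * P.U1 / 2 ^ i
    else P.dN i p p' + P.lenN h i)

noncomputable def detR (w : ℕ → ℕ → ℕ) (h a i : ℕ) : TabR := fun p p' =>
  if h = 0 ∧ i ≤ P.ie + P.sh then ((P.J * leafE w a p p' + P.J0 : ℕ) : ℝ)
  else P.dR p p' + P.lenR h i

/-- The control variate of rank zero. -/
def low (i : ℕ) : Tab := fun p p' => P.H (P.dN i p p')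

/-- `A k a i j` is the official table of round `k`, node `a`, band `i`, rank `j` at height `h`;
this is the context of the node `(h + 1, a)`. -/
def ctx (A : ℕ → ℕ → ℕ → ℕ → Tab) (a : ℕ) : Ctx := fun k j i => A k (a * P.b + j) i P.k0

/-- Random number read from the tape at (block) address `c`. -/
def jv (ρ : ℕ → Bool) (c : ℕ) : ℕ := ∑ t ∈ range P.lb, if ρ (c * P.lb + t) then 2 ^ t else 0

/-- The child used by slot `n` when the random number is `v`. -/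
def Jn (n v : ℕ) : ℕ := if P.lb ≤ n / P.b then n % P.b else v

/-- Tape address of slot `n` of a pass whose sub-passes have level `m`. -/
def sad (m ad n : ℕ) : ℕ := ad + n * (2 * P.SZ m)

/-- Tape address of pass `s` of the official table `(h, k, a, i, j)`. -/
def base (h k a i j s : ℕ) : ℕ :=
  h * P.HS + ((((k % P.KK * P.NA + a % P.NA) * P.NI + i % P.NI) * (P.k0 + 1) + j % (P.k0 + 1)) *
    P.S + s % P.S) * P.SZ P.ell

/-- Pass at height `h + 1` from the official tables `A` and the passes `Pp` of height `h`. -/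
def passF (w : ℕ → ℕ → ℕ) (ρ : ℕ → Bool) (A : ℕ → ℕ → ℕ → ℕ → Tab)
    (Pp : ℕ → ℕ → ℕ → ℕ → ℕ → Tab) (h k a i j ad : ℕ) : Tab :=
  if P.smp (h + 1) i then
    if h % P.ell = 0 then P.pass0 (P.ctx A a) k (h + 1) i
    else P.pass1 (P.ctx A a) k (h + 1) i (fun c i' => A k (a * P.b + c) i' (j - 1))
      (fun n => P.Jn n (P.jv ρ (P.sad (h % P.ell - 1) ad n)))
      (fun n => Pp k (a * P.b + P.Jn n (P.jv ρ (P.sad (h % P.ell - 1) ad n))) (P.bd i n) j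
        (P.sad (h % P.ell - 1) ad n + P.SZ (h % P.ell - 1)))
  else P.det w (h + 1) a i

/-- Official tables and passes at each height. -/
def AP (w : ℕ → ℕ → ℕ) (ρ : ℕ → Bool) :
    ℕ → (ℕ → ℕ → ℕ → ℕ → Tab) × (ℕ → ℕ → ℕ → ℕ → ℕ → Tab)
  | 0 => (fun _ a i _ => P.det w 0 a i, fun _ a i _ _ => P.det w 0 a i)
  | h + 1 =>
    (fun k a i j p p' =>
      if P.smp (h + 1) i then
        if j = 0 then P.low i p p' else
          (∑ s ∈ range P.S, P.passF w ρ (AP w ρ h).1 (AP w ρ h).2 h k a i j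
            (P.base (h + 1) k a i j s) p p') / P.S
      else P.det w (h + 1) a i p p',
      P.passF w ρ (AP w ρ h).1 (AP w ρ h).2 h)

/-- Official table `A h k a i j`. -/
def A (w : ℕ → ℕ → ℕ) (ρ : ℕ → Bool) (h : ℕ) : ℕ → ℕ → ℕ → ℕ → Tab := (P.AP w ρ h).1
/-- Pass `Pa h k a i j ad`. -/
def Pa (w : ℕ → ℕ → ℕ) (ρ : ℕ → Bool) (h : ℕ) : ℕ → ℕ → ℕ → ℕ → ℕ → Tab := (P.AP w ρ h).2

theorem A_zero (w : ℕ → ℕ → ℕ) (ρ : ℕ → Bool) (k a i j : ℕ) :
    P.A w ρ 0 k a i j = P.det w 0 a i := rfl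

theorem Pa_zero (w : ℕ → ℕ → ℕ) (ρ : ℕ → Bool) (k a i j ad : ℕ) :
    P.Pa w ρ 0 k a i j ad = P.det w 0 a i := rfl

theorem Pa_succ (w : ℕ → ℕ → ℕ) (ρ : ℕ → Bool) (h : ℕ) :
    P.Pa w ρ (h + 1) = P.passF w ρ (P.A w ρ h) (P.Pa w ρ h) h := rfl

theorem A_succ (w : ℕ → ℕ → ℕ) (ρ : ℕ → Bool) (h k a i j p p' : ℕ) :
    P.A w ρ (h + 1) k a i j p p' = if P.smp (h + 1) i then
      if j = 0 then P.low i p p' else
        (∑ s ∈ range P.S, P.Pa w ρ (h + 1) k a i j (P.base (h + 1) k a i j s) p p') / P.S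
      else P.det w (h + 1) a i p p' := rfl

/-- Scale used at the root. -/
def g0 : ℕ := P.kp + P.sh + P.gp

/-- Best value of the root over the rounds of stage 2; `A` are the official tables of height `D`,
`pe` is the end position. -/
def rootZ (A : ℕ → ℕ → ℕ → ℕ → Tab) (pe : ℕ) : ℕ :=
  (range P.K).fold min (2 ^ (P.nbm + 2) * P.U1) (fun k =>
    P.zX (fun i => A (2 * P.K + k) 0 i P.k0) P.g0
      (P.r P.g0 * (P.O / P.r P.g0)) (P.r P.g0 * (pe / P.r P.g0)))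

/-- The output of the run with guess `2^kp` for strings of lengths `lx`, `ly`. -/
def candK (lx ly z : ℕ) : ℕ :=
  if ly ≤ P.O + lx ∧ P.O + lx - ly ≤ P.Qm ∧ z * 2 ^ P.lo P.g0 < 2 ^ (P.g0 + 1) * P.U1 then
    min (lx + ly) ((z * 2 ^ P.lo P.g0 + 2 * (P.r P.g0 - 1) * P.J * P.U1) * (2 ^ P.dh + 2) /
      (2 ^ P.dh * P.J * P.U1))
  else lx + ly

def ans (x y : List ℕ) (ρ : ℕ → Bool) : ℕ :=
  P.candK x.length y.length (P.rootZ (P.A (wt x y P.O) ρ P.D) (P.O + x.length - y.length))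

/-! ### Reference recursion and the good event -/

/-- Exact recursion inside a window, started from the official tables at its bottom. -/
noncomputable def refV (w : ℕ → ℕ → ℕ) (A : ℕ → ℕ → ℕ → ℕ → ℕ → Tab) (k : ℕ) :
    ℕ → ℕ → ℕ → TabR
  | 0 => fun a i => P.toR (P.det w 0 a i)
  | h + 1 => fun a i =>
    if P.smp (h + 1) i then
      P.stepR (P.ctx (A h) a) k (h + 1) i (fun c i' =>
        if h % P.ell = 0 then P.toR (A h k (a * P.b + c) i' P.k0)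
        else refV w A k h (a * P.b + c) i')
    else P.toR (P.det w (h + 1) a i)

/-- Relative closeness of a table entry to its reference. -/
def Near (α x v : ℝ) : Prop := |x - v| ≤ α * (v + P.t0)

def GoodAt (w : ℕ → ℕ → ℕ) (A : ℕ → ℕ → ℕ → ℕ → ℕ → Tab) (h : ℕ) : Prop :=
  ∀ k < P.KK, ∀ a < P.b ^ (P.D - h), ∀ i, ∀ j ≤ P.k0, ∀ p ≤ P.Qm, ∀ p' ≤ P.Qm,
    P.Near (P.alpha j) (A h k a i j p p') (P.refV w A k h a i p p')

/-- Bounded and Lipschitz tables. -/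
def Tame (i : ℕ) (t : TabR) : Prop := (∀ p p', 0 ≤ t p p' ∧ t p p' ≤ P.U1) ∧ P.LipR i t

def TameX (X : Ctx) : Prop :=
  (∀ k j i, ∀ p p' q q', (X k j i p p' : ℝ) ≤ X k j i q q' +
    (P.dR p q + P.dR p' q') * P.U1 / 2 ^ i + 5) ∧ ∀ k j i p p', X k j i p p' ≤ P.U1

/-- Soft-min increments at the node `(h + 1, a)` computed from the official tables. -/
noncomputable def PsA (A : ℕ → ℕ → ℕ → ℕ → ℕ → Tab) (h k a : ℕ) : ℕ → ℕ → ℕ → ℝ :=
  P.PsR (P.ctx (A h) a) k (P.valR (fun c i' => P.toR (A h k (a * P.b + c) i' P.k0)))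

/-- The value (true units) that the official table `(h, k, a, i)` represents. -/
noncomputable def VA (w : ℕ → ℕ → ℕ) (A : ℕ → ℕ → ℕ → ℕ → ℕ → Tab) (h k a i : ℕ) : TabR :=
  if P.smp h i then P.VG (P.ctx (A (h - 1)) a) k h i (P.PsA A (h - 1) k a)
  else P.detR w h a i

/-- What the deterministic analysis needs. -/
structure Star (w : ℕ → ℕ → ℕ) (A : ℕ → ℕ → ℕ → ℕ → ℕ → Tab) : Prop where
  wok : WOk w
  tame : ∀ h a, P.TameX (P.ctx (A h) a)
  near : ∀ h ≤ P.D, ∀ k < P.KK, ∀ a < P.b ^ (P.D - h), ∀ i, ∀ p ≤ P.Qm, ∀ p' ≤ P.Qm,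
    P.Near P.eta (A h k a i P.k0 p p') (P.bandR i (P.VA w A h k a i p p'))

/-- Value of the node `(h, a)` in round `k` at scale `g`, true units. -/
noncomputable def Zt (A : ℕ → ℕ → ℕ → ℕ → ℕ → Tab) (h k a g : ℕ) : TabR :=
  fun p p' => P.zX (fun i => A h k a i P.k0) g p p' * P.un g

/-- Average over the stage `s`. -/
noncomputable def avZ (A : ℕ → ℕ → ℕ → ℕ → ℕ → Tab) (s h a g : ℕ) : TabR :=
  fun p p' => (∑ k ∈ range P.K, P.Zt A h (s * P.K + k) a g p p') / P.K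

/-- Value of the node `(h, a)` computed from the averaged tables of the stage `s`. -/
noncomputable def Zb (A : ℕ → ℕ → ℕ → ℕ → ℕ → Tab) (s h a g : ℕ) : TabR :=
  fun p p' => P.zX (fun i p p' => (∑ k ∈ range P.K, A h (s * P.K + k) a i P.k0 p p') / P.K)
    g p p' * P.un g

/-- The closure `ν0` of the node `(h, a)` used by its parent in round `k`; true units, grid
coordinates. -/
noncomputable def nut (A : ℕ → ℕ → ℕ → ℕ → ℕ → Tab) (h k a g : ℕ) : TabR :=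
  fun Q Q' => P.nu0 (P.ctx (A h) (a / P.b)) k g (a % P.b) Q Q' * P.un g

/-- `cap` of an option of the node `(h + 1, a)`, true units. -/
noncomputable def capt (A : ℕ → ℕ → ℕ → ℕ → ℕ → Tab) (h k a g : ℕ) : TabR :=
  fun Q Q' => P.cap (P.ctx (A h) a) k g Q Q' * P.un g

/-- Value of the state `(p, p')` of the node `(h + 1, a)` through an option. -/
noncomputable def xA (A : ℕ → ℕ → ℕ → ℕ → ℕ → Tab) (h k a g Q Q' p p' : ℕ) : ℝ :=
  P.xo (P.ctx (A h) a) k (P.PsA A h k a) g Q Q' p p'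

/-! ### Seeds -/

/-- Positions of the random bits of a pass of level `m`. -/
def Idx : ℕ → Type
  | 0 => Empty
  | m + 1 => Fin P.N × (Fin P.lb ⊕ Idx m)

instance idxFintype : (m : ℕ) → Fintype (P.Idx m)
  | 0 => inferInstanceAs (Fintype Empty)
  | m + 1 => letI := idxFintype m; inferInstanceAs (Fintype (Fin P.N × (Fin P.lb ⊕ P.Idx m)))

instance idxDecEq : (m : ℕ) → DecidableEq (P.Idx m)
  | 0 => inferInstanceAs (DecidableEq Empty)
  | m + 1 => letI := idxDecEq m; inferInstanceAs (DecidableEq (Fin P.N × (Fin P.lb ⊕ P.Idx m)))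

def jb (u : Fin P.lb → Bool) : ℕ := ∑ t : Fin P.lb, if u t then 2 ^ (t : ℕ) else 0

/-- Extension of a family indexed by the slots. -/
def exN {α : Type} (d : α) (f : Fin P.N → α) (n : ℕ) : α := if h : n < P.N then f ⟨n, h⟩ else d

/-- The pass of level `m` above the window bottom `hb`, as a function of its seed. -/
def passS (w : ℕ → ℕ → ℕ) (A : ℕ → ℕ → ℕ → ℕ → ℕ → Tab) (k j hb : ℕ) :
    (m : ℕ) → ℕ → ℕ → (P.Idx m → Bool) → Tab
  | 0, a, i, _ => if P.smp (hb + 1) i then P.pass0 (P.ctx (A hb) a) k (hb + 1) i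
      else P.det w (hb + 1) a i
  | m + 1, a, i, s =>
    if P.smp (hb + m + 2) i then
      P.pass1 (P.ctx (A (hb + m + 1)) a) k (hb + m + 2) i
        (fun c i' => A (hb + m + 1) k (a * P.b + c) i' (j - 1))
        (P.exN 0 fun n => P.Jn n (P.jb (fun t => s (n, Sum.inl t))))
        (P.exN (fun _ _ => 0) fun n => passS w A k j hb m
          (a * P.b + P.Jn n (P.jb (fun t => s (n, Sum.inl t)))) (P.bd i n)
          (fun u => s (n, Sum.inr u)))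
    else P.det w (hb + m + 2) a i

/-- Bit address of a position. -/
def pos : (m : ℕ) → ℕ → P.Idx m → ℕ
  | 0, _, u => Empty.elim u
  | m + 1, ad, (n, Sum.inl t) => P.sad m ad n * P.lb + t
  | m + 1, ad, (n, Sum.inr u) => pos m (P.sad m ad n + P.SZ m) u

/-- Failure probability of one official table. -/
noncomputable def fail1 : ℝ :=
  ((P.Qm + 1) ^ 2 : ℕ) * (2 * Real.exp (-(P.S : ℝ) / (4 * (P.U1 : ℝ) ^ 2)))

/-- Failure probability of one run. -/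
noncomputable def fail : ℝ := (P.D * P.KK * P.NA * P.NI * (P.k0 + 1) : ℕ) * P.fail1

end Pm

/-- The parameters for input size `n` and guess `2^kp`. -/
def par (n kp : ℕ) : Pm :=
  let L := Nat.log 2 n
  let l := Nat.log 2 L
  let z := Nat.log 2 l / 10
  let lb := l / 2 ^ z
  let lm := l / 2 ^ (2 * z)
  let mh := Nat.log 2 l + 7
  let s0 := lb + lm / 4 + mh + 4
  let D := (L + 1) / lb + 1
  { lb := lb, lm := lm, ell := 2 ^ (4 * z), k0 := 5 * l / (lm / 8) + 1, K := 2 ^ (l - 14 * z),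
    S := 64 * L * (2 ^ (28 * l)) ^ 2, D := D, fp := 28 * l, gp := 13 * l,
    rh := 3 * l, ga := 4 * l, sh := 2 * l + D * lb + z + 3, ie := 6 * l, mh := mh, s0 := s0,
    wz := (3 * l + 2) * 2 ^ lb + 2 * (31 * l + lb + s0) + 1, eh := z, dh := 2 * l, kp := kp,
    th := 20 * l, sg := lm / 4, ch := lm / 8, ne := 4 * l, nm := 6 * l, cs := 2 * l,
    an := 3 * lb + 8, r1 := l, tt := l / 2 }

/-- The output of the algorithm. -/
def answer (n : ℕ) (x y : List ℕ) (ρ : ℕ → Bool) : ℕ :=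
  (range (Nat.log 2 n + 2)).fold min (x.length + y.length) (fun kp => (par n kp).ans x y ρ)

end Vale.Agent.P315F
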