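import Vale.Agent.P315F.EPath
import Vale.Agent.P315.Lev

/-! The shift model computes the edit distance. -/

namespace Vale.Agent.P315F

open Finset Vale.Agent.P315

theorem wt_ok (x y : List ℕ) (O : ℕ) : WOk (wt x y O) := by
  refine ⟨fun u p => ?_, fun u p => ?_⟩
  · unfold wt
    split_ifs <;> omega
  · unfold wt
    by_cases h1 : x.length + y.length ≤ u
    · left
      rw [if_pos h1]
    · by_cases h2 : (u + p + O) % 2 = 1
      · left
        rw [if_neg h1, if_pos h2]
      · right
        rw [if_neg h1, if_pos (by omega)]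

theorem eed_drop (x : List ℕ) {i : ℕ} (hi : i < x.length) :
    x.drop i = x.getD i 0 :: x.drop (i + 1) := by
  rw [List.drop_eq_getElem_cons hi, List.getD_eq_getElem _ _ hi]

theorem eed_left_succ (x v : List ℕ) (i : ℕ) :
    lev (x.drop i) v ≤ lev (x.drop (i + 1)) v + 1 ∧
      lev (x.drop (i + 1)) v ≤ lev (x.drop i) v + 1 := by
  rcases lt_or_ge i x.length with hi | hi
  · rw [eed_drop x hi]
    exact ⟨lev_cons_left_le _ _ _, lev_le_cons_left _ _ _⟩
  · rw [List.drop_eq_nil_of_le hi, List.drop_eq_nil_of_le (Nat.le_succ_of_le hi)]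
    omega

theorem eed_left_add (x v : List ℕ) (i k : ℕ) :
    lev (x.drop i) v ≤ lev (x.drop (i + k)) v + k ∧
      lev (x.drop (i + k)) v ≤ lev (x.drop i) v + k := by
  induction k with
  | zero => simp
  | succ k ih =>
    have := eed_left_succ x v (i + k)
    rw [show i + (k + 1) = i + k + 1 from rfl]
    omega

theorem eed_left (x v : List ℕ) (i i' : ℕ) :
    lev (x.drop i) v ≤ lev (x.drop i') v + Nat.dist i i' := by
  rcases le_total i i' with h | h
  · obtain ⟨k, rfl⟩ := Nat.exists_eq_add_of_le h
    have := (eed_left_add x v i k).1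
    simp only [Nat.dist]
    omega
  · obtain ⟨k, rfl⟩ := Nat.exists_eq_add_of_le h
    have := (eed_left_add x v i' k).2
    simp only [Nat.dist]
    omega

theorem eed_lip (x y : List ℕ) (i j i' j' : ℕ) :
    lev (x.drop i) (y.drop j) ≤ lev (x.drop i') (y.drop j') + Nat.dist i i' + Nat.dist j j' := by
  have h1 := eed_left x (y.drop j) i i'
  have h2 := eed_left y (x.drop i') j j'
  rw [lev_comm (y.drop j), lev_comm (y.drop j')] at h2
  omega

theorem eed_diag (x y : List ℕ) {i j : ℕ} (hi : i < x.length) (hj : j < y.length) :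
    lev (x.drop i) (y.drop j) ≤ lev (x.drop (i + 1)) (y.drop (j + 1)) +
      if x.getD i 0 = y.getD j 0 then 0 else 1 := by
  rw [eed_drop x hi, eed_drop y hj]
  exact lev_cons_both_le _ _ _ _

theorem eed_diag_one (x y : List ℕ) (i j : ℕ) :
    lev (x.drop i) (y.drop j) ≤ lev (x.drop (i + 1)) (y.drop (j + 1)) + 1 := by
  rcases lt_or_ge i x.length with hi | hi
  · rcases lt_or_ge j y.length with hj | hj
    · have := eed_diag x y hi hj
      split_ifs at this <;> omega
    · rw [List.drop_eq_nil_of_le hj, List.drop_eq_nil_of_le (Nat.le_succ_of_le hj)]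
      exact (eed_left_succ x [] i).1
  · rw [List.drop_eq_nil_of_le hi, List.drop_eq_nil_of_le (Nat.le_succ_of_le hi), lev_comm,
      lev_comm []]
    exact (eed_left_succ y [] j).1

/-- The potential: the distance of the suffixes at the next lattice point. -/
def eedPot (x y : List ℕ) (O u p : ℕ) : ℕ :=
  lev (x.drop ((u + p + 1 - O) / 2)) (y.drop ((u + O + 1 - p) / 2))

theorem eed_pot_lip (x y : List ℕ) (O u p q : ℕ) :
    eedPot x y O u p ≤ eedPot x y O u q + Nat.dist p q := by
  have := eed_lip x y ((u + p + 1 - O) / 2) ((u + O + 1 - p) / 2) ((u + q + 1 - O) / 2)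
    ((u + O + 1 - q) / 2)
  simp only [eedPot, Nat.dist] at *
  omega

theorem eed_pot_step (x y : List ℕ) (O : ℕ) {u : ℕ} (hu : u < x.length + y.length) (q : ℕ) :
    eedPot x y O u q ≤ wt x y O u q + eedPot x y O (u + 1) q := by
  unfold wt eedPot
  rw [if_neg (by omega)]
  split_ifs with h1 h2
  · rw [show (u + 1 + q + 1 - O) / 2 = (u + q + 1 - O) / 2 by omega,
      show (u + 1 + O + 1 - q) / 2 = (u + O + 1 - q) / 2 by omega]
    omega
  · obtain ⟨h2, h3, h4, h5, h6⟩ := h2
    have := eed_diag x y h4 h5
    rw [if_pos h6] at this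
    rw [show (u + 1 + q + 1 - O) / 2 = (u + q - O) / 2 + 1 by omega,
      show (u + 1 + O + 1 - q) / 2 = (u + O - q) / 2 + 1 by omega,
      show (u + q + 1 - O) / 2 = (u + q - O) / 2 by omega,
      show (u + O + 1 - q) / 2 = (u + O - q) / 2 by omega]
    omega
  · by_cases h3 : O ≤ u + q ∧ q ≤ u + O
    · have := eed_diag_one x y ((u + q - O) / 2) ((u + O - q) / 2)
      rw [show (u + 1 + q + 1 - O) / 2 = (u + q - O) / 2 + 1 by omega,
        show (u + 1 + O + 1 - q) / 2 = (u + O - q) / 2 + 1 by omega,
        show (u + q + 1 - O) / 2 = (u + q - O) / 2 by omega,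
        show (u + O + 1 - q) / 2 = (u + O - q) / 2 by omega]
      omega
    · have := eed_lip x y ((u + q + 1 - O) / 2) ((u + O + 1 - q) / 2) ((u + 1 + q + 1 - O) / 2)
        ((u + 1 + O + 1 - q) / 2)
      simp only [Nat.dist] at this
      omega

theorem eed_pot_end (x y : List ℕ) (O : ℕ) {u : ℕ} (hu : x.length + y.length ≤ u) (p : ℕ)
    (h : y.length ≤ O + x.length) :
    eedPot x y O u p ≤ Nat.dist p (O + x.length - y.length) := by
  have := lev_le_add (x.drop ((u + p + 1 - O) / 2)) (y.drop ((u + O + 1 - p) / 2))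
  simp only [List.length_drop, eedPot, Nat.dist] at *
  omega

theorem eed_low (x y : List ℕ) (O Q : ℕ) (h : y.length ≤ O + x.length) (len u p : ℕ)
    (hl : x.length + y.length ≤ u + len) :
    eedPot x y O u p ≤ E (wt x y O) Q len u p (O + x.length - y.length) := by
  induction len generalizing u p with
  | zero => exact eed_pot_end x y O hl p h
  | succ len ih =>
    rcases le_or_gt (x.length + y.length) u with hu | hu
    · exact (eed_pot_end x y O hu p h).trans (E_ge _ _ _ _)
    · obtain ⟨q, -, hq⟩ := epath_ex (wt x y O) Q len u p (O + x.length - y.length)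
      have h1 := ih (u + 1) q (by omega)
      have h2 := eed_pot_step x y O hu q
      have h3 := eed_pot_lip x y O u p q
      omega

/-- Potential: `lev (x.take i) (y.take j)` at the lattice point `(i, j)` (clamped to the
rectangle), at a midpoint the value at the end of the diagonal edge; constant in `u` for
`u ≥ |x| + |y|`.  It is 1-Lipschitz in `p` and grows by at most `w u p` in step `u`. -/
theorem ED_le_E (x y : List ℕ) (O Q N : ℕ) (hN : x.length + y.length ≤ N)
    (h : y.length ≤ O + x.length) :
    ED x y ≤ E (wt x y O) Q N 0 O (O + x.length - y.length) := by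
  have := eed_low x y O Q h N 0 O (by omega)
  rw [eedPot, show (0 + O + 1 - O) / 2 = 0 by omega, List.drop_zero, List.drop_zero] at this
  rwa [ED_eq_lev]

theorem eed_free (x y : List ℕ) (O : ℕ) {Q p : ℕ} (hp : p ≤ Q) (len u : ℕ)
    (hu : x.length + y.length ≤ u) : E (wt x y O) Q len u p p = 0 := by
  induction len generalizing u with
  | zero => exact Nat.dist_self p
  | succ len ih =>
    have h1 := epath_le (w := wt x y O) len u p p hp
    rw [ih (u + 1) (by omega), Nat.dist_self, wt, if_pos hu] at h1
    omega

theorem eed_odd (x y : List ℕ) {O u p : ℕ} (h : (u + p + O) % 2 = 1) : wt x y O u p = 0 := by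
  unfold wt
  rw [if_pos h, ite_self]

theorem eed_cases (x y : List ℕ) {i j : ℕ} (hi : i ≤ x.length) (hj : j ≤ y.length) :
    (i = x.length ∧ j = y.length) ∨
      (i < x.length ∧ lev (x.drop (i + 1)) (y.drop j) + 1 ≤ lev (x.drop i) (y.drop j)) ∨
      (j < y.length ∧ lev (x.drop i) (y.drop (j + 1)) + 1 ≤ lev (x.drop i) (y.drop j)) ∨
      (i < x.length ∧ j < y.length ∧ lev (x.drop (i + 1)) (y.drop (j + 1)) +
        (if x.getD i 0 = y.getD j 0 then 0 else 1) ≤ lev (x.drop i) (y.drop j)) := by
  rcases hi.lt_or_eq with hi | hi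
  · rcases hj.lt_or_eq with hj | hj
    · have := lev_cons_cons (x.getD i 0) (y.getD j 0) (x.drop (i + 1)) (y.drop (j + 1))
      rw [← eed_drop x hi, ← eed_drop y hj] at this
      omega
    · right; left
      rw [List.drop_eq_nil_of_le hj.ge, lev_nil_right, lev_nil_right, List.length_drop,
        List.length_drop]
      omega
  · rcases hj.lt_or_eq with hj | hj
    · right; right; left
      rw [List.drop_eq_nil_of_le hi.ge, lev_nil_left, lev_nil_left, List.length_drop,
        List.length_drop]
      omega
    · exact Or.inl ⟨hi, hj⟩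

theorem eed_up (x y : List ℕ) {O Q pe : ℕ} (hQ : 2 * O ≤ Q) (hpe : pe + y.length = O + x.length)
    (len i j p : ℕ) (hi : i ≤ x.length) (hj : j ≤ y.length)
    (hl : x.length + y.length ≤ i + j + len) (hp : p + j = O + i)
    (hO : Nat.dist i j + lev (x.drop i) (y.drop j) ≤ O) :
    E (wt x y O) Q len (i + j) p pe ≤ lev (x.drop i) (y.drop j) := by
  induction len using Nat.strong_induction_on generalizing i j p with
  | _ len ih =>
    simp only [Nat.dist] at hO ih
    rcases eed_cases x y hi hj with h | h | h | h
    · obtain rfl : p = pe := by omega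
      rw [eed_free x y O (by omega) len _ (by omega)]
      exact Nat.zero_le _
    · obtain ⟨l, rfl⟩ : ∃ l, len = l + 1 := ⟨len - 1, by omega⟩
      have h1 := epath_le (w := wt x y O) (Q := Q) l (i + j) p pe (q := p + 1) (by omega)
      have h2 := ih l (by omega) (i + 1) j (p + 1) (by omega) hj (by omega) (by omega) (by omega)
      rw [eed_odd x y (by omega), show i + j + 1 = i + 1 + j by omega] at h1
      simp only [Nat.dist] at h1
      omega
    · obtain ⟨l, rfl⟩ : ∃ l, len = l + 1 := ⟨len - 1, by omega⟩
      have h1 := epath_le (w := wt x y O) (Q := Q) l (i + j) p pe (q := p - 1) (by omega)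
      have h2 := ih l (by omega) i (j + 1) (p - 1) hi (by omega) (by omega) (by omega) (by omega)
      rw [eed_odd x y (by omega), show i + j + 1 = i + (j + 1) by omega] at h1
      simp only [Nat.dist] at h1
      omega
    · obtain ⟨l, rfl⟩ : ∃ l, len = l + 1 + 1 := ⟨len - 2, by omega⟩
      have h1 := epath_le (w := wt x y O) (Q := Q) (l + 1) (i + j) p pe (q := p) (by omega)
      have h3 := epath_le (w := wt x y O) (Q := Q) l (i + j + 1) p pe (q := p) (by omega)
      have h2 := ih l (by omega) (i + 1) (j + 1) p (by omega) (by omega) (by omega) (by omega)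
        (by omega)
      rw [eed_odd x y (by omega), show i + j + 1 + 1 = i + 1 + (j + 1) by omega] at h3
      have h4 : wt x y O (i + j) p ≤ if x.getD i 0 = y.getD j 0 then 0 else 1 := by
        have h5 := (wt_ok x y O).1 (i + j) p
        split_ifs with h6
        · unfold wt
          rw [show (i + j + p - O) / 2 = i by omega, show (i + j + O - p) / 2 = j by omega,
            if_pos (⟨by omega, by omega, h.1, h.2.1, h6⟩ : _ ∧ _ ∧ _ ∧ _ ∧ _), ite_self, ite_self]
        · exact h5
      rw [Nat.dist_self] at h1 h3
      omega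

/-- An optimal alignment is a path of shifts bounded by `ED`.  (Generalise: from the lattice point
`(i, j)`, step `u = i + j`, position `O + i - j`, to the end the cost is at most
`lev (x.drop i) (y.drop j)` as long as `|i - j| + lev (..) ≤ O`; an insertion or deletion is a
jump to a position of the wrong parity followed by a free step.) -/
theorem E_le_ED (x y : List ℕ) (O Q N : ℕ) (hN : x.length + y.length ≤ N) (hO : ED x y ≤ O)
    (hQ : 2 * O ≤ Q) : E (wt x y O) Q N 0 O (O + x.length - y.length) ≤ ED x y := by
  rw [ED_eq_lev] at *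
  have h := lev_ge x y
  exact eed_up x y hQ (by omega) N 0 0 O (Nat.zero_le _) (Nat.zero_le _) (by omega) rfl
    (by simpa using hO)

theorem ED_len (x y : List ℕ) : x.length ≤ ED x y + y.length ∧ y.length ≤ ED x y + x.length ∧
    ED x y ≤ x.length + y.length := by
  rw [ED_eq_lev]
  exact ⟨(lev_ge x y).1, (lev_ge x y).2, lev_le_add x y⟩

theorem ED_le_max (x y : List ℕ) : ED x y ≤ max x.length y.length := by
  rw [ED_eq_lev]
  induction x generalizing y with
  | nil => simp [lev_nil_left]
  | cons c x ih =>
    cases y with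
    | nil => simp [lev_nil_right]
    | cons d y =>
      have h1 := lev_cons_both_le c d x y
      have h2 := ih y
      simp only [List.length_cons]
      split_ifs at h1 <;> omega

end Vale.Agent.P315F
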