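import Vale.Agent.P315F.Scale

/-! The path cost `E` and the node cost `En`. -/

namespace Vale.Agent.P315F

open Finset Vale.Agent.P315

variable {w : ℕ → ℕ → ℕ} {Q : ℕ}

theorem epath_le (len u p p' : ℕ) {q : ℕ} (hq : q ≤ Q) :
    E w Q (len + 1) u p p' ≤ Nat.dist p q + w u q + E w Q len (u + 1) q p' :=
  inf'_le (fun q => Nat.dist p q + w u q + E w Q len (u + 1) q p')
    (mem_range.2 (Nat.lt_succ_of_le hq))

theorem epath_ex (w : ℕ → ℕ → ℕ) (Q len u p p' : ℕ) :
    ∃ q ≤ Q, E w Q (len + 1) u p p' = Nat.dist p q + w u q + E w Q len (u + 1) q p' := by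
  obtain ⟨q, hq, h⟩ := exists_mem_eq_inf' (s := range (Q + 1)) nonempty_range_add_one
    (fun q => Nat.dist p q + w u q + E w Q len (u + 1) q p')
  exact ⟨q, Nat.le_of_lt_succ (mem_range.1 hq), h⟩

theorem epath_zero (u p p' : ℕ) : E w Q 0 u p p' = Nat.dist p p' := rfl

theorem E_lip (len u p p' q q' : ℕ) :
    E w Q len u p p' ≤ E w Q len u q q' + Nat.dist p q + Nat.dist p' q' := by
  induction len generalizing u p q with
  | zero =>
    simp only [epath_zero, Nat.dist]
    omega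
  | succ len ih =>
    obtain ⟨s, hs, h⟩ := epath_ex w Q len u q q'
    have h1 := epath_le (w := w) len u p p' hs
    have h2 := ih (u + 1) s s
    simp only [Nat.dist] at *
    omega

theorem E_ge (len u p p' : ℕ) : Nat.dist p p' ≤ E w Q len u p p' := by
  induction len generalizing u p with
  | zero => exact le_rfl
  | succ len ih =>
    obtain ⟨s, -, h⟩ := epath_ex w Q len u p p'
    have h2 := ih (u + 1) s
    simp only [Nat.dist] at *
    omega

theorem E_le (hw : ∀ u p, w u p ≤ 1) (len u : ℕ) {p : ℕ} (hp : p ≤ Q) (p' : ℕ) :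
    E w Q len u p p' ≤ Nat.dist p p' + len := by
  induction len generalizing u with
  | zero => exact le_rfl
  | succ len ih =>
    have h1 := epath_le (w := w) len u p p' hp
    have h2 := ih (u + 1)
    have h3 := hw u p
    rw [Nat.dist_self] at h1
    omega

theorem E_add_le (l1 l2 u p m p' : ℕ) :
    E w Q (l1 + l2) u p p' ≤ E w Q l1 u p m + E w Q l2 (u + l1) m p' := by
  induction l1 generalizing u p with
  | zero =>
    have := E_lip (w := w) (Q := Q) l2 u p p' m p'
    rw [Nat.dist_self] at this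
    rw [zero_add, add_zero, epath_zero]
    omega
  | succ l1 ih =>
    obtain ⟨s, hs, h⟩ := epath_ex w Q l1 u p m
    have h1 := epath_le (w := w) (l1 + l2) u p p' hs
    have h2 := ih (u + 1) s
    rw [show l1 + 1 + l2 = l1 + l2 + 1 by omega, show u + (l1 + 1) = u + 1 + l1 by omega]
    omega

theorem E_split (l1 l2 u : ℕ) {p : ℕ} (hp : p ≤ Q) (p' : ℕ) :
    ∃ m ≤ Q, E w Q l1 u p m + E w Q l2 (u + l1) m p' ≤ E w Q (l1 + l2) u p p' := by
  induction l1 generalizing u p with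
  | zero => exact ⟨p, hp, by simp [epath_zero]⟩
  | succ l1 ih =>
    obtain ⟨s, hs, h⟩ := epath_ex w Q (l1 + l2) u p p'
    obtain ⟨m, hm, h2⟩ := ih (u + 1) hs
    have h1 := epath_le (w := w) l1 u p m hs
    refine ⟨m, hm, ?_⟩
    rw [show l1 + 1 + l2 = l1 + l2 + 1 by omega, show u + (l1 + 1) = u + 1 + l1 by omega]
    omega

theorem E_leaf (hw : WOk w) (u : ℕ) {p p' : ℕ} (hp : p ≤ Q) (hp' : p' ≤ Q) :
    E w Q 1 u p p' = leafE w u p p' := by
  obtain ⟨s, -, h⟩ := epath_ex w Q 0 u p p'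
  unfold leafE
  rw [zero_add, epath_zero] at h
  split_ifs with he
  · subst he
    have h1 := epath_le (w := w) 0 u p p hp
    have h2 := hw.1 u p
    rw [zero_add, epath_zero] at h1
    by_cases h3 : s = p
    · subst h3
      simpa using h
    · simp only [Nat.dist] at *
      omega
  · have h1 := epath_le (w := w) (Q := Q) 0 u p p' (q := min p p') (by omega)
    have h2 := epath_le (w := w) (Q := Q) 0 u p p' (q := min p p' + 1) (by omega)
    have h3 := hw.2 u (min p p')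
    have h4 := E_ge (w := w) (Q := Q) 1 u p p'
    rw [zero_add, epath_zero] at h1 h2
    simp only [Nat.dist] at *
    omega

theorem epath_chain (n L u : ℕ) (ω : ℕ → ℕ) :
    E w Q (n * L) u (ω 0) (ω n) ≤ ∑ j ∈ range n, E w Q L (u + j * L) (ω j) (ω (j + 1)) := by
  induction n with
  | zero => simp [epath_zero]
  | succ n ih =>
    have := E_add_le (w := w) (Q := Q) (n * L) L u (ω 0) (ω n) (ω (n + 1))
    rw [sum_range_succ, Nat.succ_mul]
    omega

theorem epath_split (n L u : ℕ) {p p' : ℕ} (hp : p ≤ Q) (hp' : p' ≤ Q) :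
    ∃ m : ℕ → ℕ, m 0 = p ∧ m (n + 1) = p' ∧ (∀ j, m j ≤ Q) ∧
      ∑ j ∈ range (n + 1), E w Q L (u + j * L) (m j) (m (j + 1)) ≤
        E w Q ((n + 1) * L) u p p' := by
  induction n generalizing p' with
  | zero =>
    refine ⟨fun j => if j = 0 then p else p', by simp, by simp, fun j => ?_, by simp⟩
    beta_reduce
    split_ifs <;> assumption
  | succ n ih =>
    obtain ⟨s, hs, h1⟩ := E_split (w := w) ((n + 1) * L) L u hp p'
    obtain ⟨m, m0, m1, m2, m3⟩ := ih hs
    refine ⟨fun j => if j ≤ n + 1 then m j else p', by simpa using m0, by simp, fun j => ?_, ?_⟩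
    · beta_reduce
      split_ifs
      · exact m2 j
      · exact hp'
    · beta_reduce
      rw [sum_range_succ, Nat.succ_mul (n + 1), sum_congr rfl (g := fun j =>
        E w Q L (u + j * L) (m j) (m (j + 1))) fun j hj => by
          have := mem_range.1 hj
          rw [if_pos (by omega), if_pos (by omega)]]
      rw [if_pos le_rfl, if_neg (by omega), m1]
      omega

namespace Pm

variable {P : Pm}

theorem En_lip (P : Pm) (h a p p' q q' : ℕ) :
    (P.En w h a p p' : ℝ) ≤ P.En w h a q q' + P.dR p q + P.dR p' q' := by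
  have h1 := Nat.mul_le_mul_left P.J (E_lip (w := w) (Q := P.Qm) (P.b ^ h) (a * P.b ^ h) p p' q q')
  have h2 : P.En w h a p p' ≤ P.En w h a q q' + Nat.dist p q * P.J + Nat.dist p' q' * P.J := by
    simp only [En]
    nlinarith
  unfold dR
  exact_mod_cast h2

theorem En_ge (P : Pm) (h a p p' : ℕ) : P.dR p p' + P.J0 ≤ (P.En w h a p p' : ℝ) := by
  have h1 := Nat.mul_le_mul_left P.J (E_ge (w := w) (Q := P.Qm) (P.b ^ h) (a * P.b ^ h) p p')
  have h3 := Nat.mul_le_mul_left P.J0 (Nat.one_le_pow h P.b P.b_pos)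
  have h2 : Nat.dist p p' * P.J + P.J0 ≤ P.En w h a p p' := by
    simp only [En]
    nlinarith
  unfold dR
  exact_mod_cast h2

theorem En_le (hP : P.Good) (hw : WOk w) (h a i : ℕ) {p : ℕ} (hp : p ≤ P.Qm) (p' : ℕ) :
    (P.En w h a p p' : ℝ) ≤ P.dR p p' + P.lenR h i := by
  have h1 := Nat.mul_le_mul_left P.J (E_le hw.1 (P.b ^ h) (a * P.b ^ h) hp p')
  have h3 := Nat.mul_le_mul_right (P.b ^ h) (J0_le hP)
  have h2 : P.En w h a p p' ≤ Nat.dist p p' * P.J + 2 * (P.J * P.b ^ h) := by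
    simp only [En]
    nlinarith
  have h4 : 2 * (P.J * P.b ^ h) * P.U1 ≤ P.lenN h i * 2 ^ i := by
    have : 2 * (P.J * P.b ^ h) * P.U1 = 2 ^ (h * P.lb + P.sh + 1 + P.fp) := by
      simp only [J, b, U1, ← pow_mul]
      ring
    rw [this, lenN, ← pow_add]
    exact Nat.pow_le_pow_right two_pos (by omega)
  have h5 : ((2 * (P.J * P.b ^ h) : ℕ) : ℝ) ≤ P.lenR h i := by
    rw [lenR, le_div_iff₀ (by simp [U1])]
    exact_mod_cast h4
  refine le_trans ?_ (add_le_add le_rfl h5)
  unfold dR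
  exact_mod_cast h2

theorem En_zero (P : Pm) (hw : WOk w) (a : ℕ) {p p' : ℕ} (hp : p ≤ P.Qm) (hp' : p' ≤ P.Qm) :
    P.En w 0 a p p' = P.J * leafE w a p p' + P.J0 := by
  simp only [En, pow_zero, mul_one, E_leaf hw a hp hp']

theorem epath_sum (P : Pm) (h a : ℕ) (ω : ℕ → ℕ) :
    ∑ j ∈ range P.b, P.En w h (a * P.b + j) (ω j) (ω (j + 1)) =
      P.J * ∑ j ∈ range P.b, E w P.Qm (P.b ^ h) (a * P.b ^ (h + 1) + j * P.b ^ h) (ω j)
        (ω (j + 1)) + P.J0 * P.b ^ (h + 1) := by
  simp only [En, sum_add_distrib, mul_sum, sum_const, card_range, smul_eq_mul]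
  congr 1
  · exact sum_congr rfl fun j _ => by rw [add_mul, pow_succ', mul_assoc]
  · ring

theorem En_chain (P : Pm) (h a : ℕ) (ω : ℕ → ℕ) :
    P.En w (h + 1) a (ω 0) (ω P.b) ≤
      ∑ j ∈ range P.b, P.En w h (a * P.b + j) (ω j) (ω (j + 1)) := by
  have h1 := epath_chain (w := w) (Q := P.Qm) P.b (P.b ^ h) (a * P.b ^ (h + 1)) ω
  rw [← pow_succ'] at h1
  rw [epath_sum]
  exact Nat.add_le_add_right (Nat.mul_le_mul_left _ h1) _

/-- Optimal break points. -/
theorem En_split (P : Pm) (h a : ℕ) {p p' : ℕ} (hp : p ≤ P.Qm) (hp' : p' ≤ P.Qm) :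
    ∃ m : ℕ → ℕ, m 0 = p ∧ m P.b = p' ∧ (∀ j, m j ≤ P.Qm) ∧
      (∀ j ≤ P.b, P.dR p (m j) ≤ P.En w (h + 1) a p p') ∧
      ∑ j ∈ range P.b, (P.En w h (a * P.b + j) (m j) (m (j + 1)) : ℝ) =
        P.En w (h + 1) a p p' := by
  obtain ⟨m, m0, m1, m2, m3⟩ := epath_split (w := w) (P.b - 1) (P.b ^ h) (a * P.b ^ (h + 1)) hp hp'
  rw [Nat.sub_add_cancel P.b_pos] at m1 m3
  rw [← pow_succ'] at m3
  refine ⟨m, m0, m1, m2, fun j hj => ?_, ?_⟩
  · have h1 := (E_ge _ _ _ _).trans
      (epath_chain (w := w) (Q := P.Qm) j (P.b ^ h) (a * P.b ^ (h + 1)) m)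
    have h2 := (h1.trans (sum_le_sum_of_subset (range_subset_range.2 hj))).trans m3
    rw [m0] at h2
    have h3 : Nat.dist p (m j) * P.J ≤ P.En w (h + 1) a p p' := by
      rw [mul_comm]
      exact (Nat.mul_le_mul_left _ h2).trans (Nat.le_add_right _ _)
    unfold dR
    exact_mod_cast h3
  · have h1 := P.En_chain (w := w) h a m
    rw [m0, m1] at h1
    have h2 : ∑ j ∈ range P.b, P.En w h (a * P.b + j) (m j) (m (j + 1)) ≤
        P.En w (h + 1) a p p' := by
      rw [epath_sum]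
      exact Nat.add_le_add_right (Nat.mul_le_mul_left _ m3) _
    exact_mod_cast le_antisymm h2 h1

end Pm

end Vale.Agent.P315F
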