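import Vale.Agent.P315F.StageB
import Vale.Agent.P315F.EEd

/-! Correctness of the output on the good event. -/

namespace Vale.Agent.P315F

open Finset Vale.Agent.P315

theorem final_fold {α : Type} (s : Finset α) (c : ℕ) (f : α → ℕ) :
    s.fold min c f = c ∨ ∃ k ∈ s, s.fold min c f = f k := by
  rcases (Finset.fold_min_le (s := s) (f := f) (b := c) (c := s.fold min c f)).1 le_rfl with h | h
  · exact Or.inl (le_antisymm ((Finset.fold_min_le _).2 (Or.inl le_rfl)) h)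
  · obtain ⟨k, hk, h⟩ := h
    exact Or.inr ⟨k, hk, le_antisymm ((Finset.fold_min_le _).2 (Or.inr ⟨k, hk, le_rfl⟩)) h⟩

theorem final_ar1 {e J d k r u : ℝ} (he0 : 0 < e) (he : e ≤ 1 / 64) (hJ : 0 < J) (d0 : 0 ≤ d)
    (hk : 1 ≤ k) (hd : d ≤ k) (r0 : 0 < r) (hr : 2048 * r ≤ e * (k * J))
    (hu : u ≤ (1 + 6 * e) * (J * d + e * J / 8 + 2 * r) + 2 * r) : u < k * J * 2 := by
  have T0 : 0 < k * J := by positivity
  have a2 : J * d ≤ k * J := by nlinarith
  have a3 : J ≤ k * J := le_mul_of_one_le_left hJ.le hk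
  have a4 : e * (k * J) ≤ k * J / 64 := by nlinarith
  have a5 : e * J ≤ k * J / 64 := by nlinarith
  have a6 : J * d + e * J / 8 + 2 * r ≤ 5 / 4 * (k * J) := by linarith
  have a7 := mul_le_mul (by linarith : 1 + 6 * e ≤ 5 / 4) a6 (by positivity) (by norm_num)
  linarith

theorem final_ar2 {e J d k r u m c l : ℝ} (he0 : 0 < e) (he : e ≤ 1 / 64) (hJ : 0 < J) (d0 : 0 ≤ d)
    (m1 : 1 ≤ m) (md : d ≤ m) (hk : k ≤ 2 * m) (hr : 2048 * r ≤ e * (k * J))
    (hu : u ≤ (1 + 6 * e) * (J * d + e * J / 8 + 2 * r) + 2 * r) (hc : c ≤ r) (l0 : 0 < l)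
    (hl : 14 * l ≤ e) : (u + 2 * c) * (1 + 2 * l) ≤ (d + 9 * e * m) * J := by
  have S0 : 0 < e * m * J := by positivity
  have b1 : 1024 * r ≤ e * m * J := by
    have := mul_le_mul_of_nonneg_left (mul_le_mul_of_nonneg_right hk hJ.le) he0.le
    nlinarith
  have b2 : e * J ≤ e * m * J := by
    have := mul_le_mul_of_nonneg_left m1 (mul_pos he0 hJ).le
    nlinarith
  have b3 : e * (J * d) ≤ e * m * J := by
    have := mul_le_mul_of_nonneg_left md (mul_pos he0 hJ).le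
    nlinarith
  have b4 : e * (e * m * J) ≤ e * m * J / 64 := by nlinarith
  have b5 := mul_le_mul_of_nonneg_left
    (show J * d + e * J / 8 + 2 * r ≤ J * d + e * m * J / 4 by linarith)
    (by linarith : (0 : ℝ) ≤ 1 + 6 * e)
  have b6 : u + 2 * c ≤ J * d + 7 * (e * m * J) := by nlinarith
  have b7 := mul_le_mul b6 (show 1 + 2 * l ≤ 1 + e by linarith) (by linarith) (by positivity)
  nlinarith

namespace Pm

variable {P : Pm} {x y : List ℕ} {A : ℕ → ℕ → ℕ → ℕ → ℕ → Tab}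

theorem final_round (P : Pm) (g p : ℕ) :
    P.dR p (P.r g * (p / P.r g)) ≤ ((P.r g - 1 : ℕ) : ℝ) * P.J := by
  have h1 := Nat.div_add_mod p (P.r g)
  have h2 := Nat.mod_lt p (P.r_pos g)
  have h3 : Nat.dist p (P.r g * (p / P.r g)) ≤ P.r g - 1 := by
    unfold Nat.dist
    omega
  exact mul_le_mul_of_nonneg_right (Nat.cast_le.2 h3) (Nat.cast_nonneg _)

theorem final_rJ (P : Pm) (g : ℕ) : ((P.r g - 1 : ℕ) : ℝ) * P.J ≤ P.eR g := by
  rw [Nat.cast_sub (P.r_pos g), Nat.cast_one]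
  exact P.rJ_le g

theorem final_del (hP : P.Good) : 14 * P.del ≤ P.eps := by
  have h1 := del_le hP
  have h2 := P.del_pos
  have h3 : (0 : ℝ) ≤ P.D := Nat.cast_nonneg _
  nlinarith

theorem final_OQ (P : Pm) : 2 * P.O = P.Qm := by
  unfold O Qm
  ring

theorem final_quot (P : Pm) (z c : ℕ) :
    (((z * 2 ^ P.lo P.g0 + 2 * c * P.J * P.U1) * (2 ^ P.dh + 2) : ℕ) : ℝ) =
      (z * P.un P.g0 + 2 * (c * P.J)) * (1 + 2 * P.del) / P.J *
        ((2 ^ P.dh * P.J * P.U1 : ℕ) : ℝ) := by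
  have hJ : (0 : ℝ) < P.J := Nat.cast_pos.2 P.J_pos
  have hU : (0 : ℝ) < P.U1 := Nat.cast_pos.2 (Nat.two_pow_pos _)
  unfold un del
  push_cast
  field_simp

theorem final_cond (P : Pm) (z : ℕ) :
    z * 2 ^ P.lo P.g0 < 2 ^ (P.g0 + 1) * P.U1 ↔ z * P.un P.g0 < 2 ^ (P.g0 + 1) := by
  have hU : (0 : ℝ) < P.U1 := Nat.cast_pos.2 (Nat.two_pow_pos _)
  unfold un
  rw [← mul_div_assoc, div_lt_iff₀ hU]
  exact_mod_cast Iff.rfl

theorem final_G (P : Pm) : P.G P.g0 = 2 ^ P.kp * P.J := by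
  unfold G g0 J
  push_cast
  field_simp
  ring

/-- Every run returns an upper bound (`Zt_valid` at the best round, `En_lip`, `rJ_le`,
`ED_le_E`; `ED` is an integer). -/
theorem cand_ge (hP : P.Good) (hS : P.Star (wt x y P.O) A) (hN : x.length + y.length ≤ P.NA) :
    ED x y ≤ P.candK x.length y.length (P.rootZ (A P.D) (P.O + x.length - y.length)) := by
  have hlen := (ED_len x y).2.2
  unfold candK
  split_ifs with hc
  swap
  · exact hlen
  obtain ⟨c1, c2, c3⟩ := hc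
  refine le_min hlen ?_
  set pe := P.O + x.length - y.length with hpe
  set z := P.rootZ (A P.D) pe with hz
  have hJ : (0 : ℝ) < P.J := Nat.cast_pos.2 P.J_pos
  have hU : 0 < P.U1 := Nat.two_pow_pos _
  have hden : 0 < 2 ^ P.dh * P.J * P.U1 :=
    Nat.mul_pos (Nat.mul_pos (Nat.two_pow_pos _) P.J_pos) hU
  have hO : P.O ≤ P.Qm := by
    have := P.final_OQ
    omega
  obtain ⟨k, hk, hzk⟩ : ∃ k < P.K, (z : ℝ) * P.un P.g0 = P.Zt A P.D (2 * P.K + k) 0 P.g0
      (P.r P.g0 * (P.O / P.r P.g0)) (P.r P.g0 * (pe / P.r P.g0)) := by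
    rcases final_fold (range P.K) (2 ^ (P.nbm + 2) * P.U1) (fun k =>
      P.zX (fun i => A P.D (2 * P.K + k) 0 i P.k0) P.g0
        (P.r P.g0 * (P.O / P.r P.g0)) (P.r P.g0 * (pe / P.r P.g0))) with h | ⟨k, hk, h⟩
    · exfalso
      have h' : z = 2 ^ (P.nbm + 2) * P.U1 := h
      rw [h', mul_right_comm, ← pow_add] at c3
      have h1 := (Nat.pow_lt_pow_iff_right one_lt_two).1 (Nat.lt_of_mul_lt_mul_right c3)
      have h2 := P.hi_lt P.g0
      unfold hi at h2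
      omega
    · refine ⟨k, mem_range.1 hk, ?_⟩
      have h' : z = _ := h
      rw [h']
      rfl
  have hv := Zt_valid hP hS le_rfl (k := 2 * P.K + k) (by unfold KK; omega) (a := 0)
    (pow_pos P.b_pos _) P.g0 ((Nat.mul_div_le P.O (P.r P.g0)).trans hO)
    ((Nat.mul_div_le pe (P.r P.g0)).trans c2)
  rw [← hzk] at hv
  have c3' := (P.final_cond z).1 c3
  have hd := final_del hP
  have he := eps_le hP
  have hd0 := P.del_pos
  have hl := En_lip (w := wt x y P.O) P P.D 0 P.O pe (P.r P.g0 * (P.O / P.r P.g0))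
    (P.r P.g0 * (pe / P.r P.g0))
  have r1 := P.final_round P.g0 P.O
  have r2 := P.final_round P.g0 pe
  have hE : (P.J : ℝ) * ED x y ≤ P.En (wt x y P.O) P.D 0 P.O pe := by
    have h1 := ED_le_E x y P.O P.Qm P.NA hN c1
    have h2 : P.J * ED x y ≤ P.En (wt x y P.O) P.D 0 P.O pe := by
      unfold En
      rw [zero_mul]
      exact (Nat.mul_le_mul_left _ h1).trans (Nat.le_add_right _ _)
    exact_mod_cast h2
  set e : ℝ := ((P.En (wt x y P.O) P.D 0 (P.r P.g0 * (P.O / P.r P.g0))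
    (P.r P.g0 * (pe / P.r P.g0)) : ℕ) : ℝ) with he'
  have e0 : 0 ≤ e := Nat.cast_nonneg _
  have hv' : (1 - P.del) * e ≤ z * P.un P.g0 := by
    rcases le_total e (2 ^ (P.g0 + 2)) with h | h
    · rwa [min_eq_left h] at hv
    · rw [min_eq_right h, pow_succ] at hv
      have : (0 : ℝ) < 2 ^ (P.g0 + 1) := by positivity
      nlinarith
  have hv2 : e ≤ z * P.un P.g0 * (1 + 2 * P.del) := by
    have h1 := mul_le_mul_of_nonneg_right hv' (by linarith : (0 : ℝ) ≤ 1 + 2 * P.del)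
    have h2 : 0 ≤ P.del * (1 - 2 * P.del) * e := mul_nonneg (mul_nonneg hd0.le (by linarith)) e0
    nlinarith
  rw [Nat.le_div_iff_mul_le hden, ← Nat.cast_le (α := ℝ), P.final_quot, Nat.cast_mul]
  refine mul_le_mul_of_nonneg_right ?_ (Nat.cast_nonneg _)
  rw [le_div_iff₀ hJ]
  have h3 : (0 : ℝ) ≤ ((P.r P.g0 - 1 : ℕ) : ℝ) * P.J * P.del := by positivity
  nlinarith

/-- The run with the right guess is accurate (`root_le`, `avZ_lip`, `E_le_ED`, `J0_NA`,
`G g0 = 2^kp J`, `om1_G`, `om1_le`); for `ED = 0` the quotient is below one. -/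
theorem cand_le (hP : P.Good) (hS : P.Star (wt x y P.O) A) (hN : x.length + y.length ≤ P.NA)
    (h1 : ED x y ≤ 2 ^ P.kp) (h2 : 2 ^ P.kp ≤ 2 * max (ED x y) 1) :
    (P.candK x.length y.length (P.rootZ (A P.D) (P.O + x.length - y.length)) : ℝ) ≤
      (1 + 20 * P.eps) * ED x y := by
  have hlen := ED_len x y
  have hOQ := P.final_OQ
  have hO : ED x y ≤ P.O := h1.trans (Nat.pow_le_pow_right two_pos (Nat.le_succ _))
  set pe := P.O + x.length - y.length with hpe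
  set z := P.rootZ (A P.D) pe with hz
  have c1 : y.length ≤ P.O + x.length := by omega
  have c2 : pe ≤ P.Qm := by omega
  have hJ : (0 : ℝ) < P.J := Nat.cast_pos.2 P.J_pos
  have hU : 0 < P.U1 := Nat.two_pow_pos _
  have hden : 0 < 2 ^ P.dh * P.J * P.U1 :=
    Nat.mul_pos (Nat.mul_pos (Nat.two_pow_pos _) P.J_pos) hU
  have hK : (0 : ℝ) < P.K := Nat.cast_pos.2 hP.K_pos
  have hav : (z : ℝ) * P.un P.g0 ≤ P.avZ A 2 P.D 0 P.g0
      (P.r P.g0 * (P.O / P.r P.g0)) (P.r P.g0 * (pe / P.r P.g0)) := by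
    unfold avZ
    rw [le_div_iff₀ hK]
    have := Finset.card_nsmul_le_sum (range P.K) (fun k => P.Zt A P.D (2 * P.K + k) 0 P.g0
      (P.r P.g0 * (P.O / P.r P.g0)) (P.r P.g0 * (pe / P.r P.g0))) (z * P.un P.g0) fun k hk =>
        mul_le_mul_of_nonneg_right (Nat.cast_le.2 ((Finset.fold_min_le _).2
          (Or.inr ⟨k, hk, le_rfl⟩))) (P.un_pos _).le
    rwa [card_range, nsmul_eq_mul, mul_comm] at this
  have hr := root_le hP hS P.g0 ((Nat.mul_div_le P.O (P.r P.g0)).trans (by omega : P.O ≤ P.Qm))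
    ((Nat.mul_div_le pe (P.r P.g0)).trans c2)
  have hl := En_lip (w := wt x y P.O) P P.D 0 (P.r P.g0 * (P.O / P.r P.g0))
    (P.r P.g0 * (pe / P.r P.g0)) P.O pe
  rw [P.dR_comm _ P.O, P.dR_comm _ pe] at hl
  have r1 := P.dR_round P.g0 P.O
  have r2 := P.dR_round P.g0 pe
  have hE : (P.En (wt x y P.O) P.D 0 P.O pe : ℝ) ≤ P.J * ED x y + P.J0 * (P.b : ℝ) ^ P.D := by
    have h3 := E_le_ED x y P.O P.Qm P.NA hN hO hOQ.le
    have h4 : P.En (wt x y P.O) P.D 0 P.O pe ≤ P.J * ED x y + P.J0 * P.b ^ P.D := by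
      unfold En
      rw [zero_mul]
      exact Nat.add_le_add_right (Nat.mul_le_mul_left _ h3) _
    exact_mod_cast h4
  have hNA := J0_NA hP
  have hd := final_del hP
  have he := eps_le hP
  have hd0 := P.del_pos
  have he0 := P.eps_pos
  have hfl := P.fl_le_eR P.g0
  have heR := P.eR_pos P.g0
  have hk1 : (1 : ℝ) ≤ 2 ^ P.kp := one_le_pow₀ one_le_two
  have h1' : (ED x y : ℝ) ≤ 2 ^ P.kp := by exact_mod_cast h1
  have hsm : 2048 * P.eR P.g0 ≤ P.eps * (2 ^ P.kp * P.J) := by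
    have a1 := P.om1_G P.g0
    rw [P.final_G] at a1
    have a2 := mul_le_mul_of_nonneg_right (om1_le hP) (by positivity : (0 : ℝ) ≤ 2 ^ P.kp * P.J)
    have a3 : (4 : ℝ) ≤ P.b := by exact_mod_cast b_ge hP
    have a4 : (0 : ℝ) ≤ P.nbm := Nat.cast_nonneg _
    have a5 : (4 : ℝ) ≤ P.b * (P.nbm + 1) := by nlinarith
    have a6 := mul_le_mul_of_nonneg_right a5 heR.le
    nlinarith
  set d : ℝ := ((ED x y : ℕ) : ℝ) with hdd
  have d0 : 0 ≤ d := Nat.cast_nonneg _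
  have hz1 : (z : ℝ) * P.un P.g0 ≤
      (1 + 6 * P.eps) * (P.J * d + P.eps * P.J / 8 + 2 * P.eR P.g0) + 2 * P.eR P.g0 := by
    have := mul_le_mul_of_nonneg_left (show (P.En (wt x y P.O) P.D 0 (P.r P.g0 * (P.O / P.r P.g0))
      (P.r P.g0 * (pe / P.r P.g0)) : ℝ) ≤ P.J * d + P.eps * P.J / 8 + 2 * P.eR P.g0 by linarith)
      (by linarith : (0 : ℝ) ≤ 1 + 6 * P.eps)
    linarith
  have c3 : z * 2 ^ P.lo P.g0 < 2 ^ (P.g0 + 1) * P.U1 := by
    rw [P.final_cond]
    have a1 : (2 : ℝ) ^ P.kp * P.J ≤ 2 ^ P.g0 := by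
      rw [P.two_pow_eq P.g0, P.final_G]
      exact le_mul_of_one_le_left (by positivity) (one_le_pow₀ one_le_two)
    rw [pow_succ]
    linarith [final_ar1 he0 he hJ d0 hk1 h1' heR hsm hz1]
  unfold candK
  rw [if_pos ⟨c1, c2, c3⟩]
  refine le_trans (Nat.cast_le.2 (min_le_right _ _)) ?_
  set X := (z * 2 ^ P.lo P.g0 + 2 * (P.r P.g0 - 1) * P.J * P.U1) * (2 ^ P.dh + 2) /
    (2 ^ P.dh * P.J * P.U1) with hX
  set m : ℝ := max d 1 with hm
  have m1 : 1 ≤ m := le_max_right _ _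
  have md : d ≤ m := le_max_left _ _
  have h2' : (2 : ℝ) ^ P.kp ≤ 2 * m := by
    rw [hm, hdd]
    exact_mod_cast h2
  have hXle : (X : ℝ) ≤ d + 9 * P.eps * m := by
    refine Nat.cast_div_le.trans ?_
    rw [P.final_quot, mul_div_cancel_right₀ _ (Nat.cast_pos.2 hden).ne', div_le_iff₀ hJ]
    exact final_ar2 he0 he hJ d0 m1 md h2' hsm hz1 (P.final_rJ P.g0) hd0 hd
  rcases Nat.eq_zero_or_pos (ED x y) with h0 | h0
  · have d0' : d = 0 := by rw [hdd, h0, Nat.cast_zero]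
    have m0 : m = 1 := by rw [hm, d0', max_eq_right zero_le_one]
    have : X < 1 := by
      rw [← Nat.cast_lt (α := ℝ), Nat.cast_one]
      rw [d0', m0] at hXle
      linarith
    rw [Nat.lt_one_iff.1 this, d0']
    simp
  · have d1 : 1 ≤ d := by
      rw [hdd]
      exact_mod_cast h0
    rw [hm, max_eq_left d1] at hXle
    nlinarith

end Pm

theorem answer_ok {n : ℕ} {x y : List ℕ} {ρ : ℕ → Bool} (hx : x.length ≤ n) (hy : y.length ≤ n)
    (hG : ∀ kp < Nat.log 2 n + 2, (par n kp).Good) (hN : 2 * n ≤ (par n 0).NA)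
    (hS : ∀ kp < Nat.log 2 n + 2, (par n kp).Star (wt x y (par n kp).O)
      ((par n kp).A (wt x y (par n kp).O) ρ)) :
    ED x y ≤ answer n x y ρ ∧ (answer n x y ρ : ℝ) ≤ (1 + 20 * (par n 0).eps) * ED x y := by
  have hN' : ∀ kp, x.length + y.length ≤ (par n kp).NA := fun kp => by
    have : (par n kp).NA = (par n 0).NA := rfl
    omega
  constructor
  · exact (Finset.le_fold_min _).2 ⟨(ED_len x y).2.2, fun kp hk =>
      Pm.cand_ge (hG kp (mem_range.1 hk)) (hS kp (mem_range.1 hk)) (hN' kp)⟩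
  · have h1 : ED x y ≤ n := (ED_le_max x y).trans (max_le hx hy)
    have hk : Nat.clog 2 (ED x y) < Nat.log 2 n + 2 :=
      Nat.lt_succ_of_le ((Nat.clog_le_iff_le_pow one_lt_two).2
        (h1.trans (Nat.lt_pow_succ_log_self one_lt_two n).le))
    have h2 : 2 ^ Nat.clog 2 (ED x y) ≤ 2 * max (ED x y) 1 := by
      rcases le_or_gt (ED x y) 1 with h | h
      · rw [Nat.clog_of_right_le_one h]
        omega
      · have a1 := Nat.pow_pred_clog_lt_self one_lt_two h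
        have a2 := Nat.clog_pos one_lt_two h
        obtain ⟨c, hc⟩ := Nat.exists_eq_succ_of_ne_zero a2.ne'
        rw [hc] at a1 ⊢
        rw [Nat.pred_succ] at a1
        rw [pow_succ]
        omega
    have h3 := Pm.cand_le (hG _ hk) (hS _ hk) (hN' _) (Nat.le_pow_clog one_lt_two _) h2
    refine le_trans (Nat.cast_le.2 ((Finset.fold_min_le _).2
      (Or.inr ⟨_, mem_range.2 hk, le_rfl⟩))) h3

end Vale.Agent.P315F
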