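import Vale.Agent.P315F.Rep

/-! Steps: commands that take the invariant `I` to the invariant `I'` in time `U * κ * R^κ`
and leave the arrays in `keep` alone; the recursion scheme and loops in this form. -/

namespace Vale.Agent.P315F

open Vale.Agent.P315 Finset

variable {σ : Type}

def Stp (V R U : σ → ℕ) (keep : ℕ → Prop) (I I' : σ → Mem → Prop) : Prop :=
  ∃ (c : Cmd) (κ : ℕ), ∀ s Pr B m, Env B (V s) (R s) κ → I s m → Bd (V s) m →
    ∃ m', Does Pr B c m m' (U s * (κ * R s ^ κ)) ∧ Bd (V s) m' ∧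
      (∀ a i, keep a → m' a i = m a i) ∧ I' s m'

variable {V R U : σ → ℕ} {keep : ℕ → Prop} {I I' I'' : σ → Mem → Prop}

theorem Stp.mono {I0 I1 : σ → Mem → Prop} (h : Stp V R U keep I I') (h0 : ∀ s m, I0 s m → I s m)
    (h1 : ∀ s m, I' s m → I1 s m) : Stp V R U keep I0 I1 := by
  obtain ⟨c, κ, H⟩ := h
  refine ⟨c, κ, fun s Pr B m hE hI hm => ?_⟩
  obtain ⟨m', a, b, c, d⟩ := H s Pr B m hE (h0 _ _ hI) hm
  exact ⟨m', a, b, c, h1 _ _ d⟩

theorem stp_cost {U R k k' : ℕ} (hU : 1 ≤ U) (hR : 1 ≤ R) :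
    U * (k * R ^ k) + U * (k' * R ^ k') + 1 ≤ U * ((k + k' + 1) * R ^ (k + k' + 1)) := by
  have k1 := cost_add hR k k'
  have k2 := cost_add hR (k + k') 1
  have k3 := fill_le hR 1
  refine le_trans ?_ (Nat.mul_le_mul_left U (show k * R ^ k + k' * R ^ k' + 1 ≤ _ by omega))
  rw [mul_add, mul_add]
  omega

theorem Stp.seq (h : Stp V R U keep I I') (h' : Stp V R U keep I' I'')
    (hU : ∀ s m, I s m → 1 ≤ U s) : Stp V R U keep I I'' := by
  obtain ⟨c, κ, H⟩ := h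
  obtain ⟨c', κ', H'⟩ := h'
  refine ⟨.seq c c', κ + κ' + 1, fun s Pr B m hE hI hm => ?_⟩
  obtain ⟨m1, a1, b1, c1, d1⟩ := H s Pr B m (hE.mono (by omega)) hI hm
  obtain ⟨m2, a2, b2, c2, d2⟩ := H' s Pr B m1 (hE.mono (by omega)) d1 b1
  exact ⟨m2, (a1.seq a2).mono (stp_cost (hU _ _ hI) hE.hR), b2,
    fun a i ha => (c2 a i ha).trans (c1 a i ha), d2⟩

theorem Stp.ite {J : Inv σ} {q : σ → Prop} (hq : RepP J q) (h : Stp V R U keep (J.and q).I I')
    (h' : Stp V R U keep (J.and fun s => ¬q s).I I') (hU : Al J fun s => 1 ≤ U s)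
    (hS : ∀ s m, J.I s m → Sm (R s) m) : Stp V R U keep J.I I' := by
  obtain ⟨e, e1, -, e3⟩ := hq
  obtain ⟨c, κ, H⟩ := h
  obtain ⟨c', κ', H'⟩ := h'
  obtain ⟨cd, k, Hd⟩ := ifF_ex e e1 c c'
  refine ⟨cd, κ + κ' + k + 1, fun s Pr B m hE hI hm => ?_⟩
  have hR := hE.hR
  have u1 : k * R s ^ k ≤ U s * (k * R s ^ k) := Nat.le_mul_of_pos_left _ (hU s m hI)
  have u2 := stp_cost (k := κ + κ') (k' := k) (hU s m hI) hR
  by_cases hs : q s
  · obtain ⟨m1, a1, r1⟩ := H s Pr B m (hE.mono (by omega)) ⟨hI, hs⟩ hm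
    refine ⟨m1, (Hd Pr B _ _ m m1 _ (hE.mono (by omega)) hm (hS s m hI) (fun _ => a1)
      fun h => absurd ((e3 s m hI).2 hs) h).mono ?_, r1⟩
    have := Nat.mul_le_mul_left (U s) (cost_mono hR (show κ ≤ κ + κ' by omega))
    omega
  · obtain ⟨m1, a1, r1⟩ := H' s Pr B m (hE.mono (by omega)) ⟨hI, hs⟩ hm
    refine ⟨m1, (Hd Pr B _ _ m m1 _ (hE.mono (by omega)) hm (hS s m hI)
      (fun h => absurd ((e3 s m hI).1 h) hs) fun _ => a1).mono ?_, r1⟩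
    have := Nat.mul_le_mul_left (U s) (cost_mono hR (show κ' ≤ κ + κ' by omega))
    omega

/-- Fill the cells `β, …, β + sz - 1` of array `arr` with `g`; the body may read the cells that
are already written. -/
theorem Stp.fill {J : Inv σ} (hd : J.d = 0) (arr : ℕ) (h5 : arr ≠ 5) (h6 : arr ≠ 6)
    (hk : ¬keep arr) {β sz : σ → ℕ} {g : σ → ℕ → ℕ} (k : ℕ) (hβ : Rep J β) (hsz : Rep J sz)
    (hg : Rep (J.fil arr h6 β sz g) fun p => g p.1 p.2)
    (hst : ∀ s m n, n ≤ sz s → J.I s m → J.I s (upd m arr (β s) n (g s)))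
    (hS : ∀ s m, J.I s m → Sm (R s) m)
    (hb : Al J fun s => β s + sz s ≤ V s ∧ sz s + 1 ≤ U s * R s ^ k ∧ (∀ e < sz s, g s e ≤ V s) ∧
      (arr = 7 → ∀ e < sz s, g s e ≤ R s)) :
    Stp V R U keep J.I fun s m => J.I s m ∧ ∀ e < sz s, m arr (β s + e) = g s e := by
  obtain ⟨e1, a1, -, a3⟩ := hβ
  obtain ⟨e2, b1, -, b3⟩ := hsz
  obtain ⟨e3, c1, -, c3⟩ := hg
  obtain ⟨c, κ, H⟩ := fill_ex arr h5 h6 e1 e2 e3 a1 b1 c1
  refine ⟨c, κ + k, fun s Pr B m hE hI hm => ?_⟩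
  obtain ⟨q1, q2, q3, q4⟩ := hb s m hI
  refine ⟨upd m arr (β s) (sz s) (g s), (H Pr B _ _ m (g s) (β s) (sz s) (hE.mono (by omega)) hm
    (hS s m hI) (a3 s m hI) (b3 s m hI) q1 q3 q4 fun e he => ?_).mono ?_, hm.upd _ _ _ q3,
    fun a i ha => ?_, hst s m _ le_rfl hI, fun e he => upd_in _ _ _ _ _ he⟩
  · refine c3 (s, e) _ ⟨J.st _ _ _ _ hd.le (hst s m e he.le hI), ?_, he, fun e' he' => ?_⟩
    · rw [hd, Mem.set_same]
    · rw [Mem.set_arr _ _ _ h6, upd_in _ _ _ _ _ he']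
  · calc (sz s + 1) * (κ * R s ^ κ) ≤ U s * R s ^ k * (κ * R s ^ κ) := Nat.mul_le_mul_right _ q2
      _ = U s * (κ * R s ^ (κ + k)) := by ring
      _ ≤ _ := Nat.mul_le_mul_left _ (Nat.mul_le_mul_right _ (by omega))
  · rw [upd_arr _ _ _ _ (fun h : a = arr => hk (h ▸ ha))]

/-! ### The recursion scheme -/

/-- A family of recursions. -/
structure Sch (σ : Type) where
  X : σ → Rec
  V : σ → ℕ
  R : σ → ℕ
  ok : σ → Prop
  stab : ∀ s m m', (X s).I m → (∀ a i, (a < 4 ∨ a = 7 ∨ 16 < a) → m' a i = m a i) → (X s).I m'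

/-- A member of the family, the argument of a call and the stack level. -/
structure Cx (σ : Type) where
  s : σ
  A : Arg
  sp : ℕ

namespace Sch

variable (S : Sch σ)

/-- The invariant at the start of a call. -/
def Jf : Inv (Cx σ) where
  I c m := S.ok c.s ∧ (S.X c.s).Val c.A ∧ (S.X c.s).I m ∧ Fr m c.sp c.A
  d := 0
  st := fun _ _ _ _ _ h => ⟨h.1, h.2.1,
    S.stab _ _ _ h.2.2.1 fun a _ ha => by rw [Mem.set_arr _ _ _ (by omega)], h.2.2.2.set6 _ _⟩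

/-- The invariant when the arguments of the subcall number `t` are computed. -/
def Js : Inv (Cx σ × ℕ) where
  I q m := S.Jf.I q.1 m ∧ m 9 (8 * q.1.sp + 7) = q.2 ∧ q.2 < (S.X q.1.s).cnt q.1.A
  d := 0
  st := fun _ _ _ _ hx h => ⟨S.Jf.st _ _ _ _ hx h.1,
    by rw [Mem.set_arr _ _ _ (by decide)]; exact h.2.1, h.2.2⟩

/-- The invariant after the subcalls. -/
def Jp : Inv (Cx σ) where
  I c m := S.Jf.I c m ∧ (c.sp + 1) * ((S.X c.s).STR + 8) ≤ S.V c.s ∧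
    ∀ t < (S.X c.s).cnt c.A, ∀ e < (S.X c.s).TS,
      m 11 (c.sp * (S.X c.s).STR + t * (S.X c.s).TS + e) = (S.X c.s).G ((S.X c.s).sub c.A t) e
  d := 0
  st := fun _ _ _ _ hx h => ⟨S.Jf.st _ _ _ _ hx h.1, h.2.1,
    by rw [Mem.set_arr _ _ _ (by decide)]; exact h.2.2⟩

theorem Jp_upd {c : Cx σ} {m : Mem} (h : S.Jp.I c m) {arr : ℕ} (h1 : 12 ≤ arr) (h2 : arr ≤ 16)
    (β n : ℕ) (g : ℕ → ℕ) : S.Jp.I c (upd m arr β n g) :=
  ⟨⟨h.1.1, h.1.2.1, S.stab _ _ _ h.1.2.2.1 fun a _ ha => by rw [upd_arr _ _ _ _ (by omega)],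
    h.1.2.2.2.upd (by omega) (by omega) _ _ _⟩, h.2.1,
    by rw [upd_arr _ _ _ _ (by omega)]; exact h.2.2⟩

/-- The side conditions that do not mention expressions. -/
structure Pre : Prop where
  par : ∀ s m, S.ok s → (S.X s).I m → m 17 0 = (S.X s).TS ∧ m 17 1 = (S.X s).STR ∧ Sm (S.R s) m
  val : ∀ s A t, S.ok s → (S.X s).Val A → t < (S.X s).cnt A → (S.X s).Val ((S.X s).sub A t)
  rank : ∀ s A t, S.ok s → (S.X s).Val A → t < (S.X s).cnt A →
    (S.X s).rank ((S.X s).sub A t) < (S.X s).rank A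
  bd : ∀ s A, S.ok s → (S.X s).Val A → ∀ e, A.get e ≤ S.V s
  cnt : ∀ s A, S.ok s → (S.X s).Val A → (S.X s).cnt A * (S.X s).TS ≤ (S.X s).STR
  calls : ∀ s A, S.ok s → (S.X s).Val A →
    1 + ∑ t ∈ range ((S.X s).cnt A), (S.X s).calls ((S.X s).sub A t) ≤ (S.X s).calls A
  hTS : ∀ s, S.ok s → 1 ≤ (S.X s).TS
  hU : ∀ s, S.ok s → (S.X s).TS + 7 ≤ (S.X s).U

/-- The post-processing of a call. -/
def Post (I : Cx σ → Mem → Prop) : Prop :=
  Stp (fun c => S.V c.s) (fun c => S.R c.s) (fun c => (S.X c.s).U) (fun a => a < 12 ∨ 16 < a) I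
    fun c m => ∀ e < (S.X c.s).TS, m 12 e = (S.X c.s).G c.A e

variable {S}

theorem rep_sp {τ : Type} {J : Inv τ} {π : τ → Cx σ} (h : Ov J π S.Jf.I) :
    Rep J fun t => (π t).sp := Rep.rd 8 (by decide) (by decide) (Rep.c 0) fun t m k =>
  (h t m k).2.2.2.1

theorem rep_get {τ : Type} {J : Inv τ} {π : τ → Cx σ} (h : Ov J π S.Jf.I) {e : ℕ} (he : e < 6) :
    Rep J fun t => (π t).A.get e := Rep.rd 9 (by decide) (by decide)
  (((Rep.c 8).mul (rep_sp h)).add (Rep.c e)) fun t m k => (h t m k).2.2.2.2 e he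

theorem rep_t : Rep S.Js fun q => q.2 := Rep.rd 9 (by decide) (by decide)
  (((Rep.c 8).mul (rep_sp (J := S.Js) (π := fun q => q.1) fun _ _ k => k.1)).add (Rep.c 7)) fun _ _ k => k.2.1

theorem spec (hp : S.Pre) (hc : Rep S.Jf fun c => (S.X c.s).cnt c.A)
    (h0 : Rep S.Js fun q => ((S.X q.1.s).sub q.1.A q.2).md)
    (h1 : Rep S.Js fun q => ((S.X q.1.s).sub q.1.A q.2).k)
    (h2 : Rep S.Js fun q => ((S.X q.1.s).sub q.1.A q.2).h)
    (h3 : Rep S.Js fun q => ((S.X q.1.s).sub q.1.A q.2).a)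
    (h4 : Rep S.Js fun q => ((S.X q.1.s).sub q.1.A q.2).j)
    (h5 : Rep S.Js fun q => ((S.X q.1.s).sub q.1.A q.2).ad) (hpost : S.Post S.Jp.I) :
    ∃ (body : Cmd) (κ : ℕ), ∀ s Pr B, S.ok s → Env B (S.V s) (S.R s) κ → Pr[1]? = some body →
      (S.X s).Spec Pr B (S.V s) ((S.X s).U * (κ * S.R s ^ κ)) := by
  obtain ⟨ce, c1, -, c3⟩ := hc
  have hs : Rep (S.Js.ext fun _ e => e < 6) fun p =>
      ((S.X p.1.1.s).sub p.1.1.A p.1.2).get (p.2 - 0) :=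
    rep_cons Rep.var h0.wk <| rep_cons Rep.var h1.wk <| rep_cons Rep.var h2.wk <|
      rep_cons Rep.var h3.wk <| rep_cons Rep.var h4.wk <| rep_cons Rep.var h5.wk <| rep_nil _
  obtain ⟨se, s1, s2, s3⟩ := hs
  obtain ⟨post, κ0, H⟩ := hpost
  obtain ⟨body, κ, hκ, hrec⟩ := rec_ex ce se c1 s1 s2 post κ0
  refine ⟨body, κ, fun s Pr B hs hE hP => hrec (S.X s) Pr B _ _ hE hP ?_ ?_⟩
  · exact
      { stab := S.stab s
        par := fun m h => hp.par s m hs h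
        cntE := fun A sp m hA hI hF => c3 ⟨s, A, sp⟩ m ⟨hs, hA, hI, hF⟩
        subE := fun A sp m t hA hI hF ht ht' e he =>
          s3 ((⟨s, A, sp⟩, t), e) _ ⟨S.Js.st (⟨s, A, sp⟩, t) m 0 e le_rfl
            ⟨⟨hs, hA, hI, hF⟩, ht, ht'⟩, Mem.set_same _ _ _ _, he⟩
        val := fun A t => hp.val s A t hs
        rank := fun A t => hp.rank s A t hs
        bd := fun A => hp.bd s A hs
        cnt := fun A => hp.cnt s A hs
        calls := fun A => hp.calls s A hs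
        hTS := hp.hTS s hs
        hU := hp.hU s hs }
  · intro A hA sp m hI hm hF hV hsl
    exact H ⟨s, A, sp⟩ Pr B m (hE.mono hκ) ⟨⟨hs, hA, hI, hF⟩, hV, hsl⟩ hm

end Sch

/-- A loop that runs while the cell `i` of array `a` is not zero. -/
theorem does_loop {Pr : List Cmd} {B a i N T : ℕ} {c : Cmd} {Q : ℕ → Mem → Prop} (ha : a ≠ 5)
    (hi : i < B) (hN : N < B) (hQ : ∀ t ≤ N, ∀ m, Q t m → m a i = N - t)
    (hc : ∀ t < N, ∀ m, Q t m → ∃ m', Does Pr B c m m' T ∧ Q (t + 1) m') (n : ℕ) :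
    ∀ t m, t + n = N → Q t m →
      ∃ m', Does Pr B (.loop (.rd a (.const i)) c) m m' (n * (T + 3) + 3) ∧ Q N m' := by
  induction n with
  | zero =>
    intro t m ht h
    obtain rfl : t = N := by omega
    refine ⟨m, fun m0 h0 => ⟨m0, _, Exec.loopdone ?_ ?_, h0, by simp [Expr.cost]⟩, h⟩
    · simp only [Expr.Fits, Expr.eval, h0 a i ha, hQ t le_rfl m h]
      omega
    · simp only [Expr.eval, h0 a i ha, hQ t le_rfl m h]
      omega
  | succ n ih =>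
    intro t m ht h
    obtain ⟨m1, d1, q1⟩ := hc t (by omega) m h
    obtain ⟨m2, d2, q2⟩ := ih (t + 1) m1 (by omega) q1
    refine ⟨m2, fun m0 h0 => ?_, q2⟩
    obtain ⟨w1, t1, e1, v1, u1⟩ := d1 m0 h0
    obtain ⟨w2, t2, e2, v2, u2⟩ := d2 w1 v1
    refine ⟨w2, _, Exec.loopstep ?_ ?_ e1 e2, v2, ?_⟩
    · simp only [Expr.Fits, Expr.eval, h0 a i ha, hQ t (by omega) m h]
      omega
    · simp only [Expr.eval, h0 a i ha, hQ t (by omega) m h]
      omega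
    · simp only [Expr.cost, add_mul, one_mul]
      omega

end Vale.Agent.P315F
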