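import Vale.Agent.P315F.Defs
import Vale.Agent.P315F.Stp

/-! Memory layout.  Read-only during the recursion: arrays 0..3 (input), 7 (cell 0: range of the
folds), 17 (parameters), 18 (powers of two), 19 (logarithms), 20 (tables `EXg`), 21 (guess, best
value, counter), 22 (powers `y ^ e`), 23 (`SZ`).  Scratch: 13 (block tables `nu`). -/

namespace Vale.Agent.P315F

open Vale.Agent.P315 Finset

/-- Mode of a call: 0 official table, 1 pass, 2 root. -/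
def mo (A : Arg) : ℕ := A.md % 3
/-- Band of a call. -/
def bi (A : Arg) : ℕ := A.md / 3
def mkO (k h a i j : ℕ) : Arg := ⟨3 * i, k, h, a, j, 0⟩
def mkP (k h a i j ad : ℕ) : Arg := ⟨3 * i + 1, k, h, a, j, ad⟩
def mkR : Arg := ⟨2, 0, 0, 0, 0, 0⟩

@[simp] theorem mo_mkO (k h a i j : ℕ) : mo (mkO k h a i j) = 0 := by simp [mo, mkO]
@[simp] theorem bi_mkO (k h a i j : ℕ) : bi (mkO k h a i j) = i := by simp [bi, mkO]
@[simp] theorem mo_mkP (k h a i j ad : ℕ) : mo (mkP k h a i j ad) = 1 := by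
  simp only [mo, mkP]; omega
@[simp] theorem bi_mkP (k h a i j ad : ℕ) : bi (mkP k h a i j ad) = i := by
  simp only [bi, mkP]; omega
@[simp] theorem mo_mkR : mo mkR = 2 := rfl

namespace Pm

variable (P : Pm)

def DH : ℕ := 2 ^ (P.gp + P.rh + 3)
def DW : ℕ := 2 * P.DH + 1
def TS : ℕ := (P.Qm + 1) * P.DW
def NB : ℕ := 2 * (P.gp + P.rh) + P.lb + 4
def CM : ℕ := P.S + P.b * P.KK * P.NB + P.N + P.K * P.nbm
def STR : ℕ := P.CM * P.TS
/-- Grid on which the tables of band `i` are stored. -/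
def rb (i : ℕ) : ℕ := P.r (i - 2)
/-- Entry `e` of a stored table: `p = e / DW`, `p' = p + rb * (e % DW - DH)`. -/
def flat (i : ℕ) (t : Tab) (e : ℕ) : ℕ :=
  t (e / P.DW) (e / P.DW + P.rb i * (e % P.DW) - P.rb i * P.DH)
def idx (i p p' : ℕ) : ℕ := p * P.DW + (p' + P.rb i * P.DH - p) / P.rb i
/-- Radius (in grid steps) of the window of the options that matter for a state. -/
def RW : ℕ := 2 ^ (P.gp + P.rh + 2)
def DN : ℕ := 2 * P.Rn + 1
def NuS : ℕ := P.NG * P.b * (P.b + 1) * (P.Qm + 1) * P.DN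
def nuIdx (g' j n Q Q' : ℕ) : ℕ :=
  (((g' * P.b + j) * (P.b + 1) + n) * (P.Qm + 1) + Q) * P.DN + (Q' + P.Rn - Q)
/-- Entry `e` of the stored block tables of a pass for band `i`. -/
def nuG (X : Ctx) (k i e : ℕ) : ℕ :=
  if e / P.DN / (P.Qm + 1) / (P.b + 1) % P.b + e / P.DN / (P.Qm + 1) % (P.b + 1) ≤ P.b then
    P.nu X k (i + e / P.DN / (P.Qm + 1) / (P.b + 1) / P.b) (e / P.DN / (P.Qm + 1) / (P.b + 1) % P.b)
      (e / P.DN / (P.Qm + 1) % (P.b + 1)) (e / P.DN % (P.Qm + 1))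
      (e / P.DN % (P.Qm + 1) + e % P.DN - P.Rn)
  else 0
/-- Size of the tables `EXg`. -/
def XB : ℕ := (P.K + 1) * P.b * (2 ^ (P.nbm + 2) * P.U1) + P.N * (P.b * 2 ^ P.nbm * (3 * P.U1)) +
  P.Xmax + 1
/-- Largest band, largest scale, largest exponent of two. -/
def imx : ℕ := P.D * P.lb + P.ie + P.sh + P.kp + P.gp + P.nbm + P.NB + P.NS
def gmx : ℕ := P.imx + P.NG + 2
def pw : ℕ := P.gmx + P.sh + P.fp + P.ga + P.s0 + P.emax + (P.rh + 2) * P.b + P.mm + P.wz +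
  P.dh + P.mh + 10

/-- Content of array 17. -/
def bgL : List ℕ := [P.TS, P.STR, P.lb, P.lm, P.ell, P.k0, P.K, P.S, P.D, P.fp, P.gp, P.rh, P.ga,
  P.sh, P.ie, P.mh, P.s0, P.wz, P.dh, P.kp]

/-- A bound for the ranges of all folds (it does not depend on `kp`). -/
def small : ℕ := P.b + P.N + P.K + P.S + P.nbm + P.NG + P.Om + P.Xmax + P.lb + P.DN + 2 * P.RW +
  P.DW + P.emax + P.XB + 2 * P.U1 + P.mm + P.ell + 30

/-- A bound for all numbers that are ever stored (apart from the input). -/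
def big : ℕ := (P.D + 1) * P.HS + (2 * P.D + 5) * (P.STR + 8) + P.Rn * 2 ^ P.pw + P.NuS +
  (P.emax + 1) * (P.XB + 1) + (2 * P.U1 + 1) * (P.mm + 1) + (2 * P.U1) ^ P.mm + P.SZ P.ell +
  P.small + 3 * P.pw + P.KK + P.k0 + P.NA

def ValF (A : Arg) : Prop :=
  (mo A = 0 ∧ A.k < P.KK ∧ A.h ≤ P.D ∧ A.a < P.b ^ (P.D - A.h) ∧ bi A ≤ P.imx ∧ A.j ≤ P.k0 ∧
    A.ad = 0) ∨
  (mo A = 1 ∧ A.k < P.KK ∧ A.h ≤ P.D ∧ A.a < P.b ^ (P.D - A.h) ∧ bi A ≤ P.imx ∧ 1 ≤ A.j ∧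
    A.j ≤ P.k0 ∧ A.ad + P.SZ ((A.h - 1) % P.ell) ≤ (P.D + 1) * P.HS) ∨
  A = mkR

/-- Number of official tables used by a pass. -/
def nO (A : Arg) : ℕ := P.b * (A.k + 1) * P.NB

def cntF (A : Arg) : ℕ :=
  if mo A = 0 then (if P.smp A.h (bi A) ∧ A.j ≠ 0 then P.S else 0)
  else if mo A = 1 then
    (if P.smp A.h (bi A) then P.nO A + (if (A.h - 1) % P.ell = 0 then 0 else P.N) else 0)
  else P.K * P.nbm

/-- Rank of the official table of round `k'` used by a pass. -/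
def rk (A : Arg) (k' : ℕ) : ℕ := if k' < A.k ∨ (A.h - 1) % P.ell = 0 then P.k0 else A.j - 1
/-- Tape address and child of the slot `n` of a pass. -/
def sa (A : Arg) (n : ℕ) : ℕ := P.sad ((A.h - 1) % P.ell - 1) A.ad n
def Jc (ρ : ℕ → Bool) (A : Arg) (n : ℕ) : ℕ := P.Jn n (P.jv ρ (P.sa A n))
def subP (ρ : ℕ → Bool) (A : Arg) (n : ℕ) : Arg :=
  mkP A.k (A.h - 1) (A.a * P.b + P.Jc ρ A n) (P.bd (bi A) n) A.j
    (P.sa A n + P.SZ ((A.h - 1) % P.ell - 1))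

def subF (ρ : ℕ → Bool) (A : Arg) (t : ℕ) : Arg :=
  if mo A = 0 then mkP A.k A.h A.a (bi A) A.j (P.base A.h A.k A.a (bi A) A.j t)
  else if mo A = 1 then
    if t < P.nO A then
      mkO (t / P.NB % (A.k + 1)) (A.h - 1) (A.a * P.b + t / P.NB / (A.k + 1))
        (P.lo (bi A) + t % P.NB) (P.rk A (t / P.NB % (A.k + 1)))
    else if P.act (bi A) (t - P.nO A) then P.subP ρ A (t - P.nO A) else mkO 0 0 0 0 0
  else mkO (2 * P.K + t / P.nbm) P.D 0 (P.lo P.g0 + t % P.nbm) P.k0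

/-- The table computed by a call of mode 0 or 1. -/
def tabF (w : ℕ → ℕ → ℕ) (ρ : ℕ → Bool) (A : Arg) : Tab :=
  if mo A = 0 then P.A w ρ A.h A.k A.a (bi A) A.j else P.Pa w ρ A.h A.k A.a (bi A) A.j A.ad

def GF (x y : List ℕ) (ρ : ℕ → Bool) (A : Arg) (e : ℕ) : ℕ :=
  if mo A = 2 then P.ans x y ρ else P.flat (bi A) (P.tabF (wt x y P.O) ρ A) e

def rankF (A : Arg) : ℕ :=
  if mo A = 0 then 2 * A.h + 1 else if mo A = 1 then 2 * A.h else 2 * P.D + 2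

def Xc : ℕ := P.NS * 2 ^ P.lm + 3
def Yc : ℕ := P.b * P.KK * P.NB * (P.S + 1) * 2 ^ (P.gp + P.rh) + P.N + P.K * P.nbm * (P.S + 1) + 1
def win (h : ℕ) : ℕ := (h + P.ell - 1) / P.ell
def pot (k h j : ℕ) : ℕ := j + (P.k0 + 1) * (k + P.win h)
def cP (k h i j : ℕ) : ℕ :=
  2 ^ (h * P.lb + P.ie + P.sh - i) * (P.Xc ^ h * P.Yc ^ P.pot k h j)
def cR : ℕ := P.Xc ^ P.D * P.Yc ^ ((P.k0 + 1) * (P.KK + P.win P.D + 1) + 1)
def callsRoot : ℕ := 2 ^ (P.D * P.lb + P.ie + P.rh + P.lb - P.kp) * P.cR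
/-- Bound for `callsRoot * (TS + 7)` that does not depend on `kp`. -/
def CU : ℕ := 2 ^ (P.D * P.lb + P.ie + P.rh + P.lb) * P.cR * (5 * P.DW + 7)

def callsF (A : Arg) : ℕ :=
  if mo A = 0 then
    (if P.smp A.h (bi A) ∧ A.j ≠ 0 then (P.S + 1) * P.cP A.k A.h (bi A) A.j else 1)
  else if mo A = 1 then (if P.smp A.h (bi A) then P.cP A.k A.h (bi A) A.j else 1)
  else P.callsRoot

/-! The data of a pass. -/

/-- The context of the node of a call. -/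
def hX (w : ℕ → ℕ → ℕ) (ρ : ℕ → Bool) (A : Arg) : Ctx := P.ctx (P.A w ρ (A.h - 1)) A.a
/-- The official tables in the slots of a pass: round, child, band. -/
def tb (w : ℕ → ℕ → ℕ) (ρ : ℕ → Bool) (A : Arg) (k' c i' : ℕ) : Tab :=
  P.A w ρ (A.h - 1) k' (A.a * P.b + c) i' (P.rk A k')
/-- The sub-passes. -/
def Rr (w : ℕ → ℕ → ℕ) (ρ : ℕ → Bool) (A : Arg) (n : ℕ) : Tab := P.tabF w ρ (P.subP ρ A n)
def Yf (w : ℕ → ℕ → ℕ) (ρ : ℕ → Bool) (A : Arg) (g : ℕ) (qq : ℕ → ℕ) : ℕ :=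
  P.val (P.tb w ρ A A.k) g qq + if (A.h - 1) % P.ell = 0 then 0 else
    P.smpS (bi A) (P.tb w ρ A A.k) (P.Jc ρ A) (P.Rr w ρ A) g qq
def cf (A : Arg) (g : ℕ) : ℕ := if (A.h - 1) % P.ell = 0 then 0 else P.off (bi A) g
def Ps (w : ℕ → ℕ → ℕ) (ρ : ℕ → Bool) (A : Arg) : ℕ → ℕ → ℕ → ℕ :=
  P.PsN (P.hX w ρ A) A.k (P.Yf w ρ A) (P.cf A)

end Pm

/-- Parameters, input, tape, bounds, and the memory at the time of the outermost call. -/
structure Cf where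
  P : Pm
  x : List ℕ
  y : List ℕ
  ρ : ℕ → Bool
  V : ℕ
  R : ℕ
  m0 : Mem

namespace Cf

variable (c : Cf)

def w : ℕ → ℕ → ℕ := wt c.x c.y c.P.O

def ok : Prop := c.P.Good ∧ c.P.big ≤ c.V ∧ c.P.small ≤ c.R ∧ c.x.length + c.y.length ≤ c.V

/-- The read-only part of the memory. -/
structure RO (m : Mem) : Prop where
  lx : m 0 1 = c.x.length
  ly : m 0 2 = c.y.length
  ax : ∀ i, m 1 i = c.x.getD i 0
  ay : ∀ i, m 2 i = c.y.getD i 0
  tape : ∀ i, m 3 i = if c.ρ i then 1 else 0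
  r0 : m 7 0 = c.P.small
  sm : Sm c.R m
  bg : ∀ i < 20, m 17 i = c.P.bgL.getD i 0
  pow : ∀ i ≤ c.P.pw, m 18 i = 2 ^ i
  ex : ∀ e ≤ c.P.emax, ∀ u ≤ c.P.XB,
    m 20 (e * (c.P.XB + 1) + u) = EXg c.P.Wz (2 ^ (e + c.P.s0)) u
  pt : ∀ u ≤ 2 * c.P.U1, ∀ e ≤ c.P.mm, m 22 (u * (c.P.mm + 1) + e) = u ^ e
  sz : ∀ e ≤ c.P.ell, m 23 e = c.P.SZ e

variable {c} in
theorem RO.stab {m m' : Mem} (h : c.RO m)
    (hm : ∀ a i, (a < 4 ∨ a = 7 ∨ 16 < a) → m' a i = m a i) : c.RO m' where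
  lx := by rw [hm 0 1 (by omega)]; exact h.lx
  ly := by rw [hm 0 2 (by omega)]; exact h.ly
  ax := fun i => by rw [hm 1 i (by omega)]; exact h.ax i
  ay := fun i => by rw [hm 2 i (by omega)]; exact h.ay i
  tape := fun i => by rw [hm 3 i (by omega)]; exact h.tape i
  r0 := by rw [hm 7 0 (by omega)]; exact h.r0
  sm := fun i => by rw [hm 7 i (by omega)]; exact h.sm i
  bg := fun i hi => by rw [hm 17 i (by omega)]; exact h.bg i hi
  pow := fun i hi => by rw [hm 18 i (by omega)]; exact h.pow i hi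
  ex := fun i hi u hu => by rw [hm 20 _ (by omega)]; exact h.ex i hi u hu
  pt := fun i hi u hu => by rw [hm 22 _ (by omega)]; exact h.pt i hi u hu
  sz := fun i hi => by rw [hm 23 _ (by omega)]; exact h.sz i hi

def recF : Rec where
  I m := c.RO m ∧ ∀ a i, (a < 4 ∨ a = 7 ∨ 16 < a) → m a i = c.m0 a i
  Val := c.P.ValF
  cnt := c.P.cntF
  sub := c.P.subF c.ρ
  G := c.P.GF c.x c.y c.ρ
  rank := c.P.rankF
  calls := c.P.callsF
  TS := c.P.TS
  STR := c.P.STR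
  U := c.P.TS + 7

/-- The basic invariant. -/
def Bs (m : Mem) : Prop := c.ok ∧ c.RO m

end Cf

/-- The recursion. -/
def sch : Sch Cf where
  X := Cf.recF
  V := Cf.V
  R := Cf.R
  ok := Cf.ok
  stab := fun _ _ _ h hm => ⟨h.1.stab hm, fun a i ha => (hm a i ha).trans (h.2 a i ha)⟩

/-- The invariant of a sampled pass after its subcalls. -/
def JP : Inv (Cx Cf) := sch.Jp.and fun c => mo c.A = 1 ∧ c.s.P.smp c.A.h (bi c.A)

/-- The context of the node of a call. -/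
def Cx.X (c : Cx Cf) : Ctx := c.s.P.hX c.s.w c.s.ρ c.A

/-- The same with the block tables in array 13. -/
def JN : Inv (Cx Cf) where
  I c m := JP.I c m ∧ ∀ e < c.s.P.NuS, m 13 (0 + e) = c.s.P.nuG c.X c.A.k (bi c.A) e
  d := 0
  st := fun _ _ _ _ hx h => ⟨JP.st _ _ _ _ hx h.1,
    by rw [Mem.set_arr _ _ _ (by decide)]; exact h.2⟩

/-- `g` is one of the scales used by the call `c`. -/
def Cx.Sc (c : Cx Cf) (g : ℕ) : Prop := bi c.A ≤ g ∧ g < bi c.A + c.s.P.NG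

/-- The parameters are representable and the powers of two are in place. -/
structure PR {τ : Type} (J : Inv τ) (p : τ → Pm) : Prop where
  lb : Rep J fun t => (p t).lb
  lm : Rep J fun t => (p t).lm
  ell : Rep J fun t => (p t).ell
  k0 : Rep J fun t => (p t).k0
  K : Rep J fun t => (p t).K
  S : Rep J fun t => (p t).S
  D : Rep J fun t => (p t).D
  fp : Rep J fun t => (p t).fp
  gp : Rep J fun t => (p t).gp
  rh : Rep J fun t => (p t).rh
  ga : Rep J fun t => (p t).ga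
  sh : Rep J fun t => (p t).sh
  ie : Rep J fun t => (p t).ie
  mh : Rep J fun t => (p t).mh
  s0 : Rep J fun t => (p t).s0
  wz : Rep J fun t => (p t).wz
  dh : Rep J fun t => (p t).dh
  kp : Rep J fun t => (p t).kp
  pow : ∀ t m, J.I t m → ∀ i ≤ (p t).pw, m 18 i = 2 ^ i

end Vale.Agent.P315F
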