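import Vale.Agent.P315F.ParB
import Vale.Agent.P315F.RamDefs

/-! Word size and running time for the parameters `par n kp`. -/

namespace Vale.Agent.P315F

open Filter

namespace PF

variable {n L l m z t : ℕ} {P : Pm}

theorem mm_le (h : PF n L l m z t P) : P.mm ≤ 128 * l := by
  rw [Pm.mm, h.mh, pow_add]
  have := h.l1
  omega

theorem pw_le (h : PF n L l m z t P) (hk : P.kp < L + 2) :
    P.pw ≤ 4 * L + (400 * l + 4 * (l * P.b) + P.wz) := by
  have a1 := h.lb64; have a2 := h.lm64; have a3 := h.m_le; have a4 := h.Dlb.2; have a5 := h.mm_le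
  have a6 := h.zt; have a7 := h.t_le
  have a8 : (P.rh + 2) * P.b ≤ 4 * l * P.b := Nat.mul_le_mul_right _ (by have := h.rh; omega)
  have e1 := h.fp; have e2 := h.gp; have e3 := h.rh; have e4 := h.ga; have e5 := h.sh
  have e6 := h.ie; have e7 := h.mh; have e8 := h.s0; have e9 := h.dh
  rw [mul_assoc] at a8
  unfold Pm.pw Pm.gmx Pm.imx Pm.nbm Pm.NB Pm.NS Pm.NG Pm.emax
  omega

theorem Qm_le (h : PF n L l m z t P) (hk : P.kp < L + 2) : P.Qm + 1 ≤ 9 * n := by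
  have h1 : P.Qm ≤ 2 ^ (L + 3) := Nat.pow_le_pow_right two_pos (by omega)
  have h2 := h.n1
  have h3 := h.Ln
  rw [pow_add] at h1
  omega

theorem l40 (h : PF n L l m z t P) : 40 * l ≤ 2 ^ l := by
  have h1 := h.l32
  have h2 : 2 ^ (m + 7) ≤ 2 ^ l := Nat.pow_le_pow_right two_pos (by
    have := h.lb64; have := h.lm64; have := h.m_le; omega)
  rw [pow_succ] at h2
  omega

theorem Xc_le (h : PF n L l m z t P) : P.Xc ≤ 2 ^ (2 * P.lm) := by
  have a3 := h.m_le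
  have h1 : P.NS + 3 ≤ 2 ^ (m + 6) := by
    have := h.l32; have := h.lb64; have := h.lm64
    rw [Pm.NS, h.gp, h.rh]
    omega
  have h2 : 2 ^ (m + 6) ≤ 2 ^ P.lm := Nat.pow_le_pow_right two_pos (by omega)
  have h3 : 1 ≤ 2 ^ P.lm := Nat.one_le_two_pow
  calc P.Xc ≤ (P.NS + 3) * 2 ^ P.lm := by rw [Pm.Xc, add_mul]; omega
    _ ≤ 2 ^ P.lm * 2 ^ P.lm := Nat.mul_le_mul_right _ (h1.trans h2)
    _ = _ := by ring

theorem Yc_le (h : PF n L l m z t P) : P.Yc ≤ 2 ^ (80 * l) := by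
  have a1 := h.lb64; have a2 := h.lm64; have a3 := h.m_le; have a4 := h.l40; have a5 := h.nbm
  have h1 : P.b ≤ 2 ^ l := Nat.pow_le_pow_right two_pos (by omega)
  have h2 : P.K ≤ 2 ^ l := by rw [h.K]; exact Nat.pow_le_pow_right two_pos (by omega)
  have h3 : P.NB ≤ 2 ^ l := by rw [Pm.NB, h.gp, h.rh]; omega
  have h4 : P.S + 1 ≤ 2 ^ l * 2 ^ l * (2 ^ (28 * l)) ^ 2 := by
    have b1 := h.L2
    have b2 : 1 ≤ (2 ^ (28 * l)) ^ 2 := Nat.pos_of_ne_zero (by positivity)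
    have b3 : 128 * 2 ^ l ≤ 2 ^ l * 2 ^ l := Nat.mul_le_mul_right _ (by omega)
    rw [pow_succ] at b1
    calc P.S + 1 ≤ (64 * L + 1) * (2 ^ (28 * l)) ^ 2 := by rw [h.S, add_mul]; omega
      _ ≤ _ := Nat.mul_le_mul_right _ (by omega)
  have h5 : P.N ≤ 2 ^ (77 * l) := h.N_le.trans (Nat.pow_le_pow_right two_pos (by omega))
  have h6 : P.b * P.KK * P.NB * (P.S + 1) * 2 ^ (P.gp + P.rh) ≤ 3 * 2 ^ (77 * l) :=
    calc _ ≤ 2 ^ l * (3 * 2 ^ l) * 2 ^ l * (2 ^ l * 2 ^ l * (2 ^ (28 * l)) ^ 2) *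
          2 ^ (13 * l + 3 * l) := by rw [h.gp, h.rh, Pm.KK]; gcongr
      _ = _ := by ring
  have h7 : P.K * P.nbm * (P.S + 1) ≤ 2 ^ (77 * l) :=
    calc _ ≤ 2 ^ l * 2 ^ l * (2 ^ l * 2 ^ l * (2 ^ (28 * l)) ^ 2) := by gcongr; omega
      _ = 2 ^ (60 * l) := by ring
      _ ≤ _ := Nat.pow_le_pow_right two_pos (by omega)
  have h8 : 2 ^ (77 * l + 3) ≤ 2 ^ (80 * l) := Nat.pow_le_pow_right two_pos (by omega)
  have h9 : 1 ≤ 2 ^ (77 * l) := Nat.one_le_two_pow
  rw [pow_add] at h8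
  unfold Pm.Yc
  omega

theorem win_le (h : PF n L l m z t P) : P.win P.D + 1 ≤ P.D / P.ell + 4 := by
  have h0 : 0 < P.ell := by rw [h.ell]; exact Nat.two_pow_pos _
  have h1 : P.win P.D ≤ (P.D + P.ell) / P.ell := Nat.div_le_div_right (Nat.sub_le _ _)
  rw [Nat.add_div_right _ h0] at h1
  omega

end PF

theorem ol_par {e : ℕ → ℕ} (c : ℕ)
    (h : ∀ n, PF n (pL n) (pl n) (pm n) (pz n) (pt n) (par n 0) → e n ≤ c * pl n) : OL e :=
  ol_lin c (ev_pf.mono fun n hn => h n (hn 0))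

theorem ol_gr : OL fun n => (par n 0).gp + (par n 0).rh :=
  ol_par 16 fun _ h => by have := h.gp; have := h.rh; omega

theorem ol_lbe : OL fun n => (par n 0).lb := ol_par 1 fun _ h => by have := h.lb64; omega

theorem sml_DW : Sml fun n => (par n 0).DW :=
  ((Sml.const 2).mul (Sml.two_pow (ol_gr.add (OL.const 3)))).add (Sml.const 1)

theorem sml_RW : Sml fun n => (par n 0).RW := Sml.two_pow (ol_gr.add (OL.const 2))

theorem sml_DN : Sml fun n => (par n 0).DN := ((Sml.const 2).mul sml_Rn).add (Sml.const 1)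

theorem sml_NB : Sml fun n => (par n 0).NB :=
  Sml.of_OL (((ol_gr.cmul 2).add ol_lbe).add (OL.const 4))

theorem sml_NG : Sml fun n => (par n 0).NG := Sml.of_OL (ol_gr.add (OL.const 2))

theorem sml_nbm : Sml fun n => (par n 0).nbm := Sml.of_OL ol_nbm

theorem sml_emax : Sml fun n => (par n 0).emax :=
  Sml.of_OL (ol_par 32 fun _ h => by
    have := h.fp; have := h.rh; have := h.lb64; unfold Pm.emax; omega)

theorem sml_ell : Sml fun n => (par n 0).ell :=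
  Sml.of_OL (ol_par 1 fun _ h => by have := h.ell_le; omega)

theorem sml_CM : Sml fun n => (par n 0).CM :=
  ((sml_S.add ((sml_b.mul sml_KK).mul sml_NB)).add sml_N).add (sml_K.mul sml_nbm)

theorem sml_XB : Sml fun n => (par n 0).XB :=
  (((((sml_K.add (Sml.const 1)).mul sml_b).mul
    ((Sml.two_pow (ol_nbm.add (OL.const 2))).mul sml_U1)).add
    (sml_N.mul ((sml_b.mul (Sml.two_pow ol_nbm)).mul ((Sml.const 3).mul sml_U1)))).add
    sml_Xmax).add (Sml.const 1)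

theorem sml_small : Sml fun n => (par n 0).small :=
  ((((((((((((((((sml_b.add sml_N).add sml_K).add sml_S).add sml_nbm).add sml_NG).add sml_Om).add
    sml_Xmax).add (Sml.of_OL ol_lbe)).add sml_DN).add ((Sml.const 2).mul sml_RW)).add sml_DW).add
    sml_emax).add sml_XB).add ((Sml.const 2).mul sml_U1)).add sml_mm).add sml_ell).add
    (Sml.const 30)

theorem sml_cR : Sml fun n => (par n 0).cR :=
  (sml_level 2 (ev_pf.mono fun _ h => (h 0).Xc_le)).mul
    (sml_nest 80 (ev_pf.mono fun _ h => (h 0).Yc_le) (ev_pf.mono fun _ h => (h 0).win_le))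

theorem par_pw : ∀ᶠ n in atTop, ∀ kp < Nat.log 2 n + 2, (par n kp).pw ≤ 5 * Nat.log 2 n :=
  (ev_pf.and ((((ol_l.cmul 400).add (ol_lb.cmul 4)).add ol_wz) 1)).mono fun n h kp hk => by
    have h1 : (par n kp).pw ≤ 4 * pL n + (400 * pl n + 4 * (pl n * (par n 0).b) + (par n 0).wz) :=
      (h.1 kp).pw_le hk
    have h2 : 1 * (400 * pl n + 4 * (pl n * (par n 0).b) + (par n 0).wz) ≤ pL n := h.2
    unfold pL at h1 h2
    omega

theorem par_big : ∀ᶠ n in atTop, ∀ kp < Nat.log 2 n + 2, (par n kp).big ≤ n ^ 7 := by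
  have s1 := ((((((sml_D.add (Sml.const 1)).mul sml_KK).mul ((Sml.const 2).mul sml_b)).mul
    sml_NI).mul (sml_k0.add (Sml.const 1))).mul sml_S).mul sml_SZ
  have s2 := (((Sml.const 2).mul sml_D).add (Sml.const 5)).mul
    ((((Sml.const 9).mul sml_CM).mul sml_DW).add (Sml.const 8))
  have s3 := ((((Sml.const 9).mul sml_NG).mul sml_b).mul (sml_b.add (Sml.const 1))).mul sml_DN
  have s4 := ((((((((sml_emax.add (Sml.const 1)).mul (sml_XB.add (Sml.const 1))).add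
    ((((Sml.const 2).mul sml_U1).add (Sml.const 1)).mul (sml_mm.add (Sml.const 1)))).add
    sml_Hpow).add sml_SZ).add sml_small).add ((Sml.const 15).mul sml_L)).add sml_KK).add sml_k0
  have s5 := (Sml.const 2).mul sml_b
  refine (ev_pf.and (par_pw.and (sml_Rn.ev_le.and (s1.ev_le.and (s2.ev_le.and (s3.ev_le.and
    (s4.ev_le.and s5.ev_le))))))).mono fun n h kp hk => ?_
  obtain ⟨hp, hw, h0, h1, h2, h3, h4, h5⟩ := h
  have hP := hp kp
  have hQ := hP.Qm_le hk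
  have hN := hP.NA_le
  have hw' := hw kp hk
  have hn : 64 ≤ n := by have := hP.Ln; have := hP.lL; have := hP.t_le; have := hP.t64; omega
  change (par n kp).Rn ≤ n at h0
  change ((par n kp).D + 1) * (par n kp).KK * (2 * (par n kp).b) * (par n kp).NI *
    ((par n kp).k0 + 1) * (par n kp).S * (par n kp).SZ (par n kp).ell ≤ n at h1
  change (2 * (par n kp).D + 5) * (9 * (par n kp).CM * (par n kp).DW + 8) ≤ n at h2
  change 9 * (par n kp).NG * (par n kp).b * ((par n kp).b + 1) * (par n kp).DN ≤ n at h3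
  change ((par n kp).emax + 1) * ((par n kp).XB + 1) +
    (2 * (par n kp).U1 + 1) * ((par n kp).mm + 1) + (2 * (par n kp).U1) ^ (par n kp).mm +
    (par n kp).SZ (par n kp).ell + (par n kp).small + 15 * (Nat.log 2 n + 2) + (par n kp).KK +
    (par n kp).k0 ≤ n at h4
  change 2 * (par n kp).b ≤ n at h5
  have hL : 2 ^ Nat.log 2 n ≤ n := hP.n1
  generalize par n kp = P at *
  have b1 : (P.D + 1) * P.HS ≤ n * n :=
    calc _ ≤ (P.D + 1) * (P.KK * (2 * n * P.b) * P.NI * (P.k0 + 1) * P.S * P.SZ P.ell) := by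
          unfold Pm.HS; gcongr
      _ = n * ((P.D + 1) * P.KK * (2 * P.b) * P.NI * (P.k0 + 1) * P.S * P.SZ P.ell) := by ring
      _ ≤ _ := Nat.mul_le_mul_left _ h1
  have b2 : (2 * P.D + 5) * (P.STR + 8) ≤ n * n :=
    calc _ ≤ (2 * P.D + 5) * (P.CM * (9 * n * P.DW) + 8 * n) := by
          unfold Pm.STR Pm.TS; gcongr; omega
      _ = n * ((2 * P.D + 5) * (9 * P.CM * P.DW + 8)) := by ring
      _ ≤ _ := Nat.mul_le_mul_left _ h2
  have b3 : P.Rn * 2 ^ P.pw ≤ n ^ 6 :=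
    calc _ ≤ n * 2 ^ (Nat.log 2 n * 5) :=
          Nat.mul_le_mul h0 (Nat.pow_le_pow_right two_pos (by omega))
      _ ≤ n * n ^ 5 := by rw [pow_mul]; gcongr
      _ = _ := by ring
  have b4 : P.NuS ≤ n * n :=
    calc _ ≤ P.NG * P.b * (P.b + 1) * (9 * n) * P.DN := by unfold Pm.NuS; gcongr
      _ = n * (9 * P.NG * P.b * (P.b + 1) * P.DN) := by ring
      _ ≤ _ := Nat.mul_le_mul_left _ h3
  have b5 : P.NA ≤ n * n :=
    calc _ ≤ 2 * n * P.b := hN
      _ = n * (2 * P.b) := by ring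
      _ ≤ _ := Nat.mul_le_mul_left _ h5
  have b6 : n * n ≤ n ^ 6 := by rw [← sq]; exact Nat.pow_le_pow_right (by omega) (by omega)
  have b7 : n ≤ n * n := Nat.le_mul_self n
  have b8 : n ^ 6 * 64 ≤ n ^ 7 := by rw [pow_succ n 6]; exact Nat.mul_le_mul_left _ hn
  unfold Pm.big
  omega

theorem par_ram : ∃ n0, ∀ n ≥ n0, ∀ kp < Nat.log 2 n + 2, (par n kp).big ≤ n ^ 7 ∧
    (par n kp).pw ≤ 5 * Nat.log 2 n ∧ Nat.log 2 n + 1 ≤ (par n kp).D * (par n kp).lb :=
  eventually_atTop.1 ((ev_pf.and (par_big.and par_pw)).mono fun _ h kp hk =>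
    ⟨h.2.1 kp hk, h.2.2 kp hk, (Nat.le_succ _).trans (h.1 kp).Dlb.1⟩)

theorem par_time {ξ : ℝ} (hξ : 0 < ξ) (κ : ℕ) : ∃ n0, ∀ n ≥ n0,
    (((Nat.log 2 n + 3) * (((par n 0).CU + n + 2) * (κ * (par n 0).small ^ κ)) : ℕ) : ℝ) ≤
      (n : ℝ) ^ (1 + ξ) ∧ (par n 0).small ≤ n := by
  have s1 : Sml fun n => 2 ^ ((par n 0).ie + (par n 0).rh + (par n 0).lb) :=
    Sml.two_pow (ol_par 10 fun _ h => by have := h.ie; have := h.rh; have := h.lb64; omega)
  have s2 := (sml_L.add (Sml.const 1)).mul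
    (((((((Sml.const 2).mul sml_b).mul s1).mul sml_cR).mul
      (((Sml.const 5).mul sml_DW).add (Sml.const 7))).add (Sml.const 3)).mul
      ((Sml.const κ).mul (sml_small.pow κ)))
  refine eventually_atTop.1 ((s2.near (ev_pf.mono fun n h => ?_) hξ).and sml_small.ev_le)
  have hP := h 0
  have hN := hP.NA_le
  have hn : 1 ≤ n := by have := hP.Ln; omega
  have e1 : (par n 0).CU = (par n 0).NA * 2 ^ ((par n 0).ie + (par n 0).rh + (par n 0).lb) *
      (par n 0).cR * (5 * (par n 0).DW + 7) := by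
    rw [hP.NA, ← pow_add, ← add_assoc, ← add_assoc]; rfl
  rw [e1]
  change (pL n + 3) * _ ≤ _
  generalize par n 0 = P at *
  calc _ ≤ (pL n + 3) * ((2 * n * P.b * 2 ^ (P.ie + P.rh + P.lb) * P.cR * (5 * P.DW + 7) + n +
        2 * n) * (κ * P.small ^ κ)) := by gcongr; omega
    _ = _ := by ring

/-- Everything about the parameters that does not involve the memory layout. -/
theorem par_math {ξ ε : ℝ} (hξ : 0 < ξ) (hε : 0 < ε) : ∃ n0, ∀ n ≥ n0,
    (∀ kp, (par n kp).Good ∧ 2 * n ≤ (par n kp).NA ∧ 20 * (par n kp).eps ≤ ε ∧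
      ((((par n kp).D + 1) * (par n kp).HS * (par n kp).lb : ℕ) : ℝ) ≤ (n : ℝ) ^ (1 + ξ)) ∧
    ∀ kp < Nat.log 2 n + 2, ((Nat.log 2 n + 2 : ℕ) : ℝ) * (par n kp).fail ≤ 1 / 3 :=
  eventually_atTop.1 ((par_good.and (par_NA.and ((par_eps hε).and ((par_tape hξ).and
    par_fail)))).mono fun _ h => ⟨fun kp => ⟨h.1 kp, h.2.1 kp, h.2.2.1 kp, h.2.2.2.1 kp⟩, h.2.2.2.2⟩)

end Vale.Agent.P315F
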