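import Vale.Agent.P315F.Window

namespace Vale.Agent.P315F

open Finset Vale.Agent.P315

namespace Pm

variable {P : Pm}

theorem tape_good {w : ℕ → ℕ → ℕ} {A A' : ℕ → ℕ → ℕ → ℕ → ℕ → Tab} {h : ℕ}
    (H : ∀ h' ≤ h, A h' = A' h') (hG : P.GoodAt w A h) : P.GoodAt w A' h := by
  intro k hk a ha i j hj p hp p' hp'
  rw [← H h le_rfl, ← P.refV_congr w k h fun h' hh => H h' hh.le]
  exact hG k hk a ha i j hj p hp p' hp'

/-- First failure at the key `(h + 1, k, a, i, j)`. -/
def TapeBad (P : Pm) (w : ℕ → ℕ → ℕ) (A : ℕ → ℕ → ℕ → ℕ → ℕ → Tab) (h k a i j : ℕ) : Prop :=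
  (∀ h' ≤ h, P.GoodAt w A h') ∧ a < P.b ^ (P.D - (h + 1)) ∧
    ∃ p ≤ P.Qm, ∃ p' ≤ P.Qm,
      ¬ P.Near (P.alpha j) (A (h + 1) k a i j p p') (P.refV w A k (h + 1) a i p p')

theorem fail1_nonneg (P : Pm) : 0 ≤ P.fail1 := by unfold fail1; positivity

theorem tape_det (P : Pm) (w : ℕ → ℕ → ℕ) (ρ : ℕ → Bool) {h i : ℕ} (hs : ¬ P.smp (h + 1) i)
    (k a j p p' : ℕ) : P.Near (P.alpha j) (P.A w ρ (h + 1) k a i j p p')
      (P.refV w (P.A w ρ) k (h + 1) a i p p') := by
  rw [A_succ, refV_succ, if_neg hs, if_neg hs]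
  exact P.near_refl (P.alpha_pos j).le (Nat.cast_nonneg _)

theorem tape_key (hP : P.Good) {w : ℕ → ℕ → ℕ} (hw : WOk w) {R : ℕ}
    (hR : (P.D + 1) * P.HS * P.lb ≤ R) {h k a i j : ℕ} (hh : h < P.D) (hk : k < P.KK)
    (hj : j ≤ P.k0) :
    pr (fun r : Fin R → Bool => P.TapeBad w (P.A w (ext r)) h k a i j) ≤ P.fail1 := by
  by_cases hs : P.smp (h + 1) i
  swap
  · refine pr_empty (fun r => ?_) P.fail1_nonneg
    rintro ⟨-, -, p, -, p', -, hn⟩
    exact hn (P.tape_det w _ hs k a j p p')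
  rcases Nat.eq_zero_or_pos j with rfl | hj1
  · refine pr_empty (fun r => ?_) P.fail1_nonneg
    rintro ⟨-, -, p, -, p', -, hn⟩
    rw [A_succ, refV_succ, if_pos hs, if_pos hs, if_pos rfl] at hn
    exact hn (low_near hP _ _ _ _ _ _ _)
  obtain ⟨hb, m, hhb, hm, rfl⟩ := addr_split hP h
  have hSZ := P.SZ_mono hm.le
  have hlo : ∀ (t : Fin P.S) u,
      (hb + m + 1) * P.HS * P.lb ≤ P.pos m (P.base (hb + m + 1) k a i j t) u := fun t u =>
    (Nat.mul_le_mul_right _ (base_range hP _ k a i j t).1).trans (P.pos_range _ _ u).1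
  have hup : ∀ (t : ℕ) u, P.pos m (P.base (hb + m + 1) k a i j t) u <
      (P.base (hb + m + 1) k a i j t + P.SZ P.ell) * P.lb := fun t u =>
    (P.pos_range _ _ u).2.trans_le (Nat.mul_le_mul_right _ (by omega))
  have hhi : ∀ (t : Fin P.S) u, P.pos m (P.base (hb + m + 1) k a i j t) u < R := fun t u =>
    (hup t u).trans_le ((Nat.mul_le_mul_right _ ((base_range hP _ k a i j t).2.trans
      (Nat.mul_le_mul_right _ (by omega)))).trans hR)
  have hlt : ∀ (t t' : Fin P.S) u u', (t : ℕ) < t' → P.pos m (P.base (hb + m + 1) k a i j t) u <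
      P.pos m (P.base (hb + m + 1) k a i j t') u' := fun t t' u u' htt =>
    (hup t u).trans_le (le_trans (Nat.mul_le_mul_right _ (P.base_lt _ k a i j htt t'.2))
      (P.pos_range _ _ u').1)
  set e : Fin P.S × P.Idx m → Fin R := fun x => ⟨_, hhi x.1 x.2⟩ with he
  have hinj : Function.Injective e := by
    rintro ⟨t, u⟩ ⟨t', u'⟩ h
    have h1 : P.pos m (P.base (hb + m + 1) k a i j t) u =
        P.pos m (P.base (hb + m + 1) k a i j t') u' := congrArg Fin.val h
    have h2 : t = t' := by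
      rcases lt_trichotomy (t : ℕ) t' with h3 | h3 | h3
      · exact absurd h1 (hlt _ _ _ _ h3).ne
      · exact Fin.ext h3
      · exact absurd h1 (hlt _ _ _ _ h3).ne'
    subst h2
    rw [P.pos_inj _ _ h1]
  refine pr_resample e hinj _ fun r => ?_
  have hag : ∀ s : Fin P.S × P.Idx m → Bool, ∀ h' ≤ hb + m,
      P.A w (ext (Function.extend e s r)) h' = P.A w (ext r) h' := by
    intro s h' hh'
    refine A_congr hP w _ _ h' fun x hx0 => ?_
    unfold P315.ext
    split_ifs with hiR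
    · refine Function.extend_apply' _ _ _ ?_
      rintro ⟨y, hy⟩
      have h1 : P.pos m (P.base (hb + m + 1) k a i j y.1) y.2 = x := congrArg Fin.val hy
      have h2 := hlo y.1 y.2
      have h3 : (h' + 1) * P.HS * P.lb ≤ (hb + m + 1) * P.HS * P.lb :=
        Nat.mul_le_mul_right _ (Nat.mul_le_mul_right _ (by omega))
      omega
    · rfl
  by_cases hG : (∀ h' ≤ hb + m, P.GoodAt w (P.A w (ext r)) h') ∧ a < P.b ^ (P.D - (hb + m + 1))
  · refine (pr_mono ?_).trans (window_tail hP hw (tame_A hP hw (ext r)) hk hj1 hj hhb m hm hh hG.1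
      hG.2 i)
    rintro s ⟨-, -, p, hp, p', hp', hn⟩
    refine ⟨p, hp, p', hp', ?_⟩
    rw [P.refV_congr w k _ fun h' hh' => hag s h' (Nat.lt_succ_iff.1 hh'), A_succ, if_pos hs,
      if_neg hj1.ne', Finset.sum_range] at hn
    have h1 : ∀ t : Fin P.S, P.Pa w (ext (Function.extend e s r)) (hb + m + 1) k a i j
        (P.base (hb + m + 1) k a i j t) =
        P.passS w (P.A w (ext r)) k j hb m a i fun u => s (t, u) := by
      intro t
      rw [P.Pa_eq_passS w _ k j hb hhb m hm, P.passS_congr w k j hb m (hag s)]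
      congr 1
      funext u
      unfold P315.ext
      rw [dif_pos (hhi t u)]
      exact hinj.extend_apply s r (t, u)
    simpa only [h1] using hn
  · refine pr_empty (fun s hs => hG ⟨fun h' hh' => ?_, hs.2.1⟩) P.fail1_nonneg
    exact tape_good (fun h'' hh'' => hag s h'' (hh''.trans hh')) (hs.1 h' hh')

theorem prob_good (hP : P.Good) {w : ℕ → ℕ → ℕ} (hw : WOk w) {R : ℕ}
    (hR : (P.D + 1) * P.HS * P.lb ≤ R) :
    1 - P.fail ≤ pr (fun r : Fin R → Bool => ∀ h ≤ P.D, P.GoodAt w (P.A w (ext r)) h) := by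
  classical
  have hu := pr_union (range P.D ×ˢ range P.KK ×ˢ range P.NA ×ˢ range P.NI ×ˢ range (P.k0 + 1))
    (fun y (r : Fin R → Bool) =>
      P.TapeBad w (P.A w (ext r)) y.1 y.2.1 y.2.2.1 y.2.2.2.1 y.2.2.2.2)
    fun y hy => by
      simp only [mem_product, mem_range] at hy
      exact tape_key hP hw hR hy.1 hy.2.1 (Nat.lt_succ_iff.1 hy.2.2.2.2)
  simp only [card_product, card_range, ← mul_assoc] at hu
  have h1 := pr_not fun r : Fin R → Bool => ∀ h ≤ P.D, P.GoodAt w (P.A w (ext r)) h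
  have h2 : pr (fun r : Fin R → Bool => ¬ ∀ h ≤ P.D, P.GoodAt w (P.A w (ext r)) h) ≤ P.fail := by
    refine (pr_mono fun r hr => ?_).trans hu
    have hex : ∃ h, h ≤ P.D ∧ ¬ P.GoodAt w (P.A w (ext r)) h := by simpa using hr
    obtain ⟨h0, ⟨hD, hbad⟩, hmin⟩ : ∃ h0, (h0 ≤ P.D ∧ ¬ P.GoodAt w (P.A w (ext r)) h0) ∧
        ∀ h < h0, ¬ (h ≤ P.D ∧ ¬ P.GoodAt w (P.A w (ext r)) h) :=
      ⟨Nat.find hex, Nat.find_spec hex, fun h hh => Nat.find_min hex hh⟩
    cases h0 with
    | zero =>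
      exact absurd (fun k _ a _ i j _ p _ p' _ =>
        P.near_refl (P.alpha_pos j).le (Nat.cast_nonneg _)) hbad
    | succ h =>
      unfold GoodAt at hbad
      push Not at hbad
      obtain ⟨k, hk, a, ha, i, j, hj, p, hp, p', hp', hs⟩ := hbad
      refine ⟨(h, k, a, i, j), ?_, fun h' hh' => ?_, ha, p, hp, p', hp', hs⟩
      · simp only [mem_product, mem_range]
        refine ⟨hD, hk, ha.trans_le (Nat.pow_le_pow_right P.b_pos (Nat.sub_le _ _)), ?_,
          Nat.lt_succ_of_le hj⟩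
        have h3 : P.smp (h + 1) i := by_contra fun hn => hs (P.tape_det w _ hn k a j p p')
        have h4 := h3.2
        have h5 := Nat.mul_le_mul_right P.lb hD
        unfold NI
        omega
      · by_contra hn
        exact hmin h' (Nat.lt_succ_of_le hh') ⟨by simp only at hh'; omega, hn⟩
  linarith

/-- With probability `1 - fail` the official tables satisfy `Star`. -/
theorem prob_star (hP : P.Good) {w : ℕ → ℕ → ℕ} (hw : WOk w) {R : ℕ}
    (hR : (P.D + 1) * P.HS * P.lb ≤ R) :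
    1 - P.fail ≤ pr (fun r : Fin R → Bool => P.Star w (P.A w (ext r))) :=
  (prob_good hP hw hR).trans (pr_mono fun r h => star_of_good hP hw (ext r) h)

end Pm

end Vale.Agent.P315F
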