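import Vale.Agent.P315F.Final
import Vale.Agent.P315F.Tape
import Vale.Agent.P315F.ParT
import Vale.Agent.P315.Conc

/-! The output is a good approximation with probability at least 2/3. -/

namespace Vale.Agent.P315F

open Finset Vale.Agent.P315

theorem answer_prob {ξ ε : ℝ} (hξ : 0 < ξ) (hε : 0 < ε) : ∃ n0, ∀ n ≥ n0, ∀ x y : List ℕ,
    x.length ≤ n → y.length ≤ n → ∀ R : ℕ, (n : ℝ) ^ (1 + ξ) ≤ R →
      (2 / 3 : ℝ) ≤ pr (fun r : Fin R → Bool => ED x y ≤ answer n x y (ext r) ∧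
        (answer n x y (ext r) : ℝ) ≤ (1 + ε) * ED x y) := by
  obtain ⟨n0, h0⟩ := par_math hξ hε
  refine ⟨n0, fun n hn x y hx hy R hR => ?_⟩
  obtain ⟨h1, h2⟩ := h0 n hn
  have hu := pr_union (range (Nat.log 2 n + 2)) (fun kp (r : Fin R → Bool) =>
    ¬(par n kp).Star (wt x y (par n kp).O) ((par n kp).A (wt x y (par n kp).O) (ext r)))
    (δ := 1 / 3 / (Nat.log 2 n + 2 : ℕ)) fun kp hk => by
      have := Pm.prob_star (h1 kp).1 (wt_ok x y (par n kp).O) (R := R)
        (by exact_mod_cast (h1 kp).2.2.2.trans hR)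
      rw [pr_not, le_div_iff₀ (by positivity)]
      have h3 := h2 kp (mem_range.1 hk)
      have h4 : (0 : ℝ) ≤ (Nat.log 2 n + 2 : ℕ) := Nat.cast_nonneg _
      nlinarith
  rw [card_range, mul_div_cancel₀ _ (by positivity)] at hu
  refine le_trans (by rw [pr_not]; linarith) (pr_mono (p := fun r => ¬∃ kp ∈ range (Nat.log 2 n + 2),
    ¬(par n kp).Star (wt x y (par n kp).O) ((par n kp).A (wt x y (par n kp).O) (ext r)))
    fun r hr => ?_)
  have := answer_ok (ρ := ext r) hx hy (fun kp _ => (h1 kp).1) (h1 0).2.1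
    fun kp hk => not_not.1 fun h => hr ⟨kp, mem_range.2 hk, h⟩
  exact ⟨this.1, this.2.trans (mul_le_mul_of_nonneg_right (by linarith [(h1 0).2.2.1])
    (Nat.cast_nonneg _))⟩

end Vale.Agent.P315F
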