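import Vale.Agent.P315F.Defs

namespace Vale.Agent.P315F

open Finset

theorem pow_sub_le {m : ℕ} {y y' c : ℝ} (h0 : 0 ≤ y) (h : y ≤ y') (hc : y' ≤ c) :
    y' ^ m - y ^ m ≤ (y' - y) * m * c ^ (m - 1) := by
  have h1 := abs_pow_sub_pow_le y' y m
  rw [abs_of_nonneg (sub_nonneg.2 h), abs_of_nonneg h0, abs_of_nonneg (h0.trans h),
    max_eq_left h] at h1
  exact (le_abs_self _).trans (h1.trans (mul_le_mul_of_nonneg_left
    (pow_le_pow_left₀ (h0.trans h) hc _) (mul_nonneg (sub_nonneg.2 h) (Nat.cast_nonneg _))))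

theorem xi_low {m : ℕ} {y : ℝ} (h : y ≤ 1) : xi m y = y ^ m / m := if_pos h

theorem xi_high {m : ℕ} {y : ℝ} (h : 1 ≤ y) : xi m y = y - 1 + 1 / m := by
  unfold xi
  split_ifs with h1
  · rw [le_antisymm h1 h]; simp
  · rfl

theorem xi_lip {m : ℕ} (hm : 1 ≤ m) {y y' : ℝ} (h0 : 0 ≤ y) (h : y ≤ y') :
    xi m y ≤ xi m y' ∧ xi m y' ≤ xi m y + (y' - y) := by
  have hm' : (0 : ℝ) < m := by exact_mod_cast hm
  have key : ∀ {y y' : ℝ}, 0 ≤ y → y ≤ y' → y' ≤ 1 →
      xi m y ≤ xi m y' ∧ xi m y' ≤ xi m y + (y' - y) := fun {y y'} h0 h h1 => by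
    rw [xi_low h1, xi_low (h.trans h1)]
    refine ⟨div_le_div_of_nonneg_right (pow_le_pow_left₀ h0 h _) hm'.le, ?_⟩
    have := pow_sub_le (m := m) h0 h h1
    rw [one_pow, mul_one] at this
    rw [← sub_le_iff_le_add', ← sub_div, div_le_iff₀ hm']
    exact this
  rcases le_total y' 1 with h1 | h1
  · exact key h0 h h1
  rcases le_total y 1 with h2 | h2
  · have := key h0 h2 le_rfl
    rw [xi_high le_rfl] at this
    rw [xi_high h1]
    constructor <;> linarith [this.1, this.2]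
  · rw [xi_high h1, xi_high h2]
    constructor <;> linarith

theorem xi_zero {m : ℕ} (hm : 1 ≤ m) : xi m 0 = 0 := by
  rw [xi_low zero_le_one, zero_pow (by omega), zero_div]

theorem xi_nonneg {m : ℕ} (hm : 1 ≤ m) {y : ℝ} (h0 : 0 ≤ y) : 0 ≤ xi m y :=
  (xi_zero hm).ge.trans (xi_lip hm le_rfl h0).1

/-- `1 - 1/m + xi y` lies between `y` and `max y 1`. -/
theorem xi_base {m : ℕ} (hm : 1 ≤ m) {y : ℝ} (h0 : 0 ≤ y) :
    y ≤ 1 - 1 / m + xi m y ∧ 1 - 1 / m + xi m y ≤ max y 1 := by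
  rcases le_total y 1 with h1 | h1
  · have := xi_lip hm h0 h1
    rw [xi_high le_rfl] at this
    rw [max_eq_right h1]
    constructor <;> linarith [this.1, this.2]
  · rw [xi_high h1, max_eq_left h1]
    constructor <;> linarith

theorem hh_low {m : ℕ} (hm : 1 ≤ m) {y : ℝ} (h0 : 0 ≤ y) (h : y ≤ 1) :
    hh m y = y ^ m / m * (1 - 2 / 2 ^ m) := by
  rw [hh, xi_low h, xi_low (by linarith), div_pow]
  ring

theorem hh_high {m : ℕ} {y : ℝ} (h : 2 ≤ y) : hh m y = 1 - 1 / m := by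
  rw [hh, xi_high (by linarith), xi_high (by linarith)]
  ring

theorem hh_zero {m : ℕ} (hm : 1 ≤ m) : hh m 0 = 0 := by
  rw [hh, zero_div, xi_zero hm]; ring

theorem hh_lip {m : ℕ} (hm : 1 ≤ m) {y y' : ℝ} (h0 : 0 ≤ y) (h : y ≤ y') :
    hh m y ≤ hh m y' ∧ hh m y' ≤ hh m y + (y' - y) := by
  have hm' : (0 : ℝ) < m := by exact_mod_cast hm
  refine ⟨?_, ?_⟩
  swap
  · have h1 := xi_lip hm h0 h
    have h2 := xi_lip hm (y := y / 2) (y' := y' / 2) (by linarith) (by linarith)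
    unfold hh
    linarith [h1.2, h2.1]
  have k1 : ∀ {y y' : ℝ}, 0 ≤ y → y ≤ y' → y' ≤ 1 → hh m y ≤ hh m y' := fun {y y'} h0 h h1 => by
    rw [hh_low hm h0 (h.trans h1), hh_low hm (h0.trans h) h1]
    refine mul_le_mul_of_nonneg_right
      (div_le_div_of_nonneg_right (pow_le_pow_left₀ h0 h _) hm'.le) ?_
    rw [sub_nonneg, div_le_one (by positivity)]
    calc (2 : ℝ) = 2 ^ 1 := (pow_one _).symm
      _ ≤ _ := pow_le_pow_right₀ one_le_two hm
  have k2 : ∀ {y y' : ℝ}, 1 ≤ y → y ≤ y' → hh m y ≤ hh m y' := fun {y y'} h0 h => by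
    have h2 := xi_lip hm (y := y / 2) (y' := y' / 2) (by linarith) (by linarith)
    rw [hh, hh, xi_high h0, xi_high (h0.trans h)]
    linarith [h2.2]
  rcases le_total y' 1 with h1 | h1
  · exact k1 h0 h h1
  rcases le_total y 1 with h2 | h2
  · exact (k1 h0 h2 le_rfl).trans (k2 le_rfl h1)
  · exact k2 h2 h

theorem hh_mono {m : ℕ} (hm : 1 ≤ m) {y y' : ℝ} (h0 : 0 ≤ y) (h : y ≤ y') : hh m y ≤ hh m y' :=
  (hh_lip hm h0 h).1

theorem hh_nonneg {m : ℕ} (hm : 1 ≤ m) {y : ℝ} (h0 : 0 ≤ y) : 0 ≤ hh m y :=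
  (hh_zero hm).ge.trans (hh_mono hm le_rfl h0)

theorem hh_le {m : ℕ} (hm : 1 ≤ m) {y : ℝ} (h0 : 0 ≤ y) : hh m y ≤ 1 - 1 / m :=
  (hh_mono hm h0 (le_max_left y 2)).trans_eq (hh_high (le_max_right _ _))

theorem hh_le_one {m : ℕ} (hm : 1 ≤ m) {y : ℝ} (h0 : 0 ≤ y) : hh m y ≤ 1 :=
  (hh_le hm h0).trans (sub_le_self _ (by positivity))

theorem hh_abs {m : ℕ} (hm : 1 ≤ m) {y y' : ℝ} (h0 : 0 ≤ y) (h0' : 0 ≤ y') :
    |hh m y' - hh m y| ≤ |y' - y| := by
  rcases le_total y y' with h | h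
  · have := hh_lip hm h0 h
    rw [abs_of_nonneg (sub_nonneg.2 h), abs_of_nonneg (sub_nonneg.2 this.1)]
    linarith [this.2]
  · have := hh_lip hm h0' h
    rw [abs_of_nonpos (sub_nonpos.2 h), abs_of_nonpos (sub_nonpos.2 this.1)]
    linarith [this.2]

theorem hh_min {m : ℕ} (y : ℝ) : hh m (min y 2) = hh m y := by
  rcases le_total y 2 with h | h
  · rw [min_eq_left h]
  · rw [min_eq_right h, hh_high h, hh_high le_rfl]

/-- Multiplicative Lipschitz bound. -/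
theorem hh_rel {m : ℕ} (hm : 16 ≤ m) {y y' δ tiny : ℝ} (h0 : 0 ≤ y) (h0' : 0 ≤ y')
    (hδ : |y' - y| ≤ δ) (hδm : δ ≤ 1 / (2 * m)) (ht : 1 / 2 ^ m ≤ tiny) :
    |hh m y' - hh m y| ≤ 12 * m * δ * (hh m y + tiny) := by
  have hm1 : 1 ≤ m := by omega
  have hm' : (16 : ℝ) ≤ m := by exact_mod_cast hm
  have hδ0 : 0 ≤ δ := (abs_nonneg _).trans hδ
  have ht0 : 0 ≤ tiny := le_trans (by positivity) ht
  have hh0 := hh_nonneg hm1 h0
  have hhalf : (1 : ℝ) / 2 ≤ 1 - 2 / 2 ^ m := by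
    have : (2 : ℝ) ^ 2 ≤ 2 ^ m := pow_le_pow_right₀ one_le_two (by omega)
    have h2 : (2 : ℝ) / 2 ^ m ≤ 2 / 2 ^ 2 := div_le_div_of_nonneg_left (by norm_num) (by norm_num) this
    linarith
  have hmi : 1 / (m : ℝ) ≤ 1 / 16 := one_div_le_one_div_of_le (by norm_num) hm'
  have hmi0 : 0 < 1 / (m : ℝ) := by positivity
  have hδ2 : δ ≤ 1 / m / 2 := by rw [div_div, mul_comm]; exact hδm
  rcases le_total (1 - 1 / (m : ℝ)) y with h1 | h1
  · have e1 := hh_mono hm1 (by linarith) h1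
    rw [hh_low hm1 (by linarith) (by linarith)] at e1
    have e2 : (1 : ℝ) / 4 ≤ (1 - 1 / m) ^ m := by
      have a1 : (1 + 1 / ((m : ℝ) - 1)) ^ m ≤ Real.exp (1 / ((m : ℝ) - 1)) ^ m :=
        pow_le_pow_left₀ (by have : (0 : ℝ) < m - 1 := by linarith
                             positivity) (by rw [add_comm]; exact Real.add_one_le_exp _) _
      rw [← Real.exp_nat_mul] at a1
      have a2 : (m : ℝ) * (1 / (m - 1)) ≤ 1 + 1 / 15 := by
        rw [mul_one_div, div_le_iff₀ (by linarith)]; linarith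
      have a3 : Real.exp (1 + 1 / 15) ≤ 4 := by
        rw [Real.exp_add]
        have b1 := Real.exp_one_lt_d9
        have b2 : Real.exp (1 / 15) ≤ 1 / (1 - 1 / 15) :=
          Real.exp_bound_div_one_sub_of_interval (by norm_num) (by norm_num)
        nlinarith [Real.exp_pos 1, Real.exp_pos (1 / 15)]
      have a4 : (1 - 1 / (m : ℝ)) ^ m * (1 + 1 / ((m : ℝ) - 1)) ^ m = 1 := by
        rw [← mul_pow, show (1 - 1 / (m : ℝ)) * (1 + 1 / ((m : ℝ) - 1)) = 1 by
          have : (m : ℝ) - 1 ≠ 0 := by linarith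
          field_simp
          ring, one_pow]
      have a5 := a1.trans ((Real.exp_le_exp.2 a2).trans a3)
      have a6 : 0 ≤ (1 - 1 / (m : ℝ)) ^ m := pow_nonneg (by linarith) _
      nlinarith
    have e3 : 1 / 4 / m * (1 / 2) ≤ hh m y :=
      le_trans (mul_le_mul (div_le_div_of_nonneg_right e2 (by linarith)) hhalf (by norm_num)
        (by have : 0 ≤ (1 - 1 / (m : ℝ)) ^ m := pow_nonneg (by linarith) _
            positivity)) e1
    have e4 : 1 ≤ 12 * m * hh m y := by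
      have : 12 * m * (1 / 4 / m * (1 / 2) : ℝ) = 3 / 2 := by field_simp; norm_num
      nlinarith
    refine (hh_abs hm1 h0 h0').trans (hδ.trans ?_)
    nlinarith [mul_nonneg (mul_nonneg (by linarith : (0 : ℝ) ≤ 12 * m) hδ0) ht0]
  have hy' : y' ≤ y + δ := by linarith [(abs_le.1 hδ).2]
  have hy'' : y ≤ y' + δ := by linarith [(abs_le.1 hδ).1]
  have e1 : |y' ^ m - y ^ m| ≤ δ * m * (y + δ) ^ (m - 1) := by
    have hp : 0 ≤ (m : ℝ) * (y + δ) ^ (m - 1) := by positivity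
    rcases le_total y y' with h | h
    · rw [abs_of_nonneg (sub_nonneg.2 (pow_le_pow_left₀ h0 h _))]
      refine (pow_sub_le h0 h hy').trans ?_
      rw [mul_assoc, mul_assoc]
      exact mul_le_mul_of_nonneg_right (by linarith) hp
    · rw [abs_sub_comm, abs_of_nonneg (sub_nonneg.2 (pow_le_pow_left₀ h0' h _))]
      refine (pow_sub_le h0' h (by linarith : y ≤ y + δ)).trans ?_
      rw [mul_assoc, mul_assoc]
      exact mul_le_mul_of_nonneg_right (by linarith) hp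
  have e2 : (y + δ) ^ (m - 1) ≤ 6 * y ^ m + 2 * tiny := by
    obtain ⟨n, rfl⟩ : ∃ n, m = n + 1 := ⟨m - 1, by omega⟩
    rw [Nat.add_sub_cancel]
    push_cast at *
    rcases le_total (y + δ) (1 / 2) with h | h
    · have := pow_le_pow_left₀ (by linarith) h n
      rw [div_pow, one_pow] at this
      rw [pow_succ, ← div_div] at ht
      have : 0 ≤ y ^ (n + 1) := by positivity
      linarith
    · have hn : (0 : ℝ) < n := by linarith
      have a0 : δ * n ≤ y := by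
        have b1 : δ * (2 * (n + 1)) ≤ 1 := by rwa [← le_div_iff₀ (by positivity)]
        nlinarith
      have hy : 0 < y := by linarith
      have a1 : (y + δ) ^ n ≤ (y * Real.exp (1 / n)) ^ n := by
        refine pow_le_pow_left₀ (by linarith) ?_ _
        have b1 := Real.add_one_le_exp (1 / (n : ℝ))
        have b2 : δ ≤ y * (1 / n) := by rw [mul_one_div, le_div_iff₀ hn]; exact a0
        nlinarith
      rw [mul_pow, ← Real.exp_nat_mul, mul_one_div_cancel hn.ne'] at a1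
      have a2 := Real.exp_one_lt_d9
      have a3 : 0 ≤ y ^ n := by positivity
      have a4 : Real.exp 1 ≤ 6 * y := by linarith
      rw [pow_succ]
      nlinarith
  rw [hh_low hm1 h0 (by linarith), hh_low hm1 h0' (by linarith), ← sub_mul, ← sub_div, abs_mul,
    abs_div, abs_of_nonneg (by linarith : (0 : ℝ) ≤ m), abs_of_nonneg (by linarith : (0 : ℝ) ≤ 1 - 2 / 2 ^ m)]
  have e3 : |y' ^ m - y ^ m| / m ≤ δ * (6 * y ^ m + 2 * tiny) := by
    rw [div_le_iff₀ (by linarith)]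
    refine e1.trans ?_
    rw [mul_assoc, mul_assoc, mul_comm (m : ℝ)]
    exact mul_le_mul_of_nonneg_left (mul_le_mul_of_nonneg_right e2 (by linarith)) hδ0
  have e4 : 1 - (2 : ℝ) / 2 ^ m ≤ 1 := sub_le_self _ (by positivity)
  have e5 : 0 ≤ y ^ m := by positivity
  have e6 : 12 * m * δ * (y ^ m / m * (1 - 2 / 2 ^ m) + tiny) =
      δ * (12 * y ^ m * (1 - 2 / 2 ^ m) + 12 * m * tiny) := by field_simp
  rw [e6]
  refine (mul_le_mul e3 e4 (by linarith) (by positivity)).trans ?_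
  rw [mul_one]
  exact mul_le_mul_of_nonneg_left (by nlinarith) hδ0

/-- Telescoping of the bands. -/
theorem hh_tele (m : ℕ) (v : ℝ) (lo n : ℕ) :
    ∑ t ∈ range n, 2 ^ (lo + t) * hh m (v / 2 ^ (lo + t)) =
      2 ^ lo * xi m (v / 2 ^ lo) - 2 ^ (lo + n) * xi m (v / 2 ^ (lo + n)) := by
  induction n with
  | zero => simp
  | succ n ih =>
    rw [sum_range_succ, ih, hh, ← add_assoc, pow_succ, div_div]
    ring

end Vale.Agent.P315F
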