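import Vale.Agent.P315F.HH

namespace Vale.Agent.P315F

open Finset

theorem Hn_eq {m U : ℕ} (hm : 1 ≤ m) (hU : 0 < U) (hd : m ∣ U) (y : ℕ) :
    Hn m U y = ⌊(U : ℝ) * hh m (y / U)⌋₊ := by
  have hm' : (0 : ℝ) < m := by exact_mod_cast hm
  have hU' : (0 : ℝ) < U := by exact_mod_cast hU
  have e0 : hh m ((y : ℝ) / U) = hh m (((min y (2 * U) : ℕ) : ℝ) / U) := by
    rw [← hh_min, Nat.cast_min, ← min_div_div_right hU'.le, Nat.cast_mul, Nat.cast_ofNat,
      mul_div_cancel_right₀ _ hU'.ne']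
  rw [e0, Hn]
  have hz : min y (2 * U) ≤ 2 * U := min_le_right _ _
  generalize min y (2 * U) = z at hz
  obtain ⟨n, rfl⟩ : ∃ n, m = n + 1 := ⟨m - 1, by omega⟩
  rw [Nat.add_sub_cancel]
  have hD : (0 : ℝ) < ((n + 1) * U ^ n * 2 ^ n : ℕ) := by positivity
  have hz0 : (0 : ℝ) ≤ (z : ℝ) / U := by positivity
  split_ifs with h
  · rw [← Nat.floor_div_eq_div (K := ℝ)]
    congr 1
    rw [hh_low hm hz0 ((div_le_one hU').2 (by exact_mod_cast h)), Nat.cast_mul,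
      Nat.cast_sub Nat.one_le_two_pow, div_pow]
    push_cast
    field_simp
    ring
  · have h1 : (1 : ℝ) ≤ z / U := (one_le_div hU').2 (by exact_mod_cast (not_le.1 h).le)
    have h2 : (z : ℝ) / U / 2 ≤ 1 := by
      rw [div_div, div_le_one (by positivity), mul_comm]; exact_mod_cast hz
    have e1 : (U : ℝ) * hh (n + 1) (z / U) * ((n + 1) * U ^ n * 2 ^ n : ℕ) =
        ((z - U + U / (n + 1)) * ((n + 1) * U ^ n * 2 ^ n) : ℕ) - (z ^ (n + 1) : ℕ) := by
      rw [hh, xi_high h1, xi_low h2, Nat.cast_mul (z - U + U / (n + 1)), Nat.cast_add (z - U),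
        Nat.cast_sub (not_le.1 h).le, Nat.cast_div hd hm'.ne', div_pow, div_pow]
      push_cast
      field_simp
      ring
    have e2 : z ^ (n + 1) ≤ (z - U + U / (n + 1)) * ((n + 1) * U ^ n * 2 ^ n) := by
      have := mul_nonneg (mul_nonneg hU'.le (hh_nonneg hm hz0)) hD.le
      rw [e1, sub_nonneg] at this
      exact_mod_cast this
    rw [← Nat.floor_div_eq_div (K := ℝ), Nat.cast_sub e2, ← e1, mul_div_cancel_right₀ _ hD.ne']

namespace Pm

variable {P : Pm}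

theorem U1_pos (P : Pm) : 0 < P.U1 := by unfold U1; positivity

theorem mm_pos (P : Pm) : 1 ≤ P.mm := Nat.one_le_two_pow

theorem H_eq (hP : P.Good) (y : ℕ) : P.H y = ⌊(P.U1 : ℝ) * hh P.mm (y / P.U1)⌋₊ :=
  Hn_eq P.mm_pos P.U1_pos (pow_dvd_pow 2 hP.mh_le) y

theorem H_le_real (hP : P.Good) (y : ℕ) : (P.H y : ℝ) ≤ P.U1 * hh P.mm (y / P.U1) := by
  rw [H_eq hP]
  exact Nat.floor_le (mul_nonneg (Nat.cast_nonneg _) (hh_nonneg P.mm_pos (by positivity)))

theorem real_lt_H (hP : P.Good) (y : ℕ) : P.U1 * hh P.mm (y / P.U1) < (P.H y : ℝ) + 1 := by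
  rw [H_eq hP]
  exact Nat.lt_floor_add_one _

theorem H_le (hP : P.Good) (y : ℕ) : P.H y ≤ P.U1 := by
  have := (H_le_real hP y).trans (mul_le_of_le_one_right (Nat.cast_nonneg _)
    (hh_le_one P.mm_pos (by positivity)))
  exact_mod_cast this

theorem H_mono (hP : P.Good) {y y' : ℕ} (h : y ≤ y') : P.H y ≤ P.H y' := by
  rw [H_eq hP, H_eq hP]
  refine Nat.floor_le_floor (mul_le_mul_of_nonneg_left (hh_mono P.mm_pos (by positivity) ?_)
    (Nat.cast_nonneg _))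
  gcongr

theorem H_add (hP : P.Good) (y d : ℕ) : P.H (y + d) ≤ P.H y + d := by
  have hU : (0 : ℝ) < P.U1 := by exact_mod_cast P.U1_pos
  rw [H_eq hP, H_eq hP, ← Nat.floor_add_natCast
    (mul_nonneg (Nat.cast_nonneg _) (hh_nonneg P.mm_pos (by positivity)))]
  refine Nat.floor_le_floor ?_
  have h := (hh_lip P.mm_pos (y := (y : ℝ) / P.U1) (y' := ((y + d : ℕ) : ℝ) / P.U1) (by positivity)
    (by gcongr; exact Nat.le_add_right _ _)).2
  refine (mul_le_mul_of_nonneg_left h hU.le).trans (le_of_eq ?_)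
  push_cast
  field_simp
  ring

/-- `H` is exactly 1-Lipschitz. -/
theorem H_lip (hP : P.Good) {y y' : ℕ} {c : ℝ} (hc : 0 ≤ c) (h : (y : ℝ) ≤ y' + c) :
    (P.H y : ℝ) ≤ P.H y' + c := by
  rcases le_total y y' with h1 | h1
  · have : (P.H y : ℝ) ≤ P.H y' := by exact_mod_cast H_mono hP h1
    linarith
  · obtain ⟨d, rfl⟩ := Nat.exists_eq_add_of_le h1
    have : (P.H (y' + d) : ℝ) ≤ P.H y' + d := by exact_mod_cast H_add hP y' d
    push_cast at h
    linarith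

theorem H_sat (P : Pm) {y : ℕ} (h : 2 * P.U1 ≤ y) : P.H y = P.H (2 * P.U1) := by
  rw [H, H, Hn, Hn, min_eq_right h, min_self]

theorem bandR_nonneg (P : Pm) (i : ℕ) {V : ℝ} (h : 0 ≤ V) : 0 ≤ P.bandR i V :=
  mul_nonneg (Nat.cast_nonneg _) (hh_nonneg P.mm_pos (by positivity))

theorem bandR_le (P : Pm) (i : ℕ) {V : ℝ} (h : 0 ≤ V) : P.bandR i V ≤ P.U1 :=
  mul_le_of_le_one_right (Nat.cast_nonneg _) (hh_le_one P.mm_pos (by positivity))

theorem bandR_mono (P : Pm) (i : ℕ) {V V' : ℝ} (h0 : 0 ≤ V) (h : V ≤ V') :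
    P.bandR i V ≤ P.bandR i V' :=
  mul_le_mul_of_nonneg_left (hh_mono P.mm_pos (by positivity) (by gcongr)) (Nat.cast_nonneg _)

theorem bandR_abs (P : Pm) (i : ℕ) {V V' : ℝ} (h : 0 ≤ V) (h' : 0 ≤ V') :
    |P.bandR i V' - P.bandR i V| ≤ |V' - V| * P.U1 / 2 ^ i := by
  rw [bandR, bandR, ← mul_sub, abs_mul, Nat.abs_cast]
  refine (mul_le_mul_of_nonneg_left (hh_abs P.mm_pos (by positivity) (by positivity))
    (Nat.cast_nonneg _)).trans (le_of_eq ?_)
  rw [← sub_div, abs_div, abs_of_pos (by positivity : (0 : ℝ) < 2 ^ i)]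
  ring

/-- An integer value `y` (units `2^i / U1`) close to `V` (true units) gives a close table entry. -/
theorem H_band (hP : P.Good) (i : ℕ) {y : ℕ} {V c : ℝ} (hV : 0 ≤ V)
    (h : |(y : ℝ) - V * P.U1 / 2 ^ i| ≤ c) : |(P.H y : ℝ) - P.bandR i V| ≤ c + 1 := by
  have hU : (0 : ℝ) < P.U1 := by exact_mod_cast P.U1_pos
  have h1 := mul_le_mul_of_nonneg_left (hh_abs P.mm_pos (y := V / 2 ^ i) (y' := (y : ℝ) / P.U1)
    (by positivity) (by positivity)) hU.le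
  rw [← abs_of_pos hU, ← abs_mul, ← abs_mul, abs_of_pos hU, mul_sub, mul_sub,
    mul_div_cancel₀ _ hU.ne', ← mul_div_assoc, mul_comm (P.U1 : ℝ) V] at h1
  have h2 := abs_le.1 (h1.trans h)
  have h3 := H_le_real hP y
  have h4 := real_lt_H hP y
  unfold bandR
  exact abs_le.2 ⟨by linarith [h2.1], by linarith [h2.2]⟩

end Pm

end Vale.Agent.P315F
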