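import Vale.Agent.P315F.RamTop

/-! Initialisation before the loop over the guesses. -/

namespace Vale.Agent.P315F

open Vale.Agent.P315 Finset

/-- The parameters are computed from `n` (cell 0 of array 0), the table of logarithms (array 19),
the table of powers (array 18) and the guess. -/
theorem par_pr {τ : Type} {J : Inv τ} {π : τ → C0} {kp : τ → ℕ} (hk : Rep J kp)
    (hO : Ov J π fun c m => c.Ok ∧ m 0 0 = c.n ∧ (∀ e ≤ c.n, m 19 e = Nat.log 2 e) ∧
      ∀ i ≤ 5 * c.lg, m 18 i = 2 ^ i) (hb : Al J fun t => kp t < (π t).lg + 2) :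
    PR J fun t => par (π t).n (kp t) := by
  have hlog : ∀ {f : τ → ℕ}, Rep J f → (∀ t, f t ≤ (π t).n) → Rep J fun t => Nat.log 2 (f t) :=
    fun hf h => Rep.rd 19 (by decide) (by decide) hf fun t m k => (hO t m k).2.2.1 _ (h t)
  have hpow : ∀ {f : τ → ℕ}, Rep J f → Al J (fun t => f t ≤ 5 * (π t).lg) →
      Rep J fun t => 2 ^ f t :=
    fun hf h => hf.pow2 fun t m k => (hO t m k).2.2.2 _ (h t m k)
  have hpw : Al J fun t => (par (π t).n (kp t)).pw ≤ 5 * (π t).lg :=
    fun t m k => (hO t m k).1.pw _ (hb t m k)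
  have b1 : ∀ t, Nat.log 2 (π t).n ≤ (π t).n := fun t => Nat.log_le_self _ _
  have b2 : ∀ t, Nat.log 2 (Nat.log 2 (π t).n) ≤ Nat.log 2 (π t).n := fun t => Nat.log_le_self _ _
  have b3 : ∀ t, Nat.log 2 (Nat.log 2 (Nat.log 2 (π t).n)) ≤ Nat.log 2 (Nat.log 2 (π t).n) :=
    fun t => Nat.log_le_self _ _
  have b4 : ∀ t, (π t).lg = Nat.log 2 (π t).n := fun t => rfl
  have hn : Rep J fun t => (π t).n :=
    Rep.rd 0 (by decide) (by decide) (Rep.c 0) fun t m k => (hO t m k).2.1
  have hL := hlog hn fun _ => le_rfl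
  have hl := hlog hL b1
  have hm := hlog hl fun t => (b2 t).trans (b1 t)
  have hz := hm.div (Rep.c 10)
  have hlb := hl.div (hpow hz (Al.of fun t => by
    have := b2 t; have := b3 t; have := b4 t; omega))
  have hlm := hl.div (hpow ((Rep.c 2).mul hz) (Al.of fun t => by
    have := b2 t; have := b3 t; have := b4 t; omega))
  have hmh := hm.add (Rep.c 7)
  have hs0 := ((hlb.add (hlm.div (Rep.c 4))).add hmh).add (Rep.c 4)
  have hD := ((hL.add (Rep.c 1)).div hlb).add (Rep.c 1)
  have hfp := (Rep.c 28).mul hl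
  exact
    { lb := hlb
      lm := hlm
      ell := hpow ((Rep.c 4).mul hz) (Al.of fun t => by
        have := b2 t; have := b3 t; have := b4 t; omega)
      k0 := (((Rep.c 5).mul hl).div (hlm.div (Rep.c 8))).add (Rep.c 1)
      K := hpow (hl.sub ((Rep.c 14).mul hz)) (Al.of fun t => by
        have := b2 t; have := b4 t; omega)
      S := ((Rep.c 64).mul hL).mul (hpow hfp (hpw.imp fun t k => by
        have h1 := (par (π t).n (kp t)).pw_ge.1
        have h2 : (par (π t).n (kp t)).fp = 28 * Nat.log 2 (Nat.log 2 (π t).n) := rfl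
        omega)).sq
      D := hD
      fp := hfp
      gp := (Rep.c 13).mul hl
      rh := (Rep.c 3).mul hl
      ga := (Rep.c 4).mul hl
      sh := ((((Rep.c 2).mul hl).add (hD.mul hlb)).add hz).add (Rep.c 3)
      ie := (Rep.c 6).mul hl
      mh := hmh
      s0 := hs0
      wz := (((((Rep.c 3).mul hl).add (Rep.c 2)).mul (hpow hlb (Al.of fun t => by
          have := b2 t; have := b4 t
          have := Nat.div_le_self (Nat.log 2 (Nat.log 2 (π t).n))
            (2 ^ (Nat.log 2 (Nat.log 2 (Nat.log 2 (π t).n)) / 10))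
          omega))).add
        ((Rep.c 2).mul ((((Rep.c 31).mul hl).add hlb).add hs0))).add (Rep.c 1)
      dh := (Rep.c 2).mul hl
      kp := hk
      pow := fun t m k i hi => (hO t m k).2.2.2 i (hi.trans (hpw t m k)) }

/-- The invariant at the start, in a form that survives the fills. -/
def initJ0 : Inv C0 where
  I c m := c.Ok ∧ (∀ a i, a < 4 → m a i = c.inp a i) ∧ Sm c.R m ∧ m 8 0 = 0
  d := 0
  st := fun _ _ _ _ _ h => ⟨h.1, fun a i ha => by
    rw [Mem.set_arr _ _ _ (by omega)]; exact h.2.1 a i ha,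
    fun i => by rw [Mem.set_arr _ _ _ (by omega)]; exact h.2.2.1 i,
    by rw [Mem.set_arr _ _ _ (by omega)]; exact h.2.2.2⟩

theorem init_st0 {arr : ℕ} (h : 8 < arr) : St initJ0 arr :=
  fun _ _ _ _ _ k => ⟨k.1, fun a i ha => by
    rw [upd_arr _ _ _ _ (by omega)]; exact k.2.1 a i ha,
    fun i => by rw [upd_arr _ _ _ _ (by omega)]; exact k.2.2.1 i,
    by rw [upd_arr _ _ _ _ (by omega)]; exact k.2.2.2⟩

/-- The invariant survives small values in array 7. -/
def initSt7 (J : Inv C0) : Prop :=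
  ∀ c m β n g, (∀ e, g e ≤ c.R) → J.I c m → J.I c (upd m 7 β n g)

theorem init_st7 : initSt7 initJ0 :=
  fun _ m β n g hg k => ⟨k.1, fun a i ha => by
    rw [upd_arr _ _ _ _ (by omega)]; exact k.2.1 a i ha,
    fun i => by
      unfold upd
      split_ifs
      · exact hg _
      · exact k.2.2.1 i,
    by rw [upd_arr _ _ _ _ (by omega)]; exact k.2.2.2⟩

theorem initSt7.has {J : Inv C0} {arr : ℕ} {h6 : arr ≠ 6} {β sz : C0 → ℕ} {g : C0 → ℕ → ℕ}
    (h : initSt7 J) (hne : arr ≠ 7) : initSt7 (J.has arr h6 β sz g) :=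
  fun s m _ _ _ hg k => ⟨h s m _ _ _ hg k.1, by rw [upd_arr _ _ _ _ hne]; exact k.2⟩

def initJ1 : Inv C0 :=
  initJ0.has 19 (by decide) (fun _ => 0) (fun c => c.n + 1) (fun _ e => Nat.log 2 e)
def initJ2 : Inv C0 :=
  initJ1.has 18 (by decide) (fun _ => 0) (fun c => 5 * c.lg + 1) (fun _ e => 2 ^ e)
def initJ3 : Inv C0 :=
  initJ2.has 20 (by decide) (fun _ => 0)
    (fun c => ((par c.n 0).emax + 1) * ((par c.n 0).XB + 1))
    (fun c e => EXg (par c.n 0).Wz (2 ^ (e / ((par c.n 0).XB + 1) + (par c.n 0).s0))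
      (e % ((par c.n 0).XB + 1)))
def initJ4 : Inv C0 :=
  initJ3.has 22 (by decide) (fun _ => 0)
    (fun c => (2 * (par c.n 0).U1 + 1) * ((par c.n 0).mm + 1))
    (fun c e => (e / ((par c.n 0).mm + 1)) ^ (e % ((par c.n 0).mm + 1)))
def initJ5 : Inv C0 :=
  initJ4.has 23 (by decide) (fun _ => 0) (fun c => (par c.n 0).ell + 1)
    (fun c e => (par c.n 0).SZ e)
def initJ6 : Inv C0 :=
  initJ5.has 21 (by decide) (fun _ => 0) (fun _ => 3)
    (fun c e => [0, c.x.length + c.y.length, c.lg + 2].getD (e - 0) 0)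

theorem init_facts {c : C0} (h : c.Ok) : 30 * c.n ≤ c.V ∧ 30 ≤ c.R ∧ c.lg ≤ c.n ∧
    2 ^ (5 * c.lg) ≤ c.V ∧ (par c.n 0).big ≤ c.V ∧ 30 ≤ c.n := by
  have h3 := h.hn
  have h4 : c.n * c.n ≤ c.n ^ 5 := by
    rw [← pow_two]
    exact Nat.pow_le_pow_right (by omega) (by omega)
  have h5 := h.hV
  have h6 : 30 * c.n ≤ c.n * c.n := Nat.mul_le_mul_right _ h3
  have h7 := h.small
  have h8 := (par c.n 0).small_ge.1
  have h9 : 2 ^ (5 * c.lg) ≤ c.n ^ 5 := by
    rw [mul_comm, pow_mul]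
    exact Nat.pow_le_pow_left (Nat.pow_log_le_self 2 (by omega)) 5
  exact ⟨by omega, by omega, Nat.log_le_self _ _, by omega, h.big 0 (by omega), h3⟩

theorem init_n : Rep initJ0 fun c => c.n :=
  Rep.rd 0 (by decide) (by decide) (Rep.c 0) fun _ _ k => k.2.1 0 0 (by omega)

theorem init_s1 : Top (fun c => c) initJ0.I initJ1.I := by
  refine Stp.fill' rfl 19 (by decide) (by decide) (by decide) (fun h => h) 0 (Rep.c 0)
    (init_n.add (Rep.c 1)) ?_ (init_st0 (by omega)) (fun _ _ k => k.2.2.1) fun c m k => ?_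
  · refine (Rep.ite (RepP.eq (Rep.varf.div (Rep.c 2)) (Rep.c 0)) (Rep.c 0)
      ((Rep.rd 19 (by decide) (by decide) ((Rep.c 0).add (Rep.varf.div (Rep.c 2))).wa
        (g := fun p => Nat.log 2 (p.2 / 2))
        fun q m k => k.1.2.2.2 _ (by have := k.2; omega)).add (Rep.c 1))).congr' fun q => ?_
    split_ifs with h
    · exact (Nat.log_of_lt (by omega)).symm
    · rw [Nat.log_of_one_lt_of_le one_lt_two (show 2 ≤ q.2 by omega)]
  · obtain ⟨a1, a2, a3, a4, a5, a6⟩ := init_facts k.1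
    beta_reduce
    refine ⟨by omega, by rw [pow_zero]; omega, fun e he => ?_⟩
    have := Nat.log_le_self 2 e
    omega

theorem init_lg : Rep initJ1 fun c => c.lg :=
  Rep.rd 19 (by decide) (by decide) ((Rep.c 0).add init_n.wh) fun _ _ k => k.2 _ (Nat.lt_succ_self _)

theorem init_s2 : Top (fun c => c) initJ1.I initJ2.I := by
  refine Stp.fill' rfl 18 (by decide) (by decide) (by decide) (fun h => h) 1 (Rep.c 0)
    (((Rep.c 5).mul init_lg).add (Rep.c 1)) ?_ ((init_st0 (by omega)).has (by omega))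
    (fun _ _ k => k.1.2.2.1) fun c m k => ?_
  · refine (Rep.ite (RepP.eq Rep.varf (Rep.c 0)) (Rep.c 1)
      ((Rep.rd 18 (by decide) (by decide) ((Rep.c 0).add (Rep.varf.sub (Rep.c 1))).wa
        (g := fun p => 2 ^ (p.2 - 1))
        fun q m k => k.1.2.2.2 _ (by have := k.2; omega)).mul (Rep.c 2))).congr' fun q => ?_
    split_ifs with h
    · rw [h, pow_zero]
    · rw [← pow_succ, Nat.sub_add_cancel (by omega)]
  · obtain ⟨a1, a2, a3, a4, a5, a6⟩ := init_facts k.1.1
    beta_reduce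
    refine ⟨by omega, ?_, fun e he => ?_⟩
    · have := Nat.mul_le_mul_left (c.n + 2) a2
      rw [pow_one]
      omega
    · exact (Nat.pow_le_pow_right two_pos (by omega)).trans a4

theorem init_pr : PR initJ2 fun c => par c.n 0 :=
  par_pr (π := fun c => c) (Rep.c 0)
    (fun _ _ k => ⟨k.1.1.1, k.1.1.2.1 0 0 (by omega),
      fun e he => by have := k.1.2 e (Nat.lt_succ_of_le he); rwa [zero_add] at this,
      fun e he => by have := k.2 e (Nat.lt_succ_of_le he); rwa [zero_add] at this⟩)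
    (Al.of fun _ => by omega)

theorem init_divmod {t d u : ℕ} (hd : 0 < d) (h : t % d = u + 1) :
    (t - 1) / d = t / d ∧ (t - 1) % d = u ∧ t - 1 < t := by
  have k4 := Nat.div_add_mod t d
  have k5 := Nat.mod_lt t hd
  have k6 := (Nat.div_mod_unique (a := t - 1) (d := t / d) (c := u) hd).2 ⟨by omega, by omega⟩
  exact ⟨k6.1, k6.2, by omega⟩

theorem init_EXg_le (Wz T x : ℕ) : EXg Wz T x ≤ Wz := by
  induction x with
  | zero => exact le_rfl
  | succ x ih => exact (Nat.sub_le _ _).trans ih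

theorem init_sq {a b R n : ℕ} (ha : a ≤ R) (hb : b ≤ R) (hR : 30 ≤ R) :
    a * b + 1 ≤ (n + 2) * R ^ 2 := by
  have h1 : a * b ≤ R ^ 2 := by rw [pow_two]; exact Nat.mul_le_mul ha hb
  have h2 : 1 ≤ R ^ 2 := Nat.pow_pos (by omega)
  have h3 : 2 * R ^ 2 ≤ (n + 2) * R ^ 2 := Nat.mul_le_mul_right _ (by omega)
  omega

theorem init_pred {t d : ℕ} (h : ¬t % d = 0) : t - 1 < t := by
  rcases t with _ | t
  · simp at h
  · omega

theorem init_s3 : Top (fun c => c) initJ2.I initJ3.I := by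
  have H := init_pr
  refine Stp.fill' rfl 20 (by decide) (by decide) (by decide) (fun h => h) 2 (Rep.c 0)
    ((H.emax.add (Rep.c 1)).mul (H.XB.add (Rep.c 1))) ?_
    (((init_st0 (by omega)).has (by omega)).has (by omega))
    (fun _ _ k => k.1.1.2.2.1) fun c m k => ?_
  · have hX := (H.XB.add (Rep.c 1)).wf (arr := 20) (h6 := by decide) (β := fun _ => 0)
      (sz := fun c => ((par c.n 0).emax + 1) * ((par c.n 0).XB + 1))
      (g := fun c e => EXg (par c.n 0).Wz (2 ^ (e / ((par c.n 0).XB + 1) + (par c.n 0).s0))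
        (e % ((par c.n 0).XB + 1)))
    have hT := H.wf.p2 ((Rep.varf.div hX).add H.s0.wf) fun q m k => by
      have h1 := (Nat.div_lt_iff_lt_mul (Nat.add_one_pos _)).2 k.2.2.1
      have h2 := (par q.1.n 0).pw_ge.1
      beta_reduce
      omega
    have hp := Rep.rd (J := (initJ2.fil 20 (by decide) (fun _ => 0)
        (fun c => ((par c.n 0).emax + 1) * ((par c.n 0).XB + 1))
        (fun c e => EXg (par c.n 0).Wz (2 ^ (e / ((par c.n 0).XB + 1) + (par c.n 0).s0))
          (e % ((par c.n 0).XB + 1)))).and fun q => ¬q.2 % ((par q.1.n 0).XB + 1) = 0)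
      20 (by decide) (by decide) ((Rep.c 0).add (Rep.varf.sub (Rep.c 1))).wa
      fun q m k => k.1.2.2.2 _ (init_pred k.2)
    refine (Rep.ite (RepP.eq (Rep.varf.mod hX) (Rep.c 0)) H.Wz.wf.wa
      (hp.sub (hp.div hT.wa))).congr' fun q => ?_
    split_ifs with h
    · rw [h]; rfl
    · obtain ⟨u, hu⟩ := Nat.exists_eq_succ_of_ne_zero h
      obtain ⟨k1, k2, -⟩ := init_divmod (Nat.add_one_pos _) hu
      beta_reduce
      rw [k1, k2, hu]
      rfl
  · obtain ⟨a1, a2, a3, a4, a5, a6⟩ := init_facts k.1.1.1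
    beta_reduce
    have b1 := (par c.n 0).big_ge
    have b2 := (par c.n 0).small_ge.1
    have b3 := k.1.1.1.small
    refine ⟨by omega, init_sq (by omega) (by omega) a2, fun e _ => (init_EXg_le _ _ _).trans ?_⟩
    have b4 := (par c.n 0).pow_le_big
    have b5 : (par c.n 0).Wz ≤ 2 ^ (par c.n 0).pw :=
      Nat.pow_le_pow_right two_pos (by have := (par c.n 0).pw_ge.1; omega)
    omega

theorem init_s4 : Top (fun c => c) initJ3.I initJ4.I := by
  have H : PR initJ3 fun c => par c.n 0 := init_pr.comap (π := fun c => c) fun _ _ k => k.1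
  refine Stp.fill' rfl 22 (by decide) (by decide) (by decide) (fun h => h) 2 (Rep.c 0)
    ((((Rep.c 2).mul H.U1).add (Rep.c 1)).mul (H.mm.add (Rep.c 1))) ?_
    ((((init_st0 (by omega)).has (by omega)).has (by omega)).has (by omega))
    (fun _ _ k => k.1.1.1.2.2.1) fun c m k => ?_
  · have hX := (H.mm.add (Rep.c 1)).wf (arr := 22) (h6 := by decide) (β := fun _ => 0)
      (sz := fun c => (2 * (par c.n 0).U1 + 1) * ((par c.n 0).mm + 1))
      (g := fun c e => (e / ((par c.n 0).mm + 1)) ^ (e % ((par c.n 0).mm + 1)))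
    have hp := Rep.rd (J := (initJ3.fil 22 (by decide) (fun _ => 0)
        (fun c => (2 * (par c.n 0).U1 + 1) * ((par c.n 0).mm + 1))
        (fun c e => (e / ((par c.n 0).mm + 1)) ^ (e % ((par c.n 0).mm + 1)))).and
          fun q => ¬q.2 % ((par q.1.n 0).mm + 1) = 0)
      22 (by decide) (by decide) ((Rep.c 0).add (Rep.varf.sub (Rep.c 1))).wa
      fun q m k => k.1.2.2.2 _ (init_pred k.2)
    refine (Rep.ite (RepP.eq (Rep.varf.mod hX) (Rep.c 0)) (Rep.c 1)
      (hp.mul (Rep.varf.div hX).wa)).congr' fun q => ?_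
    split_ifs with h
    · rw [h, pow_zero]
    · obtain ⟨u, hu⟩ := Nat.exists_eq_succ_of_ne_zero h
      obtain ⟨k1, k2, -⟩ := init_divmod (Nat.add_one_pos _) hu
      beta_reduce
      rw [k1, k2, hu, pow_succ]
  · obtain ⟨a1, a2, a3, a4, a5, a6⟩ := init_facts k.1.1.1.1
    beta_reduce
    have b1 := (par c.n 0).big_ge
    have b2 := (par c.n 0).small_ge.1
    have b3 := k.1.1.1.1.small
    refine ⟨by omega, init_sq (by omega) (by omega) a2, fun e he => ?_⟩
    have h1 := (Nat.div_lt_iff_lt_mul (Nat.add_one_pos _)).2 he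
    have h2 := Nat.mod_lt e (Nat.add_one_pos (par c.n 0).mm)
    have h3 : 0 < (par c.n 0).U1 := Nat.two_pow_pos _
    have h4 : (e / ((par c.n 0).mm + 1)) ^ (e % ((par c.n 0).mm + 1)) ≤
        (2 * (par c.n 0).U1) ^ (par c.n 0).mm :=
      (Nat.pow_le_pow_left (by omega) _).trans (Nat.pow_le_pow_right (by omega) (by omega))
    omega

theorem init_s5 : Top (fun c => c) initJ4.I initJ5.I := by
  have H : PR initJ4 fun c => par c.n 0 := init_pr.comap (π := fun c => c) fun _ _ k => k.1.1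
  refine Stp.fill' rfl 23 (by decide) (by decide) (by decide) (fun h => h) 1 (Rep.c 0)
    (H.ell.add (Rep.c 1)) ?_
    (((((init_st0 (by omega)).has (by omega)).has (by omega)).has (by omega)).has (by omega))
    (fun _ _ k => k.1.1.1.1.2.2.1) fun c m k => ?_
  · refine (Rep.ite (RepP.eq Rep.varf (Rep.c 0)) (Rep.c 1)
      ((Rep.rd 23 (by decide) (by decide) ((Rep.c 0).add (Rep.varf.sub (Rep.c 1))).wa
        (g := fun p => (par p.1.n 0).SZ (p.2 - 1))
        fun q m k => k.1.2.2.2 _ (by have := k.2; omega)).mul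
          ((Rep.c 2).mul H.N).wf.wa)).congr' fun q => ?_
    unfold Pm.SZ
    split_ifs with h
    · rw [h, pow_zero]
    · rw [← pow_succ, Nat.sub_add_cancel (by omega)]
  · obtain ⟨a1, a2, a3, a4, a5, a6⟩ := init_facts k.1.1.1.1.1
    beta_reduce
    have b1 := (par c.n 0).big_ge
    have b2 := (par c.n 0).small_ge.1
    have b3 := k.1.1.1.1.1.small
    refine ⟨by omega, ?_, fun e he => ?_⟩
    · have : 2 * c.R ≤ (c.n + 2) * c.R := Nat.mul_le_mul_right _ (by omega)
      rw [pow_one]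
      omega
    · have h1 : 0 < (par c.n 0).N :=
        Nat.mul_pos (by have := (par c.n 0).pw_ge; omega) (par c.n 0).b_pos
      have h2 : (par c.n 0).SZ e ≤ (par c.n 0).SZ (par c.n 0).ell :=
        Nat.pow_le_pow_right (by omega) (by omega)
      omega

theorem init_s6 : Top (fun c => c) initJ5.I initJ6.I := by
  have hx : Rep initJ0 fun c => c.x.length :=
    Rep.rd 0 (by decide) (by decide) (Rep.c 1) fun _ _ k => k.2.1 0 1 (by omega)
  have hy : Rep initJ0 fun c => c.y.length :=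
    Rep.rd 0 (by decide) (by decide) (Rep.c 2) fun _ _ k => k.2.1 0 2 (by omega)
  refine Stp.fill' rfl 21 (by decide) (by decide) (by decide) (fun h => h) 0 (Rep.c 0)
    (Rep.c 3) ?_
    ((((((init_st0 (by omega)).has (by omega)).has (by omega)).has (by omega)).has
      (by omega)).has (by omega))
    (fun _ _ k => k.1.1.1.1.1.2.2.1) fun c m k => ?_
  · exact rep_cons Rep.varf (Rep.c 0) <| rep_cons Rep.varf (hx.add hy).wh.wh.wh.wh.wh.wf <|
      rep_cons Rep.varf (init_lg.add (Rep.c 2)).wh.wh.wh.wh.wf <| rep_nil _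
  · obtain ⟨a1, a2, a3, a4, a5, a6⟩ := init_facts k.1.1.1.1.1.1
    beta_reduce
    have b1 := k.1.1.1.1.1.1.hx
    have b2 := k.1.1.1.1.1.1.hy
    refine ⟨by omega, by rw [pow_zero]; omega, fun e he => ?_⟩
    interval_cases e <;> simp only [Nat.sub_zero, List.getD_cons_zero, List.getD_cons_succ] <;> omega

theorem init_s7 : Top (fun c => c) initJ6.I
    fun c m => initJ6.I c m ∧ ∀ e < 1, m 7 (0 + e) = (par c.n 0).small := by
  have H : PR initJ6 fun c => par c.n 0 :=
    init_pr.comap (π := fun c => c) fun _ _ k => k.1.1.1.1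
  have h7 : initSt7 initJ6 := (((((init_st7.has (by omega)).has (by omega)).has (by omega)).has
    (by omega)).has (by omega)).has (by omega)
  refine Stp.fill (J := initJ6) (β := fun _ => 0) (sz := fun _ => 1)
    (g := fun c _ => (par c.n 0).small) rfl 7 (by decide) (by decide) (fun h => h) 0
    (Rep.c 0) (Rep.c 1) H.small.wf
    (fun c m n _ k => h7 c m _ _ _ (fun _ => k.1.1.1.1.1.1.1.small) k)
    (fun _ _ k => k.1.1.1.1.1.1.2.2.1) fun c m k => ?_
  obtain ⟨a1, a2, a3, a4, a5, a6⟩ := init_facts k.1.1.1.1.1.1.1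
  beta_reduce
  have b1 := (par c.n 0).small_le_big
  exact ⟨by omega, by rw [pow_zero]; omega, fun _ _ => by omega,
    fun _ _ _ => k.1.1.1.1.1.1.1.small⟩

theorem init0 : Top (fun c => c) C0.I0 fun c m => c.Q 0 m := by
  have hU : ∀ {I : C0 → Mem → Prop} (c : C0) (m : Mem), I c m → 1 ≤ c.n + 2 :=
    fun _ _ _ => by omega
  refine Stp.mono ((((((Stp.seq init_s1 init_s2 hU).seq init_s3 hU).seq init_s4 hU).seq init_s5
    hU).seq init_s6 hU).seq init_s7 hU) (fun c m k => ?_) fun c m k => ?_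
  · exact ⟨k.1, k.2.1, fun i => by rw [k.2.2.1 i]; exact Nat.zero_le _, k.2.2.2⟩
  · obtain ⟨⟨⟨⟨⟨⟨⟨k0, k1⟩, k2⟩, k3⟩, k4⟩, k5⟩, k6⟩, k7⟩ := k
    beta_reduce at k1 k2 k3 k4 k5 k6
    refine ⟨⟨k0.1, k0.2.1, k7 0 (by omega), k0.2.2.1, fun i hi => ?_, fun e he => ?_,
      fun e he u hu => ?_, fun u hu e he => ?_, fun e he => ?_⟩, k0.2.2.2, k6 0 (by omega),
      k6 1 (by omega), k6 2 (by omega)⟩
    · have := k2 i (by omega)
      rwa [zero_add] at this
    · have := k1 e (by omega)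
      rwa [zero_add] at this
    · have h1 := (Nat.div_mod_unique (a := e * ((par c.n 0).XB + 1) + u) (d := e) (c := u)
        (Nat.add_one_pos (par c.n 0).XB)).2 ⟨by ring, by omega⟩
      have := k3 (e * ((par c.n 0).XB + 1) + u) (by nlinarith)
      rwa [zero_add, h1.1, h1.2] at this
    · have h1 := (Nat.div_mod_unique (a := u * ((par c.n 0).mm + 1) + e) (d := u) (c := e)
        (Nat.add_one_pos (par c.n 0).mm)).2 ⟨by ring, by omega⟩
      have := k4 (u * ((par c.n 0).mm + 1) + e) (by nlinarith)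
      rwa [zero_add, h1.1, h1.2] at this
    · have := k5 e (by omega)
      rwa [zero_add] at this

end Vale.Agent.P315F
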