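import Vale.Agent.P315F.Init

/-! The steps inside the loop over the guesses and the output step. -/

namespace Vale.Agent.P315F

open Vale.Agent.P315 Finset

theorem initb_Q {c : C0} {t : ℕ} {m m' : Mem} (h : c.Q t m)
    (hm : ∀ a, (a < 4 ∨ a = 7 ∨ a = 8 ∨ 17 < a) → m' a = m a) : c.Q t m' :=
  ⟨h.1.stab fun a i ha => by rw [hm a (by omega)], by rw [hm 8 (by omega)]; exact h.2.1,
    by rw [hm 21 (by omega)]; exact h.2.2.1, by rw [hm 21 (by omega)]; exact h.2.2.2.1,
    by rw [hm 21 (by omega)]; exact h.2.2.2.2⟩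

theorem initb_V {c : C0} (h : c.Ok) : c.n + 30 ≤ c.V ∧ c.lg ≤ c.n ∧
    c.x.length + c.y.length ≤ c.V := by
  have h1 := h.hx
  have h2 := h.hy
  have h3 := h.hn
  have h4 : c.n * 2 ≤ c.n ^ 5 := by
    rw [pow_succ']
    exact Nat.mul_le_mul_left _ (le_trans (by omega) (Nat.le_self_pow (by omega) _))
  have h5 := h.hV
  have h6 : c.lg ≤ c.n := Nat.log_le_self 2 _
  omega

theorem initb_best (c : C0) (t : ℕ) : c.best t ≤ c.x.length + c.y.length :=
  (fold_min_le _).2 (Or.inl le_rfl)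

theorem initb_succ (c : C0) (t : ℕ) :
    c.best (t + 1) = min (c.best t) ((par c.n t).ans c.x c.y (ext c.r)) := by
  unfold C0.best
  rw [range_add_one, fold_insert notMem_range_self, min_comm]

theorem initb_bg {P : Pm} (hP : P.Good) (e : ℕ) : P.bgL.getD e 0 ≤ P.big := by
  have h1 := P.pw_ge
  have h2 := P.small_ge
  have h3 := P.big_ge
  have h4 := P.TS_le_STR hP
  have h5 := P.STR_le_big
  have h6 : P.D ≤ P.D * P.lb := Nat.le_mul_of_pos_right _ (by have := hP.lb_ge; omega)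
  have h7 : ∀ v ∈ P.bgL, v ≤ P.big := by
    simp only [Pm.bgL, List.mem_cons, List.not_mem_nil, or_false, forall_eq_or_imp, forall_eq]
    omega
  rcases lt_or_ge e P.bgL.length with h | h
  · rw [List.getD_eq_getElem _ _ h]
    exact h7 _ (List.getElem_mem h)
  · rw [List.getD_eq_default _ _ h]
    exact Nat.zero_le _

/-- The invariant at the start of a round. -/
def initbJ : Inv (C0 × ℕ) where
  I q m := q.2 < q.1.lg + 2 ∧ q.1.Q q.2 m
  d := 0
  st := fun _ _ _ _ _ h => ⟨h.1, initb_Q h.2 fun _ ha => Mem.set_arr _ _ _ (by omega)⟩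

theorem initb_st {arr : ℕ} (h : ¬(arr < 4 ∨ arr = 7 ∨ arr = 8 ∨ 17 < arr)) : St initbJ arr :=
  fun _ _ _ _ _ k => ⟨k.1, initb_Q k.2 fun _ ha => upd_arr _ _ _ _ (by omega)⟩

theorem initb_ro {c : C0} {t : ℕ} {m : Mem} (ht : t < c.lg + 2) (h : c.Tb m)
    (hg : ∀ e < 20, m 17 (0 + e) = (par c.n t).bgL.getD (e - 0) 0) (m0 : Mem) :
    (c.cf t m0).RO m where
  lx := by rw [h.inp 0 1 (by omega)]; rfl
  ly := by rw [h.inp 0 2 (by omega)]; rfl
  ax := fun i => by rw [h.inp 1 i (by omega)]; rfl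
  ay := fun i => by rw [h.inp 2 i (by omega)]; rfl
  tape := fun i => by
    rw [h.inp 3 i (by omega)]
    show (if h : i < c.L then (if c.r ⟨i, h⟩ then 1 else 0) else 0) =
      if (if h : i < c.L then c.r ⟨i, h⟩ else false) then 1 else 0
    by_cases hi : i < c.L
    · rw [dif_pos hi, dif_pos hi]
    · rw [dif_neg hi, dif_neg hi]
      rfl
  r0 := h.r0
  sm := h.sm
  bg := fun i hi => by
    have := hg i hi
    rwa [zero_add] at this
  pow := fun i hi => h.pow i (hi.trans (h.ok.pw t ht))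
  ex := h.ex
  pt := h.pt
  sz := h.sz

/-- Parameters (array 17) and root frame (array 9) for the guess `t`. -/
theorem init1 : Top (fun q : C0 × ℕ => q.1) (fun q m => q.2 < q.1.lg + 2 ∧ q.1.Q q.2 m)
    fun q m => q.1.Q q.2 m ∧ (∀ m0, (q.1.cf q.2 m0).RO m) ∧ Fr m 0 mkR := by
  have hk : Rep initbJ fun q => q.2 :=
    Rep.rd 21 (by decide) (by decide) (Rep.c 0) fun _ _ k => k.2.2.2.1
  have H : PR initbJ fun q => par q.1.n q.2 :=
    par_pr (π := fun q => q.1) hk
      (fun q m k => ⟨k.2.1.ok, k.2.1.inp 0 0 (by omega), k.2.1.log, k.2.1.pow⟩) fun _ _ k => k.1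
  have s1 := Stp.fill' (V := fun q : C0 × ℕ => q.1.V) (R := fun q => q.1.R)
    (U := fun q => q.1.n + 2) (keep := fun _ => False) (J := initbJ) rfl 17 (by decide)
    (by decide) (by decide) id (β := fun _ => 0) (sz := fun _ => 20)
    (g := fun q e => (par q.1.n q.2).bgL.getD (e - 0) 0) 0 (Rep.c 0) (Rep.c 20)
    (rep_cons Rep.varf H.TS.wf <| rep_cons Rep.varf H.STR.wf <| rep_cons Rep.varf H.lb.wf <|
      rep_cons Rep.varf H.lm.wf <| rep_cons Rep.varf H.ell.wf <| rep_cons Rep.varf H.k0.wf <|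
      rep_cons Rep.varf H.K.wf <| rep_cons Rep.varf H.S.wf <| rep_cons Rep.varf H.D.wf <|
      rep_cons Rep.varf H.fp.wf <| rep_cons Rep.varf H.gp.wf <| rep_cons Rep.varf H.rh.wf <|
      rep_cons Rep.varf H.ga.wf <| rep_cons Rep.varf H.sh.wf <| rep_cons Rep.varf H.ie.wf <|
      rep_cons Rep.varf H.mh.wf <| rep_cons Rep.varf H.s0.wf <| rep_cons Rep.varf H.wz.wf <|
      rep_cons Rep.varf H.dh.wf <| rep_cons Rep.varf H.kp.wf <| rep_nil _)
    (initb_st (by omega)) (fun _ _ k => k.2.1.sm) fun q m k => by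
      have h1 := initb_V k.2.1.ok
      have h2 := k.2.1.ok.hn
      refine ⟨by omega, by rw [pow_zero]; omega, fun e _ => ?_⟩
      exact (initb_bg (k.2.1.ok.good _ k.1) _).trans (k.2.1.ok.big _ k.1)
  have s2 := Stp.fill' (V := fun q : C0 × ℕ => q.1.V) (R := fun q => q.1.R)
    (U := fun q => q.1.n + 2) (keep := fun _ => False)
    (J := initbJ.has 17 (by decide) (fun _ => 0) (fun _ => 20)
      fun q e => (par q.1.n q.2).bgL.getD (e - 0) 0) rfl 9 (by decide)
    (by decide) (by decide) id (β := fun _ => 0) (sz := fun _ => 6)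
    (g := fun _ e => [2, 0, 0, 0, 0, 0].getD (e - 0) 0) 0 (Rep.c 0) (Rep.c 6)
    (rep_cons Rep.varf (Rep.c 2) <| rep_cons Rep.varf (Rep.c 0) <| rep_cons Rep.varf (Rep.c 0) <|
      rep_cons Rep.varf (Rep.c 0) <| rep_cons Rep.varf (Rep.c 0) <| rep_cons Rep.varf (Rep.c 0) <|
      rep_nil _)
    ((initb_st (by omega)).has (by decide)) (fun _ _ k => k.1.2.1.sm) fun q m k => by
      have h1 := initb_V k.1.2.1.ok
      have h2 := k.1.2.1.ok.hn
      refine ⟨by omega, by rw [pow_zero]; omega, fun e he => ?_⟩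
      have : [2, 0, 0, 0, 0, 0].getD (e - 0) 0 ≤ 2 := by interval_cases e <;> decide
      omega
  refine (s1.seq s2 fun _ _ _ => by omega).mono (fun _ _ k => k) fun q m k => ?_
  exact ⟨k.1.1.2, initb_ro k.1.1.1 k.1.1.2.1 k.1.2, k.1.1.2.2.1, fun e he => k.2 e he⟩

/-- The new content of array 21. -/
def initbG (q : C0 × ℕ) (e : ℕ) : ℕ :=
  [q.2 + 1, q.1.best (q.2 + 1), q.1.lg + 2 - (q.2 + 1)].getD (e - 0) 0

theorem initb_G {q : C0 × ℕ} (h : q.1.Ok) (ht : q.2 < q.1.lg + 2) (e : ℕ) (he : e < 3) :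
    initbG q e ≤ q.1.V := by
  have h1 := initb_V h
  have h2 := initb_best q.1 (q.2 + 1)
  interval_cases e
  · show q.2 + 1 ≤ _
    omega
  · show q.1.best (q.2 + 1) ≤ _
    omega
  · show q.1.lg + 2 - (q.2 + 1) ≤ _
    omega

/-- The invariant at the end of a round. -/
def initbK : Inv (C0 × ℕ) where
  I q m := initbJ.I q m ∧ m 12 0 = (par q.1.n q.2).ans q.1.x q.1.y (ext q.1.r)
  d := 0
  st := fun _ _ _ _ hx h => ⟨initbJ.st _ _ _ _ hx h.1,
    by rw [Mem.set_arr _ _ _ (by decide)]; exact h.2⟩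

/-- The same after forgetting array 21. -/
def initbL : Inv (C0 × ℕ) where
  I q m := q.2 < q.1.lg + 2 ∧ q.1.Tb m ∧ m 8 0 = 0 ∧ ∀ e < 3, m 13 (0 + e) = initbG q e
  d := 0
  st := fun _ _ _ _ _ h => ⟨h.1, h.2.1.stab fun _ _ ha => by rw [Mem.set_arr _ _ _ (by omega)],
    by rw [Mem.set_arr _ _ _ (by decide)]; exact h.2.2.1,
    by rw [Mem.set_arr _ _ _ (by decide)]; exact h.2.2.2⟩

/-- Update of guess, best value and counter (array 21, through array 13). -/
theorem fin1 : Top (fun q : C0 × ℕ => q.1) (fun q m => q.2 < q.1.lg + 2 ∧ q.1.Q q.2 m ∧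
    m 12 0 = (par q.1.n q.2).ans q.1.x q.1.y (ext q.1.r)) fun q m => q.1.Q (q.2 + 1) m := by
  have a0 : Rep initbK fun q => q.2 :=
    Rep.rd 21 (by decide) (by decide) (Rep.c 0) fun _ _ k => k.1.2.2.2.1
  have a1 : Rep initbK fun q => q.1.best q.2 :=
    Rep.rd 21 (by decide) (by decide) (Rep.c 1) fun _ _ k => k.1.2.2.2.2.1
  have a2 : Rep initbK fun q => q.1.lg + 2 - q.2 :=
    Rep.rd 21 (by decide) (by decide) (Rep.c 2) fun _ _ k => k.1.2.2.2.2.2
  have a3 : Rep initbK fun q => (par q.1.n q.2).ans q.1.x q.1.y (ext q.1.r) :=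
    Rep.rd 12 (by decide) (by decide) (Rep.c 0) fun _ _ k => k.2
  have r0 : Rep initbK fun q => q.2 + 1 := a0.add (Rep.c 1)
  have r1 : Rep initbK fun q => q.1.best (q.2 + 1) :=
    (a1.min a3).congr' fun q => (initb_succ q.1 q.2).symm
  have r2 : Rep initbK fun q => q.1.lg + 2 - (q.2 + 1) :=
    (a2.sub (Rep.c 1)).congr' fun q => by omega
  have s1 := Stp.fill' (V := fun q : C0 × ℕ => q.1.V) (R := fun q => q.1.R)
    (U := fun q => q.1.n + 2) (keep := fun _ => False) (J := initbK) rfl 13 (by decide)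
    (by decide) (by decide) id (β := fun _ => 0) (sz := fun _ => 3) (g := initbG) 0 (Rep.c 0)
    (Rep.c 3)
    (rep_cons Rep.varf r0.wf <| rep_cons Rep.varf r1.wf <| rep_cons Rep.varf r2.wf <| rep_nil _)
    (fun _ _ _ _ _ k => ⟨initb_st (by omega) _ _ _ _ _ k.1,
      by rw [upd_arr _ _ _ _ (by decide)]; exact k.2⟩)
    (fun _ _ k => k.1.2.1.sm) fun q m k => by
      have h1 := initb_V k.1.2.1.ok
      have h2 := k.1.2.1.ok.hn
      exact ⟨by omega, by rw [pow_zero]; omega, initb_G k.1.2.1.ok k.1.1⟩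
  have s2 := Stp.fill' (V := fun q : C0 × ℕ => q.1.V) (R := fun q => q.1.R)
    (U := fun q => q.1.n + 2) (keep := fun _ => False) (J := initbL) rfl 21 (by decide)
    (by decide) (by decide) id (β := fun _ => 0) (sz := fun _ => 3) (g := initbG) 0 (Rep.c 0)
    (Rep.c 3)
    (Rep.rd 13 (by decide) (by decide) ((Rep.c 0).add Rep.varf) fun _ _ k =>
      k.1.2.2.2 _ k.2.2.1)
    (fun _ _ _ _ _ k => ⟨k.1, k.2.1.stab fun _ _ ha => by rw [upd_arr _ _ _ _ (by omega)],
      by rw [upd_arr _ _ _ _ (by decide)]; exact k.2.2.1,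
      by rw [upd_arr _ _ _ _ (by decide)]; exact k.2.2.2⟩)
    (fun _ _ k => k.2.1.sm) fun q m k => by
      have h1 := initb_V k.2.1.ok
      have h2 := k.2.1.ok.hn
      exact ⟨by omega, by rw [pow_zero]; omega, initb_G k.2.1.ok k.1⟩
  refine ((s1.mono (fun _ _ k => k) fun _ _ k => ?_).seq s2 fun _ _ _ => by omega).mono
    (fun _ _ k => ⟨⟨k.1, k.2.1⟩, k.2.2⟩) fun q m k => ?_
  · exact ⟨k.1.1.1, k.1.1.2.1, k.1.1.2.2.1, k.2⟩
  · exact ⟨k.1.2.1, k.1.2.2.1, k.2 0 (by norm_num), k.2 1 (by norm_num), k.2 2 (by norm_num)⟩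

/-- The invariant after the last round. -/
def initbM : Inv C0 where
  I c m := c.Q (c.lg + 2) m
  d := 0
  st := fun _ _ _ _ _ h => initb_Q h fun _ ha => Mem.set_arr _ _ _ (by omega)

theorem fin2 : Top (fun c => c) (fun c m => c.Q (c.lg + 2) m)
    fun c m => m 4 0 = answer c.n c.x c.y (ext c.r) := by
  have r1 : Rep initbM fun c => c.best (c.lg + 2) :=
    Rep.rd 21 (by decide) (by decide) (Rep.c 1) fun _ _ k => k.2.2.2.1
  have s1 := Stp.fill' (V := fun c : C0 => c.V) (R := fun c => c.R)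
    (U := fun c => c.n + 2) (keep := fun _ => False) (J := initbM) rfl 4 (by decide)
    (by decide) (by decide) id (β := fun _ => 0) (sz := fun _ => 1)
    (g := fun c _ => c.best (c.lg + 2)) 0 (Rep.c 0) (Rep.c 1) r1.wf
    (fun _ _ _ _ _ k => initb_Q k fun _ ha => upd_arr _ _ _ _ (by omega))
    (fun _ _ k => k.1.sm) fun c m k => by
      have h1 := initb_V k.1.ok
      have h2 := k.1.ok.hn
      have h3 := initb_best c (c.lg + 2)
      exact ⟨by omega, by rw [pow_zero]; omega, fun _ _ => by omega⟩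
  exact s1.mono (fun _ _ k => k) fun c m k => k.2 0 (by norm_num)

end Vale.Agent.P315F
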