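import Vale.Agent.P315F.Bern

namespace Vale.Agent.P315F

open Finset Vale.Agent.P315

/-- Bernstein inequality in which constant terms are free. -/
theorem bern' {σ ι : Type} [Fintype σ] [Nonempty σ] [Fintype ι] [DecidableEq ι]
    (X : ι → σ → ℝ) {c y θ : ℝ} (hc : 0 < c)
    (hX : ∀ i, (∀ s s', X i s = X i s') ∨ ∀ s, |X i s| ≤ c)
    (hV : ∑ i, av (fun s => |X i s|) ≤ y) (hθ0 : 0 < θ) (hθ : θ ≤ 1) :
    pr (fun u : ι → σ => θ * y < |∑ i, X i (u i) - ∑ i, av (X i)|) ≤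
      2 * Real.exp (-(θ ^ 2 * y / (16 * c))) := by
  classical
  set Y : ι → σ → ℝ := fun i s => if ∀ s s', X i s = X i s' then 0 else X i s with hY
  refine (pr_mono fun u hu => ?_).trans (bern Y (V := y) hc (fun i s => ?_) ?_ hθ0 hθ le_rfl)
  · refine hu.trans_eq (congrArg _ ?_)
    rw [← sum_sub_distrib, ← sum_sub_distrib]
    refine sum_congr rfl fun i _ => ?_
    by_cases h : ∀ s s', X i s = X i s'
    · have e : X i = fun _ => X i (u i) := funext fun s => h _ _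
      simp only [hY, if_pos h]
      rw [av_const, e, av_const]
      simp
    · simp only [hY, if_neg h]
  · simp only [hY]
    split_ifs with h
    · rw [abs_zero]; exact hc.le
    · exact (hX i).resolve_left h s
  · refine le_trans (sum_le_sum fun i _ => av_mono fun s => ?_) hV
    simp only [hY]
    split_ifs
    · rw [abs_zero]; exact abs_nonneg _
    · exact le_rfl

theorem pr_or {σ : Type} [Fintype σ] (p q : σ → Prop) :
    pr (fun s => p s ∨ q s) ≤ pr p + pr q := by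
  classical
  rw [pr_eq_av, pr_eq_av, pr_eq_av, ← av_add]
  refine av_mono fun s => ?_
  by_cases hp : p s <;> by_cases hq : q s <;> simp [hp, hq]

theorem wsum_abs {n : ℕ} {ν f g : ℕ → ℝ} (h0 : ∀ o, 0 ≤ ν o) (h : ∀ o < n, |f o| ≤ g o) :
    |∑ o ∈ range n, ν o * f o| ≤ ∑ o ∈ range n, ν o * g o :=
  (abs_sum_le_sum_abs _ _).trans (sum_le_sum fun o ho => by
    rw [abs_mul, abs_of_nonneg (h0 o)]
    exact mul_le_mul_of_nonneg_left (h o (mem_range.1 ho)) (h0 o))

theorem wsum_le {n : ℕ} {ν f : ℕ → ℝ} {c : ℝ} (h0 : ∀ o, 0 ≤ ν o) (h1 : ∑ o ∈ range n, ν o = 1)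
    (h : ∀ o < n, f o ≤ c) : ∑ o ∈ range n, ν o * f o ≤ c := by
  rw [← one_mul c, ← h1, sum_mul]
  exact sum_le_sum fun o ho => mul_le_mul_of_nonneg_left (h o (mem_range.1 ho)) (h0 o)

/-- One level of the estimation, abstract form.  Items `x ∈ K` (child, band) have weight `a x`,
reference values `Ref x o`, control variates `L x o`; slot `u` with seed `s` samples the item
`it u s` with weight `wt u` and delivers `R u s o`. -/
theorem lev_abs {σ ι κ : Type} [Fintype σ] [Nonempty σ] [Fintype ι] [DecidableEq ι]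
    [DecidableEq κ] {τ : ℝ} (hτ : 0 < τ) {n : ℕ} (hn : 1 ≤ n) (C base : ℕ → ℝ) {K S : Finset κ}
    (hS : S ⊆ K) (a : κ → ℝ) (Ref L : κ → ℕ → ℝ) (wt : ι → ℝ) (it : ι → σ → κ)
    (R : ι → σ → ℕ → ℝ) {U τ0 B M α β θ : ℝ} (hM : 0 < M) (hB : 0 < B) (hα : 0 < α)
    (hβ0 : 0 ≤ β) (hβ : β ≤ 1) (hθ : θ ≤ 1) (hθM : 1 / M ≤ θ) (hτ0 : 0 ≤ τ0) (hτU : τ0 ≤ U)
    (hbase : ∀ o < n, 0 ≤ base o) (ha : ∀ x, 0 ≤ a x) (hwt : ∀ u, 0 ≤ wt u)
    (hRef : ∀ x, ∀ o < n, 0 ≤ Ref x o ∧ Ref x o ≤ U)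
    (hL : ∀ x, ∀ o < n, |L x o - Ref x o| ≤ α * (Ref x o + τ0))
    (hun : ∀ f : κ → ℝ, ∑ u, wt u * av (fun s => f (it u s)) = ∑ x ∈ S, f x)
    (hlow : ∑ x ∈ K \ S, a x * U ≤ B / M) (htiny : ∑ x ∈ K, a x * τ0 ≤ B)
    (hsm : ∀ u, (∀ s s', it u s = it u s') ∨ ∀ s, wt u * a (it u s) * U ≤ B / M)
    (F : ℕ → ℝ) (hF : ∀ o < n, F o = base o + ∑ x ∈ K, a x * Ref x o)
    (Fh : (ι → σ) → ℕ → ℝ) (hFh : ∀ s, ∀ o < n, Fh s o = base o + ∑ x ∈ K, a x * L x o +
      ∑ u, wt u * a (it u (s u)) * (R u (s u) o - L (it u (s u)) o)) :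
    0 ≤ sm τ n (fun o => C o + F o) - sm τ n C ∧
    pr (fun s : ι → σ =>
      (∀ u, wt u ≠ 0 → ∀ o < n,
        |R u (s u) o - Ref (it u (s u)) o| ≤ β * α * (Ref (it u (s u)) o + τ0)) ∧
      (∀ o < n, ∀ o' < n, |(Fh s o - F o) - (Fh s o' - F o')| ≤ θ * τ) ∧
      α * (13 * θ + 2 * β) * (sm τ n (fun o => C o + F o) - sm τ n C + B) <
        |sm τ n (fun o => C o + Fh s o) - sm τ n (fun o => C o + F o)|) ≤
      4 * Real.exp (-(θ ^ 2 * M / 32)) := by
  obtain ⟨ν, h0, h1, h2, h3⟩ := sm_gibbs hτ hn C F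
  have hθ0 : 0 < θ := lt_of_lt_of_le (by positivity) hθM
  set Ψ := sm τ n (fun o => C o + F o) - sm τ n C with hΨ
  set w : κ → ℝ := fun x => a x * ∑ o ∈ range n, ν o * (Ref x o + τ0) with hw
  set δ : κ → ℝ := fun x => a x * ∑ o ∈ range n, ν o * (L x o - Ref x o) with hδ
  have hw0 : ∀ x, 0 ≤ w x := fun x => mul_nonneg (ha x) (sum_nonneg fun o ho =>
    mul_nonneg (h0 o) (add_nonneg (hRef x o (mem_range.1 ho)).1 hτ0))
  have hwU : ∀ x, w x ≤ 2 * (a x * U) := fun x => by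
    have := mul_le_mul_of_nonneg_left (wsum_le (c := 2 * U) h0 h1
      (f := fun o => Ref x o + τ0) fun o ho => by linarith [(hRef x o ho).2]) (ha x)
    simp only [hw]
    linarith
  have hδw : ∀ x, |δ x| ≤ α * w x := fun x => by
    have := wsum_abs h0 (hL x)
    simp only [hδ, hw, abs_mul, abs_of_nonneg (ha x)]
    refine (mul_le_mul_of_nonneg_left this (ha x)).trans (le_of_eq ?_)
    simp only [mul_sum]
    exact sum_congr rfl fun o _ => by ring
  have hE : ∑ x ∈ K, a x * ∑ o ∈ range n, ν o * Ref x o ≤ Ψ := by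
    refine le_trans ?_ h2
    simp only [mul_sum]
    rw [sum_comm]
    refine sum_le_sum fun o ho => ?_
    rw [hF o (mem_range.1 ho), mul_add, mul_sum]
    refine le_add_of_nonneg_of_le (mul_nonneg (h0 o) (hbase o (mem_range.1 ho))) (le_of_eq ?_)
    exact sum_congr rfl fun x _ => by ring
  have hΨ0 : 0 ≤ Ψ := le_trans (sum_nonneg fun x _ => mul_nonneg (ha x) (sum_nonneg fun o ho =>
    mul_nonneg (h0 o) (hRef x o (mem_range.1 ho)).1)) hE
  have hW : ∑ x ∈ K, w x ≤ Ψ + B := by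
    refine le_trans (le_of_eq ?_) (add_le_add hE htiny)
    rw [← sum_add_distrib]
    refine sum_congr rfl fun x _ => ?_
    simp only [hw, mul_add, sum_add_distrib, ← sum_mul, h1, one_mul]
  have hWS : ∑ x ∈ S, w x ≤ Ψ + B := (sum_le_sum_of_subset_of_nonneg hS fun x _ _ => hw0 x).trans hW
  refine ⟨hΨ0, ?_⟩
  have hBM : 0 < B / M := by positivity
  have hav : ∀ f : κ → ℝ, ∑ u, av (fun s => wt u * f (it u s)) = ∑ x ∈ S, f x := fun f => by
    simp only [av_mul]; exact hun f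
  have b1 := bern' (fun u s => wt u * w (it u s)) (c := 2 * (B / M)) (y := Ψ + B) (θ := 1)
    (by positivity) (fun u => (hsm u).imp (fun h s s' => by rw [h s s']) fun h s => by
      rw [abs_of_nonneg (mul_nonneg (hwt u) (hw0 _))]
      have := mul_le_mul_of_nonneg_left (hwU (it u s)) (hwt u)
      have := h s
      nlinarith)
    (by simp only [abs_of_nonneg (mul_nonneg (hwt _) (hw0 _))]; rw [hav]; exact hWS)
    one_pos le_rfl
  have b2 := bern' (fun u s => wt u * δ (it u s)) (c := α * (2 * (B / M))) (y := α * (Ψ + B))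
    (θ := θ) (by positivity) (fun u => (hsm u).imp (fun h s s' => by rw [h s s']) fun h s => by
      rw [abs_mul, abs_of_nonneg (hwt u)]
      have e1 := mul_le_mul_of_nonneg_left ((hδw (it u s)).trans
        (mul_le_mul_of_nonneg_left (hwU (it u s)) hα.le)) (hwt u)
      have e2 := mul_le_mul_of_nonneg_left (h s) hα.le
      nlinarith)
    (by
      simp only [abs_mul, abs_of_nonneg (hwt _)]
      rw [hav fun x => |δ x|]
      refine (sum_le_sum fun x _ => hδw x).trans ?_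
      rw [← mul_sum]
      exact mul_le_mul_of_nonneg_left hWS hα.le) hθ0 hθ
  rw [hav] at b1 b2
  have x1 : θ ^ 2 * M / 32 ≤ 1 ^ 2 * (Ψ + B) / (16 * (2 * (B / M))) := by
    rw [div_le_div_iff₀ (by norm_num) (by positivity)]
    have e1 : θ ^ 2 ≤ 1 := pow_le_one₀ hθ0.le hθ
    have e2 : M * (B / M) = B := mul_div_cancel₀ _ hM.ne'
    nlinarith
  have x2 : θ ^ 2 * M / 32 ≤ θ ^ 2 * (α * (Ψ + B)) / (16 * (α * (2 * (B / M)))) := by
    rw [div_le_div_iff₀ (by norm_num) (by positivity)]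
    have e2 : M * (B / M) = B := mul_div_cancel₀ _ hM.ne'
    have e3 : θ ^ 2 * M * (16 * (α * (2 * (B / M)))) = θ ^ 2 * α * 32 * (M * (B / M)) := by ring
    rw [e3, e2]
    nlinarith [mul_nonneg (mul_nonneg (sq_nonneg θ) hα.le) hΨ0]
  refine le_trans (pr_mono fun s ⟨g1, g2, g3⟩ => ?_) ((pr_or _ _).trans ((add_le_add b1 b2).trans
    (by linarith [Real.exp_le_exp.2 (neg_le_neg x1), Real.exp_le_exp.2 (neg_le_neg x2)])))
  by_contra hc
  rw [not_or, not_lt, not_lt] at hc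
  obtain ⟨c1, c2⟩ := hc
  have y1 : ∑ u, wt u * w (it u (s u)) ≤ 2 * (Ψ + B) := by linarith [(abs_le.1 c1).2]
  set ρ : ι → ℕ → ℝ := fun u o => wt u * a (it u (s u)) * (R u (s u) o - Ref (it u (s u)) o)
    with hρ
  have hρb : ∀ u, ∀ o < n, |ρ u o| ≤
      β * α * (wt u * a (it u (s u)) * (Ref (it u (s u)) o + τ0)) := fun u o ho => by
    by_cases hu : wt u = 0
    · simp [hρ, hu]
    · simp only [hρ]
      rw [abs_mul, abs_of_nonneg (mul_nonneg (hwt u) (ha _)), mul_left_comm]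
      exact mul_le_mul_of_nonneg_left (g1 u hu o ho) (mul_nonneg (hwt u) (ha _))
  have hZ : ∀ o < n, Fh s o - F o = ∑ x ∈ K, a x * (L x o - Ref x o) -
      ∑ u, wt u * a (it u (s u)) * (L (it u (s u)) o - Ref (it u (s u)) o) + ∑ u, ρ u o := by
    intro o ho
    rw [hFh s o ho, hF o ho]
    simp only [hρ, mul_sub, sum_sub_distrib]
    ring
  have hsw : ∑ o ∈ range n, ν o * ∑ u, wt u * a (it u (s u)) * (Ref (it u (s u)) o + τ0) =
      ∑ u, wt u * w (it u (s u)) := by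
    simp only [hw, mul_sum]
    rw [sum_comm]
    exact sum_congr rfl fun u _ => sum_congr rfl fun o _ => by ring
  have hKw : ∑ o ∈ range n, ν o * ∑ x ∈ K, a x * (Ref x o + τ0) = ∑ x ∈ K, w x := by
    simp only [hw, mul_sum]
    rw [sum_comm]
    exact sum_congr rfl fun u _ => sum_congr rfl fun o _ => by ring
  have hρs : ∀ o < n, |∑ u, ρ u o| ≤
      β * α * ∑ u, wt u * a (it u (s u)) * (Ref (it u (s u)) o + τ0) := fun o ho => by
    rw [mul_sum]
    exact (abs_sum_le_sum_abs _ _).trans (sum_le_sum fun u _ => hρb u o ho)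
  have m1 : ∑ o ∈ range n, ν o * |Fh s o - F o| ≤ α * (Ψ + B) + (α + β * α) * (2 * (Ψ + B)) := by
    refine le_trans (sum_le_sum fun o ho => mul_le_mul_of_nonneg_left (?_ : _ ≤
      α * ∑ x ∈ K, a x * (Ref x o + τ0) +
        (α + β * α) * ∑ u, wt u * a (it u (s u)) * (Ref (it u (s u)) o + τ0)) (h0 o)) ?_
    · have ho := mem_range.1 ho
      have e1 : |∑ x ∈ K, a x * (L x o - Ref x o)| ≤ α * ∑ x ∈ K, a x * (Ref x o + τ0) := by
        rw [mul_sum]
        refine (abs_sum_le_sum_abs _ _).trans (sum_le_sum fun x _ => ?_)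
        rw [abs_mul, abs_of_nonneg (ha x), mul_left_comm]
        exact mul_le_mul_of_nonneg_left (hL x o ho) (ha x)
      have e2 : |∑ u, wt u * a (it u (s u)) * (L (it u (s u)) o - Ref (it u (s u)) o)| ≤
          α * ∑ u, wt u * a (it u (s u)) * (Ref (it u (s u)) o + τ0) := by
        rw [mul_sum]
        refine (abs_sum_le_sum_abs _ _).trans (sum_le_sum fun u _ => ?_)
        rw [abs_mul, abs_of_nonneg (mul_nonneg (hwt u) (ha _)), mul_left_comm]
        exact mul_le_mul_of_nonneg_left (hL _ o ho) (mul_nonneg (hwt u) (ha _))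
      have e3 := hρs o ho
      rw [hZ o ho]
      have := abs_add_le (∑ x ∈ K, a x * (L x o - Ref x o) -
        ∑ u, wt u * a (it u (s u)) * (L (it u (s u)) o - Ref (it u (s u)) o)) (∑ u, ρ u o)
      have := abs_sub (∑ x ∈ K, a x * (L x o - Ref x o))
        (∑ u, wt u * a (it u (s u)) * (L (it u (s u)) o - Ref (it u (s u)) o))
      linarith
    · simp only [mul_add (ν _), sum_add_distrib, mul_left_comm (ν _) α,
        mul_left_comm (ν _) (α + β * α), ← mul_sum]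
      rw [hsw, hKw]
      exact add_le_add (mul_le_mul_of_nonneg_left hW hα.le)
        (mul_le_mul_of_nonneg_left y1 (by positivity))
  have m2 : ∑ o ∈ range n, ν o * (Fh s o - F o) = ∑ x ∈ K \ S, δ x -
      (∑ u, wt u * δ (it u (s u)) - ∑ x ∈ S, δ x) + ∑ o ∈ range n, ν o * ∑ u, ρ u o := by
    rw [sum_congr rfl fun o ho => by rw [hZ o (mem_range.1 ho)], sum_sdiff_eq_sub hS]
    have e1 : ∑ x ∈ K, δ x = ∑ o ∈ range n, ν o * ∑ x ∈ K, a x * (L x o - Ref x o) := by
      simp only [hδ, mul_sum]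
      rw [sum_comm]
      exact sum_congr rfl fun u _ => sum_congr rfl fun o _ => by ring
    have e2 : ∑ u, wt u * δ (it u (s u)) = ∑ o ∈ range n, ν o *
        ∑ u, wt u * a (it u (s u)) * (L (it u (s u)) o - Ref (it u (s u)) o) := by
      simp only [hδ, mul_sum]
      rw [sum_comm]
      exact sum_congr rfl fun u _ => sum_congr rfl fun o _ => by ring
    rw [e1, e2]
    simp only [mul_add, mul_sub, sum_add_distrib, sum_sub_distrib]
    ring
  have m3 : |∑ x ∈ K \ S, δ x| ≤ α * (2 * (θ * B)) := by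
    refine (abs_sum_le_sum_abs _ _).trans ((sum_le_sum fun x _ => (hδw x).trans
      (mul_le_mul_of_nonneg_left (hwU x) hα.le)).trans ?_)
    rw [← mul_sum, ← mul_sum]
    refine mul_le_mul_of_nonneg_left (mul_le_mul_of_nonneg_left (hlow.trans ?_) two_pos.le) hα.le
    rw [div_eq_mul_one_div, mul_comm]
    exact mul_le_mul_of_nonneg_right hθM hB.le
  have m4 : |∑ o ∈ range n, ν o * ∑ u, ρ u o| ≤ β * α * (2 * (Ψ + B)) := by
    refine (wsum_abs h0 hρs).trans ?_
    simp only [mul_left_comm (ν _) (β * α), ← mul_sum]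
    rw [hsw]
    exact mul_le_mul_of_nonneg_left y1 (by positivity)
  have m5 := h3 (fun o => Fh s o - F o) (θ * τ) g2 (mul_le_of_le_one_left hτ.le hθ)
  simp only [add_add_sub_cancel, mul_div_cancel_right₀ _ hτ.ne'] at m5
  rw [m2] at m5
  have m6 := m5.trans (mul_le_mul_of_nonneg_left m1 (by positivity))
  have p0 : 0 ≤ θ * α * Ψ := by positivity
  have p1 : θ * β * α * (Ψ + B) ≤ θ * α * (Ψ + B) := by
    have := mul_le_mul_of_nonneg_left hβ (by positivity : 0 ≤ θ * α * (Ψ + B))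
    linarith
  refine absurd g3 (not_lt.2 (abs_le.2 ⟨?_, ?_⟩))
  · linarith [(abs_le.1 m6).1, (abs_le.1 m3).1, (abs_le.1 m4).1, (abs_le.1 c2).2]
  · linarith [(abs_le.1 m6).2, (abs_le.1 m3).2, (abs_le.1 m4).2, (abs_le.1 c2).1]

end Vale.Agent.P315F
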