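import Vale.Agent.P315F.Slots
import Vale.Agent.P315F.LevAbs

namespace Vale.Agent.P315F

open Finset Vale.Agent.P315

theorem level_osc1 {κ : Type} (K : Finset κ) {a d f f' g g' : κ → ℝ} (ha : ∀ x, 0 ≤ a x)
    (hf : ∀ x, |f x - f' x| ≤ d x) (hg : ∀ x, |g x - g' x| ≤ d x) :
    |∑ x ∈ K, a x * (f x - g x) - ∑ x ∈ K, a x * (f' x - g' x)| ≤ 2 * ∑ x ∈ K, a x * d x := by
  rw [← sum_sub_distrib, mul_sum]
  refine (abs_sum_le_sum_abs _ _).trans (sum_le_sum fun x _ => ?_)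
  rw [← mul_sub, abs_mul, abs_of_nonneg (ha x), mul_left_comm]
  refine mul_le_mul_of_nonneg_left (abs_le.2 ⟨?_, ?_⟩) (ha x)
  · linarith [(abs_le.1 (hf x)).1, (abs_le.1 (hg x)).2]
  · linarith [(abs_le.1 (hf x)).2, (abs_le.1 (hg x)).1]

theorem pr_coord {σ ι : Type} [Fintype σ] [Nonempty σ] [Fintype ι] [DecidableEq ι] (n : ι)
    (p : σ → Prop) : pr (fun u : ι → σ => p (u n)) = pr p := by
  classical
  rw [← pr_equiv (Equiv.funSplitAt n σ).symm, pr_eq_av, pr_eq_av, av_prod]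
  refine congrArg av (funext fun s => ?_)
  simp only [Equiv.funSplitAt_symm_apply, dif_pos]
  exact av_const _

theorem pr_prod_le {σ σ' : Type} [Fintype σ] [Nonempty σ] [Fintype σ'] (p : σ × σ' → Prop) {δ : ℝ}
    (h : ∀ s, pr (fun s' => p (s, s')) ≤ δ) : pr p ≤ δ := by
  classical
  rw [pr_eq_av, av_prod, ← av_const (σ := σ) δ]
  refine av_mono fun r => le_trans (le_of_eq ?_) (h r)
  rw [pr_eq_av]

theorem pr_nonneg {σ : Type} [Fintype σ] (p : σ → Prop) : 0 ≤ pr p := by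
  unfold pr; positivity

theorem pr_empty {σ : Type} [Fintype σ] {p : σ → Prop} (h : ∀ s, ¬ p s) {δ : ℝ}
    (hδ : 0 ≤ δ) : pr p ≤ δ := by
  classical
  unfold pr
  rw [Finset.filter_eq_empty_iff.2 fun s _ => h s]
  simpa using hδ

namespace Pm

variable {P : Pm}

/-- Entry of item `x = (child, band)` along the member `o` of the tube. -/
def tv (P : Pm) (t : ℕ → ℕ → TabR) (X : Ctx) (k g Q Q' : ℕ) (x : ℕ × ℕ) (o : ℕ) : ℝ :=
  t (x.1 % P.b) x.2 (P.r g * P.q X k g Q Q' o (x.1 % P.b)) (P.r g * P.q X k g Q Q' o (x.1 % P.b + 1))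

theorem t0_nonneg (P : Pm) : 0 ≤ P.t0 := by unfold t0; positivity

theorem sig_pos (P : Pm) : 0 < P.sig := by unfold sig; positivity

theorem sig_le (P : Pm) : P.sig ≤ 1 := by
  unfold sig
  exact (div_le_one (by positivity)).2 (one_le_pow₀ one_le_two)

theorem level_tiny (hP : P.Good) {i g : ℕ} (hg : g < i + P.NG) :
    ∑ x ∈ range P.b ×ˢ P.bandsK g, (2 : ℝ) ^ (x.2 - P.lo g) * P.t0 ≤ 2 ^ (i - P.lo g) * P.U1 := by
  have h0 := step_lo hP hg
  have h1 := hP.th_ge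
  rw [sum_product]
  simp only [sum_const, card_range, nsmul_eq_mul, ← sum_mul]
  have h2 : (2 : ℝ) ^ P.lb * 2 ^ (g + 3 - P.lo g) ≤ 2 ^ (i - P.lo g) * 2 ^ P.th := by
    rw [← pow_add, ← pow_add]
    refine pow_le_pow_right₀ one_le_two ?_
    unfold nbm NG at *
    omega
  rw [← mul_assoc, t0, ← mul_div_assoc, div_le_iff₀ (by positivity), mul_right_comm _ (P.U1 : ℝ)]
  refine mul_le_mul_of_nonneg_right (le_trans ?_ h2) (Nat.cast_nonneg _)
  rw [b, Nat.cast_pow, Nat.cast_ofNat]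
  exact mul_le_mul_of_nonneg_left (P.bands_geo g) (by positivity)

theorem level_low (P : Pm) (i g : ℕ) :
    ∑ x ∈ (range P.b ×ˢ P.bandsK g) \ (range P.b ×ˢ P.bandsS i g), (2 : ℝ) ^ (x.2 - P.lo g) * P.U1 ≤
      2 ^ (i - P.lo g) * P.U1 / 2 ^ P.lm := by
  refine (sum_le_sum_of_subset_of_nonneg (t := range P.b ×ˢ Ico (P.lo g) (i - (P.lm + P.lb)))
    (fun x hx => ?_) fun _ _ _ => by positivity).trans ?_
  · simp only [mem_sdiff, mem_product, bandsS, bandsK, mem_filter, mem_Ico, mem_range] at hx ⊢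
    omega
  rw [sum_product]
  simp only [sum_const, card_range, nsmul_eq_mul, ← sum_mul]
  rcases le_or_gt (i - (P.lm + P.lb)) (P.lo g) with h | h
  · rw [Ico_eq_empty_of_le h, sum_empty, zero_mul, mul_zero]
    positivity
  have h2 : (2 : ℝ) ^ P.lb * 2 ^ (i - (P.lm + P.lb) - P.lo g) * 2 ^ P.lm = 2 ^ (i - P.lo g) := by
    rw [← pow_add, ← pow_add]
    congr 1
    omega
  rw [← h2, ← mul_assoc, mul_right_comm _ (2 ^ P.lm : ℝ), mul_div_cancel_right₀ _ (by positivity),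
    b, Nat.cast_pow, Nat.cast_ofNat]
  exact mul_le_mul_of_nonneg_right (mul_le_mul_of_nonneg_left (slots_geo _ _) (by positivity))
    (Nat.cast_nonneg _)

theorem level_small (P : Pm) (i g n : ℕ) (h : ¬ P.lb ≤ n / P.b) :
    P.wtR i g n * 2 ^ (P.bd i n - P.lo g) * P.U1 ≤ 2 ^ (i - P.lo g) * P.U1 / 2 ^ P.lm := by
  unfold wtR
  split_ifs with h1
  · have h2 : (2 : ℝ) ^ (P.lb - n / P.b) * 2 ^ (P.bd i n - P.lo g) * 2 ^ P.lm =
        2 ^ (i - P.lo g) := by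
      rw [← pow_add, ← pow_add]
      congr 1
      obtain ⟨⟨h2, -⟩, h3, -⟩ := h1
      unfold bd at *
      omega
    rw [← h2, mul_right_comm _ (2 ^ P.lm : ℝ), mul_div_cancel_right₀ _ (by positivity)]
  · rw [zero_mul, zero_mul]
    positivity

theorem tv_osc (P : Pm) {t : ℕ → ℕ → TabR} (ht : ∀ c x, P.Tame x (t c x)) (X : Ctx)
    (k g Q Q' o o' : ℕ) (x : ℕ × ℕ) :
    |P.tv t X k g Q Q' x o - P.tv t X k g Q Q' x o'| ≤ P.oscD g x.2 :=
  P.tame_osc (ht _ _) X k g Q Q' _ o o'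

theorem level_oscK (P : Pm) (g : ℕ) :
    ∑ x ∈ range P.b ×ˢ P.bandsK g, (2 : ℝ) ^ (x.2 - P.lo g) * P.oscD g x.2 =
      P.b * ∑ x ∈ P.bandsK g, 2 ^ (x - P.lo g) * P.oscD g x := by
  rw [sum_product]
  simp only [sum_const, card_range, nsmul_eq_mul]

/-- Stability of the soft-min increment under relative errors of all tables of the children. -/
theorem Psi_stab (hP : P.Good) (X : Ctx) (k : ℕ) {i g Q Q' : ℕ} (hg : g < i + P.NG)
    (hQ : Q ≤ P.Qg g) (hQ' : Q' ≤ P.Qg g) {L V : ℕ → ℕ → TabR} {α : ℝ} (hα : 0 ≤ α)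
    (hL : ∀ c x, P.Tame x (L c x)) (hV : ∀ c x, P.Tame x (V c x))
    (hLV : ∀ c < P.b, ∀ x, ∀ p ≤ P.Qm, ∀ p' ≤ P.Qm, P.Near α (L c x p p') (V c x p p')) :
    0 ≤ P.PsR X k (P.valR V) g Q Q' ∧ |P.PsR X k (P.valR L) g Q Q' - P.PsR X k (P.valR V) g Q Q'| ≤
      3 * α * (P.PsR X k (P.valR V) g Q Q' + 2 ^ (i - P.lo g) * P.U1) := by
  have hτ := step_tau hP g
  obtain ⟨ν, h0, h1, h2, h3⟩ := sm_gibbs hτ P.step_Om
    (fun o => (P.cum X k g (P.q X k g Q Q' o) : ℝ)) fun o => P.valR V g (P.q X k g Q Q' o)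
  have hZ : ∀ o, P.valR L g (P.q X k g Q Q' o) - P.valR V g (P.q X k g Q Q' o) =
      ∑ x ∈ range P.b ×ˢ P.bandsK g, 2 ^ (x.2 - P.lo g) *
        (P.tv L X k g Q Q' x o - P.tv V X k g Q Q' x o) := fun o => by
    simp only [valR_eq, tv, mul_sub, sum_sub_distrib]
    ring
  have hV0 : ∀ o, ∑ x ∈ range P.b ×ˢ P.bandsK g, 2 ^ (x.2 - P.lo g) * P.tv V X k g Q Q' x o ≤
      P.valR V g (P.q X k g Q Q' o) := fun o => by
    rw [valR_eq]
    exact le_add_of_nonneg_left (by positivity)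
  have hV1 : ∀ o, 0 ≤ P.valR V g (P.q X k g Q Q' o) := fun o =>
    (sum_nonneg fun x _ => mul_nonneg (by positivity) ((hV _ _).1 _ _).1).trans (hV0 o)
  have hZ1 : ∀ o, |P.valR L g (P.q X k g Q Q' o) - P.valR V g (P.q X k g Q Q' o)| ≤
      α * (P.valR V g (P.q X k g Q Q' o) + 2 ^ (i - P.lo g) * P.U1) := fun o => by
    rw [hZ]
    refine le_trans ?_ (mul_le_mul_of_nonneg_left (add_le_add (hV0 o) (level_tiny hP hg)) hα)
    rw [← sum_add_distrib, mul_sum]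
    refine (abs_sum_le_sum_abs _ _).trans (sum_le_sum fun x _ => ?_)
    rw [abs_mul, abs_of_nonneg (by positivity), ← mul_add, mul_left_comm]
    exact mul_le_mul_of_nonneg_left (hLV _ (Nat.mod_lt _ P.b_pos) _ _ (P.slots_qd_le X k g hQ hQ' _ _) _
      (P.slots_qd_le X k g hQ hQ' _ _)) (by positivity)
  have hs := osc_sum hP g
  have hs0 : 0 ≤ P.b * ∑ x ∈ P.bandsK g, 2 ^ (x - P.lo g) * P.oscD g x :=
    mul_nonneg (Nat.cast_nonneg _) (sum_nonneg fun x _ => mul_nonneg (by positivity)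
      (P.oscD_nonneg g x))
  have hs1 := mul_le_mul_of_nonneg_right P.sig_le hτ.le
  have h4 := h3 (fun o => P.valR L g (P.q X k g Q Q' o) - P.valR V g (P.q X k g Q Q' o))
    (tauT (P.T g)) (fun o _ o' _ => by
      rw [hZ, hZ]
      refine (level_osc1 _ (fun _ => by positivity) (P.tv_osc hL X k g Q Q' o o')
        (P.tv_osc hV X k g Q Q' o o')).trans ?_
      rw [level_oscK]
      linarith) le_rfl
  simp only [add_add_sub_cancel, div_self hτ.ne', mul_one] at h4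
  have h5 : ∑ o ∈ range P.Om, ν o * (α * (P.valR V g (P.q X k g Q Q' o) +
      2 ^ (i - P.lo g) * P.U1)) ≤ α * (P.PsR X k (P.valR V) g Q Q' + 2 ^ (i - P.lo g) * P.U1) := by
    simp only [mul_left_comm (ν _) α, ← mul_sum, mul_add (ν _), sum_add_distrib, ← sum_mul, h1,
      one_mul]
    exact mul_le_mul_of_nonneg_left (add_le_add_left h2 _) hα
  have h6 := (wsum_abs (n := P.Om) h0 fun o _ => hZ1 o).trans h5
  have h7 := (sum_le_sum fun o (_ : o ∈ range P.Om) =>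
    mul_le_mul_of_nonneg_left (hZ1 o) (h0 o)).trans h5
  refine ⟨(sum_nonneg fun o _ => mul_nonneg (h0 o) (hV1 o)).trans h2, ?_⟩
  rw [PsR, PsR, sub_sub_sub_cancel_right]
  rw [PsR] at h6 h7
  exact abs_le.2 ⟨by linarith [(abs_le.1 h4).1, (abs_le.1 h6).1],
    by linarith [(abs_le.1 h4).2, (abs_le.1 h6).2]⟩

section lev

variable {σ : Type}

/-- Children and sub-passes chosen by the seed `u`. -/
def lvJ (P : Pm) (u : Fin P.N → (Fin P.lb → Bool) × σ) : ℕ → ℕ :=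
  P.exN 0 fun n => P.Jn n (P.jb (u n).1)

def lvR (P : Pm) (i : ℕ) (R : ℕ → ℕ → σ → Tab) (u : Fin P.N → (Fin P.lb → Bool) × σ) : ℕ → Tab :=
  P.exN (fun _ _ => 0) fun n => R (P.Jn n (P.jb (u n).1)) (P.bd i n) (u n).2

/-- The estimator. -/
noncomputable def lvY (P : Pm) (i : ℕ) (L : ℕ → ℕ → Tab) (R : ℕ → ℕ → σ → Tab)
    (u : Fin P.N → (Fin P.lb → Bool) × σ) (g : ℕ) (qq : ℕ → ℕ) : ℝ :=
  P.valR (fun c x => P.toR (L c x)) g qq + ∑ n ∈ range P.N,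
    P.wtR i g n * 2 ^ (P.bd i n - P.lo g) *
      ((P.lvR i R u n (P.r g * qq (P.lvJ u n)) (P.r g * qq (P.lvJ u n + 1)) : ℝ) -
        L (P.lvJ u n) (P.bd i n) (P.r g * qq (P.lvJ u n)) (P.r g * qq (P.lvJ u n + 1)))

theorem pass1_err (hP : P.Good) {X : Ctx} (hX : ∀ k j i p p', X k j i p p' ≤ P.U1) (k h i : ℕ)
    {L : ℕ → ℕ → Tab} {R : ℕ → ℕ → σ → Tab} (hL : ∀ c x p p', L c x p p' ≤ P.U1)
    (hR : ∀ c x s p p', R c x s p p' ≤ P.U1) (u : Fin P.N → (Fin P.lb → Bool) × σ) (p p' : ℕ) :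
    |(P.pass1 X k h i L (P.lvJ u) (P.lvR i R u) p p' : ℝ) -
      P.bandR i (P.VG X k h i (P.PsR X k (P.lvY i L R u)) p p')| ≤ 7 := by
  refine VN_err hP X k h i (fun g _ hg => PsN_err hP hX k g (fun qq => ?_) fun qq => ?_) p p'
  · have h1 := P.val_le hL g qq
    have h2 := P.smpS_le hg L (P.lvJ u) (Rr := P.lvR i R u) (fun n p p' => by
      unfold lvR exN
      split_ifs
      · exact hR _ _ _ _ _
      · exact Nat.zero_le _) qq
    omega
  · rw [Nat.cast_add, step_val_cast, P.smpS_cast i hL, lvY, add_assoc]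

variable [Fintype σ] [Nonempty σ]

/-- The sub-pass of slot `n` is accurate at the state with digits `d`, `d'`. -/
def lvOk (P : Pm) (X : Ctx) (k i g Q Q' : ℕ) (V : ℕ → ℕ → TabR) (R : ℕ → ℕ → σ → Tab) (γ : ℝ)
    (n d d' : ℕ) (s : (Fin P.lb → Bool) × σ) : Prop :=
  P.Near γ (R (P.Jn n (P.jb s.1)) (P.bd i n) s.2
      (P.r g * P.qd X k g Q Q' (P.Jn n (P.jb s.1)) d)
      (P.r g * P.qd X k g Q Q' (P.Jn n (P.jb s.1) + 1) d'))
    (V (P.Jn n (P.jb s.1)) (P.bd i n) (P.r g * P.qd X k g Q Q' (P.Jn n (P.jb s.1)) d)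
      (P.r g * P.qd X k g Q Q' (P.Jn n (P.jb s.1) + 1) d'))

theorem Psi_level (hP : P.Good) (X : Ctx) (k : ℕ) {i g Q Q' : ℕ} (hg : g < i + P.NG)
    (hQ : Q ≤ P.Qg g) (hQ' : Q' ≤ P.Qg g) {L : ℕ → ℕ → Tab} {V : ℕ → ℕ → TabR}
    {R : ℕ → ℕ → σ → Tab} {α β : ℝ} (hα : 0 < α) (hβ0 : 0 ≤ β) (hβ : β ≤ 1)
    (hL : ∀ c x, P.Tame x (P.toR (L c x))) (hV : ∀ c x, P.Tame x (V c x))
    (hR : ∀ c x s, P.Tame x (P.toR (R c x s)))
    (hLV : ∀ c < P.b, ∀ x, ∀ p ≤ P.Qm, ∀ p' ≤ P.Qm, P.Near α (L c x p p') (V c x p p')) :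
    pr (fun u : Fin P.N → (Fin P.lb → Bool) × σ =>
      (∀ n : Fin P.N, ∀ d < P.Bz, ∀ d' < P.Bz, P.lvOk X k i g Q Q' V R (β * α) n d d' (u n)) ∧
      α * (13 * P.sig + 2 * β) * (P.PsR X k (P.valR V) g Q Q' + 2 ^ (i - P.lo g) * P.U1) <
        |P.PsR X k (P.lvY i L R u) g Q Q' - P.PsR X k (P.valR V) g Q Q'|) ≤
      4 * Real.exp (-(2 ^ P.lm * P.sig ^ 2) / 32) := by
  have hU : (0 : ℝ) < P.U1 := by exact_mod_cast P.U1_pos
  have hJ : ∀ (n : ℕ) (v : Fin P.lb → Bool), P.Jn n (P.jb v) % P.b = P.Jn n (P.jb v) :=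
    fun n v => Nat.mod_eq_of_lt (P.Jn_lt n (P.jb_lt v))
  have hBz : 0 < P.Bz := by unfold Bz; positivity
  set Rs : Fin P.N → (Fin P.lb → Bool) × σ → ℕ → ℝ := fun n s o =>
    P.tv (fun c x => P.toR (R c x s.2)) X k g Q Q' (P.Jn n (P.jb s.1), P.bd i n) o with hRs
  have hFh : ∀ (u : Fin P.N → (Fin P.lb → Bool) × σ) o, P.lvY i L R u g (P.q X k g Q Q' o) =
      P.b * (P.U1 - P.U1 / P.mm : ℕ) + ∑ x ∈ range P.b ×ˢ P.bandsK g, 2 ^ (x.2 - P.lo g) *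
        P.tv (fun c x => P.toR (L c x)) X k g Q Q' x o + ∑ n : Fin P.N, P.wtR i g n *
          2 ^ (P.bd i n - P.lo g) * (Rs n (u n) o - P.tv (fun c x => P.toR (L c x)) X k g Q Q'
            (P.Jn n (P.jb (u n).1), P.bd i n) o) := fun u o => by
    rw [lvY, valR_eq, sum_range]
    simp only [lvJ, lvR, exN_fin, hRs, tv, hJ, toR]
  have key := (lev_abs (ι := Fin P.N) (σ := (Fin P.lb → Bool) × σ) (step_tau hP g) P.step_Om
    (fun o => (P.cum X k g (P.q X k g Q Q' o) : ℝ)) (fun _ => P.b * (P.U1 - P.U1 / P.mm : ℕ))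
    (K := range P.b ×ˢ P.bandsK g) (S := range P.b ×ˢ P.bandsS i g)
    (product_subset_product_right (filter_subset _ _)) (fun x => 2 ^ (x.2 - P.lo g))
    (P.tv V X k g Q Q') (P.tv (fun c x => P.toR (L c x)) X k g Q Q') (fun n => P.wtR i g n)
    (fun n s => (P.Jn n (P.jb s.1), P.bd i n)) Rs (U := P.U1) (τ0 := P.t0)
    (B := 2 ^ (i - P.lo g) * P.U1) (M := 2 ^ P.lm) (θ := P.sig) (by positivity) (by positivity)
    hα hβ0 hβ P.sig_le
    (one_div_le_one_div_of_le (by positivity) (pow_le_pow_right₀ one_le_two hP.sg_le))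
    P.t0_nonneg (div_le_self hU.le (one_le_pow₀ one_le_two)) (fun _ _ => by positivity)
    (fun _ => by positivity) (fun n => P.wtR_nonneg i g n) (fun x o _ => (hV _ _).1 _ _)
    (fun x o _ => hLV _ (Nat.mod_lt _ P.b_pos) _ _ (P.slots_qd_le X k g hQ hQ' _ _) _
      (P.slots_qd_le X k g hQ hQ' _ _))
    (fun f => by
      rw [sum_product_right, ← P.slot_sum hg fun c x => f (c, x), sum_range]
      refine sum_congr rfl fun n _ => congrArg _ ?_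
      rw [av_prod]
      simp only [av_const])
    (P.level_low i g) (level_tiny hP hg)
    (fun n => (em (P.lb ≤ n / P.b)).imp (fun h s s' => by simp only [Jn, if_pos h])
      fun h _ => P.level_small i g n h)
    (fun o => P.valR V g (P.q X k g Q Q' o)) (fun o _ => P.valR_eq V g _)
    (fun u o => P.lvY i L R u g (P.q X k g Q Q' o)) fun u o _ => hFh u o).2
  rw [mul_comm (P.sig ^ 2), ← neg_div] at key
  refine (pr_mono fun u hu => ⟨fun n _ o _ => ?_, fun o _ o' _ => ?_, ?_⟩).trans key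
  · have := hu.1 n _ (Nat.mod_lt (o / P.Bz ^ P.Jn n (P.jb (u n).1)) hBz) _
      (Nat.mod_lt (o / P.Bz ^ (P.Jn n (P.jb (u n).1) + 1)) hBz)
    simp only [hRs, tv, hJ]
    exact this
  · have e1 := level_osc1 (range P.b ×ˢ P.bandsK g) (a := fun x => 2 ^ (x.2 - P.lo g))
      (fun _ => by positivity) (P.tv_osc hL X k g Q Q' o o') (P.tv_osc hV X k g Q Q' o o')
    have e2 := level_osc1 (univ : Finset (Fin P.N))
      (a := fun n => P.wtR i g n * 2 ^ (P.bd i n - P.lo g)) (d := fun n => P.oscD g (P.bd i n))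
      (f := fun n => Rs n (u n) o) (f' := fun n => Rs n (u n) o')
      (fun n => mul_nonneg (P.wtR_nonneg i g n) (by positivity))
      (fun n => P.tv_osc (fun c x => hR c x (u n).2) X k g Q Q' o o' _)
      fun n => P.tv_osc hL X k g Q Q' o o' (P.Jn n (P.jb (u n).1), P.bd i n)
    have e3 := P.slot_sum' hg fun x => 2 ^ (x - P.lo g) * P.oscD g x
    have e4 : ∑ x ∈ P.bandsS i g, 2 ^ (x - P.lo g) * P.oscD g x ≤
        ∑ x ∈ P.bandsK g, 2 ^ (x - P.lo g) * P.oscD g x :=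
      sum_le_sum_of_subset_of_nonneg (filter_subset _ _) fun x _ _ =>
        mul_nonneg (by positivity) (P.oscD_nonneg g x)
    have e5 := mul_le_mul_of_nonneg_left e4 (Nat.cast_nonneg (α := ℝ) P.b)
    have e6 := osc_sum hP g
    rw [sum_range] at e3
    simp only [← mul_assoc] at e3
    rw [level_oscK] at e1
    rw [e3] at e2
    rw [hFh, hFh, valR_eq, valR_eq]
    simp only [mul_sub, sum_sub_distrib] at e1
    simp only [tv] at e1 ⊢
    simp only [tv] at e2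
    exact abs_le.2 ⟨by linarith [(abs_le.1 e1).1, (abs_le.1 e2).1],
      by linarith [(abs_le.1 e1).2, (abs_le.1 e2).2]⟩
  · have := hu.2
    rwa [PsR, PsR, sub_sub_sub_cancel_right] at this

theorem level_near (P : Pm) {i g p Q : ℕ} (hg : i ≤ g) (h : P.dR p (P.r g * Q) < 2 ^ (i + 1)) :
    ∃ d < 2 ^ (P.gp + P.rh + 3), Q = p / P.r g - 2 ^ (P.gp + P.rh + 1) + d := by
  have hr : 0 < P.r g := by unfold r; positivity
  have h1 : Nat.dist p (P.r g * Q) * P.J < 2 ^ (i + 1) := by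
    unfold dR at h
    exact_mod_cast h
  have h2 : 2 ^ (i + 1) ≤ P.r g * 2 ^ (P.gp + P.rh + 1) * P.J := by
    rw [r, J, ← pow_add, ← pow_add]
    exact Nat.pow_le_pow_right two_pos (by omega)
  have h3 := lt_of_mul_lt_mul_right (h1.trans_le h2) (Nat.zero_le _)
  have e : 2 ^ (P.gp + P.rh + 3) = 4 * 2 ^ (P.gp + P.rh + 1) := by ring
  have h0 : 0 < 2 ^ (P.gp + P.rh + 1) := by positivity
  rw [e]
  generalize 2 ^ (P.gp + P.rh + 1) = W at *
  have h4 : Q < p / P.r g + W + 1 := by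
    refine lt_of_mul_lt_mul_left (a := P.r g) ?_ (Nat.zero_le _)
    have := Nat.lt_mul_div_succ p hr
    rw [mul_add, mul_one] at this
    rw [mul_add, mul_add, mul_one]
    unfold Nat.dist at h3
    omega
  have h5 : p / P.r g < Q + W := by
    refine lt_of_mul_lt_mul_left (a := P.r g) ?_ (Nat.zero_le _)
    have := Nat.mul_div_le p (P.r g)
    rw [mul_add]
    unfold Nat.dist at h3
    omega
  exact ⟨Q - (p / P.r g - W), by omega, by omega⟩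

/-- The estimate of the option `(g, Q, Q')` is inaccurate. -/
def lvBad (P : Pm) (X : Ctx) (k i : ℕ) (L : ℕ → ℕ → Tab) (V : ℕ → ℕ → TabR) (R : ℕ → ℕ → σ → Tab)
    (η : ℝ) (g Q Q' : ℕ) (u : Fin P.N → (Fin P.lb → Bool) × σ) : Prop :=
  Q ≤ P.Qg g ∧ Q' ≤ P.Qg g ∧ η * (P.PsR X k (P.valR V) g Q Q' + 2 ^ (i - P.lo g) * P.U1) <
    |P.PsR X k (P.lvY i L R u) g Q Q' - P.PsR X k (P.valR V) g Q Q'|

theorem level_opt (hP : P.Good) (X : Ctx) (k i : ℕ)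
    {L : ℕ → ℕ → Tab} {V : ℕ → ℕ → TabR} {R : ℕ → ℕ → σ → Tab} {α β π : ℝ} (hα : 0 < α)
    (hβ0 : 0 ≤ β) (hβ1 : β ≤ 1)
    (hL : ∀ c x, P.Tame x (P.toR (L c x))) (hV : ∀ c x, P.Tame x (V c x))
    (hR : ∀ c x s, P.Tame x (P.toR (R c x s)))
    (hLV : ∀ c < P.b, ∀ x, ∀ p ≤ P.Qm, ∀ p' ≤ P.Qm, P.Near α (L c x p p') (V c x p p'))
    (hπ : ∀ c < P.b, ∀ x, ∀ p ≤ P.Qm, ∀ p' ≤ P.Qm,
      pr (fun s => ¬ P.Near (β * α) (R c x s p p') (V c x p p')) ≤ π) {g : ℕ} (hg : g < i + P.NG)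
    (Q Q' : ℕ) : pr (P.lvBad X k i L V R (α * (13 * P.sig + 2 * β)) g Q Q') ≤
      4 * Real.exp (-(2 ^ P.lm * P.sig ^ 2) / 32) + P.N * P.Bz ^ 2 * π := by
  have hπ0 : 0 ≤ π := (pr_nonneg _).trans (hπ 0 P.b_pos 0 0 (Nat.zero_le _) 0 (Nat.zero_le _))
  by_cases hQ : Q ≤ P.Qg g ∧ Q' ≤ P.Qg g
  swap
  · exact pr_empty (fun u hu => hQ ⟨hu.1, hu.2.1⟩) (by positivity)
  have a1 := Psi_level hP X k hg hQ.1 hQ.2 hα hβ0 hβ1 hL hV hR hLV
  have a0 : ∀ n d d', pr (fun s => ¬ P.lvOk X k i g Q Q' V R (β * α) n d d' s) ≤ π := by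
    intro n d d'
    refine pr_prod_le _ fun v => ?_
    simp only [lvOk]
    exact hπ _ (P.Jn_lt _ (P.jb_lt v)) _ _ (P.slots_qd_le X k g hQ.1 hQ.2 _ _) _
      (P.slots_qd_le X k g hQ.1 hQ.2 _ _)
  have a2 := pr_union ((univ : Finset (Fin P.N)) ×ˢ range P.Bz ×ˢ range P.Bz)
    (fun y (u : Fin P.N → (Fin P.lb → Bool) × σ) =>
      ¬ P.lvOk X k i g Q Q' V R (β * α) y.1 y.2.1 y.2.2 (u y.1)) (δ := π) fun y _ =>
    (pr_coord y.1 fun s => ¬ P.lvOk X k i g Q Q' V R (β * α) y.1 y.2.1 y.2.2 s).trans_le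
      (a0 _ _ _)
  rw [card_product, card_product, card_range, card_univ, Fintype.card_fin, ← sq, Nat.cast_mul,
    Nat.cast_pow] at a2
  refine (pr_mono fun u hu => ?_).trans ((pr_or _ _).trans (add_le_add a1 a2))
  by_contra hc
  rw [not_or] at hc
  refine hc.1 ⟨fun n d hd d' hd' => by_contra fun hn => hc.2 ⟨(n, d, d'), ?_, hn⟩, hu.2.2⟩
  simp only [mem_product, mem_univ, mem_range, true_and]
  exact ⟨hd, hd'⟩

theorem level_num {m s α β t v x y : ℝ} (hm : 16 ≤ m) (hs : 0 < s) (hα : 0 < α) (hβ : s ≤ β)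
    (ht : 0 ≤ t) (hv : 0 ≤ v) (h7 : 7 ≤ s * α * t) (h1 : |x - y| ≤ 7)
    (h2 : |y - v| ≤ 48 * m * (α * (13 * s + 2 * β)) * (v + t)) :
    |x - v| ≤ 2048 * m * β * α * (v + t) := by
  have a5 : 48 * m * (α * (13 * s + 2 * β)) * (v + t) + s * α * (v + t) ≤
      2048 * m * β * α * (v + t) := by
    rw [← add_mul]
    refine mul_le_mul_of_nonneg_right ?_ (by linarith)
    nlinarith [mul_le_mul_of_nonneg_left hβ (by positivity : 0 ≤ m * α),
      mul_le_mul_of_nonneg_left hm (by positivity : 0 ≤ s * α), mul_pos hs hα]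
  have a6 := mul_nonneg (mul_pos hs hα).le hv
  exact (abs_sub_le _ _ _).trans ((add_le_add h1 h2).trans (by linarith))

omit [Fintype σ] [Nonempty σ] in
theorem level_det (hP : P.Good) {X : Ctx} (hX : ∀ k j i p p', X k j i p p' ≤ P.U1) (k h i : ℕ)
    {L : ℕ → ℕ → Tab} {V : ℕ → ℕ → TabR} {R : ℕ → ℕ → σ → Tab} {α β : ℝ} (hα : 0 < α)
    (hα1 : α ≤ 1) (hβ0 : P.sig ≤ β) (hβ : β ≤ 1 / (128 * P.mm)) (h7 : 7 ≤ P.sig * α * P.t0)
    (hL : ∀ c x, P.Tame x (P.toR (L c x))) (hV : ∀ c x, P.Tame x (V c x))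
    (hR : ∀ c x s, P.Tame x (P.toR (R c x s)))
    (hLV : ∀ c < P.b, ∀ x, ∀ p ≤ P.Qm, ∀ p' ≤ P.Qm, P.Near α (L c x p p') (V c x p p'))
    (p p' : ℕ) (u : Fin P.N → (Fin P.lb → Bool) × σ)
    (hc : ∀ t < P.NG, ∀ d < 2 ^ (P.gp + P.rh + 3), ∀ d' < 2 ^ (P.gp + P.rh + 3),
      ¬ P.lvBad X k i L V R (α * (13 * P.sig + 2 * β)) (i + t)
        (p / P.r (i + t) - 2 ^ (P.gp + P.rh + 1) + d) (p' / P.r (i + t) - 2 ^ (P.gp + P.rh + 1) + d')
        u) :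
    P.Near (2048 * P.mm * β * α)
      (P.pass1 X k h i L (P.lvJ u) (P.lvR i R u) p p') (P.stepR X k h i V p p') := by
  have hm : (16 : ℝ) ≤ P.mm := by exact_mod_cast step_mm hP
  have hs := P.sig_pos
  have a1 := pass1_err hP hX k h i (L := L) (R := R)
    (fun c x p p' => Nat.cast_le.1 ((hL c x).1 p p').2)
    (fun c x s p p' => Nat.cast_le.1 ((hR c x s).1 p p').2) u p p'
  have hη : α * (13 * P.sig + 2 * β) ≤ 15 * β := by nlinarith
  have hη' : 15 * β ≤ 1 / (8 * P.mm) := by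
    rw [le_div_iff₀ (by positivity)] at hβ ⊢
    nlinarith
  have a2 := VG_stab hP X k h i (Ps := P.PsR X k (P.valR V)) (Ps' := P.PsR X k (P.lvY i L R u))
    (η := α * (13 * P.sig + 2 * β)) (mul_nonneg hα.le (by linarith))
    (hη.trans hη') p p' fun g Q Q' g1 g2 g3 g4 g5 g6 => by
    refine ⟨(Psi_stab hP X k g2 g3 g4 hα.le hL hV hLV).1, not_lt.1 fun hlt => ?_⟩
    obtain ⟨d, hd, e1⟩ := P.level_near g1 g5
    obtain ⟨d', hd', e2⟩ := P.level_near g1 g6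
    obtain ⟨t, rfl⟩ := Nat.exists_eq_add_of_le g1
    refine hc t (by omega) d hd d' hd' ?_
    rw [← e1, ← e2]
    exact ⟨g3, g4, hlt⟩
  exact level_num hm hs hα hβ0 P.t0_nonneg ((P.stepR_tame X k h i V).1 p p').1 h7 a1 a2

/-- One level of the estimation. -/
theorem level (hP : P.Good) {X : Ctx} (hX : ∀ k j i p p', X k j i p p' ≤ P.U1) (k h i : ℕ)
    {L : ℕ → ℕ → Tab} {V : ℕ → ℕ → TabR} {R : ℕ → ℕ → σ → Tab} {α β π : ℝ} (hα : 0 < α)
    (hα1 : α ≤ 1) (hβ0 : P.sig ≤ β) (hβ : β ≤ 1 / (128 * P.mm)) (h7 : 7 ≤ P.sig * α * P.t0)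
    (hL : ∀ c x, P.Tame x (P.toR (L c x))) (hV : ∀ c x, P.Tame x (V c x))
    (hR : ∀ c x s, P.Tame x (P.toR (R c x s)))
    (hLV : ∀ c < P.b, ∀ x, ∀ p ≤ P.Qm, ∀ p' ≤ P.Qm, P.Near α (L c x p p') (V c x p p'))
    (hπ : ∀ c < P.b, ∀ x, ∀ p ≤ P.Qm, ∀ p' ≤ P.Qm,
      pr (fun s => ¬ P.Near (β * α) (R c x s p p') (V c x p p')) ≤ π) (p p' : ℕ) :
    pr (fun u : Fin P.N → (Fin P.lb → Bool) × σ => ¬ P.Near (2048 * P.mm * β * α)
      (P.pass1 X k h i L (P.lvJ u) (P.lvR i R u) p p') (P.stepR X k h i V p p')) ≤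
      P.nOpt * (4 * Real.exp (-(2 ^ P.lm * P.sig ^ 2) / 32) + P.N * P.Bz ^ 2 * π) := by
  have hm : (16 : ℝ) ≤ P.mm := by exact_mod_cast step_mm hP
  have hβ1 : β ≤ 1 := hβ.trans ((div_le_one (by positivity)).2 (by linarith))
  have h2 := pr_union (range P.NG ×ˢ range (2 ^ (P.gp + P.rh + 3)) ×ˢ range (2 ^ (P.gp + P.rh + 3)))
    (fun y => P.lvBad X k i L V R (α * (13 * P.sig + 2 * β)) (i + y.1)
      (p / P.r (i + y.1) - 2 ^ (P.gp + P.rh + 1) + y.2.1)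
      (p' / P.r (i + y.1) - 2 ^ (P.gp + P.rh + 1) + y.2.2)) fun y hy =>
    level_opt hP X k i hα (P.sig_pos.le.trans hβ0) hβ1 hL hV hR hLV hπ
      (Nat.add_lt_add_left (mem_range.1 (mem_product.1 hy).1) _) _ _
  have e : P.NG * (2 ^ (P.gp + P.rh + 3) * 2 ^ (P.gp + P.rh + 3)) = P.nOpt := by
    rw [nOpt, ← mul_pow]
    norm_num
  rw [card_product, card_product, card_range, card_range, e] at h2
  refine (pr_mono fun u hu => by_contra fun hc => hu ?_).trans h2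
  refine level_det hP hX k h i hα hα1 hβ0 hβ h7 hL hV hR hLV p p' u fun t ht d hd d' hd' hb =>
    hc ⟨(t, d, d'), ?_, hb⟩
  simp only [mem_product, mem_range]
  exact ⟨ht, hd, hd'⟩

end lev

end Pm

end Vale.Agent.P315F
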