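import Vale.Agent.P315F.Prog
import Vale.Agent.P315F.ParT
import Vale.Agent.P315F.Final
import Vale.Agent.P315F.Tape
import Vale.Agent.P315.Main

/-! The main theorems. -/

namespace Vale.Agent.P315F

open Vale.Agent.P315 Finset

open Classical in
/-- The program is correct and fast for large `n`, for every procedure table that contains
`body` and every word bound `B ≥ n ^ w`. -/
theorem main_core : ∃ main body : Cmd, ∀ a : ℕ, ∃ w : ℕ, ∀ ξ : ℝ, 0 < ξ → ∀ ε : ℝ, 0 < ε →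
    ∃ n₀ : ℕ, 1 ≤ n₀ ∧ ∀ n ≥ n₀, ∀ x y : List ℕ, x.length ≤ n → y.length ≤ n →
      (∀ s ∈ x, s ≤ n ^ a) → (∀ s ∈ y, s ≤ n ^ a) → ∀ R : ℕ, (n : ℝ) ^ (1 + ξ) ≤ R →
      (∀ Pr B, Pr[1]? = some body → n ^ w ≤ B → ∀ r : Fin R → Bool, ∃ m T,
        Does Pr B main (input n x y r) m T ∧ ((T + 1 : ℕ) : ℝ) ≤ (n : ℝ) ^ (1 + ξ) ∧
          m 4 0 = answer n x y (ext r)) ∧
      (2 / 3 : ℝ) ≤ pr fun r : Fin R → Bool => ED x y ≤ answer n x y (ext r) ∧
        (answer n x y (ext r) : ℝ) ≤ (1 + ε) * ED x y := by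
  obtain ⟨main, body, κ, hprog⟩ := prog_ex
  refine ⟨main, body, fun a => ⟨(a + 7) * κ + 1, fun ξ hξ ε hε => ?_⟩⟩
  obtain ⟨n1, h1⟩ := par_ram
  obtain ⟨n2, h2⟩ := par_time hξ κ
  obtain ⟨n3, h3⟩ := par_math hξ hε
  refine ⟨n1 + n2 + n3 + κ + 30, by omega, fun n hn x y hx hy hxs hys R hR => ⟨?_, ?_⟩⟩
  · intro Pr B hP hB r
    obtain ⟨t1, t2⟩ := h2 n (by omega)
    have v1 : n ^ 7 ≤ n ^ (a + 7) := Nat.pow_le_pow_right (by omega) (by omega)
    have v2 : n ^ 5 ≤ n ^ (a + 7) := Nat.pow_le_pow_right (by omega) (by omega)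
    have v3 : n ^ a ≤ n ^ (a + 7) := Nat.pow_le_pow_right (by omega) (by omega)
    have v4 : n ≤ n ^ (a + 7) := Nat.le_self_pow (by omega) _
    have v5 := (par n 0).small_ge
    have hE : Env B (n ^ (a + 7)) (par n 0).small κ :=
      ⟨by omega, lt_of_lt_of_le (by
        rw [← pow_mul]; exact Nat.pow_lt_pow_right (by omega) (by omega)) hB,
        by omega, by omega, by omega⟩
    obtain ⟨m, T, d, hT, hm⟩ := hprog Pr ⟨n, x, y, R, r, n ^ (a + 7), (par n 0).small⟩ B hP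
      ⟨fun t _ => ((h3 n (by omega)).1 t).1, fun t ht => (h1 n (by omega) t ht).1.trans v1,
        fun t ht => (h1 n (by omega) t ht).2.1, fun t ht => (h1 n (by omega) t ht).2.2, le_rfl,
        hx, hy, by show 30 ≤ n; omega, v2⟩ hE
      (input_bd r v4 (le_trans one_le_two hE.h2) hx hy (fun s hs => (hxs s hs).trans v3)
        fun s hs => (hys s hs).trans v3)
    exact ⟨m, T, d, le_trans (Nat.cast_le.2 hT) t1, hm⟩
  · obtain ⟨g1, g2⟩ := h3 n (by omega)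
    have u1 := pr_union (σ := Fin R → Bool) (range (Nat.log 2 n + 2)) (fun kp r =>
      ¬(par n kp).Star (wt x y (par n kp).O) ((par n kp).A (wt x y (par n kp).O) (ext r)))
      (δ := 1 / 3 / ((Nat.log 2 n + 2 : ℕ) : ℝ)) fun kp hk => by
        have a1 := Pm.prob_star (g1 kp).1 (wt_ok x y (par n kp).O) (R := R)
          (by exact_mod_cast (g1 kp).2.2.2.trans hR)
        have a2 := g2 kp (mem_range.1 hk)
        rw [pr_not, le_div_iff₀' (by positivity)]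
        refine le_trans (mul_le_mul_of_nonneg_left ?_ (by positivity)) a2
        linarith
    rw [card_range, mul_div_cancel₀ _ (by positivity)] at u1
    have u2 := pr_not (σ := Fin R → Bool) fun r => ∃ kp ∈ range (Nat.log 2 n + 2),
      ¬(par n kp).Star (wt x y (par n kp).O) ((par n kp).A (wt x y (par n kp).O) (ext r))
    refine le_trans (by linarith) (u2.ge.trans (pr_mono fun r hr => ?_))
    obtain ⟨b1, b2⟩ := answer_ok (ρ := ext r) hx hy (fun kp _ => (g1 kp).1) (g1 0).2.1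
      fun kp hk => by
        by_contra hc
        exact hr ⟨kp, mem_range.2 hk, hc⟩
    exact ⟨b1, b2.trans (mul_le_mul_of_nonneg_right (by linarith [(g1 0).2.2.1])
      (Nat.cast_nonneg _))⟩

open Classical in
theorem main_count {R : ℕ} {p q : (Fin R → Bool) → Prop} (h : (2 / 3 : ℝ) ≤ pr p)
    (hpq : ∀ r, p r → q r) : (2 / 3 : ℝ) * 2 ^ R ≤ ((univ.filter q).card : ℝ) := by
  have h23 := h.trans (pr_mono hpq)
  unfold pr at h23
  rw [le_div_iff₀ (by positivity)] at h23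
  simp only [Fintype.card_fun, Fintype.card_bool, Fintype.card_fin, Nat.cast_pow,
    Nat.cast_ofNat] at h23
  convert h23

open Classical in
theorem main_unif : ∃ P : List Cmd, ∀ a : ℕ, ∃ w : ℕ, ∀ ξ : ℝ, 0 < ξ → ∀ ε : ℝ, 0 < ε →
    ∃ n₀ : ℕ, ∀ n ≥ n₀, ∀ x y : List ℕ, x.length ≤ n → y.length ≤ n →
      (∀ s ∈ x, s < n ^ a) → (∀ s ∈ y, s < n ^ a) → ∀ R : ℕ, (n : ℝ) ^ (1 + ξ) ≤ R →
        (∀ r : Fin R → Bool, ∃ m t, Exec P (n ^ w) (.call 0) (input n x y r) m t ∧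
          (t : ℝ) ≤ (n : ℝ) ^ (1 + ξ)) ∧
        (2 / 3 : ℝ) * 2 ^ R ≤ ((Finset.univ.filter fun r : Fin R → Bool =>
          ∀ m t, Exec P (n ^ w) (.call 0) (input n x y r) m t →
            ED x y ≤ m 4 0 ∧ (m 4 0 : ℝ) ≤ (1 + ε) * ED x y).card : ℝ) := by
  obtain ⟨main, body, H⟩ := main_core
  refine ⟨[main, body], fun a => ?_⟩
  obtain ⟨w, H⟩ := H a
  refine ⟨w, fun ξ hξ ε hε => ?_⟩
  obtain ⟨n₀, -, H⟩ := H ξ hξ ε hε
  refine ⟨n₀, fun n hn x y hx hy hxs hys R hR => ?_⟩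
  obtain ⟨h1, h2⟩ := H n hn x y hx hy (fun s hs => (hxs s hs).le) (fun s hs => (hys s hs).le) R hR
  have hrun : ∀ r : Fin R → Bool, ∃ m t, Exec [main, body] (n ^ w) (.call 0) (input n x y r) m t ∧
      (t : ℝ) ≤ (n : ℝ) ^ (1 + ξ) ∧ m 4 0 = answer n x y (ext r) := fun r => by
    obtain ⟨m, T, d, hT, hm⟩ := h1 [main, body] _ rfl le_rfl r
    obtain ⟨m', t, e, q, ht⟩ := Does.call (p := 0) rfl d _ (Eqv.refl _)
    exact ⟨m', t, e, le_trans (Nat.cast_le.2 ht) hT, (q 4 0 (by decide)).trans hm⟩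
  refine ⟨fun r => ?_, main_count h2 fun r hr m t hm => ?_⟩
  · obtain ⟨m, t, a1, a2, -⟩ := hrun r
    exact ⟨m, t, a1, a2⟩
  · obtain ⟨m', t', a1, -, a3⟩ := hrun r
    obtain rfl := Exec.det hm a1
    rw [a3]
    exact hr

theorem input_set (n n' : ℕ) (x y : List ℕ) {R : ℕ} (r : Fin R → Bool) :
    (input n x y r).set 0 0 n' = input n' x y r := by
  funext a i
  rw [Mem.set_apply]
  split_ifs with h
  · rw [h.1, h.2]
    rfl
  · unfold input
    split_ifs with h0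
    · obtain ⟨i, rfl⟩ : ∃ i', i = i' + 1 := ⟨i - 1, by omega⟩
      rfl
    all_goals rfl

open Classical in
theorem main_all (ε : ℝ) (hε : 0 < ε) (ξ : ℝ) (hξ : 0 < ξ) (a : ℕ) :
    ∃ (P : List Cmd) (C w : ℕ), ∀ (n : ℕ) (x y : List ℕ), x.length ≤ n → y.length ≤ n →
      (∀ s ∈ x, s ≤ n ^ a) → (∀ s ∈ y, s ≤ n ^ a) →
      ∀ R : ℕ, C * ((n : ℝ) + 1) ^ (1 + ξ) ≤ R →
        (∀ r : Fin R → Bool, ∃ m t, Exec P ((n + C) ^ w) (.call 0) (input n x y r) m t ∧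
          (t : ℝ) ≤ C * ((n : ℝ) + 1) ^ (1 + ξ)) ∧
        (2 / 3 : ℝ) * 2 ^ R ≤ ((Finset.univ.filter fun r : Fin R → Bool =>
          ∀ m t, Exec P ((n + C) ^ w) (.call 0) (input n x y r) m t →
            ED x y ≤ m 4 0 ∧ (m 4 0 : ℝ) ≤ (1 + ε) * ED x y).card : ℝ) := by
  obtain ⟨main, body, H⟩ := main_core
  obtain ⟨w, H⟩ := H a
  obtain ⟨n₀, h0, H⟩ := H ξ hξ ε hε
  obtain ⟨C, hC⟩ : ∃ C, C = ⌈(n₀ : ℝ) ^ (1 + ξ)⌉₊ + n₀ + 10 := ⟨_, rfl⟩
  refine ⟨[.seq (.store 0 (.const 0) (.add (.const n₀) (.sub (.rd 0 (.const 0)) (.const n₀))))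
    main, body], C, w + 1, fun n x y hx hy hxs hys R hR => ?_⟩
  generalize hPr : [Cmd.seq (.store 0 (.const 0) (.add (.const n₀) (.sub (.rd 0 (.const 0))
    (.const n₀)))) main, body] = Pr
  have hP0 : Pr[0]? = some (Cmd.seq (.store 0 (.const 0) (.add (.const n₀)
    (.sub (.rd 0 (.const 0)) (.const n₀)))) main) := by rw [← hPr]; rfl
  have hP1 : Pr[1]? = some body := by rw [← hPr]; rfl
  obtain ⟨N, hN⟩ : ∃ N, N = n₀ + (n - n₀) := ⟨_, rfl⟩
  have p1 : (1 : ℝ) ≤ ((n : ℝ) + 1) ^ (1 + ξ) :=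
    Real.one_le_rpow (by linarith [Nat.cast_nonneg (α := ℝ) n]) (by linarith)
  have p2 : (N : ℝ) ^ (1 + ξ) + 10 ≤ C * ((n : ℝ) + 1) ^ (1 + ξ) := by
    have a1 : N ≤ n₀ * (n + 1) := by
      have := Nat.le_mul_of_pos_left n h0
      rw [mul_add]
      omega
    have a2 : (N : ℝ) ^ (1 + ξ) ≤ (n₀ : ℝ) ^ (1 + ξ) * ((n : ℝ) + 1) ^ (1 + ξ) := by
      rw [← Real.mul_rpow (by positivity) (by positivity)]
      exact Real.rpow_le_rpow (by positivity) (by exact_mod_cast a1) (by linarith)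
    have a3 : (n₀ : ℝ) ^ (1 + ξ) + 10 ≤ C := by
      have := Nat.le_ceil ((n₀ : ℝ) ^ (1 + ξ))
      have h' : (0 : ℝ) ≤ n₀ := Nat.cast_nonneg _
      rw [hC]
      push_cast
      linarith
    have a4 := mul_le_mul_of_nonneg_right a3 (zero_le_one.trans p1)
    nlinarith
  have hpw : n ^ a ≤ N ^ a := Nat.pow_le_pow_left (by omega) _
  obtain ⟨h1, h2⟩ := H N (by omega) x y (by omega) (by omega) (fun s hs => (hxs s hs).trans hpw)
    (fun s hs => (hys s hs).trans hpw) R (by linarith)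
  have hB1 : n + C ≤ (n + C) ^ (w + 1) := Nat.le_self_pow (by omega) _
  have hB2 : N ^ w ≤ (n + C) ^ (w + 1) := (Nat.pow_le_pow_left (by omega) _).trans
    (Nat.pow_le_pow_right (by omega) (by omega))
  have hrun : ∀ r : Fin R → Bool, ∃ m t, Exec Pr ((n + C) ^ (w + 1)) (.call 0) (input n x y r) m t ∧
      (t : ℝ) ≤ C * ((n : ℝ) + 1) ^ (1 + ξ) ∧ m 4 0 = answer N x y (ext r) := fun r => by
    obtain ⟨m, T, d, hT, hm⟩ := h1 Pr _ hP1 hB2 r
    obtain ⟨m', t, e, q, ht⟩ := d _ (Eqv.refl _)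
    have i0 : input n x y r 0 0 = n := rfl
    have e0 : Exec Pr ((n + C) ^ (w + 1)) (.store 0 (.const 0) (.add (.const n₀)
        (.sub (.rd 0 (.const 0)) (.const n₀)))) (input n x y r) ((input n x y r).set 0 0 N) _ :=
      fill_store (by simp only [Expr.Fits]; omega)
        (by simp only [Expr.Fits, Expr.eval, i0]; omega) rfl (by simp only [Expr.eval, i0, hN])
    rw [input_set] at e0
    refine ⟨m', _, Exec.call hP0 (Exec.seq e0 e), ?_, (q 4 0 (by decide)).trans hm⟩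
    have ht' : (t : ℝ) ≤ T := Nat.cast_le.2 ht
    simp only [Expr.cost]
    push_cast at hT ⊢
    linarith
  refine ⟨fun r => ?_, main_count h2 fun r hr m t hm => ?_⟩
  · obtain ⟨m, t, a1, a2, -⟩ := hrun r
    exact ⟨m, t, a1, a2⟩
  · obtain ⟨m', t', a1, -, a3⟩ := hrun r
    obtain rfl := Exec.det hm a1
    rw [a3]
    exact hr

end Vale.Agent.P315F
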