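import Vale.Agent.P315F.Defs

/-! Capped closures and min-plus products. -/

namespace Vale.Agent.P315F

open Finset Vale.Agent.P315

def LipN (ug : ℕ) (t : Tab) : Prop :=
  ∀ Q Q' M M', t Q Q' ≤ t M M' + (Nat.dist Q M + Nat.dist Q' M') * ug

variable {Qg ug Cn : ℕ} {z : Tab} {ν0 : ℕ → Tab}

theorem nu_le {α : Type} {s : Finset α} {c : ℕ} (f : α → ℕ) {x : α} (hx : x ∈ s) :
    s.fold min c f ≤ f x := (fold_min_le _).2 (Or.inr ⟨x, hx, le_rfl⟩)

theorem nu_init {α : Type} (s : Finset α) (c : ℕ) (f : α → ℕ) : s.fold min c f ≤ c :=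
  (fold_min_le _).2 (Or.inl le_rfl)

theorem nu_att {α : Type} (s : Finset α) (c : ℕ) (f : α → ℕ) :
    c ≤ s.fold min c f ∨ ∃ x ∈ s, f x ≤ s.fold min c f := (fold_min_le _).1 le_rfl

theorem nu_mono {α : Type} {s : Finset α} {c e : ℕ} {f g : α → ℕ} (h : ∀ x ∈ s, f x ≤ g x + e) :
    s.fold min c f ≤ s.fold min c g + e := by
  rcases nu_att s c g with h1 | ⟨x, hx, h1⟩
  · exact (nu_init s c f).trans (h1.trans (Nat.le_add_right _ _))
  · exact (nu_le f hx).trans ((h x hx).trans (Nat.add_le_add_right h1 _))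

theorem nu_tri (ug a b c : ℕ) : Nat.dist a c * ug ≤ Nat.dist a b * ug + Nat.dist b c * ug := by
  rw [← add_mul]
  exact Nat.mul_le_mul_right _ (Nat.dist.triangle_inequality a b c)

theorem nu_dist (ug : ℕ) : LipN ug fun Q Q' => Nat.dist Q Q' * ug := by
  intro Q Q' M M'
  have h1 := nu_tri ug Q M Q'
  have h2 := nu_tri ug M M' Q'
  rw [Nat.dist_comm M' Q'] at h2
  simp only [add_mul]
  omega

theorem amin_lt {n : ℕ} (hn : 0 < n) (f : ℕ → ℕ) : amin n f < n := by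
  exact Nat.mod_lt _ hn

theorem amin_le {n : ℕ} (f : ℕ → ℕ) {d : ℕ} (hd : d < n) : f (amin n f) ≤ f d := by
  have hn : 0 < n := by omega
  obtain ⟨x, hx, e⟩ : ∃ x < n,
      (range n).fold min (f 0 * n) (fun d => f d * n + d) = f x * n + x := by
    rcases nu_att (range n) (f 0 * n) (fun d => f d * n + d) with h | ⟨x, hx, h⟩
    · exact ⟨0, hn, le_antisymm (nu_init _ _ _) h⟩
    · exact ⟨x, mem_range.1 hx, le_antisymm (nu_le _ hx) h⟩
  have h1 := nu_le (c := f 0 * n) (fun d => f d * n + d) (mem_range.2 hd)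
  unfold amin
  rw [e] at h1 ⊢
  rw [Nat.mul_add_mod_of_lt hx]
  by_contra h2
  have h3 := Nat.mul_le_mul_right n (Nat.succ_le_of_lt (not_le.1 h2))
  rw [Nat.succ_mul] at h3
  omega

theorem cand_mem (Q Q' d : ℕ) : min Q Q' ≤ cand Q Q' d ∧ cand Q Q' d ≤ max Q Q' := by
  unfold cand Nat.dist
  omega

theorem cand_surj {Q Q' M : ℕ} (h1 : min Q Q' ≤ M) (h2 : M ≤ max Q Q') :
    ∃ d ≤ Nat.dist Q Q', cand Q Q' d = M := by
  refine ⟨M - min Q Q', ?_, ?_⟩
  · unfold Nat.dist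
    omega
  · unfold cand Nat.dist
    omega

theorem pred_mem (ν : ℕ → ℕ → Tab) (Rn ug b Q Q' j : ℕ) :
    min Q Q' ≤ pred ν Rn ug b Q Q' j ∧ pred ν Rn ug b Q Q' j ≤ max Q Q' := by
  exact cand_mem _ _ _

theorem nuC_lip : LipN ug (nuC Qg ug Cn z) := by
  intro Q Q' M M'
  refine max_le ((nu_dist ug Q Q' M M').trans (Nat.add_le_add_right (le_max_left _ _) _))
    ((nu_mono fun x _ => ?_).trans (Nat.add_le_add_right (le_max_right _ _) _))
  have h1 := nu_tri ug Q M x.1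
  have h2 := nu_tri ug Q' M' x.2
  simp only [add_mul]
  omega

theorem nuC_ge (Q Q' : ℕ) : Nat.dist Q Q' * ug ≤ nuC Qg ug Cn z Q Q' := by
  exact le_max_left _ _

theorem nuC_le {Q Q' : ℕ} (hQ : Q ≤ Qg) (hQ' : Q' ≤ Qg) :
    nuC Qg ug Cn z Q Q' ≤ max (Nat.dist Q Q' * ug) (z Q Q') := by
  refine max_le_max le_rfl ((nu_le _ (x := (Q, Q')) (mem_product.2
    ⟨mem_range.2 (Nat.lt_succ_of_le hQ), mem_range.2 (Nat.lt_succ_of_le hQ')⟩)).trans ?_)
  simp

theorem nuC_att {Q Q' : ℕ} (h : nuC Qg ug Cn z Q Q' < Cn) : ∃ M ≤ Qg, ∃ M' ≤ Qg,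
    (Nat.dist Q M + Nat.dist Q' M') * ug + z M M' ≤ nuC Qg ug Cn z Q Q' := by
  rcases nu_att (range (Qg + 1) ×ˢ range (Qg + 1)) Cn
    (fun M => (Nat.dist Q M.1 + Nat.dist Q' M.2) * ug + z M.1 M.2) with h1 | ⟨x, hx, h1⟩
  · exact absurd (h1.trans (le_max_right _ _)) (not_le.2 h)
  · obtain ⟨h2, h3⟩ := mem_product.1 hx
    exact ⟨x.1, Nat.le_of_lt_succ (mem_range.1 h2), x.2, Nat.le_of_lt_succ (mem_range.1 h3),
      h1.trans (le_max_right _ _)⟩

theorem nuF_ge (j n Q Q' : ℕ) : Nat.dist Q Q' * ug ≤ nuF Qg ug Cn ν0 j n Q Q' := by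
  cases n
  · exact le_rfl
  · exact le_max_left _ _

theorem nuF_lip (h0 : ∀ j, LipN ug (ν0 j)) (j n : ℕ) : LipN ug (nuF Qg ug Cn ν0 j n) := by
  induction n with
  | zero => exact nu_dist ug
  | succ n ih =>
    intro Q Q' M M'
    refine max_le ((nu_dist ug Q Q' M M').trans (Nat.add_le_add_right (le_max_left _ _) _))
      ((nu_mono fun x _ => ?_).trans (Nat.add_le_add_right (le_max_right _ _) _))
    have h1 := ih Q x M x
    have h2 := h0 (j + n) x Q' x M'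
    simp only [add_mul, Nat.dist_self, zero_mul] at h1 h2 ⊢
    omega

theorem nuF_sub (h0 : ∀ j, LipN ug (ν0 j)) (h1 : ∀ j Q Q', Nat.dist Q Q' * ug ≤ ν0 j Q Q')
    (j n n' Q M Q' : ℕ) : nuF Qg ug Cn ν0 j (n + n') Q Q' ≤
      nuF Qg ug Cn ν0 j n Q M + nuF Qg ug Cn ν0 (j + n) n' M Q' := by
  have _ := h1
  induction n' generalizing Q' with
  | zero =>
    have h2 := nuF_lip (Qg := Qg) (Cn := Cn) h0 j n Q Q' Q M
    rwa [Nat.dist_self, zero_add, Nat.dist_comm] at h2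
  | succ n' ih =>
    refine max_le ((nu_tri ug Q M Q').trans (Nat.add_le_add (nuF_ge _ _ _ _) (nuF_ge _ _ _ _))) ?_
    rw [add_comm (nuF Qg ug Cn ν0 j n Q M)]
    refine (nu_mono fun x _ => ?_).trans (Nat.add_le_add_right (le_max_right _ _) _)
    have h2 := ih x
    rw [add_assoc j]
    change nuF Qg ug Cn ν0 j (n + n') Q x + ν0 (j + (n + n')) x Q' ≤ _
    omega

theorem nuF_chain (h1 : ∀ j Q Q', Nat.dist Q Q' * ug ≤ ν0 j Q Q') (j n : ℕ) (ω : ℕ → ℕ)
    (hω : ∀ c, ω c ≤ Qg) : nuF Qg ug Cn ν0 j n (ω j) (ω (j + n)) ≤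
      ∑ c ∈ range n, ν0 (j + c) (ω (j + c)) (ω (j + c + 1)) := by
  induction n with
  | zero => simp [nuF]
  | succ n ih =>
    rw [sum_range_succ]
    refine max_le ((nu_tri ug _ (ω (j + n)) _).trans
      (Nat.add_le_add ((nuF_ge _ _ _ _).trans ih) (h1 _ _ _))) ?_
    exact (nu_le _ (mem_range.2 (Nat.lt_succ_of_le (hω (j + n))))).trans
      (Nat.add_le_add_right ih _)

/-- Below the cap the min-plus product is attained by a path. -/
theorem nuF_att (h0 : ∀ j, LipN ug (ν0 j)) {n Q Q' : ℕ} (hn : 1 ≤ n) (hQ : Q ≤ Qg)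
    (hQ' : Q' ≤ Qg) (h : nuF Qg ug Cn ν0 0 n Q Q' < Cn) :
    ∃ ω : ℕ → ℕ, ω 0 = Q ∧ ω n = Q' ∧ (∀ c, ω c ≤ Qg) ∧
      ∑ c ∈ range n, ν0 c (ω c) (ω (c + 1)) ≤ nuF Qg ug Cn ν0 0 n Q Q' := by
  induction n, hn using Nat.le_induction generalizing Q' with
  | base =>
    rcases nu_att (range (Qg + 1)) Cn
      (fun M => nuF Qg ug Cn ν0 0 0 Q M + ν0 (0 + 0) M Q') with h1 | ⟨x, -, h1⟩
    · exact absurd (h1.trans (le_max_right _ _)) (not_le.2 h)
    · refine ⟨fun c => if c = 0 then Q else Q', rfl, rfl,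
        fun c => by dsimp only; split_ifs <;> assumption, le_trans ?_ (h1.trans (le_max_right _ _))⟩
      have h2 := h0 0 Q Q' x Q'
      rw [Nat.dist_self, add_zero, add_comm] at h2
      simpa [nuF] using h2
  | succ n hn ih =>
    rcases nu_att (range (Qg + 1)) Cn
      (fun M => nuF Qg ug Cn ν0 0 n Q M + ν0 (0 + n) M Q') with h1 | ⟨x, hx, h1⟩
    · exact absurd (h1.trans (le_max_right _ _)) (not_le.2 h)
    · have h2 : nuF Qg ug Cn ν0 0 n Q x + ν0 (0 + n) x Q' ≤ nuF Qg ug Cn ν0 0 (n + 1) Q Q' :=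
        h1.trans (le_max_right _ _)
      obtain ⟨ω, e0, e1, e2, e3⟩ := ih (Nat.le_of_lt_succ (mem_range.1 hx)) (by omega)
      refine ⟨fun c => if c ≤ n then ω c else Q', by simpa using e0, by simp, fun c => ?_, ?_⟩
      · dsimp only
        split_ifs
        · exact e2 c
        · exact hQ'
      · dsimp only
        rw [sum_range_succ, sum_congr rfl (g := fun c => ν0 c (ω c) (ω (c + 1))) fun c hc => by
          rw [if_pos (mem_range.1 hc).le, if_pos (Nat.succ_le_of_lt (mem_range.1 hc))],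
          if_pos le_rfl, if_neg (Nat.not_succ_le_self n), e1]
        rw [zero_add] at h2
        omega

/-- In stage 0 the product is the distance. -/
theorem nuF_zero (n : ℕ) {Q Q' : ℕ} (hQ : Q ≤ Qg) (hQ' : Q' ≤ Qg) :
    nuF Qg ug Cn (fun _ => nuC Qg ug Cn (fun _ _ => 0)) 0 n Q Q' = Nat.dist Q Q' * ug := by
  refine le_antisymm ?_ (nuF_ge _ _ _ _)
  induction n with
  | zero => exact le_rfl
  | succ n ih =>
    refine max_le le_rfl ((nu_le _ (mem_range.2 (Nat.lt_succ_of_le hQ'))).trans ?_)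
    have h1 := nuC_le (ug := ug) (Cn := Cn) (z := fun _ _ => 0) hQ' hQ'
    simp only [Nat.dist_self, zero_mul, max_self] at h1
    exact Nat.add_le_add ih h1

end Vale.Agent.P315F
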