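import Vale.Agent.P315F.Defs

/-! Arithmetic of the parameters `par n kp`. -/

namespace Vale.Agent.P315F

open Filter

def pL (n : ℕ) : ℕ := Nat.log 2 n
def pl (n : ℕ) : ℕ := Nat.log 2 (pL n)
def pm (n : ℕ) : ℕ := Nat.log 2 (pl n)
def pz (n : ℕ) : ℕ := pm n / 10
def pt (n : ℕ) : ℕ := 2 ^ pz n

/-- The arithmetic facts, for `L = log n`, `l = log L`, `m = log l`, `z = m / 10`, `t = 2^z`. -/
structure PF (n L l m z t : ℕ) (P : Pm) : Prop where
  z6 : 6 ≤ z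
  ht : t = 2 ^ z
  n1 : 2 ^ L ≤ n
  n2 : n < 2 ^ (L + 1)
  L1 : 2 ^ l ≤ L
  L2 : L < 2 ^ (l + 1)
  l1 : 2 ^ m ≤ l
  l2 : l < 2 ^ (m + 1)
  m1 : 10 * z ≤ m
  m2 : m ≤ 10 * z + 9
  lb : P.lb = l / t
  lm : P.lm = l / 2 ^ (2 * z)
  ell : P.ell = 2 ^ (4 * z)
  k0 : P.k0 = 5 * l / (P.lm / 8) + 1
  K : P.K = 2 ^ (l - 14 * z)
  S : P.S = 64 * L * (2 ^ (28 * l)) ^ 2
  D : P.D = (L + 1) / P.lb + 1
  fp : P.fp = 28 * l
  gp : P.gp = 13 * l
  rh : P.rh = 3 * l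
  ga : P.ga = 4 * l
  sh : P.sh = 2 * l + P.D * P.lb + z + 3
  ie : P.ie = 6 * l
  mh : P.mh = m + 7
  s0 : P.s0 = P.lb + P.lm / 4 + P.mh + 4
  wz : P.wz = (3 * l + 2) * 2 ^ P.lb + 2 * (31 * l + P.lb + P.s0) + 1
  eh : P.eh = z
  dh : P.dh = 2 * l
  th : P.th = 20 * l
  sg : P.sg = P.lm / 4
  ch : P.ch = P.lm / 8
  ne : P.ne = 4 * l
  nm : P.nm = 6 * l
  cs : P.cs = 2 * l
  an : P.an = 3 * P.lb + 8
  r1 : P.r1 = l
  tt : P.tt = l / 2

theorem tendsto_log : Tendsto (Nat.log 2) atTop atTop :=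
  tendsto_atTop_atTop.2 fun b => ⟨2 ^ b, fun _ h => Nat.le_log_of_pow_le one_lt_two h⟩

theorem tendsto_pL : Tendsto pL atTop atTop := tendsto_log
theorem tendsto_pl : Tendsto pl atTop atTop := tendsto_log.comp tendsto_pL
theorem tendsto_pm : Tendsto pm atTop atTop := tendsto_log.comp tendsto_pl

theorem tendsto_pz : Tendsto pz atTop atTop :=
  (tendsto_atTop_atTop.2 fun b => ⟨10 * b, fun a h => by omega⟩ :
    Tendsto (fun m : ℕ => m / 10) atTop atTop).comp tendsto_pm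

theorem tendsto_pt : Tendsto pt atTop atTop :=
  tendsto_atTop_mono (fun _ => Nat.lt_two_pow_self.le) tendsto_pz

theorem pf_of {n : ℕ} (hz : 6 ≤ pz n) (kp : ℕ) :
    PF n (pL n) (pl n) (pm n) (pz n) (pt n) (par n kp) := by
  have h1 : pm n ≠ 0 := by unfold pz at hz; omega
  have h2 : pl n ≠ 0 := fun h => h1 (by unfold pm; rw [h]; rfl)
  have h3 : pL n ≠ 0 := fun h => h2 (by unfold pl; rw [h]; rfl)
  have h4 : n ≠ 0 := fun h => h3 (by unfold pL; rw [h]; rfl)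
  exact ⟨hz, rfl, Nat.pow_log_le_self 2 h4, Nat.lt_pow_succ_log_self one_lt_two _,
    Nat.pow_log_le_self 2 h3, Nat.lt_pow_succ_log_self one_lt_two _,
    Nat.pow_log_le_self 2 h2, Nat.lt_pow_succ_log_self one_lt_two _,
    by unfold pz; omega, by unfold pz; omega, rfl, rfl, rfl, rfl, rfl, rfl, rfl, rfl, rfl, rfl, rfl,
    rfl, rfl, rfl, rfl, rfl, rfl, rfl, rfl, rfl, rfl, rfl, rfl, rfl, rfl, rfl, rfl⟩

theorem ev_pf : ∀ᶠ n in atTop, ∀ kp, PF n (pL n) (pl n) (pm n) (pz n) (pt n) (par n kp) :=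
  (tendsto_pz.eventually_ge_atTop 6).mono fun _ h => pf_of h

theorem lin_le_pow {z : ℕ} (hz : 6 ≤ z) : 8 * z + 16 ≤ 2 ^ z := by
  induction z, hz using Nat.le_induction with
  | base => norm_num
  | succ k _ ih => rw [pow_succ]; omega

namespace PF

variable {n L l m z t : ℕ} {P : Pm}

theorem t64 (h : PF n L l m z t P) : 64 ≤ t :=
  h.ht ▸ (Nat.pow_le_pow_right two_pos h.z6 : 2 ^ 6 ≤ 2 ^ z)

theorem zt (h : PF n L l m z t P) : 8 * z + 16 ≤ t := h.ht ▸ lin_le_pow h.z6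

theorem t10 (h : PF n L l m z t P) : t ^ 10 ≤ l := by
  rw [h.ht, ← pow_mul]
  exact (Nat.pow_le_pow_right two_pos (by have := h.m1; omega)).trans h.l1

theorem t10' (h : PF n L l m z t P) : l < 1024 * t ^ 10 := by
  rw [h.ht, ← pow_mul, show 1024 = 2 ^ 10 from rfl, ← pow_add]
  exact h.l2.trans_le (Nat.pow_le_pow_right two_pos (by have := h.m2; omega))

theorem lm' (h : PF n L l m z t P) : P.lm = P.lb / t := by
  rw [h.lm, h.lb, Nat.div_div_eq_div_mul, h.ht, ← pow_add, two_mul]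

theorem ell' (h : PF n L l m z t P) : P.ell = t ^ 4 := by rw [h.ell, h.ht, ← pow_mul, mul_comm]

theorem lbt (h : PF n L l m z t P) : P.lb * t ≤ l := h.lb ▸ Nat.div_mul_le_self _ _

theorem lbt' (h : PF n L l m z t P) : l < P.lb * t + t :=
  h.lb ▸ Nat.lt_div_mul_add (by have := h.t64; omega)

theorem lmt (h : PF n L l m z t P) : P.lm * t ≤ P.lb := h.lm' ▸ Nat.div_mul_le_self _ _

theorem lmt' (h : PF n L l m z t P) : P.lb < P.lm * t + t :=
  h.lm' ▸ Nat.lt_div_mul_add (by have := h.t64; omega)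

theorem lb64 (h : PF n L l m z t P) : 64 * P.lb ≤ l := by
  have := Nat.mul_le_mul_left P.lb h.t64
  have := h.lbt
  omega

theorem lm64 (h : PF n L l m z t P) : 64 * P.lm ≤ P.lb := by
  have := Nat.mul_le_mul_left P.lm h.t64
  have := h.lmt
  omega

theorem lm8 (h : PF n L l m z t P) : t ^ 8 ≤ P.lm := by
  have h0 : 0 < t := by have := h.t64; omega
  rw [h.lm', h.lb, Nat.le_div_iff_mul_le h0, Nat.le_div_iff_mul_le h0, ← pow_succ, ← pow_succ]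
  exact h.t10

theorem t4 (h : PF n L l m z t P) : 64 * (64 * (64 * t)) ≤ t ^ 4 := by
  have := h.t64
  calc 64 * (64 * (64 * t)) ≤ t * (t * (t * t)) := by gcongr
    _ = _ := by ring

theorem t8 (h : PF n L l m z t P) : 64 * (64 * t) * t ^ 4 ≤ P.lm := by
  refine le_trans ?_ h.lm8
  have := h.t4
  rw [show t ^ 8 = t ^ 4 * t ^ 4 by ring]
  exact Nat.mul_le_mul_right _ (by omega)

theorem lmz (h : PF n L l m z t P) : 4096 * t ≤ P.lm := by
  have h1 := h.t8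
  have h2 := h.t4
  have h3 := h.t64
  have : 64 * (64 * t) * 1 ≤ 64 * (64 * t) * t ^ 4 := Nat.mul_le_mul_left _ (by omega)
  omega

theorem lL (h : PF n L l m z t P) : l < L := Nat.lt_two_pow_self.trans_le h.L1

theorem Ln (h : PF n L l m z t P) : L < n := Nat.lt_two_pow_self.trans_le h.n1

theorem Dlb (h : PF n L l m z t P) : L + 2 ≤ P.D * P.lb ∧ P.D * P.lb ≤ L + 1 + P.lb := by
  have h0 : 0 < P.lb := by have := h.lm64; have := h.lmz; have := h.t64; omega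
  have h1 := Nat.div_mul_le_self (L + 1) P.lb
  have h2 := Nat.lt_div_mul_add (a := L + 1) h0
  rw [h.D, add_mul, one_mul]
  omega

theorem D_le (h : PF n L l m z t P) : P.D + 2 ≤ 2 ^ l := by
  have h0 : 64 ≤ P.lb := by have := h.lm64; have := h.lmz; have := h.t64; omega
  have h1 := h.Dlb.2
  have h2 := Nat.mul_le_mul_left P.D h0
  have h3 := h.L2
  have h4 := h.lb64
  have h5 : l < 2 ^ l := Nat.lt_two_pow_self
  rw [pow_succ] at h3
  omega

theorem chk0 (h : PF n L l m z t P) : 5 * l < P.ch * P.k0 ∧ P.ch * P.k0 ≤ 5 * l + P.ch := by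
  have h0 : 0 < P.lm / 8 := by have := h.lmz; have := h.t64; omega
  have h1 := Nat.div_mul_le_self (5 * l) (P.lm / 8)
  have h2 := Nat.lt_div_mul_add (a := 5 * l) h0
  rw [h.k0, h.ch, mul_add, mul_one, mul_comm (P.lm / 8)]
  omega

theorem nbm (h : PF n L l m z t P) : P.nbm = 16 * l + P.lb + 3 := by
  rw [Pm.nbm, h.gp, h.rh]; ring

/-- `32 l < 2^(m+6)`. -/
theorem l32 (h : PF n L l m z t P) : 32 * l < 2 ^ (m + 6) := by
  have := h.l2
  rw [show m + 6 = m + 1 + 5 by ring, pow_add]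
  omega

theorem nbm_le (h : PF n L l m z t P) : P.nbm + 1 ≤ 2 ^ (m + 6) := by
  have := h.l32; have := h.nbm; have := h.lb64; have := h.lm64; have := h.lmz; have := h.t64
  omega

theorem bnb (h : PF n L l m z t P) (c : ℕ) : 2 ^ c * P.b * (P.nbm + 1) ≤ 2 ^ (c + P.lb + m + 6) := by
  calc 2 ^ c * P.b * (P.nbm + 1) ≤ 2 ^ c * P.b * 2 ^ (m + 6) := Nat.mul_le_mul_left _ h.nbm_le
    _ = _ := by rw [Pm.b]; ring

theorem NA (_ : PF n L l m z t P) : P.NA = 2 ^ (P.D * P.lb) := by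
  rw [Pm.NA, Pm.b, ← pow_mul, mul_comm]

theorem NA_ge (h : PF n L l m z t P) : 2 * n ≤ P.NA := by
  have h1 := h.n2
  have h2 : 2 ^ (L + 2) ≤ 2 ^ (P.D * P.lb) := Nat.pow_le_pow_right two_pos h.Dlb.1
  rw [h.NA]
  rw [pow_succ] at h2
  omega

theorem NA_le (h : PF n L l m z t P) : P.NA ≤ 2 * n * P.b := by
  have h1 := h.n1
  rw [h.NA]
  calc 2 ^ (P.D * P.lb) ≤ 2 ^ (L + 1 + P.lb) := Nat.pow_le_pow_right two_pos h.Dlb.2
    _ = 2 * 2 ^ L * P.b := by rw [Pm.b]; ring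
    _ ≤ _ := by gcongr

theorem N_le (h : PF n L l m z t P) : P.N ≤ 2 ^ (P.lb + m + 6) := by
  have h1 : P.NS ≤ 2 ^ (m + 6) := by
    have := h.l32; have := h.lb64; have := h.lm64; have := h.lmz; have := h.t64
    rw [Pm.NS, h.gp, h.rh]
    omega
  calc P.N ≤ 2 ^ (m + 6) * P.b := Nat.mul_le_mul_right _ h1
    _ = _ := by rw [Pm.b]; ring

theorem Mc_le (h : PF n L l m z t P) : P.Mc ≤ 2 ^ (40 * l) := by
  have a0 := h.l32; have a1 := h.lb64; have a2 := h.lm64; have a3 := h.lmz; have a4 := h.t64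
  have a5 := h.zt; have a6 := h.m2
  have h1 : P.NG ≤ 2 ^ (m + 6) := by rw [Pm.NG, h.gp, h.rh]; omega
  have h2 : P.nOpt ≤ 2 ^ (m + 6) * 4 ^ (16 * l + 3) := by
    rw [Pm.nOpt, h.gp, h.rh, show 13 * l + 3 * l + 3 = 16 * l + 3 by ring]
    exact Nat.mul_le_mul_right _ h1
  have h3 : P.N * P.Bz ^ 2 ≤ 2 ^ (P.lb + m + 6) * (2 ^ (3 * l + 2)) ^ 2 := by
    rw [Pm.Bz, h.rh]
    exact Nat.mul_le_mul_right _ h.N_le
  have h4 : 1 ≤ 2 ^ (P.lb + m + 6) * (2 ^ (3 * l + 2)) ^ 2 := Nat.pos_of_ne_zero (by positivity)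
  calc P.Mc ≤ 2 ^ (m + 6) * 4 ^ (16 * l + 3) * (2 * (2 ^ (P.lb + m + 6) * (2 ^ (3 * l + 2)) ^ 2)) :=
        Nat.mul_le_mul h2 (by omega)
    _ = 2 ^ (38 * l + P.lb + 2 * m + 23) := by
        rw [show (4 : ℕ) = 2 ^ 2 from rfl, ← pow_mul]; ring
    _ ≤ _ := Nat.pow_le_pow_right two_pos (by omega)

end PF

end Vale.Agent.P315F
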