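import Vale.Agent.P315F.ParG

/-! A calculus of functions that are `n ^ o(1)`; failure probability and tape length. -/

namespace Vale.Agent.P315F

open Filter

/-- `e n = o(log n)`. -/
def OL (e : ℕ → ℕ) : Prop := ∀ c : ℕ, ∀ᶠ n in atTop, c * e n ≤ pL n

/-- `f n = n ^ o(1)`. -/
def Sml (f : ℕ → ℕ) : Prop := ∃ e, OL e ∧ ∀ᶠ n in atTop, f n ≤ 2 ^ e n

namespace OL

variable {e e' : ℕ → ℕ}

theorem mono (h : OL e') (hle : ∀ᶠ n in atTop, e n ≤ e' n) : OL e := fun c =>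
  ((h c).and hle).mono fun _ hn => (Nat.mul_le_mul_left c hn.2).trans hn.1

theorem add (h : OL e) (h' : OL e') : OL fun n => e n + e' n := fun c =>
  ((h (2 * c)).and (h' (2 * c))).mono fun n hn => by
    have h1 := hn.1
    have h2 := hn.2
    rw [mul_assoc] at h1 h2
    rw [mul_add]
    omega

theorem cmul (h : OL e) (k : ℕ) : OL fun n => k * e n := fun c =>
  (h (c * k)).mono fun _ hn => by rwa [← mul_assoc]

theorem const (k : ℕ) : OL fun _ => k := fun c => tendsto_pL.eventually_ge_atTop (c * k)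

theorem of_t {C : ℕ} (h : ∀ᶠ n in atTop, e n * pt n ≤ C * pL n) : OL e := fun c =>
  (h.and (tendsto_pt.eventually_ge_atTop (c * (C + 1)))).mono fun n hn => by
    have h1 : e n * (c * (C + 1)) ≤ e n * pt n := Nat.mul_le_mul_left _ hn.2
    have h2 : C * pL n ≤ (C + 1) * pL n := Nat.mul_le_mul_right _ (Nat.le_succ C)
    refine Nat.le_of_mul_le_mul_left ?_ (Nat.succ_pos C)
    calc (C + 1) * (c * e n) = e n * (c * (C + 1)) := by ring
      _ ≤ _ := (h1.trans hn.1).trans h2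

end OL

namespace Sml

variable {f g e : ℕ → ℕ}

theorem mono (h : Sml g) (hle : ∀ᶠ n in atTop, f n ≤ g n) : Sml f :=
  let ⟨e, he, h1⟩ := h
  ⟨e, he, (h1.and hle).mono fun _ hn => hn.2.trans hn.1⟩

theorem le (h : Sml g) (hle : ∀ n, f n ≤ g n) : Sml f := h.mono (.of_forall hle)

theorem two_pow (h : OL e) : Sml fun n => 2 ^ e n := ⟨e, h, .of_forall fun _ => le_rfl⟩

theorem of_OL (h : OL e) : Sml e := ⟨e, h, .of_forall fun _ => Nat.lt_two_pow_self.le⟩

theorem const (k : ℕ) : Sml fun _ => k := of_OL (OL.const k)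

theorem mul (h : Sml f) (h' : Sml g) : Sml fun n => f n * g n :=
  let ⟨_, he, h1⟩ := h
  let ⟨_, he', h2⟩ := h'
  ⟨_, he.add he', (h1.and h2).mono fun _ hn => by
    rw [pow_add]; exact Nat.mul_le_mul hn.1 hn.2⟩

theorem add (h : Sml f) (h' : Sml g) : Sml fun n => f n + g n :=
  let ⟨e, he, h1⟩ := h
  let ⟨e', he', h2⟩ := h'
  ⟨_, (he.add he').add (OL.const 1), (h1.and h2).mono fun n hn => by
    have a1 : 2 ^ e n ≤ 2 ^ (e n + e' n) := Nat.pow_le_pow_right two_pos (by omega)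
    have a2 : 2 ^ e' n ≤ 2 ^ (e n + e' n) := Nat.pow_le_pow_right two_pos (by omega)
    have a3 := hn.1
    have a4 := hn.2
    show f n + g n ≤ 2 ^ (e n + e' n + 1)
    rw [pow_succ]
    omega⟩

theorem pow (h : Sml f) (k : ℕ) : Sml fun n => f n ^ k :=
  let ⟨_, he, h1⟩ := h
  ⟨_, he.cmul k, h1.mono fun _ hn => by
    rw [mul_comm, pow_mul]; exact Nat.pow_le_pow_left hn k⟩

/-- A power whose base is at most `2 ^ e` and whose exponent times `e` is `o(log n)`. -/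
theorem pow' {k : ℕ → ℕ} (h : ∀ᶠ n in atTop, f n ≤ 2 ^ e n) (hk : OL fun n => e n * k n) :
    Sml fun n => f n ^ k n :=
  ⟨_, hk, h.mono fun _ hn => by rw [pow_mul]; exact Nat.pow_le_pow_left hn _⟩

theorem ev_le (h : Sml f) : ∀ᶠ n in atTop, f n ≤ n :=
  let ⟨_, he, h1⟩ := h
  ((he 1).and (h1.and ev_pf)).mono fun _ hn =>
    (hn.2.1.trans (Nat.pow_le_pow_right two_pos (by simpa using hn.1))).trans (hn.2.2 0).n1

theorem rpow (h : Sml f) {ξ : ℝ} (hξ : 0 < ξ) : ∀ᶠ n : ℕ in atTop, (f n : ℝ) ≤ (n : ℝ) ^ ξ := by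
  obtain ⟨e, he, h1⟩ := h
  obtain ⟨c, hc⟩ := exists_nat_ge (1 / ξ)
  refine ((he c).and (h1.and ev_pf)).mono fun n hn => ?_
  have a1 : (c : ℝ) * e n ≤ pL n := by exact_mod_cast hn.1
  have a2 : (e n : ℝ) ≤ pL n * ξ := by
    rw [div_le_iff₀ hξ] at hc
    nlinarith [(e n).cast_nonneg (α := ℝ)]
  calc (f n : ℝ) ≤ (2 : ℝ) ^ (e n : ℝ) := by rw [Real.rpow_natCast]; exact_mod_cast hn.2.1
    _ ≤ (2 : ℝ) ^ (pL n * ξ) := Real.rpow_le_rpow_of_exponent_le one_le_two a2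
    _ = ((2 : ℝ) ^ pL n) ^ ξ := by rw [Real.rpow_mul zero_le_two, Real.rpow_natCast]
    _ ≤ _ := Real.rpow_le_rpow (by positivity) (by exact_mod_cast (hn.2.2 0).n1) hξ.le

/-- `g n ≤ n * f n` with `f n = n ^ o(1)` gives `g n ≤ n ^ (1 + ξ)`. -/
theorem near (h : Sml f) (hg : ∀ᶠ n in atTop, g n ≤ n * f n) {ξ : ℝ} (hξ : 0 < ξ) :
    ∀ᶠ n : ℕ in atTop, (g n : ℝ) ≤ (n : ℝ) ^ (1 + ξ) := by
  refine ((h.rpow hξ).and (hg.and (eventually_ge_atTop 1))).mono fun n hn => ?_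
  have h0 : (0 : ℝ) < n := by exact_mod_cast hn.2.2
  rw [Real.rpow_add h0, Real.rpow_one]
  exact le_trans (by exact_mod_cast hn.2.1) (mul_le_mul_of_nonneg_left hn.1 h0.le)

end Sml

namespace PF

variable {n L l m z t : ℕ} {P : Pm}

theorem t_le (h : PF n L l m z t P) : t ≤ l := by
  have := h.lb64; have := h.lm64; have := h.lmz; omega

theorem cube (h : PF n L l m z t P) : l * l * l * P.b ≤ L := by
  have a1 := h.lb64; have a2 := h.lm64; have a3 := h.lmz; have a5 := h.zt; have a6 := h.m2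
  have h1 := h.l2.le
  calc l * l * l * P.b ≤ 2 ^ (m + 1) * 2 ^ (m + 1) * 2 ^ (m + 1) * P.b := by gcongr
    _ = 2 ^ (3 * m + 3 + P.lb) := by rw [Pm.b]; ring
    _ ≤ 2 ^ l := Nat.pow_le_pow_right two_pos (by omega)
    _ ≤ L := h.L1

theorem k0_le (h : PF n L l m z t P) : P.k0 + 1 ≤ 128 * (t * t) := by
  have a3 := h.lmz; have a4 := h.t64
  have h1 := h.lbt'
  have h2 := h.lmt'
  have h3 : P.lb * t ≤ (P.lm * t + t) * t := Nat.mul_le_mul_right _ h2.le
  have h4 : t ≤ t * t := Nat.le_mul_self t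
  have h5 : (P.lm + 2) * (t * t) ≤ 16 * (P.lm / 8) * (t * t) := Nat.mul_le_mul_right _ (by omega)
  have h6 : 5 * l / (P.lm / 8) ≤ 80 * (t * t) := by
    refine Nat.div_le_of_le_mul ?_
    have e1 : (P.lm * t + t) * t = P.lm * (t * t) + t * t := by ring
    have e2 : (P.lm + 2) * (t * t) = P.lm * (t * t) + 2 * (t * t) := by ring
    have e3 : P.lm / 8 * (80 * (t * t)) = 5 * (16 * (P.lm / 8) * (t * t)) := by ring
    omega
  rw [h.k0]
  omega

theorem Kt (h : PF n L l m z t P) : P.K * t ^ 14 ≤ L := by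
  have a1 := h.t_le; have a3 := h.lmz; have a5 := h.zt; have := h.lb64; have := h.lm64
  rw [h.K, h.ht, ← pow_mul, ← pow_add, show l - 14 * z + z * 14 = l by omega]
  exact h.L1

theorem Dl (h : PF n L l m z t P) : P.D * l ≤ 4 * (L * t) := by
  have a1 := h.lb64; have a2 := h.lm64; have a3 := h.lmz; have a4 := h.t64; have a5 := h.lL
  have h1 : l ≤ 2 * P.lb * t := by
    have := h.lbt'
    have : 1 * t ≤ P.lb * t := Nat.mul_le_mul_right _ (by omega)
    rw [mul_assoc]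
    omega
  have h2 := h.Dlb.2
  calc P.D * l ≤ P.D * (2 * P.lb * t) := Nat.mul_le_mul_left _ h1
    _ = 2 * (P.D * P.lb) * t := by ring
    _ ≤ 4 * L * t := Nat.mul_le_mul_right _ (by omega)
    _ = _ := by ring

/-- The number of nestings times `l` is `O(L / t)`. -/
theorem nest (h : PF n L l m z t P) {w : ℕ} (hw : w ≤ P.D / P.ell + 4) :
    l * ((P.k0 + 1) * (P.KK + w) + 1) * t ≤ 2 ^ 19 * L := by
  have a4 := h.t64
  have c3 := h.cube
  have hb : 1 ≤ P.b := Nat.one_le_two_pow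
  have a1 := h.t_le
  have h1 : P.K * (l * t ^ 3) ≤ 1024 * L := by
    have := h.t10'.le
    calc P.K * (l * t ^ 3) ≤ P.K * (1024 * t ^ 10 * t ^ 4) := by gcongr <;> omega
      _ = 1024 * (P.K * t ^ 14) := by ring
      _ ≤ _ := Nat.mul_le_mul_left _ h.Kt
  have h2 : P.D / P.ell * (l * t ^ 3) ≤ 4 * L := by
    refine Nat.le_of_mul_le_mul_right ?_ (show 0 < t by omega)
    calc P.D / P.ell * (l * t ^ 3) * t = P.D / P.ell * P.ell * l := by rw [h.ell']; ring
      _ ≤ P.D * l := Nat.mul_le_mul_right _ (Nat.div_mul_le_self _ _)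
      _ ≤ _ := by rw [mul_assoc]; exact h.Dl
  have h3 : l * t ^ 3 ≤ L := by
    have : t ^ 3 ≤ l := (Nat.pow_le_pow_right (by omega) (by omega)).trans h.t10
    calc l * t ^ 3 ≤ l * l * l * P.b := by
          calc l * t ^ 3 = l * 1 * t ^ 3 * 1 := by ring
            _ ≤ _ := by gcongr; omega
      _ ≤ L := c3
  have h4 : (P.k0 + 1) * (P.KK + w) + 1 ≤ 128 * (t * t) * (3 * P.K + P.D / P.ell + 5) := by
    have := h.k0_le
    calc (P.k0 + 1) * (P.KK + w) + 1 ≤ (P.k0 + 1) * (P.KK + w + 1) := by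
          rw [mul_add _ _ 1]; omega
      _ ≤ _ := Nat.mul_le_mul this (by unfold Pm.KK; omega)
  calc l * ((P.k0 + 1) * (P.KK + w) + 1) * t ≤
        l * (128 * (t * t) * (3 * P.K + P.D / P.ell + 5)) * t := by gcongr
    _ = 128 * (3 * (P.K * (l * t ^ 3)) + P.D / P.ell * (l * t ^ 3) + 5 * (l * t ^ 3)) := by ring
    _ ≤ _ := by omega

theorem Dlm (h : PF n L l m z t P) : P.lm * P.D * t ≤ 3 * L := by
  have h1 := h.Dlb.2
  have := h.lb64; have := h.lL
  calc P.lm * P.D * t = P.D * (P.lm * t) := by ring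
    _ ≤ P.D * P.lb := Nat.mul_le_mul_left _ h.lmt
    _ ≤ _ := by omega

theorem ell_le (h : PF n L l m z t P) : P.ell ≤ l := by
  rw [h.ell']
  exact (Nat.pow_le_pow_right (by have := h.t64; omega) (by omega)).trans h.t10

theorem m_le (h : PF n L l m z t P) : 64 * m + 4096 ≤ P.lm := by
  have := h.lmz; have := h.zt; have := h.m2; omega

theorem L_le (h : PF n L l m z t P) : L + 2 ≤ 2 ^ (l + 2) := by
  have := h.L2
  have : 1 ≤ 2 ^ l := Nat.one_le_two_pow
  rw [pow_succ] at *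
  omega

theorem NI_le (h : PF n L l m z t P) : P.NI ≤ 16 * L := by
  have := h.Dlb.2; have := h.lb64; have := h.lL; have := h.t_le; have := h.zt
  rw [Pm.NI, h.ie, h.sh]
  omega

theorem fail_le (h : PF n L l m z t P) (hk : P.kp < L + 2) : ((L + 2 : ℕ) : ℝ) * P.fail ≤ 1 / 3 := by
  have a1 := h.lb64; have a2 := h.lL; have a3 := h.t_le; have a4 := h.t64; have a5 := h.D_le
  have a6 : L < 2 ^ L := Nat.lt_two_pow_self
  have a7 : 2 ^ l ≤ 2 ^ L := Nat.pow_le_pow_right two_pos a2.le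
  have b1 : P.KK ≤ 4 * 2 ^ L := by
    have : P.K ≤ 2 ^ L := by rw [h.K]; exact Nat.pow_le_pow_right two_pos (by omega)
    unfold Pm.KK; omega
  have b2 : P.NA ≤ 2 ^ L * 2 ^ L := by
    rw [h.NA, ← pow_add]
    exact Nat.pow_le_pow_right two_pos (by have := h.Dlb.2; omega)
  have b3 := h.NI_le
  have b4 : P.k0 + 1 ≤ 8 * 2 ^ L := by
    have := Nat.div_le_self (5 * l) (P.lm / 8)
    rw [h.k0]; omega
  have b5 : P.Qm + 1 ≤ 16 * 2 ^ L := by
    have : P.Qm ≤ 2 ^ (L + 3) := Nat.pow_le_pow_right two_pos (by omega)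
    rw [pow_add] at this
    omega
  have c1 : 6 * ((L + 2) * (P.D * P.KK * P.NA * P.NI * (P.k0 + 1) * (P.Qm + 1) ^ 2)) ≤
      2 ^ (16 * L) :=
    calc _ ≤ 8 * ((2 * 2 ^ L) * (2 ^ L * (4 * 2 ^ L) * (2 ^ L * 2 ^ L) * (16 * 2 ^ L) * (8 * 2 ^ L) *
          (16 * 2 ^ L) ^ 2)) := by gcongr <;> omega
      _ = 2 ^ (9 * L + 21) := by ring
      _ ≤ _ := Nat.pow_le_pow_right two_pos (by omega)
  have c2 : -(P.S : ℝ) / (4 * (P.U1 : ℝ) ^ 2) = -((16 * L : ℕ) : ℝ) := by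
    rw [h.S, Pm.U1, h.fp]
    push_cast
    field_simp
    ring
  have c3 : (6 : ℝ) * ((L + 2 : ℕ) * ((P.D * P.KK * P.NA * P.NI * (P.k0 + 1) : ℕ) *
      ((P.Qm + 1) ^ 2 : ℕ))) ≤ Real.exp (16 * L : ℕ) :=
    le_trans (by exact_mod_cast c1) (parg_exp _)
  have c4 := Real.exp_pos ((16 * L : ℕ) : ℝ)
  rw [Pm.fail, Pm.fail1, c2, Real.exp_neg, ← div_eq_mul_inv, ← mul_div_assoc, ← mul_div_assoc,
    ← mul_div_assoc, div_le_iff₀ c4]
  linarith

end PF

theorem par_fail : ∀ᶠ n in atTop, ∀ kp < Nat.log 2 n + 2,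
    ((Nat.log 2 n + 2 : ℕ) : ℝ) * (par n kp).fail ≤ 1 / 3 :=
  ev_pf.mono fun _ h kp hk => (h kp).fail_le hk

/-! ### Base facts: exponents -/

theorem ol_cube : OL fun n => pl n * pl n * (par n 0).b :=
  OL.of_t (C := 1) (ev_pf.mono fun n h => by
    have h1 := (h 0).cube
    have h2 := (h 0).t_le
    calc _ ≤ pl n * pl n * (par n 0).b * pl n := Nat.mul_le_mul_left _ h2
      _ = pl n * pl n * pl n * (par n 0).b := by ring
      _ ≤ _ := by omega)

theorem ol_ll : OL fun n => pl n * pl n :=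
  ol_cube.mono (.of_forall fun _ => Nat.le_mul_of_pos_right _ (Nat.two_pow_pos _))

theorem ol_l : OL pl := ol_ll.mono (.of_forall fun _ => Nat.le_mul_self _)

theorem ol_lb : OL fun n => pl n * (par n 0).b :=
  ol_cube.mono (.of_forall fun _ => Nat.mul_le_mul_right _ (Nat.le_mul_self _))

/-- Any exponent that is at most `c * l`. -/
theorem ol_lin {e : ℕ → ℕ} (c : ℕ) (h : ∀ᶠ n in atTop, e n ≤ c * pl n) : OL e :=
  (ol_l.cmul c).mono h

theorem ol_nest {w : ℕ → ℕ} (hw : ∀ᶠ n in atTop, w n ≤ (par n 0).D / (par n 0).ell + 4) :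
    OL fun n => pl n * (((par n 0).k0 + 1) * ((par n 0).KK + w n) + 1) :=
  OL.of_t (C := 2 ^ 19) ((ev_pf.and hw).mono fun _ h => (h.1 0).nest h.2)

theorem ol_Dlm : OL fun n => (par n 0).lm * (par n 0).D :=
  OL.of_t (C := 3) (ev_pf.mono fun _ h => (h 0).Dlm)

/-! ### Base facts: small numbers -/

/-- Anything that is at most `2 ^ (c * l)`, i.e. polylogarithmic. -/
theorem sml_lin {f : ℕ → ℕ} (c : ℕ) (h : ∀ᶠ n in atTop, f n ≤ 2 ^ (c * pl n)) : Sml f :=
  (Sml.two_pow (ol_l.cmul c)).mono h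

theorem sml_L : Sml fun n => pL n + 2 :=
  (Sml.two_pow (ol_l.add (OL.const 2))).mono (ev_pf.mono fun _ h => (h 0).L_le)

/-- Anything that is at most `c * L`. -/
theorem sml_cL {f : ℕ → ℕ} (c : ℕ) (h : ∀ᶠ n in atTop, f n ≤ c * pL n) : Sml f :=
  ((Sml.const c).mul sml_L).mono (h.mono fun _ hn => hn.trans (Nat.mul_le_mul_left _ (by omega)))

theorem sml_b : Sml fun n => (par n 0).b :=
  Sml.two_pow (ol_lin 1 (ev_pf.mono fun _ h => by have := (h 0).lb64; omega))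

theorem sml_U1 : Sml fun n => (par n 0).U1 :=
  Sml.two_pow (ol_lin 28 (ev_pf.mono fun _ h => (h 0).fp.le))

theorem sml_K : Sml fun n => (par n 0).K :=
  Sml.two_pow (e := fun n => pl n - 14 * pz n) (ol_lin 1 (.of_forall fun _ => by omega))

theorem sml_KK : Sml fun n => (par n 0).KK := (Sml.const 3).mul sml_K

theorem sml_S : Sml fun n => (par n 0).S :=
  ((sml_cL 64 (.of_forall fun _ => le_rfl)).mul (sml_U1.pow 2)).le fun _ => le_rfl

theorem sml_D : Sml fun n => (par n 0).D :=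
  sml_lin 1 (ev_pf.mono fun _ h => by have := (h 0).D_le; rw [one_mul]; omega)

theorem sml_k0 : Sml fun n => (par n 0).k0 :=
  Sml.of_OL (ol_lin 6 (ev_pf.mono fun n h => by
    have := Nat.div_le_self (5 * pl n) ((par n 0).lm / 8)
    have := (h 0).t_le; have := (h 0).t64
    rw [(h 0).k0]; omega))

theorem sml_N : Sml fun n => (par n 0).N :=
  sml_lin 1 (ev_pf.mono fun _ h => (h 0).N_le.trans (Nat.pow_le_pow_right two_pos (by
    have := (h 0).lb64; have := (h 0).lm64; have := (h 0).m_le; omega)))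

theorem sml_NI : Sml fun n => (par n 0).NI := sml_cL 16 (ev_pf.mono fun _ h => (h 0).NI_le)

theorem sml_SZ : Sml fun n => (par n 0).SZ (par n 0).ell :=
  Sml.pow' (e := pl) (ev_pf.mono fun _ h => by
      refine (Nat.mul_le_mul_left 2 (h 0).N_le).trans ?_
      rw [← pow_succ']
      exact Nat.pow_le_pow_right two_pos (by
        have := (h 0).lb64; have := (h 0).lm64; have := (h 0).m_le; omega))
    (ol_ll.mono (ev_pf.mono fun _ h => Nat.mul_le_mul_left _ (h 0).ell_le))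

theorem ol_wz : OL fun n => (par n 0).wz :=
  ((ol_lb.cmul 4).add (ol_l.cmul 70)).mono (ev_pf.mono fun n h => by
    have a1 := (h 0).lb64; have a2 := (h 0).lm64; have a3 := (h 0).m_le
    have a4 := (h 0).s0; have a5 := (h 0).mh
    have a6 : (3 * pl n + 2) * 2 ^ (par n 0).lb ≤ 4 * pl n * 2 ^ (par n 0).lb :=
      Nat.mul_le_mul_right _ (by omega)
    rw [(h 0).wz, Pm.b, ← mul_assoc]
    omega)

theorem sml_Wz : Sml fun n => (par n 0).Wz := Sml.two_pow ol_wz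

theorem sml_Om : Sml fun n => (par n 0).Om :=
  sml_Wz.mono (par_good.mono fun n h =>
    le_trans (Nat.le_mul_of_pos_right _ (by positivity)) (h 0).Wz_gt.le)

theorem ol_nbm : OL fun n => (par n 0).nbm :=
  ol_lin 18 (ev_pf.mono fun _ h => by
    have := (h 0).nbm; have := (h 0).lb64; have := (h 0).t_le; have := (h 0).t64; omega)

theorem sml_Xmax : Sml fun n => (par n 0).Xmax :=
  (((sml_K.add (Sml.const 4)).mul sml_b).mul sml_U1).mul
    (Sml.two_pow (ol_nbm.add (OL.const 2)))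

theorem sml_Rn : Sml fun n => (par n 0).Rn :=
  Sml.two_pow (ol_lin 8 (ev_pf.mono fun _ h => by
    have := (h 0).ga; have := (h 0).rh; have := (h 0).t_le; have := (h 0).t64; omega))

theorem sml_Bz : Sml fun n => (par n 0).Bz :=
  Sml.two_pow (ol_lin 4 (ev_pf.mono fun _ h => by
    have := (h 0).rh; have := (h 0).t_le; have := (h 0).t64; omega))

theorem sml_mm : Sml fun n => (par n 0).mm :=
  Sml.two_pow (ol_lin 1 (ev_pf.mono fun _ h => by
    have := (h 0).mh; have := (h 0).lb64; have := (h 0).lm64; have := (h 0).m_le; omega))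

/-- The big numbers in `Hn`. -/
theorem sml_Hpow : Sml fun n => (2 * (par n 0).U1) ^ (par n 0).mm :=
  Sml.pow' (e := fun n => 29 * pl n) (ev_pf.mono fun _ h => by
      rw [Pm.U1, ← pow_succ', (h 0).fp]
      exact Nat.pow_le_pow_right two_pos (by have := (h 0).t_le; have := (h 0).t64; omega))
    ((ol_ll.cmul (29 * 128)).mono (ev_pf.mono fun n h => by
      have h1 : (par n 0).mm ≤ 128 * pl n := by
        rw [Pm.mm, (h 0).mh, pow_add]
        have := (h 0).l1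
        omega
      calc 29 * pl n * (par n 0).mm ≤ 29 * pl n * (128 * pl n) := Nat.mul_le_mul_left _ h1
        _ = _ := by ring))

/-- A factor `2 ^ (c * lm)` per level. -/
theorem sml_level {Y : ℕ → ℕ} (c : ℕ) (h : ∀ᶠ n in atTop, Y n ≤ 2 ^ (c * (par n 0).lm)) :
    Sml fun n => Y n ^ (par n 0).D :=
  Sml.pow' h ((ol_Dlm.cmul c).mono (.of_forall fun _ => (mul_assoc _ _ _).le))

/-- A polylogarithmic factor per nesting. -/
theorem sml_nest {Γ w : ℕ → ℕ} (c : ℕ) (h : ∀ᶠ n in atTop, Γ n ≤ 2 ^ (c * pl n))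
    (hw : ∀ᶠ n in atTop, w n ≤ (par n 0).D / (par n 0).ell + 4) :
    Sml fun n => Γ n ^ (((par n 0).k0 + 1) * ((par n 0).KK + w n) + 1) :=
  Sml.pow' h (((ol_nest hw).cmul c).mono (.of_forall fun _ => (mul_assoc _ _ _).le))

/-- The tape. -/
theorem par_tape {ξ : ℝ} (hξ : 0 < ξ) : ∀ᶠ n : ℕ in atTop, ∀ kp,
    ((((par n kp).D + 1) * (par n kp).HS * (par n kp).lb : ℕ) : ℝ) ≤ (n : ℝ) ^ (1 + ξ) := by
  have h := (((((((sml_D.add (Sml.const 1)).mul sml_KK).mul ((Sml.const 2).mul sml_b)).mul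
    sml_NI).mul (sml_k0.add (Sml.const 1))).mul sml_S).mul sml_SZ).mul sml_b
  refine (h.near (g := fun n => ((par n 0).D + 1) * (par n 0).HS * (par n 0).lb)
    (ev_pf.mono fun n hn => ?_) hξ).mono fun _ hn _ => hn
  have h1 := (hn 0).NA_le
  have h2 : (par n 0).lb ≤ (par n 0).b := Nat.lt_two_pow_self.le
  unfold Pm.HS
  calc _ ≤ ((par n 0).D + 1) * ((par n 0).KK * (2 * n * (par n 0).b) * (par n 0).NI *
        ((par n 0).k0 + 1) * (par n 0).S * (par n 0).SZ (par n 0).ell) * (par n 0).b := by gcongr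
    _ = _ := by ring

end Vale.Agent.P315F
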