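import Vale.Agent.P315F.ParA

/-! The parameters `par n kp` are good for large `n`. -/

namespace Vale.Agent.P315F

open Filter

theorem parg_pow {a c : ℕ} (h : a ≤ c) : (2 : ℝ) ^ a ≤ 2 ^ c := pow_le_pow_right₀ one_le_two h

theorem parg_exp (N : ℕ) : (2 : ℝ) ^ N ≤ Real.exp N := by
  rw [← Real.exp_one_pow]
  exact pow_le_pow_left₀ zero_le_two (by linarith [Real.add_one_le_exp (1 : ℝ)]) N

namespace PF

variable {n L l m z t : ℕ} {P : Pm}

theorem bR (P : Pm) : (P.b : ℝ) = 2 ^ P.lb := by rw [Pm.b]; push_cast; rfl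

theorem bnbR (h : PF n L l m z t P) (c : ℕ) :
    (2 : ℝ) ^ c * P.b * (P.nbm + 1) ≤ 2 ^ (c + P.lb + m + 6) := by exact_mod_cast h.bnb c

theorem pf_exp (h : PF n L l m z t P) :
    (4 : ℝ) * P.Mc ^ P.ell * P.U1 ≤ Real.exp (2 ^ P.lm * P.sig ^ 2 / 32) := by
  have a3 := h.lmz; have a5 := h.zt
  have h1 : 4 * P.Mc ^ P.ell * P.U1 ≤ 2 ^ (2 + 40 * l * P.ell + 28 * l) := by
    rw [pow_add, pow_add, pow_mul 2 (40 * l), Pm.U1, h.fp]
    have := h.Mc_le
    gcongr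
    norm_num
  have h2 : 2 + 40 * l * P.ell + 28 * l ≤ 2 ^ (17 + 14 * z) := by
    have b1 := h.t10'
    have b2 : 1 ≤ t ^ 4 := by have := h.t4; have := h.t64; omega
    have b3 : l * 1 ≤ l * t ^ 4 := Nat.mul_le_mul_left _ b2
    have b4 : l * t ^ 4 ≤ 1024 * t ^ 10 * t ^ 4 := Nat.mul_le_mul_right _ b1.le
    have b5 : 2 ^ (17 + 14 * z) = 128 * (1024 * t ^ 10 * t ^ 4) := by rw [h.ht]; ring
    have b6 : 1 ≤ l := by have := h.lb64; have := h.lm64; omega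
    rw [h.ell', mul_assoc]
    omega
  have h3 : (2 : ℝ) ^ (17 + 14 * z) ≤ 2 ^ P.lm * P.sig ^ 2 / 32 := by
    rw [Pm.sig, le_div_iff₀ (by norm_num), div_pow, one_pow, mul_one_div,
      le_div_iff₀ (by positivity), show (32 : ℝ) = 2 ^ 5 by norm_num, ← pow_mul, ← pow_add,
      ← pow_add, h.sg]
    exact parg_pow (by omega)
  calc (4 : ℝ) * P.Mc ^ P.ell * P.U1 ≤ 2 ^ (2 + 40 * l * P.ell + 28 * l) := by exact_mod_cast h1
    _ ≤ Real.exp (2 + 40 * l * P.ell + 28 * l : ℕ) := parg_exp _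
    _ ≤ _ := Real.exp_le_exp.2 (le_trans (by exact_mod_cast h2) h3)

theorem pf_le (h : PF n L l m z t P) : P.pf P.ell * P.U1 ≤ 1 := by
  have h0 : (0 : ℝ) ≤ 2 ^ P.lm * P.sig ^ 2 := by positivity
  have h1 : P.pf P.ell ≤ 4 * P.Mc ^ P.ell * Real.exp (-(2 ^ P.lm * P.sig ^ 2 / 32)) :=
    mul_le_mul_of_nonneg_left (Real.exp_le_exp.2 (by linarith)) (by positivity)
  refine (mul_le_mul_of_nonneg_right h1 (Nat.cast_nonneg _)).trans ?_
  rw [mul_right_comm, Real.exp_neg, mul_inv_le_iff₀ (Real.exp_pos _), one_mul]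
  exact h.pf_exp

theorem kap_le (h : PF n L l m z t P) : P.kap ≤ 2 ^ (3 * P.lb) / 2 ^ l := by
  have a0 := h.l32; have a1 := h.lb64; have a2 := h.lm64; have a3 := h.lmz; have a4 := h.t64
  have a5 := h.zt; have a6 := h.m2
  have h1 : P.om1 ≤ 2 ^ (3 * P.lb - 1) / 2 ^ l := by
    have := h.bnbR 5
    rw [Pm.om1, div_le_div_iff₀ (by positivity) (by positivity), h.rh, ← pow_add]
    calc (32 : ℝ) * P.b * (P.nbm + 1) * 2 ^ l ≤ 2 ^ (5 + P.lb + m + 6) * 2 ^ l := by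
          gcongr; linarith
      _ ≤ _ := by rw [← pow_add]; exact parg_pow (by omega)
  have h2 : P.kR ≤ 2 ^ (3 * P.lb - 1) / 2 ^ l := by
    have b1 : (P.rh : ℝ) + 2 ≤ 2 ^ (m + 6) := by
      have : P.rh + 2 ≤ 2 ^ (m + 6) := by rw [h.rh]; omega
      exact_mod_cast this
    have b2 : (P.K : ℝ) = 2 ^ (l - 14 * z) := by rw [h.K]; push_cast; rfl
    rw [Pm.kR, b2, div_le_div_iff₀ (by positivity) (by positivity), ← pow_add, bR]
    calc (2 : ℝ) ^ P.s0 * 2 ^ P.lb * (P.rh + 2) * 2 ^ l ≤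
          2 ^ P.s0 * 2 ^ P.lb * 2 ^ (m + 6) * 2 ^ l := by gcongr
      _ ≤ _ := by
          rw [← pow_add, ← pow_add, ← pow_add]
          exact parg_pow (by have := h.s0; have := h.mh; omega)
  have h3 : (2 : ℝ) ^ (3 * P.lb) = 2 * 2 ^ (3 * P.lb - 1) := by
    rw [← pow_succ', Nat.sub_add_cancel (by omega)]
  rw [Pm.kap, h3, mul_div_assoc]
  linarith

theorem kap_nonneg (P : Pm) : 0 ≤ P.kap := by unfold Pm.kap Pm.om1 Pm.kR; positivity

theorem DR (h : PF n L l m z t P) : (P.D : ℝ) ≤ 2 ^ l := by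
  have : P.D ≤ 2 ^ l := by have := h.D_le; omega
  exact_mod_cast this

theorem Dkap (h : PF n L l m z t P) : P.D * P.kap ≤ 2 ^ (3 * P.lb) :=
  (mul_le_mul h.DR h.kap_le (kap_nonneg P) (by positivity)).trans_eq
    (mul_div_cancel₀ _ (by positivity))

theorem an_ge (h : PF n L l m z t P) : 2 * (2 + 16 * P.D * P.kap) ≤ 2 ^ P.an := by
  have h1 := h.Dkap
  have h2 : (1 : ℝ) ≤ 2 ^ (3 * P.lb) := one_le_pow₀ one_le_two
  rw [h.an, pow_add, mul_assoc]
  linarith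

theorem fin1 (h : PF n L l m z t P) : P.D * P.kap * P.k4 ≤ P.eps := by
  have a1 := h.lb64; have a2 := h.lm64; have a3 := h.lmz; have a5 := h.zt
  have h2 : (1 : ℝ) ≤ 2 ^ (3 * P.lb) := one_le_pow₀ one_le_two
  have h3 : (1 : ℝ) ≤ 2 ^ z := one_le_pow₀ one_le_two
  have hU : (P.U1 : ℝ) = 2 ^ (28 * l) := by rw [Pm.U1, h.fp]; push_cast; rfl
  have h4 : P.k4 ≤ 2 ^ z * 2 ^ 8 * 2 ^ (3 * P.lb) / 2 ^ (l / 2) := by
    have b1 : (2 : ℝ) / 2 ^ l ≤ 2 / 2 ^ (l / 2) :=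
      div_le_div_of_nonneg_left zero_le_two (by positivity) (parg_pow (by omega))
    have b2 : (1 : ℝ) / 2 ^ (28 * l) ≤ 1 / 2 ^ (l / 2) :=
      div_le_div_of_nonneg_left zero_le_one (by positivity) (parg_pow (by omega))
    rw [Pm.k4, h.r1, h.eh, h.an, h.tt, hU]
    refine (add_le_add b1 (mul_le_mul_of_nonneg_left (add_le_add le_rfl b2)
      (by positivity))).trans ?_
    rw [pow_add, le_div_iff₀ (by positivity)]
    field_simp
    nlinarith [mul_le_mul_of_nonneg_left h2 (zero_le_one.trans h3)]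
  have h5 : 0 ≤ P.k4 := by unfold Pm.k4; positivity
  refine (mul_le_mul h.Dkap h4 h5 (by positivity)).trans ?_
  rw [Pm.eps, h.eh, ← mul_div_assoc, div_le_div_iff₀ (by positivity) (by positivity), one_mul]
  simp only [← pow_add]
  exact parg_pow (by omega)

theorem fin2 (h : PF n L l m z t P) :
    P.kap * (8 * 2 ^ P.eh * 2 ^ P.tt) * (P.Th P.D + 1) ≤ P.eps := by
  have a1 := h.lb64; have a2 := h.lm64; have a3 := h.lmz; have a5 := h.zt; have a6 := h.m2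
  have h2 : (1 : ℝ) ≤ 2 ^ (3 * P.lb) := one_le_pow₀ one_le_two
  have b1 : P.D * P.del * 16 ≤ 1 := by
    rw [Pm.del, h.dh, mul_one_div, div_mul_eq_mul_div, div_le_one (by positivity)]
    calc (P.D : ℝ) * 16 ≤ 2 ^ l * 2 ^ 4 := by have := h.DR; gcongr; norm_num
      _ ≤ _ := by rw [← pow_add]; exact parg_pow (by omega)
  have b0 : 0 ≤ P.D * P.del := by unfold Pm.del; positivity
  have b2 : P.D * P.kD ≤ 33 * 2 ^ (3 * P.lb) := by
    have := h.Dkap
    rw [Pm.kD, mul_add, mul_left_comm _ 14, mul_left_comm _ 32]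
    linarith
  have b3 : P.D * P.om3 ≤ 1 := by
    have c1 := h.bnbR 9
    have c2 : (0 : ℝ) ≤ P.nbm := Nat.cast_nonneg _
    have c3 : (0 : ℝ) ≤ P.b := Nat.cast_nonneg _
    rw [Pm.om3, Pm.cPsi, h.rh, ← mul_div_assoc, div_le_one (by positivity)]
    calc (P.D : ℝ) * (32 * P.b * (4 * (P.nbm + 1) + 10)) ≤ 2 ^ l * 2 ^ (9 + P.lb + m + 6) :=
          mul_le_mul h.DR (le_trans (by nlinarith [mul_nonneg c2 c3]) c1) (by positivity)
            (by positivity)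
      _ ≤ _ := by rw [← pow_add]; exact parg_pow (by omega)
  have b4 : P.Th P.D + 1 ≤ 2 ^ 14 * (2 ^ (3 * P.lb) * 2 ^ (3 * P.lb)) := by
    have c1 : P.D * P.kD * (2 ^ (3 * P.lb) * 2 ^ 8 + 1) ≤
        33 * 2 ^ (3 * P.lb) * (2 ^ (3 * P.lb) * 2 ^ 8 + 1) :=
      mul_le_mul_of_nonneg_right b2 (by positivity)
    rw [Pm.Th, h.an, pow_add, mul_add (P.D : ℝ), ← mul_assoc (P.D : ℝ)]
    nlinarith
  have b5 : 0 ≤ P.Th P.D + 1 := by
    have := kap_nonneg P
    unfold Pm.Th Pm.kD Pm.om3 Pm.cPsi Pm.del; positivity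
  refine (mul_le_mul (mul_le_mul_of_nonneg_right h.kap_le (by positivity)) b4 b5
    (by positivity)).trans ?_
  rw [Pm.eps, h.eh, h.tt, div_mul_eq_mul_div, div_mul_eq_mul_div,
    div_le_div_iff₀ (by positivity) (by positivity), one_mul, show (8 : ℝ) = 2 ^ 3 by norm_num]
  simp only [← pow_add]
  exact parg_pow (by omega)

theorem good (h : PF n L l m z t P) : P.Good := by
  have a0 := h.l32; have a1 := h.lb64; have a2 := h.lm64; have a3 := h.lmz; have a4 := h.t64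
  have a5 := h.zt; have a6 := h.m2; have a7 := h.nbm; have a8 := h.chk0; have a9 := h.lL
  have e1 := h.fp; have e2 := h.gp; have e3 := h.rh; have e4 := h.ga; have e5 := h.sh
  have e6 := h.ie; have e7 := h.mh; have e8 := h.eh; have e9 := h.dh; have f1 := h.th
  have f2 := h.sg; have f3 := h.ch; have f4 := h.ne; have f5 := h.nm; have f6 := h.cs
  have f7 := h.an; have f8 := h.r1; have f9 := h.z6
  have g1 : 2 ^ P.mh = 2 * 2 ^ (m + 6) := by rw [e7]; ring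
  have g2 := h.D_le
  refine ⟨by omega, by omega, ?_, ?_, ?_, ?_, by omega, by omega, by omega, by omega, by omega,
    by omega, by omega, by omega, by omega, by omega, by omega, ?_, ?_, by omega, by omega,
    by omega, by omega, ?_, by omega, ?_, ?_, h.pf_le, ?_, ?_, by omega, by omega, by omega,
    by omega, ?_, h.an_ge, h.fin1, h.fin2⟩
  · rw [h.ell]; exact Nat.one_le_two_pow
  · rw [h.K]; exact Nat.one_le_two_pow
  · rw [h.S]; exact Nat.pos_of_ne_zero (by have : 0 < L := by omega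
                                           positivity)
  · rw [h.D]; exact Nat.le_add_left _ _
  · calc 4 * (P.D + 2) * 2 ^ P.dh ≤ 2 ^ 2 * 2 ^ l * 2 ^ P.dh := by gcongr; norm_num
      _ ≤ _ := by rw [← pow_add, ← pow_add]; exact Nat.pow_le_pow_right two_pos (by omega)
  · calc 14 * (P.D + 1) * 2 ^ P.eh ≤ 2 ^ 4 * 2 ^ l * 2 ^ P.eh := by gcongr <;> omega
      _ ≤ _ := by rw [← pow_add, ← pow_add]; exact Nat.pow_le_pow_right two_pos (by omega)
  · have b1 := h.t8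
    have b2 : t ^ 4 * (11 + P.mh) ≤ t ^ 4 * (2 * t) := Nat.mul_le_mul_left _ (by omega)
    have b3 : 64 * (64 * t) * t ^ 4 = 2048 * (t ^ 4 * (2 * t)) := by ring
    rw [h.ell']
    omega
  · calc 40 * P.b * P.nbm * 2 ^ P.sg ≤ 2 ^ 5 * P.b * 2 ^ (m + 6) * 2 ^ P.sg := by
          have : 40 * P.nbm ≤ 2 ^ 5 * 2 ^ (m + 6) := by omega
          rw [mul_right_comm 40, mul_right_comm (2 ^ 5)]
          gcongr
      _ = _ := by rw [h.s0, Pm.b, e7, f2]; ring
  · rw [Pm.Om, Pm.Bz, Pm.Wz, Pm.emax, h.wz, ← pow_mul, ← pow_mul, ← pow_add, e1, e3, Pm.b]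
    exact Nat.pow_lt_pow_right one_lt_two (by omega)
  · calc 16 * P.b * (P.nbm + 1) * 2 ^ P.nm ≤ 2 ^ (4 + P.lb + m + 6) * 2 ^ P.nm :=
          Nat.mul_le_mul_right _ (h.bnb 4)
      _ ≤ _ := by rw [← pow_add]; exact Nat.pow_le_pow_right two_pos (by omega)
  · calc 1024 * (P.D + 1) * P.b * (P.nbm + 1) = (P.D + 1) * (2 ^ 10 * P.b * (P.nbm + 1)) := by ring
      _ ≤ 2 ^ l * 2 ^ (10 + P.lb + m + 6) := Nat.mul_le_mul (by omega) (h.bnb 10)
      _ ≤ _ := by rw [← pow_add]; exact Nat.pow_le_pow_right two_pos (by omega)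
  · calc 512 * P.b * (P.nbm + 1) * 2 ^ P.eh ≤ 2 ^ (9 + P.lb + m + 6) * 2 ^ P.eh :=
          Nat.mul_le_mul_right _ (h.bnb 9)
      _ ≤ _ := by rw [← pow_add]; exact Nat.pow_le_pow_right two_pos (by omega)

end PF

/-- The parameters are good for large `n`. -/
theorem par_good : ∀ᶠ n in atTop, ∀ kp, (par n kp).Good := ev_pf.mono fun _ h kp => (h kp).good

theorem par_NA : ∀ᶠ n in atTop, ∀ kp, 2 * n ≤ (par n kp).NA :=
  ev_pf.mono fun _ h kp => (h kp).NA_ge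

theorem par_eps {ε : ℝ} (hε : 0 < ε) : ∀ᶠ n in atTop, ∀ kp, 20 * (par n kp).eps ≤ ε := by
  obtain ⟨c, hc⟩ := exists_nat_ge (20 / ε)
  refine (tendsto_pt.eventually_ge_atTop c).mono fun n h kp => ?_
  have h1 : (c : ℝ) ≤ 2 ^ (par n kp).eh := by exact_mod_cast h
  rw [Pm.eps, mul_one_div, div_le_iff₀ (by positivity)]
  rw [div_le_iff₀ hε] at hc
  nlinarith

end Vale.Agent.P315F
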