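import Vale.Agent.P315F.Nu

/-! The predicted break points are close to any path with a small potential gap. -/

namespace Vale.Agent.P315F

open Finset Vale.Agent.P315

theorem pred_cast (a c : ℕ) : (Nat.dist a c : ℝ) = |(a : ℝ) - c| := by
  rcases le_total a c with h | h
  · rw [Nat.dist_eq_sub_of_le h, Nat.cast_sub h, abs_sub_comm,
      abs_of_nonneg (sub_nonneg.2 (Nat.cast_le.2 h))]
  · rw [Nat.dist_eq_sub_of_le_right h, Nat.cast_sub h,
      abs_of_nonneg (sub_nonneg.2 (Nat.cast_le.2 h))]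

theorem phiN_spec (ug : ℕ) {x y : ℕ} (h : 0 < x + y) (Q M Q' : ℕ) :
    (phiN ug x y Q M Q' : ℝ) ≤ |phiR ug x y Q M Q'| ∧
      |phiR ug x y Q M Q'| < phiN ug x y Q M Q' + 1 := by
  have h0 : (0 : ℝ) < x + y := by exact_mod_cast h
  have e : |phiR ug x y Q M Q'| =
      ((ug * Nat.dist (M * (x + y) + Q * x) (Q * (x + y) + Q' * x) : ℕ) : ℝ) / (x + y : ℕ) := by
    have e0 : phiR ug x y Q M Q' =
        ug * (((M * (x + y) + Q * x : ℕ) : ℝ) - (Q * (x + y) + Q' * x : ℕ)) / (x + y) := by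
      rw [phiR]
      push_cast
      field_simp
      ring
    rw [e0, abs_div, abs_of_pos h0, abs_mul, Nat.abs_cast, Nat.cast_mul, pred_cast, Nat.cast_add x]
  rw [e, phiN, ← Nat.floor_div_eq_div (K := ℝ)]
  exact ⟨Nat.floor_le (by positivity), Nat.lt_floor_add_one _⟩

theorem PsiP_mono {d v v' : ℝ} (hd : |d| ≤ v) (h : v ≤ v') : PsiP d v ≤ PsiP d v' := by
  have h' := h
  replace h := hd
  have h0 := (abs_nonneg d).trans h
  unfold PsiP
  rcases h0.eq_or_lt with h1 | h1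
  · have : d = 0 := abs_nonpos_iff.1 (h1 ▸ h)
    simp [this, h']
  · have h2 := h1.trans_le h'
    have h3 : d ^ 2 ≤ v * v' := by
      rw [← sq_abs, sq]
      exact mul_le_mul h (h.trans h') (abs_nonneg _) h0
    have h4 : d ^ 2 / v - d ^ 2 / v' = d ^ 2 / (v * v') * (v' - v) := by field_simp
    have h5 : d ^ 2 / (v * v') ≤ 1 := (div_le_one (mul_pos h1 h2)).2 h3
    nlinarith

theorem PsiP_two {d d' x y : ℝ} (hx : |d| ≤ x) (hy : |d'| ≤ y) :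
    4 * (d - (d + d') * x / (x + y)) ^ 2 ≤
      (x + y) * (PsiP d x + PsiP d' y - PsiP (d + d') (x + y)) := by
  unfold PsiP
  rcases ((abs_nonneg d).trans hx).eq_or_lt with h1 | h1
  · have : d = 0 := abs_nonpos_iff.1 (h1 ▸ hx)
    simp [this, ← h1]
  rcases ((abs_nonneg d').trans hy).eq_or_lt with h2 | h2
  · have : d' = 0 := abs_nonpos_iff.1 (h2 ▸ hy)
    simp [this, ← h2, mul_div_cancel_right₀ _ h1.ne']
  have h3 := add_pos h1 h2
  have e : (x + y) * (d ^ 2 / x + x + (d' ^ 2 / y + y) - ((d + d') ^ 2 / (x + y) + (x + y))) =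
      (d - (d + d') * x / (x + y)) ^ 2 * ((x + y) ^ 2 / (x * y)) := by
    field_simp
    ring
  rw [e, mul_comm]
  refine mul_le_mul_of_nonneg_left ?_ (sq_nonneg _)
  rw [le_div_iff₀ (mul_pos h1 h2)]
  nlinarith [sq_nonneg (x - y)]

theorem PsiP_add {d d' x y : ℝ} (hx : |d| ≤ x) (hy : |d'| ≤ y) :
    PsiP (d + d') (x + y) ≤ PsiP d x + PsiP d' y := by
  have h := PsiP_two hx hy
  have hx0 := (abs_nonneg d).trans hx
  have hy0 := (abs_nonneg d').trans hy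
  rcases (add_nonneg hx0 hy0).eq_or_lt with h1 | h1
  · obtain rfl : x = 0 := by linarith
    obtain rfl : y = 0 := by linarith
    simp [PsiP]
  · have := nonneg_of_mul_nonneg_right ((by positivity : (0 : ℝ) ≤ _).trans h) h1
    linarith

/-- `PsiP` is Lipschitz. -/
theorem pred_lip {d d' v v' c : ℝ} (h : |d| ≤ v) (h' : |d'| ≤ v') (hc : 0 ≤ c) (hv : v ≤ v' + c) :
    PsiP d v ≤ PsiP d' v' + 2 * |d - d'| + c := by
  have h1 : PsiP d v ≤ PsiP d (v' + c) := PsiP_mono h hv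
  have h0 := (abs_nonneg d').trans h'
  rcases (add_nonneg h0 hc).eq_or_lt with h2 | h2
  · obtain rfl : v' = 0 := by linarith
    obtain rfl : c = 0 := by linarith
    simp only [PsiP, add_zero, div_zero] at h1 ⊢
    linarith [abs_nonneg (d - d')]
  have h3 : d ^ 2 / (v' + c) ≤ d' ^ 2 / (v' + c) + 2 * |d - d'| := by
    rw [div_add' _ _ _ h2.ne', div_le_div_iff_of_pos_right h2]
    have a1 : d ^ 2 - d' ^ 2 ≤ |d - d'| * |d + d'| := by
      rw [← abs_mul]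
      exact le_trans (le_of_eq (by ring)) (le_abs_self _)
    have a2 : |d + d'| ≤ 2 * (v' + c) := (abs_add_le _ _).trans (by linarith)
    nlinarith [abs_nonneg (d - d')]
  have h4 : d' ^ 2 / (v' + c) ≤ d' ^ 2 / v' := by
    rcases h0.eq_or_lt with h5 | h5
    · have : d' = 0 := abs_nonpos_iff.1 (h5 ▸ h')
      simp [this]
    · exact div_le_div_of_nonneg_left (sq_nonneg _) h5 (by linarith)
  unfold PsiP at *
  linarith

theorem PsiP_lip {d v d' v' D e : ℝ} (hd : |d| ≤ v) (hd' : |d'| ≤ v') (hD : 0 ≤ D)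
    (hv : v' ≤ v + D) (he : |d' - d| ≤ e) : PsiP d' v' ≤ PsiP d v + D + 3 * e := by
  linarith [pred_lip hd' hd hD hv, abs_nonneg (d' - d)]

theorem PsiP_le {d v : ℝ} (hd : |d| ≤ v) : PsiP d v ≤ 2 * v := by
  have h := hd
  have h0 := (abs_nonneg d).trans h
  have : d ^ 2 / v ≤ v := div_le_of_le_mul₀ h0 h0 (by
    rw [← sq_abs, sq]; exact mul_le_mul h h (abs_nonneg _) h0)
  unfold PsiP
  linarith

theorem PsiP_nonneg {d v : ℝ} (hv : 0 ≤ v) : 0 ≤ PsiP d v := by unfold PsiP; positivity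

theorem PsiP_abs (d v : ℝ) : PsiP |d| v = PsiP d v := by rw [PsiP, PsiP, sq_abs]

theorem PsiP_mul (d v : ℝ) {c : ℝ} (hc : 0 < c) : PsiP (d * c) (v * c) = PsiP d v * c := by
  unfold PsiP
  rcases eq_or_ne v 0 with h | h
  · simp [h]
  · field_simp

theorem PsiP_sum (n : ℕ) {d v : ℕ → ℝ} (h : ∀ t < n, |d t| ≤ v t) :
    PsiP (∑ t ∈ range n, d t) (∑ t ∈ range n, v t) ≤ ∑ t ∈ range n, PsiP (d t) (v t) := by
  induction n with
  | zero => simp [PsiP]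
  | succ n ih =>
    rw [sum_range_succ, sum_range_succ, sum_range_succ]
    refine (PsiP_add ((abs_sum_le_sum_abs _ _).trans (sum_le_sum fun t ht =>
      h t (by have := mem_range.1 ht; omega))) (h n (by omega))).trans ?_
    have := ih fun t ht => h t (by omega)
    linarith

variable {Qg ug Cn : ℕ} {ν0 : ℕ → Tab}

theorem pred_geR {v Q Q' : ℕ} (h : Nat.dist Q Q' * ug ≤ v) :
    |(ug : ℝ) * ((Q' : ℝ) - Q)| ≤ v := by
  rw [abs_mul, Nat.abs_cast, abs_sub_comm, ← pred_cast, mul_comm]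
  exact_mod_cast h

theorem PsiP_dist (ug Q Q' : ℕ) (v : ℝ) :
    PsiP (Nat.dist Q Q' * ug : ℕ) v = PsiP (ug * ((Q' : ℝ) - Q)) v := by
  rw [← PsiP_abs (ug * _), abs_mul, Nat.abs_cast, abs_sub_comm, ← pred_cast, mul_comm,
    Nat.cast_mul, mul_comm]

/-- The potential of a block is at most the sum of the potentials along a path. -/
theorem PsiP_block (h1 : ∀ j Q Q', Nat.dist Q Q' * ug ≤ ν0 j Q Q') (j n : ℕ) (π : ℕ → ℕ)
    (hπ : ∀ t, π t ≤ Qg) :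
    PsiP (ug * ((π (j + n) : ℝ) - π j)) (nuF Qg ug Cn ν0 j n (π j) (π (j + n))) ≤
      ∑ t ∈ range n, PsiP (Nat.dist (π (j + t)) (π (j + t + 1)) * ug : ℕ)
        (ν0 (j + t) (π (j + t)) (π (j + t + 1))) := by
  have a1 := nuF_chain (Cn := Cn) h1 j n π hπ
  have a2 := PsiP_sum n (d := fun t => ug * ((π (j + (t + 1)) : ℝ) - π (j + t)))
    (v := fun t => ν0 (j + t) (π (j + t)) (π (j + t + 1))) fun t _ => pred_geR (h1 _ _ _)
  rw [← mul_sum, sum_range_sub (fun t => (π (j + t) : ℝ))] at a2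
  simp only [PsiP_dist]
  exact (PsiP_mono (pred_geR (nuF_ge _ _ _ _)) (by exact_mod_cast a1)).trans a2

/-- The gap of the potential along the path `ω`. -/
noncomputable def gapP (Qg ug Cn : ℕ) (ν0 : ℕ → Tab) (b : ℕ) (ω : ℕ → ℕ) : ℝ :=
  ∑ c ∈ range b, PsiP (Nat.dist (ω c) (ω (c + 1)) * ug : ℕ) (ν0 c (ω c) (ω (c + 1))) -
    PsiP (Nat.dist (ω 0) (ω b) * ug : ℕ) (nuF Qg ug Cn ν0 0 b (ω 0) (ω b))

theorem gapP_nonneg (h1 : ∀ j Q Q', Nat.dist Q Q' * ug ≤ ν0 j Q Q') (b : ℕ) (ω : ℕ → ℕ)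
    (hω : ∀ c, ω c ≤ Qg) : 0 ≤ gapP Qg ug Cn ν0 b ω := by
  have a1 := PsiP_block (Qg := Qg) (Cn := Cn) h1 0 b ω hω
  simp only [zero_add] at a1
  rw [gapP, sub_nonneg, PsiP_dist]
  exact a1

theorem phi_slope {A B : ℕ → ℝ} {c ε : ℝ} {Q Q' : ℕ} (hε : 0 < ε) (hε1 : ε ≤ 1)
    (hA0 : ∀ M, 0 ≤ A M) (hB0 : ∀ M, 0 ≤ B M)
    (hA : ∀ M M', A M ≤ A M' + Nat.dist M M' * ug) (hB : ∀ M M', B M ≤ B M' + Nat.dist M M' * ug)
    (hc : ∀ M, c ≤ A M + B M) (hnd : (1 + ε) * (Nat.dist Q Q' * ug) < c) {M M' : ℕ} (hM : M' ≤ M) :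
    ε / 2 * (Nat.dist M M' * ug) ≤ phiR ug (A M) (B M) Q M Q' - phiR ug (A M') (B M') Q M' Q' := by
  have c0 : 0 < c := lt_of_le_of_lt (by positivity) hnd
  have s0 := c0.trans_le (hc M)
  have s1 := c0.trans_le (hc M')
  have e0 : (Nat.dist M M' : ℝ) = M - M' := by
    rw [Nat.dist_eq_sub_of_le_right hM, Nat.cast_sub hM]
  set Δ : ℝ := Nat.dist M M' * ug with hΔ
  have Δ0 : 0 ≤ Δ := by positivity
  have a1 := hA M M'
  have a2 := hA M' M
  have a3 := hB M M'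
  have a4 := hB M' M
  rw [Nat.dist_comm M' M] at a2 a4
  have h1 : |A M / (A M + B M) - A M' / (A M' + B M')| ≤ Δ / c := by
    have e : A M / (A M + B M) - A M' / (A M' + B M') =
        (A M * (B M' - B M) + B M * (A M - A M')) / ((A M + B M) * (A M' + B M')) := by
      field_simp
      ring
    rw [e, abs_div, abs_of_pos (mul_pos s0 s1), div_le_div_iff₀ (mul_pos s0 s1) c0]
    have b1 : |A M * (B M' - B M) + B M * (A M - A M')| ≤ (A M + B M) * Δ := by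
      refine (abs_add_le _ _).trans ?_
      rw [abs_mul, abs_mul, abs_of_nonneg (hA0 M), abs_of_nonneg (hB0 M), add_mul]
      exact add_le_add (mul_le_mul_of_nonneg_left (abs_le.2 ⟨by linarith, by linarith⟩) (hA0 M))
        (mul_le_mul_of_nonneg_left (abs_le.2 ⟨by linarith, by linarith⟩) (hB0 M))
    calc _ ≤ (A M + B M) * Δ * (A M' + B M') :=
          mul_le_mul b1 (hc M') c0.le (mul_nonneg s0.le Δ0)
      _ = _ := by ring
  have h2 : |(ug : ℝ) * ((Q' : ℝ) - Q)| * (1 + ε) ≤ c := by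
    rw [abs_mul, Nat.abs_cast, abs_sub_comm, ← pred_cast]
    linarith
  have h3 : (ug : ℝ) * ((Q' : ℝ) - Q) * (A M / (A M + B M) - A M' / (A M' + B M')) * (1 + ε) ≤
      Δ := by
    calc _ ≤ |(ug : ℝ) * ((Q' : ℝ) - Q)| * (Δ / c) * (1 + ε) := by
          refine mul_le_mul_of_nonneg_right ((le_abs_self _).trans ?_) (by linarith)
          rw [abs_mul (ug * _ : ℝ)]
          exact mul_le_mul_of_nonneg_left h1 (abs_nonneg _)
      _ = |(ug : ℝ) * ((Q' : ℝ) - Q)| * (1 + ε) * (Δ / c) := by ring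
      _ ≤ c * (Δ / c) := mul_le_mul_of_nonneg_right h2 (by positivity)
      _ = Δ := mul_div_cancel₀ _ c0.ne'
  have e1 : phiR ug (A M) (B M) Q M Q' - phiR ug (A M') (B M') Q M' Q' =
      Δ - (ug : ℝ) * ((Q' : ℝ) - Q) * (A M / (A M + B M) - A M' / (A M' + B M')) := by
    rw [phiR, phiR, hΔ, e0]
    ring
  rw [e1]
  set w := (ug : ℝ) * ((Q' : ℝ) - Q) * (A M / (A M + B M) - A M' / (A M' + B M'))
  refine le_of_mul_le_mul_right ?_ (show 0 < 1 + ε by linarith)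
  nlinarith [mul_nonneg (mul_nonneg hε.le Δ0) (sub_nonneg.2 hε1)]

theorem phi_ends {x y x' y' : ℝ} (hx : 0 ≤ x) (hy : 0 ≤ y) (hx' : 0 ≤ x') (hy' : 0 ≤ y')
    (Q Q' : ℕ) : phiR ug x y Q (min Q Q') Q' ≤ 0 ∧ 0 ≤ phiR ug x' y' Q (max Q Q') Q' := by
  have r : ∀ {x y : ℝ}, 0 ≤ x → 0 ≤ y → 0 ≤ x / (x + y) ∧ x / (x + y) ≤ 1 := fun hx hy =>
    ⟨by positivity, div_le_one_of_le₀ (by linarith) (by linarith)⟩
  obtain ⟨r1, r2⟩ := r hx hy
  obtain ⟨r3, r4⟩ := r hx' hy'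
  have u0 : (0 : ℝ) ≤ ug := Nat.cast_nonneg _
  unfold phiR
  simp only [mul_div_assoc]
  rcases le_total Q Q' with h | h
  · have h' : (0 : ℝ) ≤ Q' - Q := sub_nonneg.2 (Nat.cast_le.2 h)
    rw [min_eq_left h, max_eq_right h]
    exact ⟨mul_nonpos_of_nonneg_of_nonpos u0 (by nlinarith [mul_nonneg h' r1]),
      mul_nonneg u0 (by nlinarith [mul_nonneg h' (sub_nonneg.2 r4)])⟩
  · have h' : (0 : ℝ) ≤ Q - Q' := sub_nonneg.2 (Nat.cast_le.2 h)
    rw [min_eq_right h, max_eq_left h]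
    exact ⟨mul_nonpos_of_nonneg_of_nonpos u0 (by nlinarith [mul_nonneg h' (sub_nonneg.2 r2)]),
      mul_nonneg u0 (by nlinarith [mul_nonneg h' r3])⟩

/-- Non-degenerate case: the prediction is close to every point with small `|φ|`. -/
theorem pred_phi (h0 : ∀ j, LipN ug (ν0 j)) (h : ∀ j Q Q', Nat.dist Q Q' * ug ≤ ν0 j Q Q') {b Rn Q Q' j : ℕ} (hj : j ≤ b)
    (hR : Nat.dist Q Q' ≤ Rn) {ε : ℝ} (hε : 0 < ε) (hε1 : ε ≤ 1)
    (hnd : (1 + ε) * (Nat.dist Q Q' * ug) < nuF Qg ug Cn ν0 0 b Q Q') (M : ℕ) :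
    ε / 2 * (Nat.dist (pred (nuF Qg ug Cn ν0) Rn ug b Q Q' j) M * ug) ≤
      2 * |phiR ug (nuF Qg ug Cn ν0 0 j Q M) (nuF Qg ug Cn ν0 j (b - j) M Q') Q M Q'| + 1 := by
  set ν := nuF Qg ug Cn ν0 with hν
  set φ : ℕ → ℝ := fun M => phiR ug (ν 0 j Q M) (ν j (b - j) M Q') Q M Q' with hφ
  have hc : ∀ M, ν 0 b Q Q' ≤ ν 0 j Q M + ν j (b - j) M Q' := fun M => by
    have := nuF_sub (Qg := Qg) (Cn := Cn) h0 h 0 j (b - j) Q M Q'
    rwa [zero_add, Nat.add_sub_cancel' hj] at this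
  have hs : ∀ {M M' : ℕ}, M' ≤ M → ε / 2 * (Nat.dist M M' * ug) ≤ φ M - φ M' := fun hM =>
    phi_slope (A := fun M => ν 0 j Q M) (B := fun M => ν j (b - j) M Q') hε hε1
      (fun _ => Nat.cast_nonneg _) (fun _ => Nat.cast_nonneg _)
      (fun M M' => by
        have := nuF_lip (Qg := Qg) (Cn := Cn) h0 0 j Q M Q M'
        rw [Nat.dist_self, zero_add] at this
        exact_mod_cast this)
      (fun M M' => by
        have := nuF_lip (Qg := Qg) (Cn := Cn) h0 j (b - j) M Q' M' Q'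
        rw [Nat.dist_self, add_zero] at this
        exact_mod_cast this)
      (fun M => by exact_mod_cast hc M) hnd hM
  have hm : ∀ {M M' : ℕ}, M' ≤ M → φ M' ≤ φ M := fun hM =>
    sub_nonneg.1 (le_trans (by positivity) (hs hM))
  have c0 : 0 < ν 0 b Q Q' := by
    have : (0 : ℝ) < ν 0 b Q Q' := lt_of_le_of_lt (by positivity) hnd
    exact_mod_cast this
  have he : φ (min Q Q') ≤ 0 ∧ 0 ≤ φ (max Q Q') :=
    phi_ends (Nat.cast_nonneg _) (Nat.cast_nonneg _) (Nat.cast_nonneg _) (Nat.cast_nonneg _) Q Q'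
  obtain ⟨d, hd, hd'⟩ : ∃ d < Rn + 1, |φ (cand Q Q' d)| ≤ |φ M| := by
    rcases le_total M (min Q Q') with h1 | h1
    · refine ⟨0, by omega, ?_⟩
      rw [show cand Q Q' 0 = min Q Q' by simp [cand], abs_of_nonpos he.1,
        abs_of_nonpos ((hm h1).trans he.1)]
      linarith [hm h1]
    rcases le_total (max Q Q') M with h2 | h2
    · refine ⟨Nat.dist Q Q', by omega, ?_⟩
      rw [show cand Q Q' (Nat.dist Q Q') = max Q Q' by unfold cand Nat.dist; omega,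
        abs_of_nonneg he.2, abs_of_nonneg (he.2.trans (hm h2))]
      exact hm h2
    · refine ⟨M - min Q Q', by unfold Nat.dist at hR; omega, ?_⟩
      rw [show cand Q Q' (M - min Q Q') = M by unfold cand Nat.dist; omega]
  have h1 := amin_le (fun d => phiN ug (ν 0 j Q (cand Q Q' d))
    (ν j (b - j) (cand Q Q' d) Q') Q (cand Q Q' d) Q') hd
  set p := pred ν Rn ug b Q Q' j with hp
  have h2 : |φ p| < phiN ug (ν 0 j Q p) (ν j (b - j) p Q') Q p Q' + 1 :=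
    (phiN_spec ug (c0.trans_le (hc p)) Q p Q').2
  have h3 := (phiN_spec ug (c0.trans_le (hc (cand Q Q' d))) Q (cand Q Q' d) Q').1
  have h4 : (phiN ug (ν 0 j Q p) (ν j (b - j) p Q') Q p Q' : ℝ) ≤ phiN ug (ν 0 j Q (cand Q Q' d))
    (ν j (b - j) (cand Q Q' d) Q') Q (cand Q Q' d) Q' := by exact_mod_cast h1
  have h5 : |φ p| ≤ |φ M| + 1 := by linarith
  change _ ≤ 2 * |φ M| + 1
  rcases le_total M p with h6 | h6
  · linarith [hs h6, le_abs_self (φ p), neg_abs_le (φ M)]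
  · rw [Nat.dist_comm]
    linarith [hs h6, le_abs_self (φ M), neg_abs_le (φ p)]

/-- `|φ|` at a point of a path is controlled by the gap. -/
theorem phi_gap (h0 : ∀ j, LipN ug (ν0 j)) (h : ∀ j Q Q', Nat.dist Q Q' * ug ≤ ν0 j Q Q')
    {b j : ℕ} (hj : j ≤ b) (π : ℕ → ℕ) (hπ : ∀ t, π t ≤ Qg) {θ : ℝ} (hθ : 0 < θ) :
    |phiR ug (nuF Qg ug Cn ν0 0 j (π 0) (π j)) (nuF Qg ug Cn ν0 j (b - j) (π j) (π b))
      (π 0) (π j) (π b)| ≤ θ * gapP Qg ug Cn ν0 b π +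
      (∑ c ∈ range b, (ν0 c (π c) (π (c + 1)) : ℝ)) / (16 * θ) := by
  obtain ⟨n, rfl⟩ := Nat.exists_eq_add_of_le hj
  rw [Nat.add_sub_cancel_left]
  have hx : |(ug : ℝ) * ((π j : ℝ) - π 0)| ≤ nuF Qg ug Cn ν0 0 j (π 0) (π j) :=
    pred_geR (nuF_ge _ _ _ _)
  have hy : |(ug : ℝ) * ((π (j + n) : ℝ) - π j)| ≤ nuF Qg ug Cn ν0 j n (π j) (π (j + n)) :=
    pred_geR (nuF_ge _ _ _ _)
  have h1 := PsiP_two hx hy
  have h2 := PsiP_block (Qg := Qg) (Cn := Cn) h 0 j π hπ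
  have h3 := PsiP_block (Qg := Qg) (Cn := Cn) h j n π hπ
  have h4 := nuF_chain (Qg := Qg) (Cn := Cn) h 0 j π hπ
  have h5 := nuF_chain (Qg := Qg) (Cn := Cn) h j n π hπ
  have h6 := nuF_sub (Qg := Qg) (Cn := Cn) h0 h 0 j n (π 0) (π j) (π (j + n))
  simp only [zero_add] at h2 h4 h6
  have e1 : (ug : ℝ) * ((π j : ℝ) - π 0) + ug * ((π (j + n) : ℝ) - π j) =
      ug * ((π (j + n) : ℝ) - π 0) := by ring
  have h7 : PsiP (ug * ((π (j + n) : ℝ) - π 0)) (nuF Qg ug Cn ν0 0 (j + n) (π 0) (π (j + n))) ≤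
      PsiP (ug * ((π (j + n) : ℝ) - π 0)) ((nuF Qg ug Cn ν0 0 j (π 0) (π j) : ℝ) +
        nuF Qg ug Cn ν0 j n (π j) (π (j + n))) :=
    PsiP_mono (pred_geR (nuF_ge _ _ _ _)) (by exact_mod_cast h6)
  have h8 : (nuF Qg ug Cn ν0 0 j (π 0) (π j) : ℝ) + nuF Qg ug Cn ν0 j n (π j) (π (j + n)) ≤
      ∑ c ∈ range (j + n), (ν0 c (π c) (π (c + 1)) : ℝ) := by
    rw [sum_range_add]
    exact add_le_add (by exact_mod_cast h4) (by exact_mod_cast h5)
  have h9 := PsiP_add hx hy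
  have s0 : (0 : ℝ) ≤ (nuF Qg ug Cn ν0 0 j (π 0) (π j) : ℝ) +
      nuF Qg ug Cn ν0 j n (π j) (π (j + n)) := by positivity
  have g1 := gapP_nonneg (Qg := Qg) (Cn := Cn) h (j + n) π hπ
  have g2 := gapP.eq_def Qg ug Cn ν0 (j + n) π
  rw [PsiP_dist ug (π 0), sum_range_add (fun c => PsiP _ _)] at g2
  generalize (nuF Qg ug Cn ν0 0 j (π 0) (π j) : ℝ) = x at *
  generalize (nuF Qg ug Cn ν0 j n (π j) (π (j + n)) : ℝ) = y at *
  have e2 : phiR ug x y (π 0) (π j) (π (j + n)) = ug * ((π j : ℝ) - π 0) -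
      ug * ((π (j + n) : ℝ) - π 0) * x / (x + y) := by rw [phiR]; ring
  rw [e1, ← e2] at h1
  rw [e1] at h9
  generalize phiR ug x y (π 0) (π j) (π (j + n)) = φ at *
  generalize ∑ c ∈ range (j + n), (ν0 c (π c) (π (c + 1)) : ℝ) = S at *
  have k1 : 4 * φ ^ 2 ≤ S * gapP Qg ug Cn ν0 (j + n) π :=
    h1.trans (mul_le_mul h8 (by linarith) (by linarith) (s0.trans h8))
  generalize gapP Qg ug Cn ν0 (j + n) π = g at *
  have k2 : 0 ≤ θ * g + S / (16 * θ) := by have := s0.trans h8; positivity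
  refine abs_le_of_sq_le_sq ?_ k2
  have k3 : θ * g * (S / (16 * θ)) = S * g / 16 := by field_simp
  nlinarith [sq_nonneg (θ * g - S / (16 * θ))]

/-- In the non degenerate case the prediction is close to every path with a small gap. -/
theorem pred_err (h0 : ∀ j, LipN ug (ν0 j)) (h1 : ∀ j Q Q', Nat.dist Q Q' * ug ≤ ν0 j Q Q')
    {Rn b : ℕ} (ω : ℕ → ℕ) (hω : ∀ c, ω c ≤ Qg) (hR : Nat.dist (ω 0) (ω b) ≤ Rn) {ε θ : ℝ}
    (hε : 0 < ε) (hε1 : ε ≤ 1) (hθ : 0 < θ)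
    (hnd : (1 + ε) * (Nat.dist (ω 0) (ω b) * ug : ℕ) < nuF Qg ug Cn ν0 0 b (ω 0) (ω b))
    {j : ℕ} (hj : j ≤ b) :
    ((Nat.dist (pred (nuF Qg ug Cn ν0) Rn ug b (ω 0) (ω b) j) (ω j) * ug : ℕ) : ℝ) ≤
      2 / ε * (2 * θ * gapP Qg ug Cn ν0 b ω +
        (∑ c ∈ range b, (ν0 c (ω c) (ω (c + 1)) : ℝ)) / (8 * θ) + 1) := by
  rw [Nat.cast_mul] at hnd ⊢
  have a1 := pred_phi h0 h1 hj hR hε hε1 hnd (ω j)
  have a2 := phi_gap (Qg := Qg) (Cn := Cn) h0 h1 hj ω hω hθ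
  have e : (∑ c ∈ range b, (ν0 c (ω c) (ω (c + 1)) : ℝ)) / (8 * θ) =
      2 * ((∑ c ∈ range b, (ν0 c (ω c) (ω (c + 1)) : ℝ)) / (16 * θ)) := by
    field_simp
    ring
  rw [div_mul_eq_mul_div, le_div_iff₀ hε, e]
  linarith

end Vale.Agent.P315F
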