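import Vale.Agent.P315F.RamPar

/-! The number of calls. -/

namespace Vale.Agent.P315F

open Vale.Agent.P315 Finset

theorem ramcalls_sum {b c : ℕ} (hb : 0 < b) (f : ℕ → ℕ → ℕ)
    (hc : ∀ β, ∑ t ∈ range b, f β t ≤ c) (m : ℕ) :
    ∑ n ∈ range (m * b), f (n / b) (n % b) ≤ m * c := by
  induction m with
  | zero => simp
  | succ m ih =>
    rw [add_mul, one_mul, sum_range_add, add_mul, one_mul]
    refine Nat.add_le_add ih (le_trans (le_of_eq ?_) (hc m))
    refine sum_congr rfl fun t ht => ?_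
    have ht := mem_range.1 ht
    rw [mul_comm m b, Nat.mul_add_div hb, Nat.div_eq_of_lt ht, Nat.mul_add_mod,
      Nat.mod_eq_of_lt ht, add_zero]

theorem ramcalls_act (b E W β : ℕ) :
    ∑ t ∈ range b, (if t < 2 ^ β ∧ β ≤ E then 2 ^ (E - β) * W else 0) ≤ 2 ^ E * W := by
  by_cases hβ : β ≤ E
  · rw [← sum_filter, sum_const, smul_eq_mul]
    have h1 : #{t ∈ range b | t < 2 ^ β ∧ β ≤ E} ≤ 2 ^ β := by
      refine le_trans (card_le_card (t := range (2 ^ β)) fun t ht => ?_) (card_range _).le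
      exact mem_range.2 (mem_filter.1 ht).2.1
    calc _ ≤ 2 ^ β * (2 ^ (E - β) * W) := Nat.mul_le_mul_right _ h1
      _ = 2 ^ E * W := by rw [← mul_assoc, ← pow_add, Nat.add_sub_cancel' hβ]
  · simp [hβ]

namespace Pm

variable {P : Pm}

theorem ramcalls_win (hP : P.Good) {h : ℕ} (h1 : 1 ≤ h) : P.win (h - 1) ≤ P.win h ∧
    ((h - 1) % P.ell = 0 → P.win (h - 1) + 1 = P.win h) := by
  refine ⟨Nat.div_le_div_right (by omega), fun h2 => ?_⟩
  obtain ⟨q, hq⟩ := Nat.dvd_of_mod_eq_zero h2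
  have hl := hP.ell_pos
  unfold win
  rw [show h + P.ell - 1 = h - 1 + P.ell by omega, Nat.add_div_right _ hl, hq,
    show P.ell * q + P.ell - 1 = P.ell * q + (P.ell - 1) by omega, Nat.mul_add_div hl,
    Nat.div_eq_of_lt (by omega), Nat.mul_div_cancel_left _ hl]

theorem ramcalls_Y (P : Pm) : 1 ≤ P.Yc := by unfold Yc; omega

theorem ramcalls_XY (P : Pm) (h u : ℕ) : 1 ≤ P.Xc ^ h * P.Yc ^ u :=
  Nat.mul_pos (Nat.pow_pos (by unfold Xc; omega)) (Nat.pow_pos P.ramcalls_Y)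

theorem ramcalls_cP (P : Pm) (k h i j : ℕ) : 1 ≤ P.cP k h i j :=
  Nat.mul_pos (Nat.two_pow_pos _) (P.ramcalls_XY _ _)

theorem ramcalls_cP_le (P : Pm) {k h i j E u : ℕ} (hE : h * P.lb + P.ie + P.sh - i ≤ E)
    (hu : P.pot k h j ≤ u) : P.cP k h i j ≤ 2 ^ E * (P.Xc ^ h * P.Yc ^ u) :=
  Nat.mul_le_mul (Nat.pow_le_pow_right (by omega) hE)
    (Nat.mul_le_mul_left _ (Nat.pow_le_pow_right P.ramcalls_Y hu))

theorem ramcalls_O (P : Pm) (k h a i j : ℕ) :
    P.callsF (mkO k h a i j) ≤ (P.S + 1) * P.cP k h i j := by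
  unfold callsF
  rw [if_pos (mo_mkO _ _ _ _ _), bi_mkO]
  split_ifs
  · exact le_rfl
  · exact Nat.mul_pos (Nat.succ_pos _) (P.ramcalls_cP _ _ _ _)

theorem ramcalls_O0 (P : Pm) : P.callsF (mkO 0 0 0 0 0) = 1 := by
  unfold callsF
  rw [if_pos (mo_mkO _ _ _ _ _), if_neg]
  exact fun h => h.2 rfl

theorem ramcalls_P (P : Pm) (k h a i j ad : ℕ) :
    P.callsF (mkP k h a i j ad) = if P.smp h i then P.cP k h i j else 1 := by
  unfold callsF
  rw [if_neg (by rw [mo_mkP]; omega), if_pos (mo_mkP _ _ _ _ _ _), bi_mkP]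
  rfl

theorem ramcalls_mode0 (ρ : ℕ → Bool) (A : Arg) (h0 : mo A = 0) :
    1 + ∑ t ∈ range (P.cntF A), P.callsF (P.subF ρ A t) ≤ P.callsF A := by
  have := P.ramcalls_cP A.k A.h (bi A) A.j
  simp only [cntF, subF, h0, if_true, ramcalls_P, sum_const, card_range, smul_eq_mul]
  unfold callsF
  rw [if_pos h0]
  by_cases hc : P.smp A.h (bi A) ∧ A.j ≠ 0
  · rw [if_pos hc, if_pos hc, if_pos hc.1, add_mul]
    omega
  · rw [if_neg hc, if_neg hc]
    omega

theorem ramcalls_root (ρ : ℕ → Bool) :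
    1 + ∑ t ∈ range (P.cntF mkR), P.callsF (P.subF ρ mkR t) ≤ P.callsF mkR := by
  set Z := 2 ^ (P.D * P.lb + P.ie + P.rh + P.lb - P.kp) *
    (P.Xc ^ P.D * P.Yc ^ ((P.k0 + 1) * (P.KK + P.win P.D + 1))) with hZ
  have h1 : 1 ≤ Z := Nat.mul_pos (Nat.two_pow_pos _) (P.ramcalls_XY _ _)
  have s1 : ∑ t ∈ range (P.K * P.nbm), P.callsF (P.subF ρ mkR t) ≤
      P.K * P.nbm * ((P.S + 1) * Z) := by
    refine (sum_le_card_nsmul _ _ _ fun t ht => ?_).trans (by rw [card_range, smul_eq_mul])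
    have ht := mem_range.1 ht
    have e : P.subF ρ mkR t = mkO (2 * P.K + t / P.nbm) P.D 0 (P.lo P.g0 + t % P.nbm) P.k0 := by
      simp [subF]
    rw [e]
    refine (P.ramcalls_O _ _ _ _ _).trans (Nat.mul_le_mul_left _ (P.ramcalls_cP_le ?_ ?_))
    · unfold lo g0
      omega
    · have h2 : t / P.nbm < P.K := Nat.div_lt_of_lt_mul (by rwa [mul_comm] at ht)
      have : (P.k0 + 1) * (2 * P.K + t / P.nbm + P.win P.D) ≤ (P.k0 + 1) * (P.KK + P.win P.D) :=
        Nat.mul_le_mul_left _ (by unfold KK; omega)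
      rw [pot, mul_add _ _ 1]
      omega
  have h2 : P.K * P.nbm * (P.S + 1) + 1 ≤ P.Yc := by unfold Yc; omega
  have h3 := Nat.mul_le_mul_right Z h2
  have h4 : P.callsF mkR = P.Yc * Z := by
    simp only [callsF, mo_mkR, OfNat.ofNat_ne_zero, OfNat.ofNat_ne_one, if_false, callsRoot, cR, hZ]
    ring
  have h5 : P.cntF mkR = P.K * P.nbm := by simp [cntF]
  rw [h4, h5]
  rw [add_mul, one_mul, mul_assoc] at h3
  omega

theorem ramcalls_mode1 (hP : P.Good) (ρ : ℕ → Bool) (A : Arg) (h0 : mo A = 1) (h1 : A.k < P.KK)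
    (h5 : 1 ≤ A.j) :
    1 + ∑ t ∈ range (P.cntF A), P.callsF (P.subF ρ A t) ≤ P.callsF A := by
  have h0' : mo A ≠ 0 := by omega
  by_cases hs : P.smp A.h (bi A)
  swap
  · simp [cntF, callsF, h0, hs]
  obtain ⟨h2, hi⟩ : 1 ≤ A.h ∧ bi A ≤ A.h * P.lb + P.ie + P.sh := hs
  have hs : P.smp A.h (bi A) := ⟨h2, hi⟩
  obtain ⟨w1, w2⟩ := ramcalls_win hP h2
  obtain ⟨u, hu⟩ : ∃ u, P.pot A.k A.h A.j = u + 1 :=
    ⟨P.pot A.k A.h A.j - 1, by unfold pot; omega⟩
  obtain ⟨ex, hex⟩ : ∃ ex, ex = A.h * P.lb + P.ie + P.sh - bi A := ⟨_, rfl⟩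
  have hlb : (A.h - 1) * P.lb + P.lb = A.h * P.lb := by
    rw [← add_one_mul, Nat.sub_add_cancel h2]
  set W0 := P.Xc ^ (A.h - 1) * P.Yc ^ (u + 1) with hW0
  have s1 : ∑ t ∈ range (P.nO A), P.callsF (P.subF ρ A t) ≤ 2 ^ ex * W0 := by
    refine (sum_le_card_nsmul _ _ ((P.S + 1) * (2 ^ (ex + (P.gp + P.rh)) *
      (P.Xc ^ (A.h - 1) * P.Yc ^ u))) fun t ht => ?_).trans ?_
    · have e : P.subF ρ A t = mkO (t / P.NB % (A.k + 1)) (A.h - 1)
          (A.a * P.b + t / P.NB / (A.k + 1)) (P.lo (bi A) + t % P.NB)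
          (P.rk A (t / P.NB % (A.k + 1))) := by
        simp only [subF, h0, one_ne_zero, if_false, if_true, mem_range.1 ht]
      rw [e]
      refine (P.ramcalls_O _ _ _ _ _).trans (Nat.mul_le_mul_left _ (P.ramcalls_cP_le ?_ ?_))
      · unfold lo
        omega
      · have h6 : t / P.NB % (A.k + 1) < A.k + 1 := Nat.mod_lt _ (Nat.succ_pos _)
        generalize t / P.NB % (A.k + 1) = k' at h6
        unfold pot at hu ⊢
        unfold rk
        split_ifs with hc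
        · have : (P.k0 + 1) * (k' + P.win (A.h - 1) + 1) ≤ (P.k0 + 1) * (A.k + P.win A.h) :=
            Nat.mul_le_mul_left _ (by rcases hc with hc | hc; omega; have := w2 hc; omega)
          rw [mul_add _ _ 1] at this
          omega
        · have : (P.k0 + 1) * (k' + P.win (A.h - 1)) ≤ (P.k0 + 1) * (A.k + P.win A.h) :=
            Nat.mul_le_mul_left _ (by omega)
          omega
    · have h6 : P.nO A * (P.S + 1) * 2 ^ (P.gp + P.rh) ≤ P.Yc := by
        have : P.nO A ≤ P.b * P.KK * P.NB :=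
          Nat.mul_le_mul_right _ (Nat.mul_le_mul_left _ (by omega))
        have := Nat.mul_le_mul_right (2 ^ (P.gp + P.rh)) (Nat.mul_le_mul_right (P.S + 1) this)
        unfold Yc
        omega
      rw [card_range, smul_eq_mul]
      calc P.nO A * ((P.S + 1) * (2 ^ (ex + (P.gp + P.rh)) * (P.Xc ^ (A.h - 1) * P.Yc ^ u)))
          = P.nO A * (P.S + 1) * 2 ^ (P.gp + P.rh) * (2 ^ ex * (P.Xc ^ (A.h - 1) * P.Yc ^ u)) := by
            ring
        _ ≤ P.Yc * (2 ^ ex * (P.Xc ^ (A.h - 1) * P.Yc ^ u)) := Nat.mul_le_mul_right _ h6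
        _ = 2 ^ ex * W0 := by rw [hW0]; ring
  have s2 : ∑ n ∈ range P.N, P.callsF (P.subF ρ A (P.nO A + n)) ≤
      P.N + P.NS * (2 ^ (ex + P.lm) * W0) := by
    have key : ∀ n, P.callsF (P.subF ρ A (P.nO A + n)) ≤
        1 + (if n % P.b < 2 ^ (n / P.b) ∧ n / P.b ≤ ex + P.lm then
          2 ^ (ex + P.lm - n / P.b) * W0 else 0) := by
      intro n
      have e : P.subF ρ A (P.nO A + n) =
          if P.act (bi A) n then P.subP ρ A n else mkO 0 0 0 0 0 := by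
        simp only [subF, h0, one_ne_zero, if_false, if_true, Nat.not_lt.2 (Nat.le_add_right _ n),
          Nat.add_sub_cancel_left]
      rw [e]
      by_cases ha : P.act (bi A) n
      · rw [if_pos ha, subP, ramcalls_P]
        by_cases hb : P.smp (A.h - 1) (P.bd (bi A) n)
        · have a1 : P.lm + P.lb ≤ bi A + n / P.b := ha.1
          have a2 : P.bd (bi A) n ≤ (A.h - 1) * P.lb + P.ie + P.sh := hb.2
          have a3 : P.bd (bi A) n = bi A + n / P.b - (P.lm + P.lb) := rfl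
          rw [if_pos hb, if_pos ⟨ha.2, by omega⟩]
          refine le_trans (P.ramcalls_cP_le (E := ex + P.lm - n / P.b) (u := u + 1) (by omega) ?_)
            (Nat.le_add_left _ _)
          rw [← hu]
          exact Nat.add_le_add_left (Nat.mul_le_mul_left _ (by omega)) _
        · rw [if_neg hb]
          exact Nat.le_add_right _ _
      · rw [if_neg ha, ramcalls_O0]
        exact Nat.le_add_right _ _
    refine (sum_le_sum fun n _ => key n).trans ?_
    rw [sum_add_distrib, sum_const, card_range, smul_eq_mul, mul_one]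
    exact Nat.add_le_add_left (ramcalls_sum P.b_pos
      (fun β t => if t < 2 ^ β ∧ β ≤ ex + P.lm then 2 ^ (ex + P.lm - β) * W0 else 0)
      (fun β => ramcalls_act _ _ _ β) P.NS) _
  have h7 : 1 ≤ 2 ^ ex * W0 := Nat.mul_pos (Nat.two_pow_pos _) (P.ramcalls_XY _ _)
  have h7' : P.N ≤ 2 ^ ex * W0 := by
    have a1 : P.N ≤ P.Yc := by unfold Yc; omega
    have a2 : 2 ^ ex * W0 = P.Yc * (2 ^ ex * (P.Xc ^ (A.h - 1) * P.Yc ^ u)) := by rw [hW0]; ring
    rw [a2]
    exact a1.trans (Nat.le_mul_of_pos_right _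
      (Nat.mul_pos (Nat.two_pow_pos _) (P.ramcalls_XY _ _)))
  have h8 : P.callsF A = P.NS * (2 ^ (ex + P.lm) * W0) + 3 * (2 ^ ex * W0) := by
    have a1 : P.Xc ^ A.h = P.Xc * P.Xc ^ (A.h - 1) := by
      rw [← pow_succ', Nat.sub_add_cancel h2]
    simp only [callsF, h0, one_ne_zero, if_false, if_true, hs, cP, hu, ← hex]
    rw [a1, hW0]
    generalize P.Xc ^ (A.h - 1) = X1
    unfold Xc
    ring
  have h9 : P.cntF A = P.nO A + if (A.h - 1) % P.ell = 0 then 0 else P.N := by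
    simp [cntF, h0, hs]
  have s3 : ∑ n ∈ range (if (A.h - 1) % P.ell = 0 then 0 else P.N),
      P.callsF (P.subF ρ A (P.nO A + n)) ≤ P.N + P.NS * (2 ^ (ex + P.lm) * W0) := by
    split_ifs
    · simp
    · exact s2
  rw [h8, h9, sum_range_add]
  omega

theorem callsF_le (hP : P.Good) (ρ : ℕ → Bool) (A : Arg) (hA : P.ValF A) :
    1 + ∑ t ∈ range (P.cntF A), P.callsF (P.subF ρ A t) ≤ P.callsF A := by
  rcases hA with h | h | h
  · exact ramcalls_mode0 ρ A h.1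
  · exact ramcalls_mode1 hP ρ A h.1 h.2.1 h.2.2.2.2.2.1
  · rw [h]; exact ramcalls_root ρ

theorem callsRoot_le (h : P.kp ≤ P.D * P.lb) : P.callsRoot * (P.TS + 7) ≤ P.CU := by
  have h1 : P.TS + 7 ≤ 2 ^ P.kp * (5 * P.DW + 7) := by
    have a1 : 1 ≤ 2 ^ P.kp := Nat.one_le_two_pow
    have a2 : P.DW ≤ 2 ^ P.kp * P.DW := Nat.le_mul_of_pos_left _ a1
    have a3 : P.TS = 4 * (2 ^ P.kp * P.DW) + P.DW := by unfold TS Qm; ring
    have a4 : 2 ^ P.kp * (5 * P.DW + 7) = 5 * (2 ^ P.kp * P.DW) + 7 * 2 ^ P.kp := by ring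
    omega
  have h2 : 2 ^ (P.D * P.lb + P.ie + P.rh + P.lb) =
      2 ^ (P.D * P.lb + P.ie + P.rh + P.lb - P.kp) * 2 ^ P.kp := by
    rw [← pow_add, Nat.sub_add_cancel (by omega)]
  unfold callsRoot CU
  rw [h2]
  calc _ ≤ 2 ^ (P.D * P.lb + P.ie + P.rh + P.lb - P.kp) * P.cR * (2 ^ P.kp * (5 * P.DW + 7)) :=
        Nat.mul_le_mul_left _ h1
    _ = _ := by ring

end Pm

end Vale.Agent.P315F
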