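import Vale.Agent.P315F.RamArgs
import Vale.Agent.P315F.RamCalls

/-! The recursion scheme applies. -/

namespace Vale.Agent.P315F

open Vale.Agent.P315 Finset

theorem sch_pre : sch.Pre where
  par := fun _ _ _ h => ⟨h.1.bg 0 (by omega), h.1.bg 1 (by omega), h.1.sm⟩
  val := fun s A t h hA ht => (Pm.valF_sub h.1 s.ρ A t hA ht).1
  rank := fun s A t h hA ht => (Pm.valF_sub h.1 s.ρ A t hA ht).2
  bd := fun _ A h hA e => (Pm.valF_bd A hA e).trans h.2.1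
  cnt := fun _ A _ hA => Nat.mul_le_mul_right _ (Pm.cntF_le A hA)
  calls := fun s A h hA => Pm.callsF_le h.1 s.ρ A hA
  hTS := fun s _ => s.P.TS_pos
  hU := fun _ _ => le_rfl

theorem sch_cnt : Rep sch.Jf fun c => (sch.X c.s).cnt c.A := by
  have hO : Ov sch.Jf (fun c => c) sch.Jf.I := Ov.id
  have H := bs_pr (jf_bs hO)
  have hs := H.smp (jf_h hO) (jf_bi hO)
  exact Rep.ite' (RepP.eq (jf_mo hO) (Rep.c 0))
    (Rep.ite' (hs.and (RepP.ne (jf_j hO) (Rep.c 0))) H.S (Rep.c 0))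
    (Rep.ite' (RepP.eq (jf_mo hO) (Rep.c 1))
      (Rep.ite' hs ((jf_nO hO).add (Rep.ite' (jf_wb hO) (Rep.c 0) H.N)) (Rep.c 0))
      (H.K.mul H.nbm))

theorem repargs_O : Ov sch.Js (fun q => q.1) sch.Jf.I := fun _ _ k => k.1

theorem repargs_gen (f : Arg → ℕ)
    (h1 : Rep sch.Js fun q => f (mkP q.1.A.k q.1.A.h q.1.A.a (bi q.1.A) q.1.A.j
      (q.1.s.P.base q.1.A.h q.1.A.k q.1.A.a (bi q.1.A) q.1.A.j q.2)))
    (h2 : Rep sch.Js fun q => f (mkO (q.2 / q.1.s.P.NB % (q.1.A.k + 1)) (q.1.A.h - 1)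
      (q.1.A.a * q.1.s.P.b + q.2 / q.1.s.P.NB / (q.1.A.k + 1))
      (q.1.s.P.lo (bi q.1.A) + q.2 % q.1.s.P.NB)
      (q.1.s.P.rk q.1.A (q.2 / q.1.s.P.NB % (q.1.A.k + 1)))))
    (h3 : Rep sch.Js fun q => f (q.1.s.P.subP q.1.s.ρ q.1.A (q.2 - q.1.s.P.nO q.1.A)))
    (h5 : Rep sch.Js fun q => f (mkO (2 * q.1.s.P.K + q.2 / q.1.s.P.nbm) q.1.s.P.D 0
      (q.1.s.P.lo q.1.s.P.g0 + q.2 % q.1.s.P.nbm) q.1.s.P.k0)) :
    Rep sch.Js fun q => f ((sch.X q.1.s).sub q.1.A q.2) := by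
  have hO := repargs_O
  have H := bs_pr (jf_bs hO)
  have ht : Rep sch.Js fun q => q.2 := Sch.rep_t
  have ha : RepP ((sch.Js.and fun q => mo q.1.A = 1).and fun q => ¬q.2 < q.1.s.P.nO q.1.A)
      fun q => q.1.s.P.act (bi q.1.A) (q.2 - q.1.s.P.nO q.1.A) := by
    refine H.wa.wa.act (jf_bi hO).wa.wa (ht.sub (jf_nO hO)).wa.wa fun q m k => ?_
    have a1 : q.2 < q.1.s.P.cntF q.1.A := k.1.1.2.2
    have a2 : mo q.1.A = 1 := k.1.2
    have a3 : ¬q.2 < q.1.s.P.nO q.1.A := k.2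
    unfold Pm.cntF at a1
    rw [if_neg (by omega), if_pos a2] at a1
    show q.2 - q.1.s.P.nO q.1.A < q.1.s.P.N
    split_ifs at a1 <;> omega
  refine (Rep.ite' (RepP.eq (jf_mo hO) (Rep.c 0)) h1
    (Rep.ite (RepP.eq (jf_mo hO) (Rep.c 1))
      (Rep.ite (RepP.lt ht (jf_nO hO)).wa h2.wa.wa
        (Rep.ite' ha h3.wa.wa (Rep.c (f (mkO 0 0 0 0 0))))) h5.wa)).congr' fun q => ?_
  show _ = f (q.1.s.P.subF q.1.s.ρ q.1.A q.2)
  unfold Pm.subF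
  simp only [apply_ite f]

theorem sch_sub : (Rep sch.Js fun q => ((sch.X q.1.s).sub q.1.A q.2).md) ∧
    (Rep sch.Js fun q => ((sch.X q.1.s).sub q.1.A q.2).k) ∧
    (Rep sch.Js fun q => ((sch.X q.1.s).sub q.1.A q.2).h) ∧
    (Rep sch.Js fun q => ((sch.X q.1.s).sub q.1.A q.2).a) ∧
    (Rep sch.Js fun q => ((sch.X q.1.s).sub q.1.A q.2).j) ∧
    (Rep sch.Js fun q => ((sch.X q.1.s).sub q.1.A q.2).ad) := by
  have hO := repargs_O
  have H := bs_pr (jf_bs hO)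
  have ht : Rep sch.Js fun q => q.2 := Sch.rep_t
  have hk := jf_k hO
  have hh := jf_h hO
  have ha := jf_a hO
  have hj := jf_j hO
  have hi := jf_bi hO
  have hn := ht.sub (jf_nO hO)
  have hk1 := hk.add (Rep.c 1)
  have hk' := (ht.div H.NB).mod hk1
  have hSZ := bs_SZ (jf_bs hO) H.ell (Al.of fun _ => le_rfl)
  have hk0 := H.k0.add (Rep.c 1)
  have hHS : Rep sch.Js fun q => q.1.s.P.HS :=
    ((((H.KK.mul H.NA).mul H.NI).mul hk0).mul H.S).mul hSZ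
  refine ⟨repargs_gen Arg.md (((Rep.c 3).mul hi).add (Rep.c 1))
      ((Rep.c 3).mul ((H.lo hi).add (ht.mod H.NB)))
      (((Rep.c 3).mul (H.bd hi hn)).add (Rep.c 1))
      ((Rep.c 3).mul ((H.lo H.g0).add (ht.mod H.nbm))),
    repargs_gen Arg.k hk hk' hk (((Rep.c 2).mul H.K).add (ht.div H.nbm)),
    repargs_gen Arg.h hh (hh.sub (Rep.c 1)) (hh.sub (Rep.c 1)) H.D,
    repargs_gen Arg.a ha ((ha.mul H.b).add ((ht.div H.NB).div hk1))
      ((ha.mul H.b).add (jf_Jc hO hn)) (Rep.c 0),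
    repargs_gen Arg.j hj (Rep.ite' ((RepP.lt hk' hk).or (jf_wb hO)) H.k0 (hj.sub (Rep.c 1))) hj H.k0,
    repargs_gen Arg.ad ((hh.mul hHS).add (((((((((((hk.mod H.KK).mul H.NA).add
        (ha.mod H.NA)).mul H.NI).add (hi.mod H.NI)).mul hk0).add (hj.mod hk0)).mul H.S).add
        (ht.mod H.S))).mul hSZ))
      (Rep.c 0) ((jf_sa hO hn).add (jf_SZ hO)) (Rep.c 0)⟩

theorem sch_spec (hpost : sch.Post sch.Jp.I) : ∃ (body : Cmd) (κ : ℕ), ∀ (s : Cf) Pr B, s.ok →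
    Env B s.V s.R κ → Pr[1]? = some body →
    s.recF.Spec Pr B s.V ((s.P.TS + 7) * (κ * s.R ^ κ)) :=
  Sch.spec sch_pre sch_cnt sch_sub.1 sch_sub.2.1 sch_sub.2.2.1 sch_sub.2.2.2.1 sch_sub.2.2.2.2.1
    sch_sub.2.2.2.2.2 hpost

end Vale.Agent.P315F
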