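import Vale.Agent.P315F.RepTab

/-! Post-processing of the calls that are not sampled passes. -/

namespace Vale.Agent.P315F

open Vale.Agent.P315 Finset

variable {τ : Type} {J : Inv τ}

theorem repdet_lx {π : τ → Cf} (hO : Ov J π Cf.Bs) : Rep J fun t => (π t).x.length :=
  Rep.rd 0 (by decide) (by decide) (Rep.c 1) fun t m k => (hO t m k).2.lx

theorem repdet_ly {π : τ → Cf} (hO : Ov J π Cf.Bs) : Rep J fun t => (π t).y.length :=
  Rep.rd 0 (by decide) (by decide) (Rep.c 2) fun t m k => (hO t m k).2.ly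

theorem bs_w {π : τ → Cf} {u p : τ → ℕ} (hO : Ov J π Cf.Bs) (hu : Rep J u) (hp : Rep J p) :
    Rep J fun t => (π t).w (u t) (p t) := by
  have H := bs_pr hO
  have lx := repdet_lx hO
  have ly := repdet_ly hO
  have i1 := ((hu.add hp).sub H.O).div (Rep.c 2)
  have i2 := ((hu.add H.O).sub hp).div (Rep.c 2)
  have g1 : Rep J fun t => (π t).x.getD ((u t + p t - (π t).P.O) / 2) 0 :=
    Rep.rd 1 (by decide) (by decide) i1 fun t m k => (hO t m k).2.ax _
  have g2 : Rep J fun t => (π t).y.getD ((u t + (π t).P.O - p t) / 2) 0 :=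
    Rep.rd 2 (by decide) (by decide) i2 fun t m k => (hO t m k).2.ay _
  exact Rep.ite' (RepP.le (lx.add ly) hu) (Rep.c 0)
    (Rep.ite' (RepP.eq (((hu.add hp).add H.O).mod (Rep.c 2)) (Rep.c 1)) (Rep.c 0)
      (Rep.ite' ((RepP.le H.O (hu.add hp)).and ((RepP.le hp (hu.add H.O)).and
        ((RepP.lt i1 lx).and ((RepP.lt i2 ly).and (RepP.eq g1 g2))))) (Rep.c 0) (Rep.c 1)))

theorem bs_det {π : τ → Cf} {h a i p p' : τ → ℕ} (hO : Ov J π Cf.Bs) (hh : Rep J h) (ha : Rep J a)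
    (hi : Rep J i) (hp : Rep J p) (hp' : Rep J p')
    (hb : Al J fun t => h t ≤ (π t).P.D ∧ i t ≤ (π t).P.gmx) :
    Rep J fun t => (π t).P.det (π t).w (h t) (a t) (i t) (p t) (p' t) := by
  have H := bs_pr hO
  have hl : Rep J fun t => leafE (π t).w (a t) (p t) (p' t) :=
    Rep.ite' (RepP.eq hp hp') (bs_w hO ha hp) (hp.dist hp')
  have h2 := H.p2 hi (hb.imp fun t k => by have := (π t).P.pw_ge; omega)
  exact bs_H hO (Rep.ite' ((RepP.eq hh (Rep.c 0)).and (RepP.le hi (H.ie.add H.sh)))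
    ((((H.JJ.mul hl).add H.J0).mul H.U1).div h2)
    ((H.dN hi (hb.imp fun _ k => k.2) hp hp').add (H.lenN hh (hb.imp fun _ k => k.1) hi)))

theorem repdet_root {π : τ → Cx Cf} (hO : Ov J π sch.Jp.I) (hA : Al J fun t => (π t).A = mkR) :
    Rep J fun t => (π t).s.P.ans (π t).s.x (π t).s.y (π t).s.ρ := by
  have hB := jf_bs (jp_jf hO)
  have H := bs_pr hB
  have lx := repdet_lx hB
  have ly := repdet_ly hB
  have hg0 : ∀ P : Pm, P.g0 + 2 ≤ P.gmx := fun P => by have := P.pw_ge; unfold Pm.g0; omega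
  have hr := H.r H.g0 (Al.of fun t => by have := hg0 (π t).s.P; omega)
  have hp := hr.mul (H.O.div hr)
  have hp' := hr.mul (((H.O.add lx).sub ly).div hr)
  have hz : Rep J fun t => (π t).s.P.rootZ ((π t).s.P.A (π t).s.w (π t).s.ρ (π t).s.P.D)
      ((π t).s.P.O + (π t).s.x.length - (π t).s.y.length) := by
    refine bs_mn hB H.K (fun t => by have := (π t).s.P.small_ge; omega)
      ((H.nbm2 2 (by omega)).mul H.U1) ?_
    refine (H.U1.sub (H.U1.div H.mm)).wk.add ?_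
    refine bs_sum (π := fun q : τ × ℕ => (π q.1).s) hB.wk H.nbm.wk
      (fun q => by have := (π q.1).s.P.small_ge; omega) ?_
    have hi : Rep ((J.ext fun t s => s < (π t).s.P.K).ext fun q s => s < (π q.1).s.P.nbm)
        fun q => (π q.1.1).s.P.lo (π q.1.1).s.P.g0 + q.2 := (H.lo H.g0).wk.wk.add Rep.var
    refine Rep.ite (RepP.le hi (PR.hi (p := fun t => (π t).s.P) H.g0).wk.wk) ?_ (Rep.c 0)
    refine Rep.mul (H.wk.wk.wa.p2 Rep.var.wa (Al.var.wa.imp fun q k => by
      have := (π q.1.1).s.P.pw_ge; omega)) ?_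
    have hs : Rep (((J.ext fun t s => s < (π t).s.P.K).ext fun q s => s < (π q.1).s.P.nbm).and
        fun q => (π q.1.1).s.P.lo (π q.1.1).s.P.g0 + q.2 ≤ (π q.1.1).s.P.hi (π q.1.1).s.P.g0)
        fun q => q.1.2 * (π q.1.1).s.P.nbm + q.2 :=
      ((Rep.var.wk.mul H.nbm.wk.wk).add Rep.var).wa
    have hsub : Al (((J.ext fun t s => s < (π t).s.P.K).ext fun q s => s < (π q.1).s.P.nbm).and
        fun q => (π q.1.1).s.P.lo (π q.1.1).s.P.g0 + q.2 ≤ (π q.1.1).s.P.hi (π q.1.1).s.P.g0)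
        fun q => (π q.1.1).s.P.subF (π q.1.1).s.ρ (π q.1.1).A (q.1.2 * (π q.1.1).s.P.nbm + q.2) =
          mkO (2 * (π q.1.1).s.P.K + q.1.2) (π q.1.1).s.P.D 0
            ((π q.1.1).s.P.lo (π q.1.1).s.P.g0 + q.2) (π q.1.1).s.P.k0 := fun q m k => by
      have a1 : (π q.1.1).A = mkR := hA _ m k.1.1.1
      have a2 : q.2 < (π q.1.1).s.P.nbm := k.1.2.2
      obtain ⟨b1, b2⟩ := ramidx_dm q.1.2 a2
      beta_reduce
      rw [a1]
      unfold Pm.subF
      rw [if_neg (by rw [mo_mkR]; omega), if_neg (by rw [mo_mkR]; omega), b1, b2]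
    refine (jp_tab (π := fun q : (τ × ℕ) × ℕ => π q.1.1) hO.wk.wk.wa hs hi.wa hp.wk.wk.wa
      hp'.wk.wk.wa fun q m k => ?_).congr fun q m k => ?_
    · have a1 : (π q.1.1).A = mkR := hA _ m k.1.1.1
      have a2 : q.2 < (π q.1.1).s.P.nbm := k.1.2.2
      have a3 : q.1.2 < (π q.1.1).s.P.K := k.1.1.2.2
      have a4 : (π q.1.1).s.P.lo (π q.1.1).s.P.g0 + q.2 ≤ (π q.1.1).s.P.hi (π q.1.1).s.P.g0 := k.2
      have a5 := hsub q m k
      have a6 := (π q.1.1).s.P.rb_dvd a4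
      beta_reduce at a5 ⊢
      rw [a5]
      refine ⟨?_, by rw [mo_mkO]; omega, bi_mkO _ _ _ _ _, a4.trans (hg0 _), ?_,
        a6.mul_right _, a6.mul_right _⟩
      · rw [a1]
        unfold Pm.cntF
        rw [if_neg (by rw [mo_mkR]; omega), if_neg (by rw [mo_mkR]; omega)]
        exact ramidx_lt a3 a2
      · refine (Nat.mul_div_le _ _).trans ?_
        exact Nat.pow_le_pow_right (by omega) (by omega)
    · have a5 := hsub q m k
      beta_reduce at a5 ⊢
      rw [a5]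
      unfold Pm.tabF
      rw [if_pos (mo_mkO _ _ _ _ _), bi_mkO]
      rfl
  have hlo := H.p2' (H.lo H.g0) fun t => by
    have := (π t).s.P.pw_ge; have := hg0 (π t).s.P; unfold Pm.lo; omega
  have hg1 := H.p2' (H.g0.add (Rep.c 1)) fun t => by
    have := (π t).s.P.pw_ge; have := hg0 (π t).s.P; omega
  exact Rep.ite' ((RepP.le ly (H.O.add lx)).and ((RepP.le ((H.O.add lx).sub ly) H.Qm).and
      (RepP.lt (hz.mul hlo) (hg1.mul H.U1))))
    ((lx.add ly).min ((((hz.mul hlo).add ((((Rep.c 2).mul (hr.sub (Rep.c 1))).mul H.JJ).mul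
      H.U1)).mul (H.J0.add (Rep.c 2))).div ((H.J0.mul H.JJ).mul H.U1))) (lx.add ly)

theorem repdet_A (P : Pm) (w : ℕ → ℕ → ℕ) (ρ : ℕ → Bool) (h k a i j p p' : ℕ) :
    P.A w ρ h k a i j p p' = if P.smp h i then
      if j = 0 then P.low i p p' else
        (∑ s ∈ range P.S, P.Pa w ρ h k a i j (P.base h k a i j s) p p') / P.S
      else P.det w h a i p p' := by
  cases h with
  | zero => rw [if_neg fun h => by have := h.1; omega, P.A_zero]
  | succ h => exact P.A_succ w ρ h k a i j p p'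

theorem repdet_Pa (P : Pm) (w : ℕ → ℕ → ℕ) (ρ : ℕ → Bool) {h i : ℕ} (hs : ¬P.smp h i)
    (k a j ad : ℕ) : P.Pa w ρ h k a i j ad = P.det w h a i := by
  cases h with
  | zero => exact P.Pa_zero w ρ k a i j ad
  | succ h => rw [P.Pa_succ, Pm.passF, if_neg hs]

theorem repdet_tab {π : τ → Cx Cf} {e : τ → ℕ} (hO : Ov J π sch.Jp.I) (he : Rep J e)
    (hb : Al J fun t => e t < (π t).s.P.TS ∧ mo (π t).A ≠ 2 ∧
      ¬(mo (π t).A = 1 ∧ (π t).s.P.smp (π t).A.h (bi (π t).A))) :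
    Rep J fun t => (π t).s.P.GF (π t).s.x (π t).s.y (π t).s.ρ (π t).A (e t) := by
  have hF := jp_jf hO
  have hB := jf_bs hF
  have H := bs_pr hB
  have hv : Al J fun t => (π t).A.h ≤ (π t).s.P.D ∧ bi (π t).A ≤ (π t).s.P.gmx := fun t m k => by
    have := (π t).s.P.pw_ge
    rcases jf_val hF t m k with h | h | h
    · exact ⟨h.2.2.1, by have := h.2.2.2.2.1; omega⟩
    · exact ⟨h.2.2.1, by have := h.2.2.2.2.1; omega⟩
    · exact absurd (by rw [h, mo_mkR]) (hb t m k).2.1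
  have hi := jf_bi hF
  have hrb := H.rb hi (hv.imp fun _ k => k.2)
  have hp := he.div H.DW
  have hp' := (hp.add (hrb.mul (he.mod H.DW))).sub (hrb.mul H.DH)
  have hdet := bs_det hB (jf_h hF) (jf_a hF) hi hp hp' hv
  have hlow := bs_H hB (H.dN hi (hv.imp fun _ k => k.2) hp hp')
  refine Rep.cases (H.smp (jf_h hF) hi) (Rep.cases (RepP.eq (jf_j hF) (Rep.c 0)).wa
    (hlow.wa.wa.congr fun t m k => ?_) ?_) (hdet.wa.congr fun t m k => ?_)
  · obtain ⟨-, a2, a3⟩ := hb t m k.1.1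
    have a4 : (π t).s.P.smp (π t).A.h (bi (π t).A) := k.1.2
    have a5 : (π t).A.j = 0 := k.2
    have a0 : mo (π t).A = 0 := by
      have : mo (π t).A < 3 := Nat.mod_lt _ (by omega)
      have : mo (π t).A ≠ 1 := fun h => a3 ⟨h, a4⟩
      omega
    beta_reduce
    unfold Pm.GF Pm.flat Pm.tabF
    rw [if_neg a2, if_pos a0, repdet_A, if_pos a4, if_pos a5]
    rfl
  · have a0 : Al ((J.and fun t => (π t).s.P.smp (π t).A.h (bi (π t).A)).and
        fun t => ¬(π t).A.j = 0) fun t => mo (π t).A = 0 := fun t m k => by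
      obtain ⟨-, a2, a3⟩ := hb t m k.1.1
      have : mo (π t).A < 3 := Nat.mod_lt _ (by omega)
      have : mo (π t).A ≠ 1 := fun h => a3 ⟨h, k.1.2⟩
      omega
    have hsum := bs_sum (J := (J.and fun t => (π t).s.P.smp (π t).A.h (bi (π t).A)).and
        fun t => ¬(π t).A.j = 0) (π := fun t => (π t).s)
      (f := fun t s => (π t).s.P.GF (π t).s.x (π t).s.y (π t).s.ρ
        ((π t).s.P.subF (π t).s.ρ (π t).A s) (e t))
      hB.wa.wa H.S.wa.wa (fun t => by have := (π t).s.P.small_ge; omega)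
      (jp_slot (π := fun q : τ × ℕ => π q.1) hO.wa.wa.wk Rep.var he.wa.wa.wk fun q m k => by
        refine ⟨?_, (hb q.1 m k.1.1.1).1⟩
        have a1 : mo (π q.1).A = 0 := a0 q.1 m k.1
        have a2 : q.2 < (π q.1).s.P.S := k.2.2
        show q.2 < (π q.1).s.P.cntF (π q.1).A
        unfold Pm.cntF
        rw [if_pos a1, if_pos ⟨k.1.1.2, k.1.2⟩]
        exact a2)
    refine (hsum.div H.S.wa.wa).congr fun t m k => ?_
    have a1 : mo (π t).A = 0 := a0 t m k
    have a4 : (π t).s.P.smp (π t).A.h (bi (π t).A) := k.1.2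
    have a5 : ¬(π t).A.j = 0 := k.2
    have a6 : ∀ s, (π t).s.P.GF (π t).s.x (π t).s.y (π t).s.ρ
        ((π t).s.P.subF (π t).s.ρ (π t).A s) (e t) =
        (π t).s.P.flat (bi (π t).A) ((π t).s.P.Pa (wt (π t).s.x (π t).s.y (π t).s.P.O) (π t).s.ρ
          (π t).A.h (π t).A.k (π t).A.a (bi (π t).A) (π t).A.j
          ((π t).s.P.base (π t).A.h (π t).A.k (π t).A.a (bi (π t).A) (π t).A.j s)) (e t) := by
      intro s
      unfold Pm.subF
      rw [if_pos a1]
      unfold Pm.GF Pm.tabF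
      rw [if_neg (by rw [mo_mkP]; omega), if_neg (by rw [mo_mkP]; omega), bi_mkP]
      rfl
    beta_reduce
    simp only [a6]
    unfold Pm.GF Pm.flat Pm.tabF
    rw [if_neg (by omega), if_pos a1, repdet_A, if_pos a4, if_neg a5]
  · obtain ⟨-, a2, -⟩ := hb t m k.1
    have a4 : ¬(π t).s.P.smp (π t).A.h (bi (π t).A) := k.2
    beta_reduce
    unfold Pm.GF Pm.flat Pm.tabF
    rw [if_neg a2]
    by_cases a0 : mo (π t).A = 0
    · rw [if_pos a0, repdet_A, if_neg a4]
      rfl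
    · rw [if_neg a0, repdet_Pa _ _ _ a4]
      rfl

/-- Official tables (average, rank zero, not sampled), passes that are not sampled, the root. -/
theorem post_rest :
    sch.Post (sch.Jp.and fun c => ¬(mo c.A = 1 ∧ c.s.P.smp c.A.h (bi c.A))).I := by
  refine post_fin rfl (fun _ _ k => k.1.1)
    (fun c m n g k => ⟨Sch.Jp_upd sch k.1 (by omega) (by omega) _ _ _, k.2⟩) ?_ fun c m k e => ?_
  · have hO : Ov ((sch.Jp.and fun c => ¬(mo c.A = 1 ∧ c.s.P.smp c.A.h (bi c.A))).ext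
        fun c e => e < c.s.P.TS) (fun q => q.1) sch.Jp.I := fun _ _ k => k.1.1
    refine Rep.cases (RepP.eq (jf_mo (jp_jf hO)) (Rep.c 2)) ?_ ?_
    · refine (repdet_root hO.wa fun q m k => ?_).congr fun q m k => ?_
      · have a1 : mo q.1.A = 2 := k.2
        rcases jf_val (jp_jf hO) q m k.1 with h | h | h
        · have := h.1; omega
        · have := h.1; omega
        · exact h
      · have a1 : mo q.1.A = 2 := k.2
        beta_reduce
        unfold Pm.GF
        rw [if_pos a1]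
    · exact repdet_tab hO.wa Rep.var.wa fun q m k => ⟨k.1.2.2, k.2, k.1.1.2⟩
  · have h1 : c.s.ok := k.1.1.1
    have h2 := c.s.P.GF_le c.s.x c.s.y c.s.ρ c.A e
    have h3 := c.s.P.small_ge
    have h4 := c.s.P.small_le_big
    have h5 := h1.2.1
    have h6 := h1.2.2.2
    omega

end Vale.Agent.P315F
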