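import Vale.Agent.P315F.RepPass
import Vale.Agent.P315F.RepDet
import Vale.Agent.P315F.RepArgs
import Vale.Agent.P315F.InitB

/-! The whole program. -/

namespace Vale.Agent.P315F

open Vale.Agent.P315 Finset

theorem post_all : sch.Post sch.Jp.I := by
  have hF : Ov sch.Jp (fun c => c) sch.Jf.I := fun _ _ k => k.1
  exact Stp.ite ((RepP.eq (jf_mo hF) (Rep.c 1)).and ((bs_pr (jf_bs hF)).smp (jf_h hF) (jf_bi hF)))
    post_pass post_rest (Al.of fun c => Nat.le_add_left 1 (c.s.P.TS + 6))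
    fun c m k => (jf_bs hF c m k).2.sm

theorem GF_root (P : Pm) (x y : List ℕ) (ρ : ℕ → Bool) (e : ℕ) :
    P.GF x y ρ mkR e = P.ans x y ρ := if_pos mo_mkR

theorem prog_ex : ∃ (main body : Cmd) (κ : ℕ), ∀ (Pr : List Cmd) (c : C0) (B : ℕ),
    Pr[1]? = some body → c.Ok → Env B c.V c.R κ → Bd c.V c.inp →
    ∃ m' T, Does Pr B main c.inp m' T ∧
      T + 1 ≤ (c.lg + 3) * (((par c.n 0).CU + c.n + 2) * (κ * c.R ^ κ)) ∧
      m' 4 0 = answer c.n c.x c.y (ext c.r) := by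
  obtain ⟨c0, k0, H0⟩ := init0
  obtain ⟨c1, k1, H1⟩ := init1
  obtain ⟨c2, k2, H2⟩ := fin1
  obtain ⟨c3, k3, H3⟩ := fin2
  obtain ⟨body, k4, H4⟩ := sch_spec post_all
  obtain ⟨k, hk⟩ : ∃ k, k = k0 + k1 + k2 + k3 + k4 + 3 := ⟨_, rfl⟩
  refine ⟨.seq c0 (.seq (.loop (.rd 21 (.const 2)) (.seq c1 (.seq (.call 1) c2))) c3), body,
    8 * k, fun Pr c B hPr1 hc hE hB => ?_⟩
  have hR := hE.hR
  have hVB := fill_lt hE (by omega)
  obtain ⟨W, hW⟩ : ∃ W, W = ((par c.n 0).CU + c.n + 2) * (k * c.R ^ k) := ⟨_, rfl⟩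
  have hU : ∀ k' ≤ k, (c.n + 2) * (k' * c.R ^ k') ≤ W := fun k' h =>
    hW ▸ Nat.mul_le_mul (by omega) (cost_mono hR h)
  have hW1 : 1 ≤ W := le_trans (Nat.mul_pos (by omega) (Nat.mul_pos one_pos (Nat.pow_pos hR)))
    (hU 1 (by omega))
  obtain ⟨m1, d1, b1, -, q1⟩ := H0 c Pr B c.inp (hE.mono (by omega))
    ⟨hc, fun _ _ _ => rfl, fun _ => rfl, rfl⟩ hB
  have hlg : c.lg + 2 < B := by
    have h1 : c.lg ≤ c.n := Nat.log_le_self 2 c.n
    have h2 := hc.hn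
    have h3 : c.n * 2 ≤ c.n ^ 5 := by
      rw [pow_succ']
      exact Nat.mul_le_mul_left _ (le_trans (by omega) (Nat.le_self_pow (by omega) _))
    have h4 := hc.hV
    omega
  obtain ⟨m2, d2, q2, b2⟩ := does_loop (Pr := Pr) (B := B) (a := 21) (i := 2) (N := c.lg + 2)
    (T := W + (W + W + 1) + 1) (c := .seq c1 (.seq (.call 1) c2))
    (Q := fun t m => c.Q t m ∧ Bd c.V m) (by decide) (by omega) hlg
    (fun t _ m h => h.1.2.2.2.2) (fun t ht m h => by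
      obtain ⟨w1, e1, a1, -, p1, r1, f1⟩ := H1 (c, t) Pr B m (hE.mono (by omega)) ⟨ht, h.1⟩ h.2
      have hok := hc.cf ht w1
      obtain ⟨w2, e2, i2, a2, s2, -, -, g2⟩ := H4 (c.cf t w1) Pr B hok (hE.mono (by omega)) hPr1
        mkR 0 w1 (Or.inr (Or.inr rfl)) ⟨r1 w1, fun _ _ _ => rfl⟩ a1 f1 (by
          have h1 := hok.2.1
          have h2 := (c.cf t w1).P.big_ge
          have h3 : (0 + (c.cf t w1).recF.rank mkR + 2) * ((c.cf t w1).recF.STR + 8) ≤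
              (2 * (c.cf t w1).P.D + 5) * ((c.cf t w1).P.STR + 8) :=
            Nat.mul_le_mul (by simp [Cf.recF, Pm.rankF]) le_rfl
          omega)
      have p2 : c.Q t w2 := ⟨p1.1.stab fun a i ha => i2.2 a i (by omega), s2,
        (i2.2 21 0 (by omega)).trans p1.2.2.1, (i2.2 21 1 (by omega)).trans p1.2.2.2.1,
        (i2.2 21 2 (by omega)).trans p1.2.2.2.2⟩
      obtain ⟨w3, e3, a3, -, p3⟩ := H2 (c, t) Pr B w2 (hE.mono (by omega))
        ⟨ht, p2, (g2 0 (Pm.TS_pos _)).trans (GF_root _ _ _ _ 0)⟩ a2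
      refine ⟨w3, (e1.mono (hU k1 (by omega))).seq ((e2.mono ?_).seq
        (e3.mono (hU k2 (by omega)))), p3, a3⟩
      have h1 : (par c.n t).callsRoot * ((par c.n t).TS + 7) ≤ (par c.n 0).CU :=
        Pm.callsRoot_le (P := par c.n t) (le_trans (Nat.le_of_lt_succ ht) (hc.dl t ht))
      show (par c.n t).callsRoot * (((par c.n t).TS + 7) * (k4 * c.R ^ k4)) ≤ W
      rw [← mul_assoc, hW]
      exact Nat.mul_le_mul (by omega) (cost_mono hR (by omega))) (c.lg + 2) 0 m1 (zero_add _)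
    ⟨q1, b1⟩
  obtain ⟨m3, d3, -, -, q3⟩ := H3 c Pr B m2 (hE.mono (by omega)) q2 b2
  refine ⟨m3, _, (d1.mono (hU k0 (by omega))).seq (d2.seq (d3.mono (hU k3 (by omega)))), ?_, q3⟩
  have h1 : (c.lg + 2) * (W + (W + W + 1) + 1 + 3) ≤ (c.lg + 2) * (8 * W) :=
    Nat.mul_le_mul_left _ (by omega)
  have h2 : 8 * W ≤ ((par c.n 0).CU + c.n + 2) * (8 * k * c.R ^ (8 * k)) := by
    rw [hW, mul_left_comm, ← mul_assoc 8]
    exact Nat.mul_le_mul_left _ (Nat.mul_le_mul_left _ (Nat.pow_le_pow_right hR (by omega)))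
  refine le_trans ?_ (Nat.mul_le_mul_left _ h2)
  rw [show c.lg + 3 = c.lg + 2 + 1 from rfl, add_mul (c.lg + 2) 1, one_mul]
  omega

end Vale.Agent.P315F
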