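import Vale.Agent.P315F.RamPar

/-! The arguments of the subcalls are valid and bounded. -/

namespace Vale.Agent.P315F

open Vale.Agent.P315 Finset

theorem ramargs_mod {n l : ℕ} (h : n % l ≠ 0) : 1 ≤ n ∧ (n - 1) % l = n % l - 1 := by
  rcases n with _ | n
  · simp at h
  refine ⟨by omega, ?_⟩
  rcases Nat.eq_zero_or_pos l with rfl | hl
  · simp
  rw [Nat.add_sub_cancel]
  have h1 := Nat.mod_lt n hl
  rw [Nat.add_mod] at h ⊢
  rcases Nat.lt_or_ge 1 l with h2 | h2
  · rw [Nat.mod_eq_of_lt h2] at h ⊢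
    rcases Nat.lt_or_ge (n % l + 1) l with h3 | h3
    · rw [Nat.mod_eq_of_lt h3, Nat.add_sub_cancel]
    · rw [show n % l + 1 = l by omega, Nat.mod_self] at h
      exact absurd rfl h
  · rw [show l = 1 by omega, Nat.mod_one] at h
    exact absurd rfl h

theorem ramargs_radix {x c M R : ℕ} (h : x < M) (hc : c < R) : x * R + c < M * R := by
  have h1 : (x + 1) * R ≤ M * R := Nat.mul_le_mul_right R h
  rw [add_one_mul] at h1
  omega

namespace Pm

variable {P : Pm}

theorem ramargs_jv (P : Pm) (ρ : ℕ → Bool) (c : ℕ) : P.jv ρ c < P.b := by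
  unfold jv b
  generalize c * P.lb = e
  induction P.lb with
  | zero => simp
  | succ n ih =>
    rw [sum_range_succ, pow_succ]
    split_ifs <;> omega

theorem ramargs_N (P : Pm) : 0 < P.N := Nat.mul_pos (by unfold NS; omega) P.b_pos

theorem ramargs_SZ (P : Pm) {m m' : ℕ} (h : m ≤ m') : P.SZ m ≤ P.SZ m' :=
  Nat.pow_le_pow_right (by have := P.ramargs_N; omega) h

theorem ramargs_NA (P : Pm) (h : ℕ) : P.b ^ (P.D - h) ≤ P.NA :=
  Nat.pow_le_pow_right P.b_pos (Nat.sub_le _ _)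

theorem ramargs_base (hP : P.Good) (h k a i j s : ℕ) :
    P.base h k a i j s + P.SZ P.ell ≤ (h + 1) * P.HS := by
  have hK : 0 < P.KK := by have := hP.K_pos; unfold KK; omega
  have hA : 0 < P.NA := pow_pos P.b_pos _
  have h2 := ramargs_radix (ramargs_radix (ramargs_radix (ramargs_radix (Nat.mod_lt k hK)
    (Nat.mod_lt a hA)) (Nat.mod_lt i (Nat.succ_pos _ : 0 < P.NI)))
    (Nat.mod_lt j (Nat.succ_pos P.k0))) (Nat.mod_lt s hP.S_pos)
  have h3 := Nat.mul_le_mul_right (P.SZ P.ell) (Nat.succ_le_of_lt h2)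
  rw [Nat.succ_eq_add_one, add_one_mul] at h3
  unfold base
  rw [add_one_mul, add_assoc]
  exact Nat.add_le_add_left h3 _

theorem ramargs_child {a h u : ℕ} (h1 : 1 ≤ h) (hD : h ≤ P.D) (ha : a < P.b ^ (P.D - h))
    (hu : u < P.b) : a * P.b + u < P.b ^ (P.D - (h - 1)) := by
  rw [show P.D - (h - 1) = P.D - h + 1 by omega, pow_succ]
  exact ramargs_radix ha hu

theorem Jc_lt (ρ : ℕ → Bool) (A : Arg) (n : ℕ) : P.Jc ρ A n < P.b := by
  unfold Jc Jn
  split_ifs
  · exact Nat.mod_lt _ P.b_pos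
  · exact P.ramargs_jv _ _

theorem ramargs_valO {k h a i j : ℕ} (h1 : k < P.KK) (h2 : h ≤ P.D) (h3 : a < P.b ^ (P.D - h))
    (h4 : i ≤ P.imx) (h5 : j ≤ P.k0) : P.ValF (mkO k h a i j) :=
  Or.inl ⟨mo_mkO _ _ _ _ _, h1, h2, h3, by rwa [bi_mkO], h5, rfl⟩

theorem ramargs_valP {k h a i j ad : ℕ} (h1 : k < P.KK) (h2 : h ≤ P.D) (h3 : a < P.b ^ (P.D - h))
    (h4 : i ≤ P.imx) (h5 : 1 ≤ j) (h6 : j ≤ P.k0)
    (h7 : ad + P.SZ ((h - 1) % P.ell) ≤ (P.D + 1) * P.HS) : P.ValF (mkP k h a i j ad) :=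
  Or.inr (Or.inl ⟨mo_mkP _ _ _ _ _ _, h1, h2, h3, by rwa [bi_mkP], h5, h6, h7⟩)

theorem ramargs_rkO (k h a i j : ℕ) : P.rankF (mkO k h a i j) = 2 * h + 1 := by
  unfold rankF
  rw [if_pos (mo_mkO _ _ _ _ _)]
  rfl

theorem ramargs_rkP (k h a i j ad : ℕ) : P.rankF (mkP k h a i j ad) = 2 * h := by
  unfold rankF
  rw [if_neg (by rw [mo_mkP]; omega), if_pos (mo_mkP _ _ _ _ _ _)]
  rfl

theorem valF_sub (hP : P.Good) (ρ : ℕ → Bool) (A : Arg) (t : ℕ) (hA : P.ValF A)
    (ht : t < P.cntF A) : P.ValF (P.subF ρ A t) ∧ P.rankF (P.subF ρ A t) < P.rankF A := by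
  have hpw := P.pw_ge
  rcases hA with ⟨h0, h1, h2, h3, h4, h5, -⟩ | ⟨h0, h1, h2, h3, h4, h5, h6, h7⟩ | h0
  · have hr : P.rankF A = 2 * A.h + 1 := by unfold rankF; rw [if_pos h0]
    unfold cntF at ht
    rw [if_pos h0] at ht
    split_ifs at ht with hc
    swap
    · omega
    unfold subF
    rw [if_pos h0, ramargs_rkP, hr]
    refine ⟨ramargs_valP h1 h2 h3 h4 (by have := hc.2; omega) h5 ?_, by omega⟩
    have hb := ramargs_base hP A.h A.k A.a (bi A) A.j t
    have h6 := P.ramargs_SZ (Nat.mod_lt (A.h - 1) hP.ell_pos).le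
    have h7 : (A.h + 1) * P.HS ≤ (P.D + 1) * P.HS := Nat.mul_le_mul_right _ (by omega)
    omega
  · have hn : ¬ mo A = 0 := by omega
    have hr : P.rankF A = 2 * A.h := by unfold rankF; rw [if_neg hn, if_pos h0]
    unfold cntF at ht
    rw [if_neg hn, if_pos h0] at ht
    have hs : P.smp A.h (bi A) := by
      by_contra hs
      rw [if_neg hs] at ht
      omega
    rw [if_pos hs] at ht
    obtain ⟨s1, s2⟩ := hs
    have s3 : A.h * P.lb ≤ P.D * P.lb := Nat.mul_le_mul_right _ h2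
    unfold subF
    rw [if_neg hn, if_pos h0, hr]
    by_cases hc : t < P.nO A
    · rw [if_pos hc, ramargs_rkO]
      have m1 : t / P.NB % (A.k + 1) < A.k + 1 := Nat.mod_lt _ (Nat.succ_pos _)
      have m2 : t % P.NB < P.NB := Nat.mod_lt _ (by omega)
      have m3 : t / P.NB < P.b * (A.k + 1) := Nat.div_lt_of_lt_mul (by rwa [mul_comm])
      have m4 : t / P.NB / (A.k + 1) < P.b := Nat.div_lt_of_lt_mul (by rwa [mul_comm])
      refine ⟨ramargs_valO (by omega) (by omega) (ramargs_child s1 h2 h3 m4) ?_ ?_, by omega⟩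
      · unfold lo
        omega
      · unfold rk
        split_ifs <;> omega
    · rw [if_neg hc]
      have hw : ¬ (A.h - 1) % P.ell = 0 := by
        intro hw
        rw [if_pos hw] at ht
        omega
      rw [if_neg hw] at ht
      obtain ⟨e1, e2⟩ := ramargs_mod hw
      split_ifs with ha
      · unfold subP
        rw [ramargs_rkP]
        have m1 : (t - P.nO A) / P.b < P.NS :=
          Nat.div_lt_of_lt_mul (by rw [mul_comm]; show _ < P.N; omega)
        refine ⟨ramargs_valP h1 (by omega) (ramargs_child s1 h2 h3 (Jc_lt _ _ _)) ?_ h5 h6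
          (le_trans ?_ h7), by omega⟩
        · unfold bd
          omega
        · rw [e2]
          unfold sa
          obtain ⟨m, hm⟩ : ∃ m, (A.h - 1) % P.ell = m + 1 := ⟨(A.h - 1) % P.ell - 1, by omega⟩
          have h8 : (t - P.nO A + 1) * (2 * P.SZ m) ≤ P.N * (2 * P.SZ m) :=
            Nat.mul_le_mul_right _ (by omega)
          have h9 : P.SZ (m + 1) = P.N * (2 * P.SZ m) := by unfold SZ; ring
          rw [hm, Nat.add_sub_cancel, h9, sad]
          rw [add_mul, one_mul] at h8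
          omega
      · rw [ramargs_rkO]
        exact ⟨ramargs_valO (by omega) (by omega) (pow_pos P.b_pos _) (by omega) (by omega),
          by omega⟩
  · subst h0
    have hn0 : ¬ mo mkR = 0 := by decide
    have hn1 : ¬ mo mkR = 1 := by decide
    have hr : P.rankF mkR = 2 * P.D + 2 := by unfold rankF; rw [if_neg hn0, if_neg hn1]
    unfold cntF at ht
    rw [if_neg hn0, if_neg hn1] at ht
    unfold subF
    rw [if_neg hn0, if_neg hn1, hr, ramargs_rkO]
    have m1 : t / P.nbm < P.K := Nat.div_lt_of_lt_mul (by rwa [mul_comm])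
    have m2 : t % P.nbm < P.nbm := Nat.mod_lt _ (by omega)
    refine ⟨ramargs_valO (by unfold KK; omega) le_rfl (pow_pos P.b_pos _) ?_ le_rfl, by omega⟩
    unfold lo g0
    omega

theorem valF_bd (A : Arg) (hA : P.ValF A) (e : ℕ) : A.get e ≤ P.big := by
  have hpw := P.pw_ge
  have hN := P.ramargs_NA A.h
  have hD : 2 * P.D + 5 ≤ (2 * P.D + 5) * (P.STR + 8) := Nat.le_mul_of_pos_right _ (by omega)
  have hmd : A.md = 3 * bi A + mo A := by unfold bi mo; omega
  have hb := P.big_ge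
  generalize (2 * P.U1) ^ P.mm = z1 at hb
  generalize P.Rn * 2 ^ P.pw = z2 at hb
  have : A.md ≤ P.big ∧ A.k ≤ P.big ∧ A.h ≤ P.big ∧ A.a ≤ P.big ∧
      A.j ≤ P.big ∧ A.ad ≤ P.big := by
    rcases hA with h | h | rfl
    · omega
    · omega
    · simp only [mkR, Nat.zero_le, and_true]
      omega
  rcases e with _ | _ | _ | _ | _ | _ | e <;> simp [Arg.get, this]

theorem cntF_le (A : Arg) (hA : P.ValF A) : P.cntF A ≤ P.CM := by
  unfold cntF CM
  by_cases h0 : mo A = 0
  · rw [if_pos h0]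
    split_ifs <;> omega
  rw [if_neg h0]
  by_cases h1 : mo A = 1
  · rw [if_pos h1]
    have hk : A.k + 1 ≤ P.KK := by
      rcases hA with h | h | rfl
      · omega
      · omega
      · cases h1
    have h3 : P.nO A ≤ P.b * P.KK * P.NB := Nat.mul_le_mul_right _ (Nat.mul_le_mul_left _ hk)
    split_ifs <;> omega
  · rw [if_neg h1]
    omega

end Pm

end Vale.Agent.P315F
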