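import Vale.Agent.P315F.RamPar

/-! Storage of the tables, uniform shape of a pass. -/

namespace Vale.Agent.P315F

open Vale.Agent.P315 Finset

theorem ramidx_dm (x : ℕ) {M r : ℕ} (h : r < M) : (x * M + r) / M = x ∧ (x * M + r) % M = r :=
  ⟨by rw [mul_comm, Nat.mul_add_div (by omega), Nat.div_eq_of_lt h, add_zero],
    by rw [mul_comm, Nat.mul_add_mod, Nat.mod_eq_of_lt h]⟩

theorem ramidx_lt {x X M r : ℕ} (hx : x < X) (h : r < M) : x * M + r < X * M :=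
  calc x * M + r < (x + 1) * M := by rw [add_mul, one_mul]; omega
    _ ≤ X * M := Nat.mul_le_mul_right _ hx

namespace Pm

variable (P : Pm)

theorem flat_idx {i p p' : ℕ} (t : Tab) (hp : p ≤ P.Qm) (h1 : P.rb i ∣ p) (h2 : P.rb i ∣ p')
    (hd : Nat.dist p p' * P.J < 2 ^ (i + 1)) :
    P.idx i p p' < P.TS ∧ P.flat i t (P.idx i p p') = t p p' := by
  have h3 : 2 ^ (i + 1) ≤ P.rb i * P.DH * P.J := by
    unfold rb r DH J
    rw [← pow_add, ← pow_add]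
    exact Nat.pow_le_pow_right (by norm_num) (by omega)
  have h4 : Nat.dist p p' < P.rb i * P.DH := lt_of_mul_lt_mul_right (hd.trans_le h3) (Nat.zero_le _)
  have h5 : 0 < P.rb i := by unfold rb r; positivity
  obtain ⟨u, rfl⟩ := h1
  obtain ⟨u', rfl⟩ := h2
  rw [Nat.dist_mul_left] at h4
  have h6 : Nat.dist u u' < P.DH := lt_of_mul_lt_mul_left h4 (Nat.zero_le _)
  have h7 : (P.rb i * u' + P.rb i * P.DH - P.rb i * u) / P.rb i = u' + P.DH - u := by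
    rw [← mul_add, ← Nat.mul_sub, Nat.mul_div_cancel_left _ h5]
  have h8 : u' + P.DH - u < P.DW := by
    unfold DW Nat.dist at *
    omega
  obtain ⟨e1, e2⟩ := ramidx_dm (P.rb i * u) h8
  unfold idx flat TS
  rw [h7, e1, e2, ← mul_add, ← Nat.mul_sub]
  refine ⟨ramidx_lt (by omega) h8, ?_⟩
  have e3 : u + (u' + P.DH - u) - P.DH = u' := by
    unfold Nat.dist at h6
    omega
  rw [e3]

theorem nuG_idx (X : Ctx) (k i : ℕ) {g' j n Q Q' : ℕ} (hg : g' < P.NG) (hj : j < P.b)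
    (hn : j + n ≤ P.b) (hQ : Q ≤ P.Qm) (hd : Nat.dist Q Q' ≤ P.Rn) :
    P.nuIdx g' j n Q Q' < P.NuS ∧
      P.nuG X k i (P.nuIdx g' j n Q Q') = P.nu X k (i + g') j n Q Q' := by
  have a1 : Q' + P.Rn - Q < P.DN := by
    unfold DN Nat.dist at *
    omega
  have a2 : Q < P.Qm + 1 := by omega
  have a3 : n < P.b + 1 := by omega
  obtain ⟨e1, e2⟩ := ramidx_dm (((g' * P.b + j) * (P.b + 1) + n) * (P.Qm + 1) + Q) a1
  obtain ⟨e3, e4⟩ := ramidx_dm ((g' * P.b + j) * (P.b + 1) + n) a2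
  obtain ⟨e5, e6⟩ := ramidx_dm (g' * P.b + j) a3
  obtain ⟨e7, e8⟩ := ramidx_dm g' hj
  refine ⟨ramidx_lt (ramidx_lt (ramidx_lt (ramidx_lt hg hj) a3) a2) a1, ?_⟩
  have e9 : Q + (Q' + P.Rn - Q) - P.Rn = Q' := by
    unfold Nat.dist at hd
    omega
  unfold nuG nuIdx
  rw [e1, e2, e3, e4, e5, e6, e7, e8, if_pos hn, e9]

/-- A sampled pass in uniform shape. -/
theorem pass_eq (w : ℕ → ℕ → ℕ) (ρ : ℕ → Bool) {A : Arg} (h1 : mo A = 1)
    (h2 : P.smp A.h (bi A)) (p p' : ℕ) :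
    P.tabF w ρ A p p' = P.H (P.VN (P.hX w ρ A) A.k A.h (bi A) (P.Ps w ρ A) p p') := by
  obtain ⟨h, e⟩ : ∃ h, A.h = h + 1 := ⟨A.h - 1, by have := h2.1; omega⟩
  have e' : A.h - 1 = h := by omega
  have e1 : P.tabF w ρ A = P.passF w ρ (P.A w ρ h) (P.Pa w ρ h) h A.k A.a (bi A) A.j A.ad := by
    rw [tabF, if_neg (by omega), e, Pa_succ]
  rw [e1, passF, if_pos (e ▸ h2)]
  unfold Ps Yf cf tb rk Rr tabF subP hX sa Jc sa
  simp only [e', mo_mkP, bi_mkP, lt_irrefl, false_or, one_ne_zero, if_false]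
  split_ifs
  · rw [e]
    rfl
  · rw [e]
    rfl

end Pm

end Vale.Agent.P315F
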