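import Vale.Agent.P315F.RamPar

/-! Bounds and saturation of the tables. -/

namespace Vale.Agent.P315F

open Vale.Agent.P315 Finset

theorem ramloc_Hn_le {m U : ℕ} (hm : 1 ≤ m) (y : ℕ) : Hn m U y ≤ 2 * U := by
  unfold Hn
  split_ifs with h
  · refine Nat.div_le_of_le_mul ?_
    obtain ⟨m, rfl⟩ : ∃ k, m = k + 1 := ⟨m - 1, by omega⟩
    have h1 : min y (2 * U) ^ (m + 1) ≤ U ^ (m + 1) := Nat.pow_le_pow_left h _
    simp only [Nat.add_sub_cancel]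
    calc min y (2 * U) ^ (m + 1) * (2 ^ m - 1) ≤ U ^ (m + 1) * 2 ^ m :=
          Nat.mul_le_mul h1 (Nat.sub_le _ _)
      _ = 1 * U ^ m * 2 ^ m * U := by ring
      _ ≤ (m + 1) * U ^ m * 2 ^ m * (2 * U) :=
          Nat.mul_le_mul (Nat.mul_le_mul_right _ (Nat.mul_le_mul_right _ hm)) (by omega)
  · refine Nat.div_le_of_le_mul ((Nat.sub_le _ _).trans ?_)
    rw [mul_comm]
    refine Nat.mul_le_mul_left _ ?_
    have h1 := Nat.div_le_self U m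
    have h2 := min_le_right y (2 * U)
    omega

theorem ramloc_avg_le {S c : ℕ} {f : ℕ → ℕ} (h : ∀ s, f s ≤ c) :
    (∑ s ∈ range S, f s) / S ≤ c := by
  refine Nat.div_le_of_le_mul ?_
  have := sum_le_card_nsmul (range S) f c fun s _ => h s
  simpa using this

theorem ramloc_avg_eq {S c : ℕ} (hS : 1 ≤ S) {f : ℕ → ℕ} (h : ∀ s, f s = c) :
    (∑ s ∈ range S, f s) / S = c := by
  simp only [h, sum_const, card_range, smul_eq_mul]
  exact Nat.mul_div_cancel_left _ hS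

theorem ramloc_geom (n : ℕ) : ∑ i ∈ range n, 2 ^ i ≤ 2 ^ n := by
  induction n with
  | zero => simp
  | succ n ih => rw [sum_range_succ, pow_succ]; omega

namespace Pm

variable (P : Pm)

theorem H_le2 (y : ℕ) : P.H y ≤ 2 * P.U1 := ramloc_Hn_le Nat.one_le_two_pow y

theorem H_far {y : ℕ} (h : 2 * P.U1 ≤ y) : P.H y = P.H (2 * P.U1) := by
  unfold H Hn
  rw [min_eq_right h, min_self]

theorem ramloc_pass_le (w : ℕ → ℕ → ℕ) (ρ : ℕ → Bool) (A : ℕ → ℕ → ℕ → ℕ → Tab)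
    (Pp : ℕ → ℕ → ℕ → ℕ → ℕ → Tab) (h k a i j ad p p' : ℕ) :
    P.passF w ρ A Pp h k a i j ad p p' ≤ 2 * P.U1 := by
  unfold passF
  split_ifs <;> exact P.H_le2 _

theorem tab_le2 (w : ℕ → ℕ → ℕ) (ρ : ℕ → Bool) (h : ℕ) :
    (∀ k a i j p p', P.A w ρ h k a i j p p' ≤ 2 * P.U1) ∧
      ∀ k a i j ad p p', P.Pa w ρ h k a i j ad p p' ≤ 2 * P.U1 := by
  cases h with
  | zero => exact ⟨fun _ _ _ _ _ _ => P.H_le2 _, fun _ _ _ _ _ _ _ => P.H_le2 _⟩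
  | succ h =>
    have h2 : ∀ k a i j ad p p', P.Pa w ρ (h + 1) k a i j ad p p' ≤ 2 * P.U1 :=
      fun k a i j ad p p' => P.ramloc_pass_le w ρ _ _ h k a i j ad p p'
    refine ⟨fun k a i j p p' => ?_, h2⟩
    rw [A_succ]
    split_ifs
    · exact P.H_le2 _
    · exact ramloc_avg_le fun s => h2 _ _ _ _ _ _ _
    · exact P.H_le2 _

theorem ramloc_dN {i p p' : ℕ} (hd : 2 ^ (i + 1) ≤ Nat.dist p p' * P.J) :
    2 * P.U1 ≤ P.dN i p p' := by
  unfold dN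
  rw [Nat.le_div_iff_mul_le (Nat.two_pow_pos i)]
  calc 2 * P.U1 * 2 ^ i = 2 ^ (i + 1) * P.U1 := by ring
    _ ≤ _ := Nat.mul_le_mul_right _ hd

theorem ramloc_det_far (w : ℕ → ℕ → ℕ) (h a : ℕ) {i p p' : ℕ}
    (hd : 2 ^ (i + 1) ≤ Nat.dist p p' * P.J) : P.det w h a i p p' = P.H (2 * P.U1) := by
  have h1 := P.ramloc_dN hd
  unfold det
  refine P.H_far ?_
  split_ifs
  · have hp : p ≠ p' := by
      rintro rfl
      have := Nat.two_pow_pos (i + 1)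
      rw [Nat.dist_self, zero_mul] at hd
      omega
    refine h1.trans ?_
    unfold dN leafE
    rw [if_neg hp, mul_comm (Nat.dist p p')]
    exact Nat.div_le_div_right (Nat.mul_le_mul_right _ (Nat.le_add_right _ _))
  · omega

theorem ramloc_pass_far (w : ℕ → ℕ → ℕ) (ρ : ℕ → Bool) (A : ℕ → ℕ → ℕ → ℕ → Tab)
    (Pp : ℕ → ℕ → ℕ → ℕ → ℕ → Tab) (h k a j ad : ℕ) {i p p' : ℕ}
    (hd : 2 ^ (i + 1) ≤ Nat.dist p p' * P.J) :
    P.passF w ρ A Pp h k a i j ad p p' = P.H (2 * P.U1) := by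
  have h1 := P.ramloc_dN hd
  unfold passF
  split_ifs
  · exact P.H_far (h1.trans (le_max_left _ _))
  · exact P.H_far (h1.trans (le_max_left _ _))
  · exact P.ramloc_det_far w _ _ hd

theorem tab_far (hS : 1 ≤ P.S) (w : ℕ → ℕ → ℕ) (ρ : ℕ → Bool) (h : ℕ) {i p p' : ℕ}
    (hd : 2 ^ (i + 1) ≤ Nat.dist p p' * P.J) :
    (∀ k a j, P.A w ρ h k a i j p p' = P.H (2 * P.U1)) ∧
      ∀ k a j ad, P.Pa w ρ h k a i j ad p p' = P.H (2 * P.U1) := by
  cases h with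
  | zero =>
    exact ⟨fun _ a _ => P.ramloc_det_far w 0 a hd, fun _ a _ _ => P.ramloc_det_far w 0 a hd⟩
  | succ h =>
    have h2 : ∀ k a j ad, P.Pa w ρ (h + 1) k a i j ad p p' = P.H (2 * P.U1) :=
      fun k a j ad => P.ramloc_pass_far w ρ _ _ h k a j ad hd
    refine ⟨fun k a j => ?_, h2⟩
    rw [A_succ]
    split_ifs
    · exact P.H_far (P.ramloc_dN hd)
    · exact ramloc_avg_eq hS fun s => h2 _ _ _ _
    · exact P.ramloc_det_far w _ _ hd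

theorem tabF_le (w : ℕ → ℕ → ℕ) (ρ : ℕ → Bool) (A : Arg) (p p' : ℕ) :
    P.tabF w ρ A p p' ≤ 2 * P.U1 := by
  unfold tabF
  split_ifs
  · exact (P.tab_le2 w ρ _).1 _ _ _ _ _ _
  · exact (P.tab_le2 w ρ _).2 _ _ _ _ _ _ _

theorem tabF_far (hS : 1 ≤ P.S) (w : ℕ → ℕ → ℕ) (ρ : ℕ → Bool) (A : Arg) {p p' : ℕ}
    (hd : 2 ^ (bi A + 1) ≤ Nat.dist p p' * P.J) : P.tabF w ρ A p p' = P.H (2 * P.U1) := by
  unfold tabF
  split_ifs
  · exact (P.tab_far hS w ρ _ hd).1 _ _ _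
  · exact (P.tab_far hS w ρ _ hd).2 _ _ _ _

theorem ramloc_zX {t : ℕ → Tab} (ht : ∀ i p p', t i p p' ≤ 2 * P.U1) (g p p' : ℕ) :
    P.zX t g p p' ≤ 2 ^ (P.nbm + 2) * P.U1 := by
  unfold zX
  have h1 : (∑ β ∈ range P.nbm, if P.lo g + β ≤ P.hi g then 2 ^ β * t (P.lo g + β) p p' else 0) ≤
      ∑ β ∈ range P.nbm, 2 ^ β * (2 * P.U1) := by
    refine sum_le_sum fun β _ => ?_
    split_ifs
    · exact Nat.mul_le_mul_left _ (ht _ _ _)
    · exact Nat.zero_le _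
  rw [← sum_mul] at h1
  have h2 := Nat.mul_le_mul_right (2 * P.U1) (ramloc_geom P.nbm)
  have h3 : P.U1 ≤ 2 ^ P.nbm * P.U1 := Nat.le_mul_of_pos_left _ (Nat.two_pow_pos _)
  have h4 : 2 ^ (P.nbm + 2) * P.U1 = 4 * (2 ^ P.nbm * P.U1) := by ring
  have h5 : 2 ^ P.nbm * (2 * P.U1) = 2 * (2 ^ P.nbm * P.U1) := by ring
  have h6 := Nat.sub_le P.U1 (P.U1 / P.mm)
  rw [h4]
  rw [h5] at h2
  generalize 2 ^ P.nbm * P.U1 = d at *
  omega

theorem ramloc_val {t : ℕ → ℕ → Tab} (ht : ∀ j i p p', t j i p p' ≤ 2 * P.U1) (g : ℕ)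
    (qq : ℕ → ℕ) : P.val t g qq ≤ P.b * (2 ^ (P.nbm + 2) * P.U1) := by
  unfold val
  have := sum_le_card_nsmul (range P.b)
    (fun j => P.zX (t j) g (P.r g * qq j) (P.r g * qq (j + 1))) _
    fun j _ => P.ramloc_zX (ht j) g _ _
  simpa using this

theorem ramloc_wgt (i g n : ℕ) : P.wgt i g n ≤ P.b * 2 ^ P.nbm := by
  unfold wgt
  split_ifs with h
  · refine Nat.mul_le_mul (Nat.pow_le_pow_right (by norm_num) (Nat.sub_le _ _))
      (Nat.pow_le_pow_right (by norm_num) ?_)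
    have h1 := h.2.2
    unfold hi at h1
    unfold lo nbm
    omega
  · exact Nat.zero_le _

/-- The arguments of the soft minima are covered by the tables `EXg`. -/
theorem cum_Yf_le (hK : 1 ≤ P.K) (w : ℕ → ℕ → ℕ) (ρ : ℕ → Bool) (A : Arg) (g : ℕ)
    (qq : ℕ → ℕ) : P.cum (P.hX w ρ A) A.k g qq + P.Yf w ρ A g qq ≤ P.XB := by
  have h1 : P.cum (P.hX w ρ A) A.k g qq ≤ P.K * (P.b * (2 ^ (P.nbm + 2) * P.U1)) := by
    unfold cum
    have h2 := sum_le_card_nsmul (Ico (A.k / P.K * P.K) A.k)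
      (fun k' => P.val (P.hX w ρ A k') g qq) _
      fun k' _ => P.ramloc_val (t := P.hX w ρ A k')
        (fun j i p p' => (P.tab_le2 w ρ _).1 _ _ _ _ _ _) g qq
    refine h2.trans ?_
    rw [Nat.card_Ico, smul_eq_mul]
    refine Nat.mul_le_mul_right _ ?_
    have h3 := Nat.div_add_mod' A.k P.K
    have h4 := Nat.mod_lt A.k hK
    omega
  have h2 := P.ramloc_val (t := P.tb w ρ A A.k)
    (fun j i p p' => (P.tab_le2 w ρ _).1 _ _ _ _ _ _) g qq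
  have h3 : P.smpS (bi A) (P.tb w ρ A A.k) (P.Jc ρ A) (P.Rr w ρ A) g qq ≤
      P.N * (P.b * 2 ^ P.nbm * (3 * P.U1)) := by
    unfold smpS
    refine (sum_le_card_nsmul _ _ (P.b * 2 ^ P.nbm * (3 * P.U1)) fun n _ => ?_).trans (by simp)
    refine Nat.mul_le_mul (P.ramloc_wgt _ _ _) ((Nat.sub_le _ _).trans ?_)
    have := P.tabF_le w ρ (P.subP ρ A n) (P.r g * qq (P.Jc ρ A n)) (P.r g * qq (P.Jc ρ A n + 1))
    unfold Rr
    omega
  have h4 : (P.K + 1) * P.b * (2 ^ (P.nbm + 2) * P.U1) =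
      P.K * (P.b * (2 ^ (P.nbm + 2) * P.U1)) + P.b * (2 ^ (P.nbm + 2) * P.U1) := by ring
  unfold Yf XB
  split_ifs <;> omega

theorem GF_le (x y : List ℕ) (ρ : ℕ → Bool) (A : Arg) (e : ℕ) :
    P.GF x y ρ A e ≤ max (2 * P.U1) (x.length + y.length) := by
  unfold GF
  split_ifs
  · refine le_max_of_le_right ?_
    unfold ans candK
    split_ifs
    · exact min_le_left _ _
    · exact le_rfl
  · exact le_max_of_le_left (P.tabF_le _ _ _ _ _)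

end Pm

end Vale.Agent.P315F
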