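import Vale.Agent.P315F.Hn

/-! Numeric facts about the scales and the constants. -/

namespace Vale.Agent.P315F

open Finset Vale.Agent.P315

theorem scale_pow {m n : ℕ} (h : m ≤ n) : (2 : ℝ) ^ m ≤ 2 ^ n := pow_le_pow_right₀ one_le_two h

theorem scale_npow {m n : ℕ} (h : m ≤ n) : 2 ^ m ≤ 2 ^ n := Nat.pow_le_pow_right two_pos h

/-- Comparison of quotients of powers of two. -/
theorem scale_div {a b c d : ℕ} (h : a + d ≤ c + b) : (2 : ℝ) ^ a / 2 ^ b ≤ 2 ^ c / 2 ^ d := by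
  rw [div_le_div_iff₀ (by positivity) (by positivity), ← pow_add, ← pow_add]
  exact scale_pow h

theorem scale_div_eq {a b c d : ℕ} (h : a + d = c + b) : (2 : ℝ) ^ a / 2 ^ b = 2 ^ c / 2 ^ d :=
  le_antisymm (scale_div h.le) (scale_div (by omega))

namespace Pm

variable {P : Pm}

theorem b_pos (P : Pm) : 0 < P.b := Nat.two_pow_pos _
theorem b_ge (hP : P.Good) : 4 ≤ P.b := scale_npow hP.lb_ge
theorem J_pos (P : Pm) : 0 < P.J := Nat.two_pow_pos _
theorem J0_pos (P : Pm) : 0 < P.J0 := Nat.two_pow_pos _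
theorem J0_le (hP : P.Good) : P.J0 ≤ P.J := scale_npow (by have := hP.sh_ge; omega)
theorem mm_ge (hP : P.Good) : 16 ≤ P.mm := scale_npow hP.mh_ge
theorem mm_dvd (hP : P.Good) : P.mm ∣ P.U1 := pow_dvd_pow 2 hP.mh_le
theorem r_pos (P : Pm) (g : ℕ) : 0 < P.r g := Nat.two_pow_pos _
theorem ug_pos (P : Pm) (g : ℕ) : 0 < P.ug g := Nat.two_pow_pos _
theorem Om_pos (P : Pm) : 1 ≤ P.Om := Nat.pow_pos (Nat.two_pow_pos _)
theorem child_lt (P : Pm) {h a j : ℕ} (hD : h + 1 ≤ P.D) (ha : a < P.b ^ (P.D - (h + 1)))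
    (hj : j < P.b) : a * P.b + j < P.b ^ (P.D - h) := by
  rw [show P.D - h = P.D - (h + 1) + 1 by omega, pow_succ]
  have := Nat.mul_le_mul_right P.b (Nat.succ_le_of_lt ha)
  rw [Nat.succ_mul] at this
  omega
theorem child_div (P : Pm) (a : ℕ) {j : ℕ} (hj : j < P.b) :
    (a * P.b + j) / P.b = a ∧ (a * P.b + j) % P.b = j := by
  constructor
  · rw [mul_comm, Nat.mul_add_div P.b_pos, Nat.div_eq_of_lt hj, add_zero]
  · rw [mul_comm, Nat.mul_add_mod, Nat.mod_eq_of_lt hj]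

theorem b_cast (P : Pm) : (P.b : ℝ) = 2 ^ P.lb := by simp [b]
theorem U1_cast (P : Pm) : (P.U1 : ℝ) = 2 ^ P.fp := by simp [U1]
theorem J_cast (P : Pm) : (P.J : ℝ) = 2 ^ P.sh := by simp [J]
theorem J0_cast (P : Pm) : (P.J0 : ℝ) = 2 ^ P.dh := by simp [J0]
theorem mm_cast (P : Pm) : (P.mm : ℝ) = 2 ^ P.mh := by simp [mm]
theorem r_cast (P : Pm) (g : ℕ) : (P.r g : ℝ) = 2 ^ (g - P.gp - P.rh - P.sh) := by simp [r]
theorem eR_pow (P : Pm) (g : ℕ) : P.eR g = 2 ^ g / 2 ^ (P.gp + P.rh) := by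
  rw [eR, G, div_div, pow_add]
theorem fl_pow (P : Pm) (g : ℕ) : P.fl g = 2 ^ g / 2 ^ (P.gp + P.rh + P.lb) := by
  rw [fl, eR_pow, b_cast, div_div, ← pow_add]
theorem un_pow (P : Pm) (g : ℕ) : P.un g = 2 ^ P.lo g / 2 ^ P.fp := by rw [un, U1_cast]

theorem G_pos (P : Pm) (g : ℕ) : 0 < P.G g := by unfold G; positivity
theorem eR_pos (P : Pm) (g : ℕ) : 0 < P.eR g := by rw [eR_pow]; positivity
theorem fl_pos (P : Pm) (g : ℕ) : 0 < P.fl g := by rw [fl_pow]; positivity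
theorem un_pos (P : Pm) (g : ℕ) : 0 < P.un g := by rw [un_pow]; positivity
theorem G_succ (P : Pm) (g : ℕ) : P.G (g + 1) = 2 * P.G g := by unfold G; ring
theorem G_mono (P : Pm) {g g' : ℕ} (h : g ≤ g') : P.G g ≤ P.G g' := scale_div (by omega)
theorem two_pow_eq (P : Pm) (g : ℕ) : (2 : ℝ) ^ g = 2 ^ P.gp * P.G g := by unfold G; field_simp
theorem G_eq (P : Pm) (g : ℕ) : P.G g = 2 ^ P.rh * P.eR g := by unfold eR; field_simp
theorem eR_eq (P : Pm) (g : ℕ) : P.eR g = P.b * P.fl g := by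
  unfold fl; rw [b_cast]; field_simp
theorem fl_le_eR (P : Pm) (g : ℕ) : P.fl g ≤ P.eR g := by
  rw [fl_pow, eR_pow]; exact scale_div (by omega)
/-- The usual way to absorb rounding errors. -/
theorem om1_G (P : Pm) (g : ℕ) : 32 * P.b * (P.nbm + 1) * P.eR g = P.om1 * P.G g := by
  unfold om1 eR; ring
theorem exists_scale (P : Pm) (c : ℝ) (g1 : ℕ) :
    ∃ g, g1 ≤ g ∧ c ≤ P.G g ∧ (g = g1 ∨ P.G g < 2 * c) := by
  classical
  have hex : ∃ d, c ≤ P.G (g1 + d) := by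
    obtain ⟨n, hn⟩ := pow_unbounded_of_one_lt (c * 2 ^ P.gp) (one_lt_two (α := ℝ))
    refine ⟨n, le_trans ?_ (P.G_mono (Nat.le_add_left n g1))⟩
    rw [G, le_div_iff₀ (by positivity)]
    exact hn.le
  refine ⟨g1 + Nat.find hex, Nat.le_add_right _ _, Nat.find_spec hex, ?_⟩
  rcases h : Nat.find hex with _ | d
  · exact Or.inl rfl
  · have := Nat.find_min hex (m := d) (by omega)
    right
    rw [← add_assoc, G_succ]
    linarith [not_le.1 this]

theorem rJ_pow (P : Pm) (g : ℕ) :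
    (P.r g : ℝ) * P.J = 2 ^ (g - P.gp - P.rh - P.sh + P.sh) / 2 ^ 0 := by
  rw [r_cast, J_cast, pow_add, pow_zero, div_one]
theorem rJ_le (P : Pm) (g : ℕ) : ((P.r g : ℝ) - 1) * P.J ≤ P.eR g := by
  rcases le_total g (P.gp + P.rh + P.sh) with h | h
  · rw [r_cast, show g - P.gp - P.rh - P.sh = 0 by omega]
    simpa using (P.eR_pos g).le
  · have : (P.r g : ℝ) * P.J ≤ P.eR g := by
      rw [rJ_pow, eR_pow]; exact scale_div (by omega)
    have h2 : (0 : ℝ) ≤ P.J := Nat.cast_nonneg _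
    linarith [sub_mul (P.r g : ℝ) 1 P.J]
theorem eR_le_rJ (P : Pm) (g : ℕ) : P.eR g ≤ P.r g * P.J := by
  rw [rJ_pow, eR_pow]; exact scale_div (by omega)
theorem ug_un (P : Pm) (g : ℕ) : (P.ug g : ℝ) * P.un g = P.r g * P.J := by
  rw [rJ_pow, un_pow, ug]
  push_cast
  rw [← mul_div_assoc, ← pow_add]
  exact scale_div_eq (by unfold lo; omega)
theorem ee_un (hP : P.Good) (g : ℕ) : (2 : ℝ) ^ P.ee g * P.un g = P.G g := by
  rw [un_pow, ← mul_div_assoc, ← pow_add]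
  exact scale_div_eq (by have := hP.fp1; unfold ee lo; omega)
theorem T_un (hP : P.Good) (g : ℕ) : (P.T g : ℝ) * P.un g = 2 ^ P.s0 * P.G g := by
  rw [← ee_un hP, T]; push_cast; ring
theorem ee_le (P : Pm) (g : ℕ) : P.ee g ≤ P.emax := by unfold ee lo emax; omega
theorem T_ge (hP : P.Good) (g : ℕ) : 2 ≤ P.T g :=
  scale_npow (m := 1) (by have := hP.fp1; unfold ee lo; omega)
theorem lo_le_hi (P : Pm) (g : ℕ) : P.lo g ≤ P.hi g := by unfold lo hi; omega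
theorem hi_lt (P : Pm) (g : ℕ) : P.hi g < P.lo g + P.nbm := by unfold lo hi nbm; omega
theorem lo_case (P : Pm) (g : ℕ) :
    (P.lo g = 0 ∧ P.fl g ≤ 1) ∨ (2 : ℝ) ^ P.lo g = P.fl g := by
  rcases le_total g (P.gp + P.rh + P.lb) with h | h
  · refine Or.inl ⟨by unfold lo; omega, ?_⟩
    rw [fl_pow, div_le_one (by positivity)]
    exact scale_pow h
  · right
    rw [fl_pow, eq_div_iff (by positivity), ← pow_add]
    congr 1
    unfold lo; omega
theorem lo_le (hP : P.Good) {i g : ℕ} (h : g < i + P.NG) : P.lo g ≤ i := by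
  have := hP.lb_ge; unfold NG at h; unfold lo; omega
theorem un_le (P : Pm) (g : ℕ) : P.un g ≤ max 1 (P.fl g) / P.U1 := by
  refine div_le_div_of_nonneg_right ?_ (Nat.cast_nonneg _)
  rcases P.lo_case g with ⟨h, -⟩ | h
  · rw [h, pow_zero]; exact le_max_left _ _
  · rw [h]; exact le_max_right _ _
theorem Cn_ge (P : Pm) (g : ℕ) :
    2 ^ (P.ga + 1) * P.G g ≤ ((P.Rn * P.ug g : ℕ) : ℝ) * P.un g := by
  rw [Nat.cast_mul, mul_assoc, ug_un, G_eq, ← mul_assoc, ← pow_add, Rn,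
    show P.ga + 1 + P.rh = P.ga + P.rh + 1 by ring]
  push_cast
  exact mul_le_mul_of_nonneg_left (P.eR_le_rJ g) (by positivity)
/-- `tiny * 2^(hi+1)` and `6 * 2^(hi+1) / U1` are below `fl`. -/
theorem tiny_hi (hP : P.Good) (g : ℕ) :
    P.tiny * 2 ^ (P.hi g + 1) ≤ P.fl g ∧ 4 * (P.tiny * 2 ^ (P.hi g + 1)) ≤ 2 ^ P.lo g := by
  have h1 := hP.th_ge
  unfold nbm at h1
  rw [tiny, one_div_mul_eq_div, fl_pow]
  refine ⟨scale_div (by unfold hi; omega), ?_⟩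
  rw [← mul_div_assoc, show (4 : ℝ) = 2 ^ 2 by norm_num, ← pow_add,
    div_le_iff₀ (by positivity), ← pow_add]
  exact scale_pow (by unfold hi lo; omega)
theorem slack_hi (hP : P.Good) (g : ℕ) : 6 * 2 ^ (P.hi g + 1) / (P.U1 : ℝ) ≤ P.fl g := by
  have h1 := hP.fp1
  rw [U1_cast, fl_pow]
  refine le_trans ?_ (scale_div (a := 3 + (P.hi g + 1)) (b := P.fp) (by unfold hi; omega))
  rw [pow_add 2 3]
  gcongr
  norm_num

theorem dR_nonneg (P : Pm) (p q : ℕ) : 0 ≤ P.dR p q := by unfold dR; positivity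
theorem dR_self (P : Pm) (p : ℕ) : P.dR p p = 0 := by simp [dR]
theorem dR_comm (P : Pm) (p q : ℕ) : P.dR p q = P.dR q p := by rw [dR, dR, Nat.dist_comm]
theorem dR_tri (P : Pm) (p q s : ℕ) : P.dR p s ≤ P.dR p q + P.dR q s := by
  unfold dR
  rw [← add_mul]
  exact mul_le_mul_of_nonneg_right (by exact_mod_cast Nat.dist.triangle_inequality p q s)
    (Nat.cast_nonneg _)
theorem rQ_le (P : Pm) {g Q : ℕ} (h : Q ≤ P.Qg g) : P.r g * Q ≤ P.Qm :=
  (Nat.mul_le_mul_left _ h).trans (Nat.mul_div_le _ _)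
theorem div_le_Qg (P : Pm) (g : ℕ) {p : ℕ} (h : p ≤ P.Qm) : p / P.r g ≤ P.Qg g :=
  Nat.div_le_div_right h
theorem Qg_le (P : Pm) (g : ℕ) : P.Qg g ≤ P.Qm := Nat.div_le_self _ _
theorem dR_round (P : Pm) (g p : ℕ) : P.dR p (P.r g * (p / P.r g)) ≤ P.eR g := by
  refine le_trans ?_ (P.rJ_le g)
  refine mul_le_mul_of_nonneg_right ?_ (Nat.cast_nonneg _)
  have h1 := Nat.div_add_mod p (P.r g)
  have h2 := Nat.mod_lt p (P.r_pos g)
  have : Nat.dist p (P.r g * (p / P.r g)) + 1 ≤ P.r g := by unfold Nat.dist; omega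
  rw [le_sub_iff_add_le]
  exact_mod_cast this
theorem dR_mul (P : Pm) (g Q Q' : ℕ) :
    P.dR (P.r g * Q) (P.r g * Q') = Nat.dist Q Q' * (P.r g * P.J : ℝ) := by
  rw [dR, Nat.dist_mul_left]; push_cast; ring
theorem dR_grid (P : Pm) (g Q Q' : ℕ) :
    P.dR (P.r g * Q) (P.r g * Q') = ((Nat.dist Q Q' * P.ug g : ℕ) : ℝ) * P.un g := by
  rw [dR_mul, ← ug_un]; push_cast; ring
theorem tube_iff (P : Pm) (g Q Q' : ℕ) :
    Nat.dist Q Q' ≤ P.rad g ↔ P.dR (P.r g * Q) (P.r g * Q') ≤ P.G g := by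
  rw [rad, Nat.le_div_iff_mul_le (P.r_pos g), Nat.le_div_iff_mul_le (Nat.two_pow_pos _), dR_mul, G,
    le_div_iff₀ (by positivity), J_cast, ← Nat.cast_le (α := ℝ)]
  push_cast
  rw [show (Nat.dist Q Q' : ℝ) * P.r g * 2 ^ (P.gp + P.sh) =
    Nat.dist Q Q' * (P.r g * 2 ^ P.sh) * 2 ^ P.gp by ring]
theorem tube_ok (P : Pm) {g Q Q' : ℕ} (h : P.dR (P.r g * Q) (P.r g * Q') ≤ P.G g) :
    Nat.dist Q Q' ≤ P.rad g := (P.tube_iff g Q Q').2 h
theorem tube_le (P : Pm) {g Q Q' : ℕ} (h : Nat.dist Q Q' ≤ P.rad g) :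
    P.dR (P.r g * Q) (P.r g * Q') ≤ P.G g := (P.tube_iff g Q Q').1 h
theorem rad_le (P : Pm) (g : ℕ) : P.rad g ≤ 2 ^ P.rh := by
  rw [rad, Nat.div_div_eq_div_mul, r, ← pow_add]
  apply Nat.div_le_of_le_mul
  rw [← pow_add]
  exact scale_npow (by omega)
theorem rad_Bz (P : Pm) (g : ℕ) : 2 * P.rad g + 1 ≤ P.Bz := by
  have := P.rad_le g
  have h2 := Nat.two_pow_pos P.rh
  rw [Bz, pow_add]; omega
theorem dist_le_Rn (P : Pm) {g Q Q' : ℕ}
    (h : P.dR (P.r g * Q) (P.r g * Q') ≤ 2 ^ (P.ga + 1) * P.G g) : Nat.dist Q Q' ≤ P.Rn := by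
  have h1 := h.trans (P.Cn_ge g)
  rw [dR_grid] at h1
  have h2 := le_of_mul_le_mul_right h1 (P.un_pos g)
  exact Nat.le_of_mul_le_mul_right (by exact_mod_cast h2) (P.ug_pos g)
theorem dN_le (P : Pm) (i p q : ℕ) : (P.dN i p q : ℝ) ≤ P.dR p q * P.U1 / 2 ^ i := by
  have := Nat.cast_div_le (α := ℝ) (m := Nat.dist p q * P.J * P.U1) (n := 2 ^ i)
  simpa [dN, dR] using this
theorem dN_ge (P : Pm) (i p q : ℕ) : P.dR p q * P.U1 / 2 ^ i - 1 ≤ (P.dN i p q : ℝ) := by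
  have h := Nat.lt_mul_div_succ (Nat.dist p q * P.J * P.U1) (Nat.two_pow_pos i)
  have h2 : ((Nat.dist p q * P.J * P.U1 : ℕ) : ℝ) ≤ (2 ^ i * (P.dN i p q + 1) : ℕ) := by
    exact_mod_cast h.le
  rw [sub_le_iff_le_add, div_le_iff₀ (by positivity), dR]
  push_cast at h2
  linarith

theorem lenR_pow (P : Pm) (h i : ℕ) :
    P.lenR h i = 2 ^ (h * P.lb + P.sh + 1 + P.fp - i + i) / 2 ^ P.fp := by
  rw [lenR, lenN, U1_cast, pow_add _ _ i]; push_cast; rfl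
theorem Jb_pow (P : Pm) (h : ℕ) :
    2 * P.J * (P.b : ℝ) ^ h = 2 ^ (h * P.lb + P.sh + 1) / 2 ^ 0 := by
  rw [J_cast, b_cast, ← pow_mul]; ring
theorem lenR_ge (P : Pm) (h i : ℕ) : 2 * P.J * (P.b : ℝ) ^ h ≤ P.lenR h i := by
  rw [lenR_pow, Jb_pow]; exact scale_div (by omega)
theorem lenR_smp (hP : P.Good) {h i : ℕ} (hi : i ≤ h * P.lb + P.ie + P.sh) :
    P.lenR h i = 2 * P.J * (P.b : ℝ) ^ h := by
  have := hP.fp3
  rw [lenR_pow, Jb_pow]; exact scale_div_eq (by omega)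
theorem lenR_triv (hP : P.Good) {h i : ℕ} (hi : h * P.lb + P.ie + P.sh < i) :
    P.lenR h i ≤ P.mu * 2 ^ i := by
  have := hP.fp3
  have := hP.ie_ge
  rw [lenR_pow, mu, one_div_mul_eq_div]; exact scale_div (by omega)

theorem eta_pos (P : Pm) : 0 < P.eta := by unfold eta; positivity
theorem mu_pos (P : Pm) : 0 < P.mu := by unfold mu; positivity
theorem del_pos (P : Pm) : 0 < P.del := by unfold del; positivity
theorem eps_pos (P : Pm) : 0 < P.eps := by unfold eps; positivity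
theorem t0_pos (P : Pm) : 0 < P.t0 := by rw [t0, U1_cast]; positivity
theorem t0_eq (P : Pm) : P.t0 = P.U1 * P.tiny := by rw [t0, tiny, mul_one_div]
theorem kap_pos (P : Pm) : 0 ≤ P.om1 ∧ 0 ≤ P.kR ∧ 0 ≤ P.kap := by
  unfold kap om1 kR
  refine ⟨?_, ?_, ?_⟩ <;> positivity
theorem eps_le (hP : P.Good) : P.eps ≤ 1 / 64 :=
  one_div_le_one_div_of_le (by norm_num) (le_trans (by norm_num) (scale_pow hP.eh_ge))
theorem del_le (hP : P.Good) : 14 * (P.D + 1) * P.del ≤ P.eps := by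
  have : (14 * (P.D + 1) * 2 ^ P.eh : ℝ) ≤ 2 ^ P.dh := by exact_mod_cast hP.dh_ge
  rw [del, eps, mul_one_div, div_le_div_iff₀ (by positivity) (by positivity), one_mul]
  exact this
theorem eta_le (hP : P.Good) : 4 * (P.D + 2) * P.eta ≤ P.del := by
  have : (4 * (P.D + 2) * 2 ^ P.dh : ℝ) ≤ 2 ^ P.ne := by exact_mod_cast hP.ne_ge
  rw [del, eta, mul_one_div, div_le_div_iff₀ (by positivity) (by positivity), one_mul]
  exact this
theorem mu_le (hP : P.Good) : 32 * P.mm * P.mu ≤ P.eta := by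
  have := hP.nm_ge
  rw [mm_cast, mu, eta, mul_one_div, show (32 : ℝ) = 2 ^ 5 by norm_num, ← pow_add]
  exact (scale_div (c := 0) (d := P.ne) (by omega)).trans_eq (by rw [pow_zero])
theorem del_J0 (P : Pm) : P.del * P.J0 = 1 := by rw [del, J0_cast]; field_simp
theorem eta_t0 (hP : P.Good) : 8 ≤ P.eta * P.t0 := by
  have := hP.fp2
  rw [eta, t0, U1_cast, div_mul_div_comm, one_mul, ← pow_add, le_div_iff₀ (by positivity),
    show (8 : ℝ) = 2 ^ 3 by norm_num, ← pow_add]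
  exact scale_pow (by omega)
theorem tiny_ge (hP : P.Good) : (1 / 2 : ℝ) ^ P.mm ≤ P.tiny := by
  rw [one_div_pow, tiny]
  exact one_div_le_one_div_of_le (by positivity) (scale_pow hP.th_le)
theorem half_pow_le (hP : P.Good) : (1 / 2 : ℝ) ^ (P.mm - 1) ≤ P.eta := by
  rw [one_div_pow, eta]
  exact one_div_le_one_div_of_le (by positivity)
    (scale_pow (by have := hP.ne_le; unfold mm; omega))
theorem om1_le (hP : P.Good) : 16 * P.om1 ≤ P.eps := by
  have : (512 * P.b * (P.nbm + 1) * 2 ^ P.eh : ℝ) ≤ 2 ^ P.rh := by exact_mod_cast hP.rh_ge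
  rw [om1, eps, ← mul_div_assoc, div_le_div_iff₀ (by positivity) (by positivity)]
  linarith
theorem pow_del (hP : P.Good) {h : ℕ} (hh : h ≤ P.D + 1) : (1 + 7 * P.del) ^ h ≤ 1 + P.eps := by
  have h1 := del_le hP
  have h2 := eps_le hP
  have h3 := P.del_pos
  have key : ∀ n : ℕ, n ≤ P.D + 1 → (1 + 7 * P.del) ^ n ≤ 1 + 14 * n * P.del := by
    intro n
    induction n with
    | zero => simp
    | succ n ih =>
      intro hn
      have h4 : (n : ℝ) ≤ P.D + 1 := by exact_mod_cast (by omega : n ≤ P.D + 1)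
      have h5 : 14 * n * P.del ≤ 1 / 64 := by nlinarith
      rw [pow_succ]
      push_cast
      nlinarith [mul_le_mul_of_nonneg_right (ih (by omega)) (by linarith : 0 ≤ 1 + 7 * P.del)]
  have h4 : (h : ℝ) ≤ P.D + 1 := by exact_mod_cast hh
  nlinarith [key h hh]
theorem J0_NA (hP : P.Good) : 8 * (P.J0 * (P.b : ℝ) ^ P.D) ≤ P.eps * P.J := by
  have := hP.sh_ge
  rw [J0_cast, J_cast, b_cast, eps, one_div_mul_eq_div, ← pow_mul, ← pow_add,
    show (8 : ℝ) = 2 ^ 3 by norm_num, ← pow_add, le_div_iff₀ (by positivity), ← pow_add,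
    mul_comm P.lb]
  exact scale_pow (by omega)

end Pm

end Vale.Agent.P315F
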