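import Vale.Agent.P315F.RamDefs
import Vale.Agent.P315F.Scale

/-! Representability of the derived parameters and of the arguments of a call; size facts. -/

namespace Vale.Agent.P315F

open Vale.Agent.P315 Finset

namespace Pm

variable (P : Pm)

theorem pw_ge : P.gmx + P.sh + P.fp + P.ga + P.s0 + P.emax + (P.rh + 2) * P.b + P.mm + P.wz +
    P.dh + P.mh + 10 = P.pw ∧ P.imx + P.NG + 2 = P.gmx ∧
    P.D * P.lb + P.ie + P.sh + P.kp + P.gp + P.nbm + P.NB + P.NS = P.imx ∧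
    P.gp + P.rh + P.lb + 3 = P.nbm ∧ P.gp + P.rh + 2 = P.NG ∧
    P.lm + P.lb + P.gp + P.rh + 4 = P.NS ∧ 2 * (P.gp + P.rh) + P.lb + 4 = P.NB ∧
    P.fp + P.rh + P.lb = P.emax := ⟨rfl, rfl, rfl, rfl, rfl, rfl, rfl, rfl⟩

theorem small_ge : P.b + P.N + P.K + P.S + P.nbm + P.NG + P.Om + P.Xmax + P.lb + P.DN + 2 * P.RW +
    P.DW + P.emax + P.XB + 2 * P.U1 + P.mm + P.ell + 30 = P.small ∧ 2 * P.Rn + 1 = P.DN ∧
    2 * P.DH + 1 = P.DW := ⟨rfl, rfl, rfl⟩

theorem big_ge : (P.D + 1) * P.HS + (2 * P.D + 5) * (P.STR + 8) + P.Rn * 2 ^ P.pw + P.NuS +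
    (P.emax + 1) * (P.XB + 1) + (2 * P.U1 + 1) * (P.mm + 1) + (2 * P.U1) ^ P.mm + P.SZ P.ell +
    P.small + 3 * P.pw + P.KK + P.k0 + P.NA = P.big := rfl

theorem rb_pos (i : ℕ) : 0 < P.rb i := Nat.two_pow_pos _
theorem DW_pos : 0 < P.DW := Nat.succ_pos _
theorem DN_pos : 0 < P.DN := Nat.succ_pos _
theorem TS_pos : 0 < P.TS := Nat.mul_pos (Nat.succ_pos _) P.DW_pos
theorem r_mul_le {g Q : ℕ} (h : Q ≤ P.Qg g) : P.r g * Q ≤ P.Qm :=
  (Nat.mul_le_mul_left _ h).trans (Nat.mul_div_le _ _)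
theorem rb_dvd {i g : ℕ} (h : i ≤ P.hi g) : P.rb i ∣ P.r g :=
  pow_dvd_pow 2 (by unfold hi at h; omega)
theorem pow_le_big : 2 ^ P.pw ≤ P.big := by
  have h1 : 2 ^ P.pw ≤ P.Rn * 2 ^ P.pw := Nat.le_mul_of_pos_left _ (Nat.two_pow_pos _)
  have := P.big_ge
  omega
theorem STR_le_big : P.STR + 8 ≤ P.big := by
  have h1 : P.STR + 8 ≤ (2 * P.D + 5) * (P.STR + 8) := Nat.le_mul_of_pos_left _ (by omega)
  have := P.big_ge
  omega
theorem small_le_big : P.small ≤ P.big := by have := P.big_ge; omega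
theorem TS_le_STR (hP : P.Good) : P.TS ≤ P.STR :=
  Nat.le_mul_of_pos_left _ (by have := hP.S_pos; unfold CM; omega)

end Pm

variable {τ : Type} {J : Inv τ}

namespace PR

variable {p : τ → Pm} {g e h i q q' : τ → ℕ}

theorem comap {τ' : Type} {J' : Inv τ'} {π : τ' → τ} (H : PR J p) (hπ : Ov J' π J.I) :
    PR J' fun t => p (π t) :=
  ⟨H.lb.comap hπ, H.lm.comap hπ, H.ell.comap hπ, H.k0.comap hπ, H.K.comap hπ, H.S.comap hπ,
    H.D.comap hπ, H.fp.comap hπ, H.gp.comap hπ, H.rh.comap hπ, H.ga.comap hπ, H.sh.comap hπ,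
    H.ie.comap hπ, H.mh.comap hπ, H.s0.comap hπ, H.wz.comap hπ, H.dh.comap hπ, H.kp.comap hπ,
    fun t m k => H.pow _ m (hπ t m k)⟩

theorem wk {N : τ → ℕ → Prop} (H : PR J p) : PR (J.ext N) fun t => p t.1 :=
  H.comap fun _ _ k => k.1
theorem wa {r : τ → Prop} (H : PR J p) : PR (J.and r) p :=
  H.comap (π := fun t => t) fun _ _ k => k.1
theorem wf {arr : ℕ} {h6 : arr ≠ 6} {β sz : τ → ℕ} {f : τ → ℕ → ℕ} (H : PR J p) :
    PR (J.fil arr h6 β sz f) fun t => p t.1 := H.comap fun _ _ k => k.1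

/-- Powers of two with exponent at most `pw`. -/
theorem p2 (H : PR J p) (he : Rep J e) (hb : Al J fun t => e t ≤ (p t).pw) :
    Rep J fun t => 2 ^ e t := he.pow2 fun t m k => H.pow t m k _ (hb t m k)

theorem p2' (H : PR J p) (he : Rep J e) (hb : ∀ t, e t ≤ (p t).pw) :
    Rep J fun t => 2 ^ e t := H.p2 he (Al.of hb)

variable (H : PR J p)
include H

theorem b : Rep J fun t => (p t).b := H.p2' H.lb fun t => by have := (p t).pw_ge; omega
theorem U1 : Rep J fun t => (p t).U1 := H.p2' H.fp fun t => by have := (p t).pw_ge; omega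
theorem mm : Rep J fun t => (p t).mm := H.p2' H.mh fun t => by have := (p t).pw_ge; omega
theorem JJ : Rep J fun t => (p t).J := H.p2' H.sh fun t => by have := (p t).pw_ge; omega
theorem J0 : Rep J fun t => (p t).J0 := H.p2' H.dh fun t => by have := (p t).pw_ge; omega
theorem O : Rep J fun t => (p t).O :=
  H.p2' (H.kp.add (Rep.c 1)) fun t => by have := (p t).pw_ge; omega
theorem Qm : Rep J fun t => (p t).Qm :=
  H.p2' (H.kp.add (Rep.c 2)) fun t => by have := (p t).pw_ge; omega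
theorem NA : Rep J fun t => (p t).NA :=
  (H.p2' (H.D.mul H.lb) fun t => by have := (p t).pw_ge; omega).congr' fun t => by
    rw [Pm.NA, Pm.b, ← pow_mul, mul_comm]
theorem nbm : Rep J fun t => (p t).nbm := ((H.gp.add H.rh).add H.lb).add (Rep.c 3)
theorem NG : Rep J fun t => (p t).NG := (H.gp.add H.rh).add (Rep.c 2)
theorem NS : Rep J fun t => (p t).NS := (((H.lm.add H.lb).add H.gp).add H.rh).add (Rep.c 4)
theorem N : Rep J fun t => (p t).N := H.NS.mul H.b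
theorem NI : Rep J fun t => (p t).NI := (((H.D.mul H.lb).add H.ie).add H.sh).add (Rep.c 1)
theorem KK : Rep J fun t => (p t).KK := (Rep.c 3).mul H.K
theorem Bz : Rep J fun t => (p t).Bz := H.p2' (H.rh.add (Rep.c 2)) fun t => by
  have := (p t).pw_ge; omega
theorem Bzp (he : Rep J e) (hb : Al J fun t => e t ≤ (p t).b) : Rep J fun t => (p t).Bz ^ e t :=
  (H.p2 ((H.rh.add (Rep.c 2)).mul he) (hb.imp fun t k => by
    have := (p t).pw_ge
    have := Nat.mul_le_mul_left ((p t).rh + 2) k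
    omega)).congr' fun t => by rw [Pm.Bz, ← pow_mul]
theorem Om : Rep J fun t => (p t).Om := H.Bzp H.b (Al.of fun _ => le_rfl)
theorem Rn : Rep J fun t => (p t).Rn :=
  H.p2' ((H.ga.add H.rh).add (Rep.c 1)) fun t => by have := (p t).pw_ge; omega
theorem Wz : Rep J fun t => (p t).Wz := H.p2' H.wz fun t => by have := (p t).pw_ge; omega
theorem nbm2 (k : ℕ) (hk : k ≤ 10) : Rep J fun t => 2 ^ ((p t).nbm + k) :=
  H.p2' (H.nbm.add (Rep.c k)) fun t => by have := (p t).pw_ge; omega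
theorem Xmax : Rep J fun t => (p t).Xmax :=
  (((H.K.add (Rep.c 4)).mul H.b).mul H.U1).mul (H.nbm2 2 (by omega))
theorem emax : Rep J fun t => (p t).emax := (H.fp.add H.rh).add H.lb
theorem DH : Rep J fun t => (p t).DH :=
  H.p2' ((H.gp.add H.rh).add (Rep.c 3)) fun t => by have := (p t).pw_ge; omega
theorem DW : Rep J fun t => (p t).DW := ((Rep.c 2).mul H.DH).add (Rep.c 1)
theorem TS : Rep J fun t => (p t).TS := (H.Qm.add (Rep.c 1)).mul H.DW
theorem NB : Rep J fun t => (p t).NB :=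
  (((Rep.c 2).mul (H.gp.add H.rh)).add H.lb).add (Rep.c 4)
theorem CM : Rep J fun t => (p t).CM :=
  ((H.S.add ((H.b.mul H.KK).mul H.NB)).add H.N).add (H.K.mul H.nbm)
theorem STR : Rep J fun t => (p t).STR := H.CM.mul H.TS
theorem RW : Rep J fun t => (p t).RW :=
  H.p2' ((H.gp.add H.rh).add (Rep.c 2)) fun t => by have := (p t).pw_ge; omega
theorem DN : Rep J fun t => (p t).DN := ((Rep.c 2).mul H.Rn).add (Rep.c 1)
theorem NuS : Rep J fun t => (p t).NuS :=
  (((H.NG.mul H.b).mul (H.b.add (Rep.c 1))).mul (H.Qm.add (Rep.c 1))).mul H.DN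
theorem XB : Rep J fun t => (p t).XB :=
  (((((H.K.add (Rep.c 1)).mul H.b).mul ((H.nbm2 2 (by omega)).mul H.U1)).add
    (H.N.mul ((H.b.mul (H.nbm2 0 (by omega))).mul ((Rep.c 3).mul H.U1)))).add H.Xmax).add (Rep.c 1)
theorem small : Rep J fun t => (p t).small :=
  ((((((((((((((((H.b.add H.N).add H.K).add H.S).add H.nbm).add H.NG).add H.Om).add H.Xmax).add
    H.lb).add H.DN).add ((Rep.c 2).mul H.RW)).add H.DW).add H.emax).add H.XB).add
    ((Rep.c 2).mul H.U1)).add H.mm).add H.ell).add (Rep.c 30)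
theorem g0 : Rep J fun t => (p t).g0 := (H.kp.add H.sh).add H.gp
theorem lo (hg : Rep J g) : Rep J fun t => (p t).lo (g t) := ((hg.sub H.gp).sub H.rh).sub H.lb
omit H in
theorem hi (hg : Rep J g) : Rep J fun t => (p t).hi (g t) := hg.add (Rep.c 2)
theorem ee (hg : Rep J g) : Rep J fun t => (p t).ee (g t) :=
  ((hg.add H.fp).sub H.gp).sub (H.lo hg)
theorem r (hg : Rep J g) (hb : Al J fun t => g t ≤ (p t).gmx) : Rep J fun t => (p t).r (g t) :=
  H.p2 (((hg.sub H.gp).sub H.rh).sub H.sh) (hb.imp fun t k => by have := (p t).pw_ge; omega)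
theorem rb (hg : Rep J g) (hb : Al J fun t => g t ≤ (p t).gmx) : Rep J fun t => (p t).rb (g t) :=
  H.r (hg.sub (Rep.c 2)) (hb.imp fun t k => by omega)
theorem Qg (hg : Rep J g) (hb : Al J fun t => g t ≤ (p t).gmx) : Rep J fun t => (p t).Qg (g t) :=
  H.Qm.div (H.r hg hb)
theorem rad (hg : Rep J g) (hb : Al J fun t => g t ≤ (p t).gmx) :
    Rep J fun t => (p t).rad (g t) :=
  ((H.p2 hg (hb.imp fun t k => by have := (p t).pw_ge; omega)).div
    (H.p2' (H.gp.add H.sh) fun t => by have := (p t).pw_ge; omega)).div (H.r hg hb)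
theorem ug (hg : Rep J g) (hb : Al J fun t => g t ≤ (p t).gmx) : Rep J fun t => (p t).ug (g t) :=
  H.p2 ((((((hg.sub H.gp).sub H.rh).sub H.sh).add H.sh).add H.fp).sub (H.lo hg))
    (hb.imp fun t k => by have := (p t).pw_ge; omega)
theorem dN (hi : Rep J i) (hb : Al J fun t => i t ≤ (p t).gmx) (hq : Rep J q) (hq' : Rep J q') :
    Rep J fun t => (p t).dN (i t) (q t) (q' t) :=
  (((hq.dist hq').mul H.JJ).mul H.U1).div
    (H.p2 hi (hb.imp fun t k => by have := (p t).pw_ge; omega))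
theorem lenN (hh : Rep J h) (hb : Al J fun t => h t ≤ (p t).D) (hi : Rep J i) :
    Rep J fun t => (p t).lenN (h t) (i t) :=
  H.p2 (((((hh.mul H.lb).add H.sh).add (Rep.c 1)).add H.fp).sub hi) (hb.imp fun t k => by
    have := (p t).pw_ge
    have := Nat.mul_le_mul_right (p t).lb k
    omega)
theorem smp (hh : Rep J h) (hi : Rep J i) : RepP J fun t => (p t).smp (h t) (i t) :=
  (RepP.le (Rep.c 1) hh).and (RepP.le hi (((hh.mul H.lb).add H.ie).add H.sh))
theorem bd (hi : Rep J i) (he : Rep J e) : Rep J fun t => (p t).bd (i t) (e t) :=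
  (hi.add (he.div H.b)).sub (H.lm.add H.lb)
theorem act (hi : Rep J i) (he : Rep J e) (hb : Al J fun t => e t < (p t).N) :
    RepP J fun t => (p t).act (i t) (e t) :=
  (RepP.le (H.lm.add H.lb) (hi.add (he.div H.b))).and (RepP.lt (he.mod H.b)
    (H.p2 (he.div H.b) (hb.imp fun t k => by
      have := (p t).pw_ge
      have : e t / (p t).b < (p t).NS := Nat.div_lt_of_lt_mul (by rwa [mul_comm])
      omega)))
theorem idx (hi : Rep J i) (hb : Al J fun t => i t ≤ (p t).gmx) (hq : Rep J q) (hq' : Rep J q') :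
    Rep J fun t => (p t).idx (i t) (q t) (q' t) :=
  (hq.mul H.DW).add (((hq'.add ((H.rb hi hb).mul H.DH)).sub hq).div (H.rb hi hb))

end PR

section

variable {π : τ → Cf} {u n : τ → ℕ}

theorem bs_rd (hO : Ov J π Cf.Bs) (i : ℕ) (hi : i < 20) :
    Rep J fun t => (π t).P.bgL.getD i 0 :=
  Rep.rd 17 (by decide) (by decide) (Rep.c i) fun t m k => (hO t m k).2.bg i hi

theorem bs_pr (hO : Ov J π Cf.Bs) : PR J fun t => (π t).P :=
  ⟨bs_rd hO 2 (by omega), bs_rd hO 3 (by omega), bs_rd hO 4 (by omega), bs_rd hO 5 (by omega),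
    bs_rd hO 6 (by omega), bs_rd hO 7 (by omega), bs_rd hO 8 (by omega), bs_rd hO 9 (by omega),
    bs_rd hO 10 (by omega), bs_rd hO 11 (by omega), bs_rd hO 12 (by omega),
    bs_rd hO 13 (by omega), bs_rd hO 14 (by omega), bs_rd hO 15 (by omega),
    bs_rd hO 16 (by omega), bs_rd hO 17 (by omega), bs_rd hO 18 (by omega),
    bs_rd hO 19 (by omega), fun t m k => (hO t m k).2.pow⟩

theorem bs_ok (hO : Ov J π Cf.Bs) : Al J fun t => (π t).ok := fun t m k => (hO t m k).1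

theorem bs_good (hO : Ov J π Cf.Bs) : Al J fun t => (π t).P.Good := fun t m k => (hO t m k).1.1

/-- Ranges of folds. -/
theorem bs_rng (hO : Ov J π Cf.Bs) (h : Al J fun t => n t ≤ (π t).P.small) :
    ∀ t m, J.I t m → n t ≤ m 7 0 := fun t m k => by rw [(hO t m k).2.r0]; exact h t m k

theorem bs_sum (hO : Ov J π Cf.Bs) {f : τ → ℕ → ℕ} (hn : Rep J n)
    (h : ∀ t, n t ≤ (π t).P.small) (hf : Rep (J.ext fun t s => s < n t) fun q => f q.1 q.2) :
    Rep J fun t => ∑ s ∈ range (n t), f t s := Rep.sum hn (bs_rng hO (Al.of h)) hf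

theorem bs_mn (hO : Ov J π Cf.Bs) {f : τ → ℕ → ℕ} (hn : Rep J n)
    (h : ∀ t, n t ≤ (π t).P.small) (hu : Rep J u)
    (hf : Rep (J.ext fun t s => s < n t) fun q => f q.1 q.2) :
    Rep J fun t => (range (n t)).fold min (u t) (f t) := Rep.mn hn (bs_rng hO (Al.of h)) hu hf

theorem bs_SZ (hO : Ov J π Cf.Bs) (hu : Rep J u) (hb : Al J fun t => u t ≤ (π t).P.ell) :
    Rep J fun t => (π t).P.SZ (u t) :=
  Rep.rd 23 (by decide) (by decide) hu fun t m k => (hO t m k).2.sz _ (hb t m k)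

theorem bs_pt (hO : Ov J π Cf.Bs) (hu : Rep J u) (hn : Rep J n)
    (hb : Al J fun t => u t ≤ 2 * (π t).P.U1 ∧ n t ≤ (π t).P.mm) : Rep J fun t => u t ^ n t :=
  Rep.rd 22 (by decide) (by decide) ((hu.mul ((bs_pr hO).mm.add (Rep.c 1))).add hn)
    fun t m k => (hO t m k).2.pt _ (hb t m k).1 _ (hb t m k).2

theorem bs_H (hO : Ov J π Cf.Bs) (hu : Rep J u) : Rep J fun t => (π t).P.H (u t) := by
  have H := bs_pr hO
  have h1 := hu.min ((Rep.c 2).mul H.U1)
  have h2 := bs_pt hO h1 H.mm (Al.of fun t => ⟨min_le_right _ _, le_rfl⟩)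
  have h3 := bs_pt hO H.U1 (H.mm.sub (Rep.c 1)) (Al.of fun t => ⟨by omega, by omega⟩)
  have h4 := H.p2' (H.mm.sub (Rep.c 1)) fun t => by have := (π t).P.pw_ge; omega
  have h5 := (H.mm.mul h3).mul h4
  exact Rep.ite' (RepP.le h1 H.U1) ((h2.mul (h4.sub (Rep.c 1))).div h5)
    ((((((h1.sub H.U1).add (H.U1.div H.mm)).mul h5).sub h2)).div h5)

theorem bs_jv (hO : Ov J π Cf.Bs) (hu : Rep J u) : Rep J fun t => (π t).P.jv (π t).ρ (u t) := by
  have H := bs_pr hO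
  refine bs_sum hO H.lb (fun t => by have := (π t).P.small_ge; omega) ?_
  have h1 : Rep (J.ext fun t s => s < (π t).P.lb) fun q =>
      if (π q.1).ρ (u q.1 * (π q.1).P.lb + q.2) then 1 else 0 :=
    Rep.rd 3 (by decide) (by decide) ((hu.wk.mul H.lb.wk).add Rep.var)
      fun q m k => (hO _ m k.1).2.tape _
  exact (h1.mul (H.wk.p2 Rep.var (Al.var.imp fun q k => by
    have := (π q.1).P.pw_ge; omega))).congr' fun q => by split_ifs <;> simp

end

section

variable {π : τ → Cx Cf}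

theorem jf_bs (hO : Ov J π sch.Jf.I) : Ov J (fun t => (π t).s) Cf.Bs :=
  fun t m k => ⟨(hO t m k).1, (hO t m k).2.2.1.1⟩
theorem jf_val (hO : Ov J π sch.Jf.I) : Al J fun t => (π t).s.P.ValF (π t).A :=
  fun t m k => (hO t m k).2.1
theorem jp_jf (hO : Ov J π sch.Jp.I) : Ov J π sch.Jf.I := fun t m k => (hO t m k).1
theorem jP_jp (hO : Ov J π JP.I) : Ov J π sch.Jp.I := fun t m k => (hO t m k).1
theorem jN_jP (hO : Ov J π JN.I) : Ov J π JP.I := fun t m k => (hO t m k).1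
theorem jP_jf (hO : Ov J π JP.I) : Ov J π sch.Jf.I := jp_jf (jP_jp hO)
theorem jP_bs (hO : Ov J π JP.I) : Ov J (fun t => (π t).s) Cf.Bs := jf_bs (jP_jf hO)

theorem jf_md (hO : Ov J π sch.Jf.I) : Rep J fun t => (π t).A.md := Sch.rep_get hO (e := 0) (by omega)
theorem jf_mo (hO : Ov J π sch.Jf.I) : Rep J fun t => mo (π t).A := (jf_md hO).mod (Rep.c 3)
theorem jf_bi (hO : Ov J π sch.Jf.I) : Rep J fun t => bi (π t).A := (jf_md hO).div (Rep.c 3)
theorem jf_k (hO : Ov J π sch.Jf.I) : Rep J fun t => (π t).A.k := Sch.rep_get hO (e := 1) (by omega)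
theorem jf_h (hO : Ov J π sch.Jf.I) : Rep J fun t => (π t).A.h := Sch.rep_get hO (e := 2) (by omega)
theorem jf_a (hO : Ov J π sch.Jf.I) : Rep J fun t => (π t).A.a := Sch.rep_get hO (e := 3) (by omega)
theorem jf_j (hO : Ov J π sch.Jf.I) : Rep J fun t => (π t).A.j := Sch.rep_get hO (e := 4) (by omega)
theorem jf_ad (hO : Ov J π sch.Jf.I) : Rep J fun t => (π t).A.ad :=
  Sch.rep_get hO (e := 5) (by omega)

/-- The facts about the argument of a sampled pass. -/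
theorem jP_arg (hO : Ov J π JP.I) : Al J fun t => mo (π t).A = 1 ∧
    (π t).s.P.smp (π t).A.h (bi (π t).A) ∧ (π t).A.k < (π t).s.P.KK ∧ (π t).A.h ≤ (π t).s.P.D ∧
    bi (π t).A ≤ (π t).s.P.imx ∧ 1 ≤ (π t).A.j := fun t m k => by
  obtain ⟨h1, h2⟩ := (hO t m k).2
  rcases jf_val (jP_jf hO) t m k with h | h | h
  · omega
  · exact ⟨h1, h2, h.2.1, h.2.2.1, h.2.2.2.2.1, h.2.2.2.2.2.1⟩
  · rw [h] at h1; cases h1

theorem jP_gmx (hO : Ov J π JP.I) {g : τ → ℕ} (hg : Al J fun t => (π t).Sc (g t)) :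
    Al J fun t => g t ≤ (π t).s.P.gmx := fun t m k => by
  have h1 := (jP_arg hO t m k).2.2.2.2.1
  have h2 := (hg t m k).2
  have := (π t).s.P.pw_ge
  omega

theorem jf_wb (hO : Ov J π sch.Jf.I) : RepP J fun t => ((π t).A.h - 1) % (π t).s.P.ell = 0 :=
  RepP.eq (((jf_h hO).sub (Rep.c 1)).mod (bs_pr (jf_bs hO)).ell) (Rep.c 0)

theorem jf_nO (hO : Ov J π sch.Jf.I) : Rep J fun t => (π t).s.P.nO (π t).A :=
  ((bs_pr (jf_bs hO)).b.mul ((jf_k hO).add (Rep.c 1))).mul (bs_pr (jf_bs hO)).NB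

theorem jf_SZ (hO : Ov J π sch.Jf.I) :
    Rep J fun t => (π t).s.P.SZ (((π t).A.h - 1) % (π t).s.P.ell - 1) :=
  bs_SZ (jf_bs hO) ((((jf_h hO).sub (Rep.c 1)).mod (bs_pr (jf_bs hO)).ell).sub (Rep.c 1))
    ((bs_good (jf_bs hO)).imp fun t k => by
      have := Nat.mod_lt ((π t).A.h - 1) k.ell_pos
      omega)

theorem jf_sa (hO : Ov J π sch.Jf.I) {n : τ → ℕ} (hn : Rep J n) :
    Rep J fun t => (π t).s.P.sa (π t).A (n t) :=
  (jf_ad hO).add (hn.mul ((Rep.c 2).mul (jf_SZ hO)))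

theorem jf_Jc (hO : Ov J π sch.Jf.I) {n : τ → ℕ} (hn : Rep J n) :
    Rep J fun t => (π t).s.P.Jc (π t).s.ρ (π t).A (n t) :=
  have H := bs_pr (jf_bs hO)
  Rep.ite' (RepP.le H.lb (hn.div H.b)) (hn.mod H.b) (bs_jv (jf_bs hO) (jf_sa hO hn))

/-- Entry `e` of the result of the subcall `s`. -/
theorem jp_slot (hO : Ov J π sch.Jp.I) {s e : τ → ℕ} (hs : Rep J s) (he : Rep J e)
    (hb : Al J fun t => s t < (π t).s.P.cntF (π t).A ∧ e t < (π t).s.P.TS) :
    Rep J fun t => (π t).s.P.GF (π t).s.x (π t).s.y (π t).s.ρ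
      ((π t).s.P.subF (π t).s.ρ (π t).A (s t)) (e t) :=
  have H := bs_pr (jf_bs (jp_jf hO))
  Rep.rd 11 (by decide) (by decide)
    ((((Sch.rep_sp (jp_jf hO)).mul H.STR).add (hs.mul H.TS)).add he)
    fun t m k => (hO t m k).2.2 _ (hb t m k).1 _ (hb t m k).2

end

/-- The last step of every post-processing: fill array 12 with the table. -/
theorem post_fin {J : Inv (Cx Cf)} (hd : J.d = 0) (hO : Ov J (fun c => c) sch.Jf.I)
    (hst : ∀ c m n g, J.I c m → J.I c (upd m 12 0 n g))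
    (hg : Rep (J.ext fun c e => e < c.s.P.TS) fun q =>
      q.1.s.P.GF q.1.s.x q.1.s.y q.1.s.ρ q.1.A q.2)
    (hb : Al J fun c => ∀ e, c.s.P.GF c.s.x c.s.y c.s.ρ c.A e ≤ c.s.V) : sch.Post J.I := by
  refine (Stp.fill (β := fun _ => 0) (g := fun c e => c.s.P.GF c.s.x c.s.y c.s.ρ c.A e) hd 12
    (by decide) (by decide) (by omega) 0 (Rep.c 0) (bs_pr (jf_bs hO)).TS
    (hg.comap (π := fun q => q) fun _ _ k => ⟨k.1, k.2.1, k.2.2.1⟩)
    (fun c m n _ k => hst c m n _ k) (fun c m k => (jf_bs hO c m k).2.sm)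
    fun c m k => ⟨?_, ?_, fun e _ => hb c m k e, by omega⟩).mono (fun _ _ k => k)
    fun c m k e he => ?_
  · have h1 := jf_bs hO c m k
    have := c.s.P.TS_le_STR h1.1.1
    have := c.s.P.STR_le_big
    have : c.s.P.big ≤ c.s.V := h1.1.2.1
    show 0 + c.s.P.TS ≤ c.s.V
    omega
  · show c.s.P.TS + 1 ≤ (c.s.P.TS + 7) * c.s.R ^ 0
    rw [pow_zero]
    omega
  · have := k.2 e he
    rwa [zero_add] at this

end Vale.Agent.P315F
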