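import Vale.Agent.P315F.RamPar

/-! The outer loop over the guesses `kp`: contexts and invariants. -/

namespace Vale.Agent.P315F

open Vale.Agent.P315 Finset

section

variable {σ : Type}

/-- The invariant after a fill of array `arr`. -/
def Inv.has (J : Inv σ) (arr : ℕ) (h6 : arr ≠ 6) (β sz : σ → ℕ) (g : σ → ℕ → ℕ) : Inv σ where
  I s m := J.I s m ∧ ∀ e < sz s, m arr (β s + e) = g s e
  d := J.d
  st := fun _ _ _ _ hx h => ⟨J.st _ _ _ _ hx h.1, by rw [Mem.set_arr _ _ _ h6]; exact h.2⟩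

/-- The invariant does not look at array `arr`. -/
def St (J : Inv σ) (arr : ℕ) : Prop := ∀ s m β n g, J.I s m → J.I s (upd m arr β n g)

theorem St.has {J : Inv σ} {arr arr' : ℕ} {h6 : arr ≠ 6} {β sz : σ → ℕ} {g : σ → ℕ → ℕ}
    (h : St J arr') (hne : arr ≠ arr') : St (J.has arr h6 β sz g) arr' :=
  fun s m _ _ _ k => ⟨h s m _ _ _ k.1, by rw [upd_arr _ _ _ _ hne]; exact k.2⟩

theorem St.and {J : Inv σ} {arr : ℕ} {q : σ → Prop} (h : St J arr) : St (J.and q) arr :=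
  fun s m _ _ _ k => ⟨h s m _ _ _ k.1, k.2⟩

theorem Rep.wh {J : Inv σ} {f : σ → ℕ} {arr : ℕ} {h6 : arr ≠ 6} {β sz : σ → ℕ} {g : σ → ℕ → ℕ}
    (h : Rep J f) : Rep (J.has arr h6 β sz g) f := h.comap (π := fun s => s) fun _ _ k => k.1

/-- `Stp.fill` for an array other than 7 that the invariant does not look at. -/
theorem Stp.fill' {V R U : σ → ℕ} {keep : ℕ → Prop} {J : Inv σ} (hd : J.d = 0) (arr : ℕ)
    (h5 : arr ≠ 5) (h6 : arr ≠ 6) (h7 : arr ≠ 7) (hk : ¬keep arr) {β sz : σ → ℕ}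
    {g : σ → ℕ → ℕ} (k : ℕ) (hβ : Rep J β) (hsz : Rep J sz)
    (hg : Rep (J.fil arr h6 β sz g) fun p => g p.1 p.2) (hst : St J arr)
    (hS : ∀ s m, J.I s m → Sm (R s) m)
    (hb : Al J fun s => β s + sz s ≤ V s ∧ sz s + 1 ≤ U s * R s ^ k ∧ ∀ e < sz s, g s e ≤ V s) :
    Stp V R U keep J.I (J.has arr h6 β sz g).I :=
  Stp.fill hd arr h5 h6 hk k hβ hsz hg (fun s m _ _ h => hst s m _ _ _ h) hS
    (hb.imp fun _ h => ⟨h.1, h.2.1, h.2.2, fun h' => absurd h' h7⟩)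

end

/-- Input size, strings, tape, bounds. -/
structure C0 where
  n : ℕ
  x : List ℕ
  y : List ℕ
  L : ℕ
  r : Fin L → Bool
  V : ℕ
  R : ℕ

namespace C0

variable (c : C0)

def lg : ℕ := Nat.log 2 c.n
def inp : Mem := input c.n c.x c.y c.r
def cf (t : ℕ) (m0 : Mem) : Cf := ⟨par c.n t, c.x, c.y, ext c.r, c.V, c.R, m0⟩

structure Ok : Prop where
  good : ∀ t < c.lg + 2, (par c.n t).Good
  big : ∀ t < c.lg + 2, (par c.n t).big ≤ c.V
  pw : ∀ t < c.lg + 2, (par c.n t).pw ≤ 5 * c.lg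
  dl : ∀ t < c.lg + 2, c.lg + 1 ≤ (par c.n t).D * (par c.n t).lb
  small : (par c.n 0).small ≤ c.R
  hx : c.x.length ≤ c.n
  hy : c.y.length ≤ c.n
  hn : 30 ≤ c.n
  hV : c.n ^ 5 ≤ c.V

/-- Best value after the guesses below `t`. -/
def best (t : ℕ) : ℕ :=
  (range t).fold min (c.x.length + c.y.length) fun kp => (par c.n kp).ans c.x c.y (ext c.r)

/-- The memory at the start. -/
def I0 (m : Mem) : Prop :=
  c.Ok ∧ (∀ a i, a < 4 → m a i = c.inp a i) ∧ (∀ i, m 7 i = 0) ∧ m 8 0 = 0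

/-- The tables that do not depend on the guess. -/
structure Tb (m : Mem) : Prop where
  ok : c.Ok
  inp : ∀ a i, a < 4 → m a i = c.inp a i
  r0 : m 7 0 = (par c.n 0).small
  sm : Sm c.R m
  pow : ∀ i ≤ 5 * c.lg, m 18 i = 2 ^ i
  log : ∀ e ≤ c.n, m 19 e = Nat.log 2 e
  ex : ∀ e ≤ (par c.n 0).emax, ∀ u ≤ (par c.n 0).XB, m 20 (e * ((par c.n 0).XB + 1) + u) =
    EXg (par c.n 0).Wz (2 ^ (e + (par c.n 0).s0)) u
  pt : ∀ u ≤ 2 * (par c.n 0).U1, ∀ e ≤ (par c.n 0).mm,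
    m 22 (u * ((par c.n 0).mm + 1) + e) = u ^ e
  sz : ∀ e ≤ (par c.n 0).ell, m 23 e = (par c.n 0).SZ e

/-- The loop invariant before the guess `t`. -/
def Q (t : ℕ) (m : Mem) : Prop :=
  c.Tb m ∧ m 8 0 = 0 ∧ m 21 0 = t ∧ m 21 1 = c.best t ∧ m 21 2 = c.lg + 2 - t

variable {c}

theorem Tb.stab {m m' : Mem} (h : c.Tb m)
    (hm : ∀ a i, (a < 4 ∨ a = 7 ∨ (17 < a ∧ a ≠ 21)) → m' a i = m a i) : c.Tb m' where
  ok := h.ok
  inp := fun a i ha => by rw [hm a i (by omega)]; exact h.inp a i ha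
  r0 := by rw [hm 7 0 (by omega)]; exact h.r0
  sm := fun i => by rw [hm 7 i (by omega)]; exact h.sm i
  pow := fun i hi => by rw [hm 18 i (by omega)]; exact h.pow i hi
  log := fun i hi => by rw [hm 19 i (by omega)]; exact h.log i hi
  ex := fun i hi u hu => by rw [hm 20 _ (by omega)]; exact h.ex i hi u hu
  pt := fun i hi u hu => by rw [hm 22 _ (by omega)]; exact h.pt i hi u hu
  sz := fun i hi => by rw [hm 23 _ (by omega)]; exact h.sz i hi

theorem Ok.cf (h : c.Ok) {t : ℕ} (ht : t < c.lg + 2) (m0 : Mem) : (c.cf t m0).ok := by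
  refine ⟨h.good t ht, h.big t ht, h.small, ?_⟩
  have h1 := h.hx
  have h2 := h.hy
  have h3 := h.hn
  have h4 : c.n * 2 ≤ c.n ^ 5 := by
    rw [pow_succ']
    exact Nat.mul_le_mul_left _ (le_trans (by omega) (Nat.le_self_pow (by omega) _))
  have h5 := h.hV
  show c.x.length + c.y.length ≤ c.V
  omega

end C0

/-- Steps of the outer program. -/
def Top {τ : Type} (π : τ → C0) (I I' : τ → Mem → Prop) : Prop :=
  Stp (fun t => (π t).V) (fun t => (π t).R) (fun t => (π t).n + 2) (fun _ => False) I I'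

end Vale.Agent.P315F
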