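import Vale.Agent.P315F.RamPar

/-! The global minima of the algorithm are minima over small windows. -/

namespace Vale.Agent.P315F

open Vale.Agent.P315 Finset

theorem ramwin_mem {Qg Q M Rn : ℕ} (hM : M ∈ range (Qg + 1)) (h : Nat.dist Q M ≤ Rn) :
    M + Rn - Q ∈ range (2 * Rn + 1) ∧ min Qg (Q + (M + Rn - Q) - Rn) = M := by
  rw [mem_range] at *
  unfold Nat.dist at h
  omega

theorem ramwin_min (Qg x : ℕ) : min Qg x ∈ range (Qg + 1) :=
  mem_range.2 (Nat.lt_succ_of_le (min_le_left _ _))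

theorem nuC_loc (Qg ug Rn : ℕ) (z : Tab) (Q Q' : ℕ) :
    nuC Qg ug (Rn * ug) z Q Q' = max (Nat.dist Q Q' * ug)
      ((range (2 * Rn + 1)).fold min (Rn * ug) fun d =>
        (range (2 * Rn + 1)).fold min (Rn * ug) fun d' =>
          (Nat.dist Q (min Qg (Q + d - Rn)) + Nat.dist Q' (min Qg (Q' + d' - Rn))) * ug +
            z (min Qg (Q + d - Rn)) (min Qg (Q' + d' - Rn))) := by
  unfold nuC
  congr 1
  refine le_antisymm ((le_fold_min _).2 ⟨(fold_min_le _).2 (Or.inl le_rfl), fun d _ =>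
    (le_fold_min _).2 ⟨(fold_min_le _).2 (Or.inl le_rfl), fun d' _ => (fold_min_le _).2 (Or.inr
      ⟨(_, _), mk_mem_product (ramwin_min _ _) (ramwin_min _ _), le_rfl⟩)⟩⟩)
    ((le_fold_min _).2 ⟨(fold_min_le _).2 (Or.inl le_rfl), fun M hM => (fold_min_le _).2 ?_⟩)
  rw [mem_product] at hM
  by_cases h : Nat.dist Q M.1 + Nat.dist Q' M.2 ≤ Rn
  · obtain ⟨a1, a2⟩ := ramwin_mem hM.1 (show Nat.dist Q M.1 ≤ Rn by omega)
    obtain ⟨b1, b2⟩ := ramwin_mem hM.2 (show Nat.dist Q' M.2 ≤ Rn by omega)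
    refine Or.inr ⟨_, a1, (fold_min_le _).2 (Or.inr ⟨_, b1, ?_⟩)⟩
    rw [a2, b2]
  · exact Or.inl ((Nat.mul_le_mul_right _ (by omega)).trans (Nat.le_add_right _ _))

theorem nuF_le (Qg ug Cn : ℕ) (ν0 : ℕ → Tab) (j n Q Q' : ℕ) :
    nuF Qg ug Cn ν0 j n Q Q' ≤ max (Nat.dist Q Q' * ug) Cn := by
  cases n with
  | zero => exact le_max_left _ _
  | succ n => exact max_le_max le_rfl ((fold_min_le _).2 (Or.inl le_rfl))

theorem ramwin_le (Qg ug Cn : ℕ) (ν0 : ℕ → Tab) (j n Q Q' : ℕ) :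
    Nat.dist Q Q' * ug ≤ nuF Qg ug Cn ν0 j n Q Q' := by
  cases n with
  | zero => exact le_rfl
  | succ n => exact le_max_left _ _

theorem nuF_far (Qg ug Rn : ℕ) (ν0 : ℕ → Tab) (j n : ℕ) {Q Q' : ℕ} (h : Rn ≤ Nat.dist Q Q') :
    nuF Qg ug (Rn * ug) ν0 j n Q Q' = Nat.dist Q Q' * ug :=
  le_antisymm ((nuF_le _ _ _ _ _ _ _ _).trans (max_le le_rfl (Nat.mul_le_mul_right _ h)))
    (ramwin_le _ _ _ _ _ _ _ _)

theorem nuF_loc (Qg ug Rn : ℕ) (ν0 : ℕ → Tab) (j n Q Q' : ℕ) :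
    nuF Qg ug (Rn * ug) ν0 j (n + 1) Q Q' = max (Nat.dist Q Q' * ug)
      ((range (2 * Rn + 1)).fold min (Rn * ug) fun d =>
        nuF Qg ug (Rn * ug) ν0 j n Q (min Qg (Q + d - Rn)) +
          ν0 (j + n) (min Qg (Q + d - Rn)) Q') := by
  refine congrArg (max _) ?_
  refine le_antisymm ((le_fold_min _).2 ⟨(fold_min_le _).2 (Or.inl le_rfl), fun d _ =>
    (fold_min_le _).2 (Or.inr ⟨_, ramwin_min _ _, le_rfl⟩)⟩)
    ((le_fold_min _).2 ⟨(fold_min_le _).2 (Or.inl le_rfl), fun M hM => (fold_min_le _).2 ?_⟩)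
  by_cases h : Nat.dist Q M ≤ Rn
  · obtain ⟨a1, a2⟩ := ramwin_mem hM h
    refine Or.inr ⟨_, a1, ?_⟩
    rw [a2]
  · exact Or.inl (((Nat.mul_le_mul_right _ (by omega)).trans
      (ramwin_le Qg ug (Rn * ug) ν0 j n Q M)).trans (Nat.le_add_right _ _))

namespace Pm

variable (P : Pm)

/-- Grid point number `d` of the window of scale `g` around the position `p`. -/
def wq (g p d : ℕ) : ℕ := min (P.Qg g) (p / P.r g + d - P.RW)

theorem ramwin_wq {i g p Q : ℕ} (hg : i ≤ g) (hQ : Q ≤ P.Qg g)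
    (h : P.dN i p (P.r g * Q) < 2 * P.U1) :
    ∃ d ∈ range (2 * P.RW + 1), P.wq g p d = Q := by
  have h1 : Nat.dist p (P.r g * Q) * P.J < 2 ^ (i + 1) := by
    unfold dN at h
    rw [Nat.div_lt_iff_lt_mul (by positivity), mul_right_comm 2, ← pow_succ'] at h
    exact lt_of_mul_lt_mul_right h (Nat.zero_le _)
  have h2 : 2 ^ (i + 1) ≤ P.r g * 2 ^ (P.gp + P.rh + 1) * P.J := by
    unfold r J
    rw [← pow_add, ← pow_add]
    exact Nat.pow_le_pow_right (by norm_num) (by omega)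
  have h3 := lt_of_mul_lt_mul_right (h1.trans_le h2) (Nat.zero_le _)
  have h4 : P.RW = 2 * 2 ^ (P.gp + P.rh + 1) := by rw [RW, ← pow_succ']
  have h5 : 0 < P.r g := by unfold r; positivity
  have h6 : 0 < 2 ^ (P.gp + P.rh + 1) := by positivity
  generalize 2 ^ (P.gp + P.rh + 1) = W at *
  have a1 := Nat.div_add_mod p (P.r g)
  have a2 := Nat.mod_lt p h5
  have a3 : Q < p / P.r g + 1 + W := by
    refine lt_of_mul_lt_mul_left (a := P.r g) ?_ (Nat.zero_le _)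
    rw [mul_add, mul_add, mul_one]
    unfold Nat.dist at h3
    omega
  have a4 : p / P.r g < Q + W := by
    refine lt_of_mul_lt_mul_left (a := P.r g) ?_ (Nat.zero_le _)
    rw [mul_add]
    unfold Nat.dist at h3
    omega
  refine ⟨Q + P.RW - p / P.r g, mem_range.2 (by omega), ?_⟩
  unfold wq
  omega

theorem VN_loc (X : Ctx) (k h i : ℕ) (Ps : ℕ → ℕ → ℕ → ℕ) (p p' : ℕ) :
    P.VN X k h i Ps p p' = max (P.dN i p p')
      ((range P.NG).fold min (min (2 * P.U1) (P.dN i p p' + P.lenN h i)) fun g' =>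
        (range (2 * P.RW + 1)).fold min (2 * P.U1) fun d =>
          (range (2 * P.RW + 1)).fold min (2 * P.U1) fun d' =>
            if P.IsOpt X k (i + g') (P.wq (i + g') p d) (P.wq (i + g') p' d') then
              P.dN i p (P.r (i + g') * P.wq (i + g') p d) +
                P.dN i p' (P.r (i + g') * P.wq (i + g') p' d') +
                P.TN X k i Ps (i + g') (P.wq (i + g') p d) (P.wq (i + g') p' d')
            else 2 * P.U1) := by
  unfold VN
  congr 1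
  have h0 : ∀ {s : Finset (ℕ × ℕ × ℕ)} {f : ℕ × ℕ × ℕ → ℕ},
      s.fold min (min (2 * P.U1) (P.dN i p p' + P.lenN h i)) f ≤ 2 * P.U1 :=
    (fold_min_le _).2 (Or.inl (min_le_left _ _))
  have hq : ∀ g x d, P.wq g x d ∈ range (P.Qm + 1) := fun g x d =>
    mem_range.2 (Nat.lt_succ_of_le ((min_le_left _ _).trans (Nat.div_le_self _ _)))
  refine le_antisymm ((le_fold_min _).2 ⟨(fold_min_le _).2 (Or.inl le_rfl), fun g' hg =>
    (le_fold_min _).2 ⟨h0, fun d _ => (le_fold_min _).2 ⟨h0, fun d' _ => ?_⟩⟩⟩)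
    ((le_fold_min _).2 ⟨(fold_min_le _).2 (Or.inl le_rfl), fun o ho => (fold_min_le _).2 ?_⟩)
  · split_ifs with hc
    · refine (fold_min_le _).2 (Or.inr ⟨(i + g', P.wq (i + g') p d, P.wq (i + g') p' d'),
        mem_filter.2 ⟨mk_mem_product ?_ (mk_mem_product (hq _ _ _) (hq _ _ _)), hc⟩, le_rfl⟩)
      rw [mem_range] at hg
      exact mem_Ico.2 ⟨by omega, by omega⟩
    · exact h0
  · obtain ⟨h1, h2⟩ := mem_filter.1 ho
    have h3 := mem_Ico.1 (mem_product.1 h1).1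
    by_cases hc : P.dN i p (P.r o.1 * o.2.1) + P.dN i p' (P.r o.1 * o.2.2) < 2 * P.U1
    · obtain ⟨d, a1, a2⟩ := P.ramwin_wq (p := p) h3.1 h2.1 (by omega)
      obtain ⟨d', b1, b2⟩ := P.ramwin_wq (p := p') h3.1 h2.2.1 (by omega)
      have e : i + (o.1 - i) = o.1 := by omega
      refine Or.inr ⟨o.1 - i, mem_range.2 (by omega), (fold_min_le _).2 (Or.inr ⟨d, a1,
        (fold_min_le _).2 (Or.inr ⟨d', b1, ?_⟩)⟩)⟩
      rw [e, a2, b2, if_pos h2]
    · exact Or.inl ((min_le_left _ _).trans (by omega))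

theorem nuG_le (X : Ctx) (k i e : ℕ) (hi : i ≤ P.imx) (he : e < P.NuS) :
    P.nuG X k i e ≤ P.Rn * 2 ^ P.pw := by
  unfold nuG
  split_ifs
  · have h1 : e / P.DN / (P.Qm + 1) / (P.b + 1) / P.b < P.NG :=
      Nat.div_lt_of_lt_mul (by
        rw [mul_comm]
        exact Nat.div_lt_of_lt_mul (by
          rw [mul_comm]
          exact Nat.div_lt_of_lt_mul (by
            rw [mul_comm]
            exact Nat.div_lt_of_lt_mul (by rwa [mul_comm]))))
    have h2 : e % P.DN < 2 * P.Rn + 1 := Nat.mod_lt _ (by unfold DN; omega)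
    have h3 : P.ug (i + e / P.DN / (P.Qm + 1) / (P.b + 1) / P.b) ≤ 2 ^ P.pw :=
      Nat.pow_le_pow_right (by norm_num) (by have := P.pw_ge; omega)
    refine (nuF_le _ _ _ _ _ _ _ _).trans (max_le (Nat.mul_le_mul ?_ h3)
      (Nat.mul_le_mul_left _ h3))
    unfold Nat.dist
    omega
  · exact Nat.zero_le _

theorem qd_le2 (X : Ctx) (k g : ℕ) {Q Q' : ℕ} (h1 : Q ≤ P.Qg g) (h2 : Q' ≤ P.Qg g) (j d : ℕ) :
    P.qd X k g Q Q' j d ≤ P.Qg g := by
  unfold qd
  split_ifs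
  · exact h1
  · exact h2
  · exact min_le_left _ _

end Pm

end Vale.Agent.P315F
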