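import Vale.Agent.P315F.Cons

/-! Regret bounds and the analysis of stage 1. -/

namespace Vale.Agent.P315F

open Finset Vale.Agent.P315

namespace Pm

variable {P : Pm} {w : ℕ → ℕ → ℕ} {A : ℕ → ℕ → ℕ → ℕ → ℕ → Tab}

/-- `Zt_opt` in every round of the stage, `TmR ≤ PsA` (`PsR_ge` gives `0 ≤ PsA`), `sum_PsR_le`,
`exists_member`, `nu0_stage`. -/
theorem REG (hP : P.Good) (hS : P.Star w A) {h : ℕ} (hh : h + 1 ≤ P.D) {s : ℕ} (hs1 : 1 ≤ s)
    (hs : s < 3) {a : ℕ} (ha : a < P.b ^ (P.D - (h + 1))) {g : ℕ} (ω : ℕ → ℕ)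
    (ho : P.IsOpt (P.ctx (A h) a) (s * P.K) g (ω 0) (ω P.b)) (hω : ∀ j, ω j ≤ P.Qg g)
    (hn : ∀ j, 0 < j → j < P.b →
      Nat.dist (ω j) (P.ref (P.ctx (A h) a) (s * P.K) g (ω 0) (ω P.b) j) ≤ P.rad g)
    (g2 : ℕ) {p p' : ℕ} (hp : p ≤ P.Qm) (hp' : p' ≤ P.Qm) :
    P.avZ A s (h + 1) a g2 p p' ≤ (1 + 6 * P.del) *
      (P.dR p (P.r g * ω 0) + P.dR p' (P.r g * ω P.b) + P.eR g +
        ∑ j ∈ range P.b, P.avZ A s h (a * P.b + j) g (P.r g * ω j) (P.r g * ω (j + 1)) +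
        P.kR * P.G g) + 2 * P.fl g2 := by
  obtain ⟨d0, -, -⟩ := cons_small hP
  have hK : (0 : ℝ) < P.K := by exact_mod_cast hP.K_pos
  obtain ⟨o, ho1, ho2⟩ := exists_member (X := P.ctx (A h) a) (k := s * P.K) ω rfl rfl hω hn
  have h1 := cons_avg hP (c := 1 + 6 * P.del) (e := 2 * P.fl g2)
    (d := P.dR p (P.r g * ω 0) + P.dR p' (P.r g * ω P.b) + P.eR g)
    (f := fun k => P.Zt A (h + 1) (s * P.K + k) a g2 p p')
    (f' := fun k => P.PsA A h (s * P.K + k) a g (ω 0) (ω P.b) * P.un g) fun k hk => by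
      obtain ⟨c1, c2, c3⟩ := cons_round hP hs1 hs hk
      refine (Zt_opt hP hS hh c1 c2 ha (g := g) (Q := ω 0) (Q' := ω P.b)
        (by rwa [(nu0_stage hP.K_pos c3).2.2.2.2.2]) g2 hp hp').trans
        (add_le_add (mul_le_mul_of_nonneg_left ?_ (by linarith)) le_rfl)
      have c4 : 0 ≤ P.PsA A h (s * P.K + k) a g (ω 0) (ω P.b) :=
        PsR_ge hP _ fun o _ => by
          rw [← P.val_cast]
          exact Nat.cast_nonneg _
      have c5 : P.TmR (P.ctx (A h) a) (s * P.K + k) (P.PsA A h (s * P.K + k) a) g (ω 0) (ω P.b) ≤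
          P.PsA A h (s * P.K + k) a g (ω 0) (ω P.b) := by
        rw [TmR, if_neg c1.not_gt, max_eq_right c4]
        exact min_le_right _ _
      have c6 := mul_le_mul_of_nonneg_right c5 (P.un_pos g).le
      unfold xA xo
      linarith
  refine h1.trans (add_le_add (mul_le_mul_of_nonneg_left ?_ (by linarith)) le_rfl)
  have h2 := sum_PsR_le hP (P.ctx (A h) a) s g (ω 0) (ω P.b) ho1
  have h3 : (∑ k ∈ range P.K, (P.val (P.ctx (A h) a (s * P.K + k)) g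
      (P.q (P.ctx (A h) a) (s * P.K) g (ω 0) (ω P.b) o) : ℝ)) * P.un g = P.K *
      ∑ j ∈ range P.b, P.avZ A s h (a * P.b + j) g (P.r g * ω j) (P.r g * ω (j + 1)) := by
    rw [sum_mul, mul_sum]
    simp only [val_un]
    rw [sum_comm]
    refine sum_congr rfl fun j hj => ?_
    rw [mem_range] at hj
    rw [avZ, mul_div_cancel₀ _ hK.ne', ho2 j hj.le, ho2 (j + 1) hj]
  rw [h3, ← mul_add, sum_mul, ← div_le_iff₀' hK] at h2
  exact (add_le_add h2 le_rfl).trans_eq (by ring)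

theorem REGcap (hP : P.Good) (hS : P.Star w A) {h : ℕ} (hh : h + 1 ≤ P.D) {s : ℕ} (hs1 : 1 ≤ s)
    (hs : s < 3) {a : ℕ} (ha : a < P.b ^ (P.D - (h + 1))) {g Q Q' : ℕ}
    (ho : P.IsOpt (P.ctx (A h) a) (s * P.K) g Q Q') (g2 : ℕ) {p p' : ℕ} (hp : p ≤ P.Qm)
    (hp' : p' ≤ P.Qm) :
    P.avZ A s (h + 1) a g2 p p' ≤ (1 + 6 * P.del) * (P.dR p (P.r g * Q) + P.dR p' (P.r g * Q') +
      P.eR g + P.capt A h (s * P.K) a g Q Q') + 2 * P.fl g2 := by
  obtain ⟨d0, -, -⟩ := cons_small hP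
  have h1 := cons_avg hP (c := 1 + 6 * P.del) (e := 2 * P.fl g2)
    (d := P.dR p (P.r g * Q) + P.dR p' (P.r g * Q') + P.eR g + P.capt A h (s * P.K) a g Q Q')
    (f := fun k => P.Zt A (h + 1) (s * P.K + k) a g2 p p') (f' := fun _ => 0) fun k hk => by
      obtain ⟨c1, c2, c3⟩ := cons_round hP hs1 hs hk
      refine (Zt_opt hP hS hh c1 c2 ha (g := g) (Q := Q) (Q' := Q')
        (by rwa [(nu0_stage hP.K_pos c3).2.2.2.2.2]) g2 hp hp').trans
        (add_le_add (mul_le_mul_of_nonneg_left ?_ (by linarith)) le_rfl)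
      have c5 : P.TmR (P.ctx (A h) a) (s * P.K + k) (P.PsA A h (s * P.K + k) a) g Q Q' ≤
          P.cap (P.ctx (A h) a) (s * P.K) g Q Q' := by
        rw [TmR, if_neg c1.not_gt, (nu0_stage hP.K_pos c3).2.2.1]
        exact min_le_left _ _
      have c6 := mul_le_mul_of_nonneg_right c5 (P.un_pos g).le
      unfold xA xo capt
      linarith
  simpa only [sum_const_zero, zero_div, zero_add, avZ] using h1

/-- `REG` along the rounding `m j / r g` of a path of positions. -/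
theorem REGpath (hP : P.Good) (hS : P.Star w A) {h : ℕ} (hh : h + 1 ≤ P.D) {s : ℕ} (hs1 : 1 ≤ s)
    (hs : s < 3) {a : ℕ} (ha : a < P.b ^ (P.D - (h + 1))) {g : ℕ} (m : ℕ → ℕ)
    (hm : ∀ j, m j ≤ P.Qm)
    (hg : 2 ^ P.cs * (P.En w (h + 1) a (m 0) (m P.b) : ℝ) ≤ 2 ^ P.ga * P.G g)
    (hn : ∀ j, 0 < j → j < P.b → P.dR (P.r g * (m j / P.r g)) (P.r g *
      P.ref (P.ctx (A h) a) (s * P.K) g (m 0 / P.r g) (m P.b / P.r g) j) ≤ P.G g)
    (B : ℕ → ℝ) {c : ℝ} (hc : c ≤ 5 * P.fl g)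
    (hB : ∀ j < P.b, P.avZ A s h (a * P.b + j) g (m j) (m (j + 1)) ≤ B j + c) (g2 : ℕ) :
    P.avZ A s (h + 1) a g2 (m 0) (m P.b) ≤
      (1 + 6 * P.del) * (∑ j ∈ range P.b, B j + P.kap * P.G g) + 2 * P.fl g2 := by
  obtain ⟨d0, -, -⟩ := cons_small hP
  obtain ⟨c1, c2, -⟩ := cons_round hP hs1 hs hP.K_pos
  refine (REG hP hS hh hs1 hs ha (fun j => m j / P.r g)
    (isOpt_round hP hS hh c1 c2 ha (hm 0) (hm P.b) hg) (fun j => P.div_le_Qg g (hm j))
    (fun j h0 hj => P.tube_ok (hn j h0 hj)) g2 (hm 0) (hm P.b)).trans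
    (add_le_add (mul_le_mul_of_nonneg_left ?_ (by linarith)) le_rfl)
  have hn0 : (0 : ℝ) ≤ P.nbm := Nat.cast_nonneg _
  have h1 : ∑ j ∈ range P.b, P.avZ A s h (a * P.b + j) g (P.r g * (m j / P.r g))
      (P.r g * (m (j + 1) / P.r g)) ≤
      ∑ j ∈ range P.b, (B j + (6 * P.fl g + 2 * (P.nbm + 1) * P.eR g)) :=
    sum_le_sum fun j hj => by
      have a1 := avZ_lip hP hS s h (a * P.b + j) g (P.r g * (m j / P.r g))
        (P.r g * (m (j + 1) / P.r g)) (m j) (m (j + 1))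
      have a2 := P.dR_round g (m j)
      have a3 := P.dR_round g (m (j + 1))
      rw [dR_comm] at a2 a3
      have a4 := mul_le_mul_of_nonneg_left (add_le_add a2 a3)
        (show (0 : ℝ) ≤ P.nbm + 1 by linarith)
      linarith [hB j (mem_range.1 hj)]
  rw [sum_add_distrib, sum_const, card_range, nsmul_eq_mul] at h1
  have h2 := P.om1_G g
  have h3 := P.eR_eq g
  have h4 : (1 : ℝ) ≤ P.b := by exact_mod_cast P.b_pos
  have h5 : 1 * P.eR g ≤ P.b * (P.nbm + 1) * P.eR g :=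
    mul_le_mul_of_nonneg_right (by nlinarith) (P.eR_pos g).le
  have h6 := P.dR_round g (m 0)
  have h7 := P.dR_round g (m P.b)
  have h8 := P.eR_pos g
  rw [kap]
  linarith

/-- A path that stays within `G / 4` of its start is inside the tube, in every stage. -/
theorem tube_triv (hP : P.Good) (X : Ctx) (k g : ℕ) (m : ℕ → ℕ)
    (h : ∀ j ≤ P.b, 4 * P.dR (m 0) (m j) ≤ P.G g) {j : ℕ} (hj : j ≤ P.b) :
    P.dR (P.r g * (m j / P.r g))
      (P.r g * P.ref X k g (m 0 / P.r g) (m P.b / P.r g) j) ≤ P.G g := by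
  have h1 : P.dR (P.r g * (m 0 / P.r g)) (P.r g * P.ref X k g (m 0 / P.r g) (m P.b / P.r g) j) ≤
      P.dR (P.r g * (m 0 / P.r g)) (P.r g * (m P.b / P.r g)) := by
    rw [dR_grid, dR_grid]
    exact mul_le_mul_of_nonneg_right (Nat.cast_le.2 (Nat.mul_le_mul_right _
      (P.ref_near X k g _ _ j))) (P.un_pos g).le
  have h2 : ∀ i ≤ P.b, P.dR (P.r g * (m 0 / P.r g)) (P.r g * (m i / P.r g)) ≤
      2 * P.eR g + P.G g / 4 := fun i hi => by
    have a1 := P.dR_round g (m 0)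
    rw [dR_comm] at a1
    linarith [P.dR_tri (P.r g * (m 0 / P.r g)) (m 0) (P.r g * (m i / P.r g)),
      P.dR_tri (m 0) (m i) (P.r g * (m i / P.r g)), P.dR_round g (m i), h i hi]
  have h3 : (8 : ℝ) ≤ 2 ^ P.rh := by
    have a1 := hP.rh_ge
    have a2 : 0 < P.b * (P.nbm + 1) * 2 ^ P.eh := by have := P.b_pos; positivity
    have a3 : 8 ≤ 2 ^ P.rh := by
      rw [mul_assoc, mul_assoc, ← mul_assoc P.b] at a1
      omega
    exact_mod_cast a3
  have h4 := mul_le_mul_of_nonneg_right h3 (P.eR_pos g).le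
  have h5 := h2 j hj
  rw [dR_comm] at h5
  linarith [P.G_eq g, h2 P.b le_rfl, P.dR_tri (P.r g * (m j / P.r g)) (P.r g * (m 0 / P.r g))
    (P.r g * P.ref X k g (m 0 / P.r g) (m P.b / P.r g) j)]

theorem reg_scale (P : Pm) {β : ℝ} (h : 1 / 2 ≤ β) : ∃ g, 8 * β ≤ P.G g ∧ P.G g ≤ 16 * β := by
  obtain ⟨g, -, h1, h2⟩ := P.exists_scale (8 * β) 0
  refine ⟨g, h1, ?_⟩
  rcases h2 with rfl | h2
  · have : P.G 0 ≤ 1 := by
      rw [G, pow_zero]
      exact div_le_one_of_le₀ (one_le_pow₀ one_le_two) (by positivity)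
    linarith
  · linarith

theorem reg_En (P : Pm) (w : ℕ → ℕ → ℕ) (h a p p' : ℕ) : (1 : ℝ) ≤ P.En w h a p p' := by
  have h1 : (1 : ℝ) ≤ P.J0 := by exact_mod_cast P.J0_pos
  linarith [P.En_ge (w := w) h a p p', P.dR_nonneg p p']

theorem reg_A1 (hP : P.Good) (hS : P.Star w A) {h : ℕ} (hh : h ≤ P.D) {a : ℕ}
    (ha : a < P.b ^ (P.D - h)) (g : ℕ) {p p' : ℕ} (hp : p ≤ P.Qm) (hp' : p' ≤ P.Qm) :
    P.avZ A 1 h a g p p' ≤ (1 + 6 * P.del) ^ h * (1 + 3 * P.del + 16 * h * P.kap) *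
      P.En w h a p p' + 2 * P.fl g := by
  obtain ⟨d0, d1, -⟩ := cons_small hP
  induction h generalizing a g p p' with
  | zero =>
    have h1 := cons_avg hP (c := 1 + 3 * P.del) (e := 2 * P.fl g) (d := P.En w 0 a p p')
      (f := fun k => P.Zt A 0 (1 * P.K + k) a g p p') (f' := fun _ => 0) fun k hk => by
        rw [zero_add]
        exact Zt_leaf hP hS (cons_round hP le_rfl (by omega) hk).2.1 ha g hp hp'
    simpa only [sum_const_zero, zero_div, zero_add, pow_zero, one_mul, Nat.cast_zero, mul_zero,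
      zero_mul, add_zero, avZ] using h1
  | succ h ih =>
    have e1 := P.reg_En w (h + 1) a p p'
    obtain ⟨g', g1, g2⟩ := P.reg_scale (β := P.En w (h + 1) a p p') (by linarith)
    obtain ⟨m, rfl, rfl, m1, m2, m3⟩ := P.En_split (w := w) h a hp hp'
    have h1 := REGpath hP hS hh le_rfl (by omega) ha (g := g') m m1 (by
        have a1 := cons_pow (P := P) g' (show P.cs ≤ P.ga by have := hP.ga1; omega)
        have a2 : (0 : ℝ) < 2 ^ P.cs := by positivity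
        nlinarith)
      (fun j _ hj => tube_triv hP _ _ g' m (fun i hi => by linarith [m2 i hi]) hj.le)
      (fun j => (1 + 6 * P.del) ^ h * (1 + 3 * P.del + 16 * h * P.kap) *
        P.En w h (a * P.b + j) (m j) (m (j + 1))) (c := 2 * P.fl g') (by linarith [P.fl_pos g'])
      (fun j hj => ih (by omega) (P.child_lt hh ha hj) g' (m1 j) (m1 (j + 1))) g
    rw [← mul_sum, m3] at h1
    refine h1.trans (add_le_add ?_ le_rfl)
    have k0 := P.kap_pos.2.2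
    have a1 : (1 : ℝ) ≤ (1 + 6 * P.del) ^ h := one_le_pow₀ (by linarith)
    have a2 := mul_le_mul_of_nonneg_left g2 k0
    have a3 := mul_le_mul_of_nonneg_right a1
      (show 0 ≤ P.kap * (16 * (P.En w (h + 1) a (m 0) (m P.b) : ℝ)) by positivity)
    rw [pow_succ', mul_assoc (1 + 6 * P.del), mul_assoc (1 + 6 * P.del)]
    refine mul_le_mul_of_nonneg_left ?_ (by linarith)
    push_cast
    linarith

/-- Induction on `h` with the factor `(1 + 6 del)^h (1 + 3 del + 16 h kap)`; `G ∈ [8 En, 16 En)`;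
`an_ge`. -/
theorem A1 (hP : P.Good) (hS : P.Star w A) {h : ℕ} (hh : h ≤ P.D) {a : ℕ}
    (ha : a < P.b ^ (P.D - h)) (g : ℕ) {p p' : ℕ} (hp : p ≤ P.Qm) (hp' : p' ≤ P.Qm) :
    P.avZ A 1 h a g p p' ≤ 2 ^ P.an * P.En w h a p p' + 2 * P.fl g := by
  obtain ⟨d0, d1, -⟩ := cons_small hP
  refine (reg_A1 hP hS hh ha g hp hp').trans (add_le_add
    (mul_le_mul_of_nonneg_right (le_trans ?_ hP.an_ge) (Nat.cast_nonneg _)) le_rfl)
  have k0 := P.kap_pos.2.2
  have a1 : (1 + 6 * P.del) ^ h ≤ (1 + 7 * P.del) ^ h :=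
    pow_le_pow_left₀ (by linarith) (by linarith) h
  have a2 := pow_del hP (h := h) (by omega)
  have a3 : (h : ℝ) * P.kap ≤ P.D * P.kap := mul_le_mul_of_nonneg_right (Nat.cast_le.2 hh) k0
  exact mul_le_mul (by linarith [eps_le hP]) (by linarith) (by positivity) zero_le_two

theorem nut_round (hP : P.Good) (hS : P.Star w A) {h : ℕ} (hh : h ≤ P.D) {a : ℕ}
    (ha : a < P.b ^ (P.D - h)) (g : ℕ) {p p' : ℕ} (hp : p ≤ P.Qm) (hp' : p' ≤ P.Qm) :
    P.nut A h (2 * P.K) a g (p / P.r g) (p' / P.r g) ≤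
      2 ^ P.an * P.En w h a p p' + (2 * (P.nbm + 1) + 3) * P.eR g := by
  have h1 := nut_le (P := P) (A := A) (h := h) (k := 2 * P.K) (a := a) (by omega)
    (P.div_le_Qg g hp) (P.div_le_Qg g hp')
  rw [Nat.mul_div_cancel _ hP.K_pos] at h1
  have a1 := P.dR_round g p
  have a2 := P.dR_round g p'
  have a3 := a2
  rw [dR_comm] at a1 a2
  have e0 := P.eR_pos g
  have hn0 : (0 : ℝ) ≤ P.nbm * P.eR g := by positivity
  refine h1.trans (max_le ?_ ?_)
  · have b1 : (P.En w h a p p' : ℝ) ≤ 2 ^ P.an * P.En w h a p p' :=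
      le_mul_of_one_le_left (Nat.cast_nonneg _) (one_le_pow₀ one_le_two)
    have b2 : (0 : ℝ) ≤ P.J0 := Nat.cast_nonneg _
    linarith [P.dR_tri (P.r g * (p / P.r g)) p (P.r g * (p' / P.r g)),
      P.dR_tri p p' (P.r g * (p' / P.r g)), P.En_ge (w := w) h a p p']
  · have b1 := mul_le_mul_of_nonneg_left (add_le_add a1 a2)
      (show (0 : ℝ) ≤ P.nbm + 1 by positivity)
    linarith [(Zb_le hP A 1 h a g (P.r g * (p / P.r g)) (P.r g * (p' / P.r g))).1,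
      avZ_lip hP hS 1 h a g (P.r g * (p / P.r g)) (P.r g * (p' / P.r g)) p p',
      A1 hP hS hh ha g hp hp', P.fl_le_eR g]

/-- The defect of the stage 1 tables.  `β ≥ (1 - del) En ≥ 1/2` by `nut_valid`, `En_chain`;
`REGpath` with `m j = r g1 * ω j`, `G ∈ [8 β, 16 β)`, `B j = (1 + 7 del) (nut j + fl g1)` (`NU`). -/
theorem DEF (hP : P.Good) (hS : P.Star w A) {h : ℕ} (hh : h + 1 ≤ P.D) {a : ℕ}
    (ha : a < P.b ^ (P.D - (h + 1))) {g1 : ℕ} (ω : ℕ → ℕ) (hω : ∀ j, ω j ≤ P.Qg g1) {β : ℝ}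
    (hβ : ∑ j ∈ range P.b, P.nut A h (2 * P.K) (a * P.b + j) g1 (ω j) (ω (j + 1)) ≤ β)
    (hle : β ≤ 2 ^ P.ga * P.G g1) (g2 : ℕ) :
    P.avZ A 1 (h + 1) a g2 (P.r g1 * ω 0) (P.r g1 * ω P.b) ≤
      (1 + P.kD) * β + 2 * P.eR g1 + 2 * P.fl g2 := by
  obtain ⟨d0, d1, -⟩ := cons_small hP
  have n0 : ∀ j ∈ range P.b, 0 ≤ P.nut A h (2 * P.K) (a * P.b + j) g1 (ω j) (ω (j + 1)) :=
    fun j _ => (P.dR_nonneg _ _).trans (P.nut_ge A h _ _ g1 _ _)
  have n1 : ∀ j < P.b, P.nut A h (2 * P.K) (a * P.b + j) g1 (ω j) (ω (j + 1)) ≤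
      2 ^ P.ga * P.G g1 := fun j hj =>
    ((single_le_sum n0 (mem_range.2 hj)).trans hβ).trans hle
  have hK := hP.K_pos
  have n2 : (1 - P.del) * P.En w (h + 1) a (P.r g1 * ω 0) (P.r g1 * ω P.b) ≤ β := by
    have a1 : (P.En w (h + 1) a (P.r g1 * ω 0) (P.r g1 * ω P.b) : ℝ) ≤ ∑ j ∈ range P.b,
        (P.En w h (a * P.b + j) (P.r g1 * ω j) (P.r g1 * ω (j + 1)) : ℝ) := by
      exact_mod_cast P.En_chain (w := w) h a fun j => P.r g1 * ω j
    refine (mul_le_mul_of_nonneg_left a1 (by linarith)).trans (le_trans ?_ hβ)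
    rw [mul_sum]
    exact sum_le_sum fun j hj => nut_valid hP hS (by omega) (by omega) (by unfold KK; omega)
      (P.child_lt hh ha (mem_range.1 hj)) (n1 j (mem_range.1 hj))
  have e1 := P.reg_En w (h + 1) a (P.r g1 * ω 0) (P.r g1 * ω P.b)
  have n3 : (P.En w (h + 1) a (P.r g1 * ω 0) (P.r g1 * ω P.b) : ℝ) ≤ 2 * β := by nlinarith
  obtain ⟨g, q1, q2⟩ := P.reg_scale (β := β) (by linarith)
  have n4 : ∀ j ≤ P.b, P.dR (P.r g1 * ω 0) (P.r g1 * ω j) ≤
      ∑ i ∈ range j, P.nut A h (2 * P.K) (a * P.b + i) g1 (ω i) (ω (i + 1)) := fun j hj => by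
    induction j with
    | zero => simp [dR_self]
    | succ j ih =>
      rw [sum_range_succ]
      linarith [ih (by omega), P.dR_tri (P.r g1 * ω 0) (P.r g1 * ω j) (P.r g1 * ω (j + 1)),
        P.nut_ge A h (2 * P.K) (a * P.b + j) g1 (ω j) (ω (j + 1))]
  have h1 := REGpath hP hS hh le_rfl (by omega) ha (g := g) (fun j => P.r g1 * ω j)
    (fun j => P.rQ_le (hω j)) (by
      have a1 := cons_pow (P := P) g (show P.cs ≤ P.ga by have := hP.ga1; omega)
      have a2 : (0 : ℝ) < 2 ^ P.cs := by positivity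
      nlinarith)
    (fun j _ hj => tube_triv hP _ _ g (fun j => P.r g1 * ω j) (fun i hi => by
      have := sum_le_sum_of_subset_of_nonneg (range_subset_range.2 hi) fun j hj _ => n0 j hj
      linarith [n4 i hi]) hj.le)
    (fun j => (1 + 7 * P.del) *
      (P.nut A h (2 * P.K) (a * P.b + j) g1 (ω j) (ω (j + 1)) + P.fl g1)) (c := 2 * P.fl g)
    (by linarith [P.fl_pos g])
    (fun j hj => NU hP hS (by omega) (P.child_lt hh ha hj) (hω j) (hω (j + 1)) (n1 j hj) g) g2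
  rw [← mul_sum, sum_add_distrib, sum_const, card_range, nsmul_eq_mul, ← eR_eq] at h1
  refine h1.trans (add_le_add ?_ le_rfl)
  have k0 := P.kap_pos.2.2
  have e0 := P.eR_pos g1
  have a1 := mul_le_mul_of_nonneg_left q2 k0
  have a2 := mul_le_mul_of_nonneg_left (add_le_add hβ (le_refl (P.eR g1)))
    (show 0 ≤ 1 + 7 * P.del by linarith)
  refine (mul_le_mul_of_nonneg_left (add_le_add a2 a1) (by linarith)).trans ?_
  have a3 : (1 + 6 * P.del) * (1 + 7 * P.del) ≤ 1 + 14 * P.del := by nlinarith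
  have a4 := mul_le_mul_of_nonneg_right a3 (show 0 ≤ β + P.eR g1 by linarith)
  have a5 := mul_le_mul_of_nonneg_right (show 1 + 6 * P.del ≤ 2 by linarith)
    (show 0 ≤ P.kap * (16 * β) from mul_nonneg k0 (by linarith))
  have a6 := mul_le_mul_of_nonneg_right (show 14 * P.del ≤ 1 by linarith) e0.le
  rw [kD]
  linarith

end Pm

end Vale.Agent.P315F
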