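import Vale.Agent.P315.Rec

/-! Representability layer.  `Rep J f`: some fixed expression computes `f s` on every memory that
satisfies the invariant `J.I s`.  Cell `0` of array 7 is the universal range of all folds. -/

namespace Vale.Agent.P315F

open Vale.Agent.P315 Finset

/-- A family of invariants that looks only at the variables below `d`. -/
structure Inv (σ : Type) where
  I : σ → Mem → Prop
  d : ℕ
  st : ∀ s m x v, d ≤ x → I s m → I s (m.set 6 x v)

variable {σ τ : Type}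

def Rep (J : Inv σ) (f : σ → ℕ) : Prop :=
  ∃ e : FE, e.noRd 5 = true ∧ e.noRd 10 = true ∧ ∀ s m, J.I s m → e.eval m = f s

def RepP (J : Inv σ) (q : σ → Prop) : Prop :=
  ∃ e : FE, e.noRd 5 = true ∧ e.noRd 10 = true ∧ ∀ s m, J.I s m → (e.eval m = 0 ↔ q s)

/-- A fact that follows from the invariant. -/
def Al (J : Inv σ) (q : σ → Prop) : Prop := ∀ s m, J.I s m → q s

/-- `J` implies the memory predicate `Q` of the context `π s`. -/
def Ov (J : Inv σ) (π : σ → τ) (Q : τ → Mem → Prop) : Prop := ∀ s m, J.I s m → Q (π s) m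

/-- One more bound variable. -/
def Inv.ext (J : Inv σ) (N : σ → ℕ → Prop) : Inv (σ × ℕ) where
  I p m := J.I p.1 m ∧ m 6 J.d = p.2 ∧ N p.1 p.2
  d := J.d + 1
  st := fun _ _ _ _ hx h => ⟨J.st _ _ _ _ (by omega) h.1,
    by rw [Mem.set_idx _ _ _ (by omega)]; exact h.2.1, h.2.2⟩

/-- One more hypothesis. -/
def Inv.and (J : Inv σ) (q : σ → Prop) : Inv σ where
  I s m := J.I s m ∧ q s
  d := J.d
  st := fun _ _ _ _ hx h => ⟨J.st _ _ _ _ hx h.1, h.2⟩

/-- The invariant inside a fill loop of array `arr` at base `β`. -/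
def Inv.fil (J : Inv σ) (arr : ℕ) (h6 : arr ≠ 6) (β sz : σ → ℕ) (g : σ → ℕ → ℕ) :
    Inv (σ × ℕ) where
  I p m := J.I p.1 m ∧ m 6 J.d = p.2 ∧ p.2 < sz p.1 ∧ ∀ e < p.2, m arr (β p.1 + e) = g p.1 e
  d := J.d + 1
  st := fun _ _ _ _ hx h => ⟨J.st _ _ _ _ (by omega) h.1,
    by rw [Mem.set_idx _ _ _ (by omega)]; exact h.2.1, h.2.2.1,
    by rw [Mem.set_arr _ _ _ h6]; exact h.2.2.2⟩

section

variable {J : Inv σ} {f g n : σ → ℕ} {q r : σ → Prop} {N : σ → ℕ → Prop}

theorem Al.wk (h : Al J q) : Al (J.ext N) fun p => q p.1 := fun _ _ k => h _ _ k.1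
theorem Al.wa (h : Al J q) : Al (J.and r) q := fun _ _ k => h _ _ k.1
theorem Al.wf {arr : ℕ} {h6 : arr ≠ 6} {β sz : σ → ℕ} {g : σ → ℕ → ℕ} (h : Al J q) :
    Al (J.fil arr h6 β sz g) fun p => q p.1 := fun _ _ k => h _ _ k.1
theorem Al.var : Al (J.ext N) fun p => N p.1 p.2 := fun _ _ k => k.2.2
theorem Al.hyp : Al (J.and r) r := fun _ _ k => k.2
theorem Al.of (h : ∀ s, q s) : Al J q := fun _ _ _ => h _
theorem Al.imp (h : Al J q) (h' : ∀ s, q s → r s) : Al J r := fun _ _ k => h' _ (h _ _ k)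
theorem Al.and (h : Al J q) (h' : Al J r) : Al J fun s => q s ∧ r s :=
  fun _ _ k => ⟨h _ _ k, h' _ _ k⟩

theorem Ov.wk {π : σ → τ} {Q : τ → Mem → Prop} (h : Ov J π Q) :
    Ov (J.ext N) (fun p => π p.1) Q := fun _ _ k => h _ _ k.1
theorem Ov.wa {π : σ → τ} {Q : τ → Mem → Prop} (h : Ov J π Q) : Ov (J.and r) π Q :=
  fun _ _ k => h _ _ k.1
theorem Ov.wf {π : σ → τ} {Q : τ → Mem → Prop} {arr : ℕ} {h6 : arr ≠ 6} {β sz : σ → ℕ}
    {g : σ → ℕ → ℕ} (h : Ov J π Q) : Ov (J.fil arr h6 β sz g) (fun p => π p.1) Q :=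
  fun _ _ k => h _ _ k.1
theorem Ov.mono {π : σ → τ} {Q Q' : τ → Mem → Prop} (h : Ov J π Q) (h' : ∀ c m, Q c m → Q' c m) :
    Ov J π Q' := fun _ _ k => h' _ _ (h _ _ k)
theorem Ov.al {π : σ → τ} {Q : τ → Mem → Prop} {p : τ → Prop} (h : Ov J π Q)
    (h' : ∀ c m, Q c m → p c) : Al J fun s => p (π s) := fun _ _ k => h' _ _ (h _ _ k)
theorem Ov.id : Ov J (fun s => s) J.I := fun _ _ k => k

namespace Rep

theorem comap {J' : Inv τ} {π : τ → σ} (h : Rep J f) (hπ : Ov J' π J.I) :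
    Rep J' fun t => f (π t) := by
  obtain ⟨e, a, b, c⟩ := h
  exact ⟨e, a, b, fun t m k => c _ _ (hπ _ _ k)⟩

theorem wk (h : Rep J f) : Rep (J.ext N) fun p => f p.1 := h.comap fun _ _ k => k.1
theorem wa (h : Rep J f) : Rep (J.and r) f := h.comap (π := fun s => s) fun _ _ k => k.1
theorem wf {arr : ℕ} {h6 : arr ≠ 6} {β sz : σ → ℕ} {g : σ → ℕ → ℕ} (h : Rep J f) :
    Rep (J.fil arr h6 β sz g) fun p => f p.1 := h.comap fun _ _ k => k.1

theorem congr (h : Rep J f) (h' : Al J fun s => f s = g s) : Rep J g := by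
  obtain ⟨e, a, b, c⟩ := h
  exact ⟨e, a, b, fun s m k => (c _ _ k).trans (h' _ _ k)⟩

theorem congr' (h : Rep J f) (h' : ∀ s, f s = g s) : Rep J g := h.congr (Al.of h')

theorem c (k : ℕ) : Rep J fun _ => k := ⟨.c k, rfl, rfl, fun _ _ _ => rfl⟩

theorem var : Rep (J.ext N) fun p => p.2 := ⟨.v J.d, rfl, rfl, fun _ _ k => k.2.1⟩

theorem varf {arr : ℕ} {h6 : arr ≠ 6} {β sz : σ → ℕ} {g : σ → ℕ → ℕ} :
    Rep (J.fil arr h6 β sz g) fun p => p.2 := ⟨.v J.d, rfl, rfl, fun _ _ k => k.2.1⟩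

theorem bin (op : FE → FE → FE) (o : ℕ → ℕ → ℕ)
    (h1 : ∀ a e e', (op e e').noRd a = (e.noRd a && e'.noRd a))
    (h2 : ∀ e e' m, (op e e').eval m = o (e.eval m) (e'.eval m)) (hf : Rep J f)
    (hg : Rep J g) : Rep J fun s => o (f s) (g s) := by
  obtain ⟨e, a1, a2, a3⟩ := hf
  obtain ⟨e', b1, b2, b3⟩ := hg
  exact ⟨op e e', by rw [h1, a1, b1]; rfl, by rw [h1, a2, b2]; rfl,
    fun s m k => by rw [h2, a3 s m k, b3 s m k]⟩

theorem add (hf : Rep J f) (hg : Rep J g) : Rep J fun s => f s + g s :=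
  bin .add (· + ·) (fun _ _ _ => rfl) (fun _ _ _ => rfl) hf hg
theorem sub (hf : Rep J f) (hg : Rep J g) : Rep J fun s => f s - g s :=
  bin .sub (· - ·) (fun _ _ _ => rfl) (fun _ _ _ => rfl) hf hg
theorem mul (hf : Rep J f) (hg : Rep J g) : Rep J fun s => f s * g s :=
  bin .mul (· * ·) (fun _ _ _ => rfl) (fun _ _ _ => rfl) hf hg
theorem div (hf : Rep J f) (hg : Rep J g) : Rep J fun s => f s / g s :=
  bin .div (· / ·) (fun _ _ _ => rfl) (fun _ _ _ => rfl) hf hg
theorem mod (hf : Rep J f) (hg : Rep J g) : Rep J fun s => f s % g s :=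
  bin .mod (· % ·) (fun _ _ _ => rfl) (fun _ _ _ => rfl) hf hg
theorem min (hf : Rep J f) (hg : Rep J g) : Rep J fun s => min (f s) (g s) :=
  (hf.sub (hf.sub hg)).congr' fun _ => by omega
theorem max (hf : Rep J f) (hg : Rep J g) : Rep J fun s => max (f s) (g s) :=
  (hf.add (hg.sub hf)).congr' fun _ => by omega
theorem dist (hf : Rep J f) (hg : Rep J g) : Rep J fun s => Nat.dist (f s) (g s) :=
  (hf.sub hg).add (hg.sub hf)
theorem sq (hf : Rep J f) : Rep J fun s => f s ^ 2 := (hf.mul hf).congr' fun _ => (pow_two _).symm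

/-- Read a cell. -/
theorem rd (a : ℕ) (h5 : a ≠ 5) (h10 : a ≠ 10) (hf : Rep J f)
    (h : ∀ s m, J.I s m → m a (f s) = g s) : Rep J g := by
  obtain ⟨e, a1, a2, a3⟩ := hf
  refine ⟨.rd a e, by simp [FE.noRd, a1, h5], by simp [FE.noRd, a2, h10], fun s m k => ?_⟩
  rw [FE.eval, a3 s m k, h s m k]

/-- Branch; the branches may use the outcome of the test. -/
theorem ite [∀ s, Decidable (q s)] (hq : RepP J q) (hf : Rep (J.and q) f)
    (hg : Rep (J.and fun s => ¬q s) g) : Rep J fun s => if q s then f s else g s := by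
  obtain ⟨e, a1, a2, a3⟩ := hq
  obtain ⟨e1, b1, b2, b3⟩ := hf
  obtain ⟨e2, c1, c2, c3⟩ := hg
  refine ⟨.ifz e e1 e2, by simp [FE.noRd, a1, b1, c1], by simp [FE.noRd, a2, b2, c2],
    fun s m k => ?_⟩
  rw [FE.eval]
  beta_reduce
  by_cases h : q s
  · rw [if_pos ((a3 s m k).2 h), if_pos h, b3 s m ⟨k, h⟩]
  · rw [if_neg (fun h' => h ((a3 s m k).1 h')), if_neg h, c3 s m ⟨k, h⟩]

theorem ite' [∀ s, Decidable (q s)] (hq : RepP J q) (hf : Rep J f) (hg : Rep J g) :
    Rep J fun s => if q s then f s else g s := ite hq hf.wa hg.wa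

/-- Case distinction on a test. -/
theorem cases (hq : RepP J q) (hf : Rep (J.and q) f) (hg : Rep (J.and fun s => ¬q s) f) :
    Rep J f := by
  classical
  exact (ite hq hf hg).congr' fun _ => ite_self _

theorem sum {g : σ → ℕ → ℕ} (hn : Rep J n) (hR : ∀ s m, J.I s m → n s ≤ m 7 0)
    (hg : Rep (J.ext fun s t => t < n s) fun p => g p.1 p.2) :
    Rep J fun s => ∑ t ∈ range (n s), g s t := by
  obtain ⟨e, a1, a2, a3⟩ := hn
  obtain ⟨e1, b1, b2, b3⟩ := hg
  refine ⟨.sum J.d 0 (.ifz (.sub e (.v J.d)) (.c 0) e1), by simp [FE.noRd, a1, b1],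
    by simp [FE.noRd, a2, b2], fun s m k => ?_⟩
  rw [FE.eval, ← sum_subset (range_subset_range.2 (hR s m k))]
  · refine sum_congr rfl fun t ht => ?_
    rw [mem_range] at ht
    have k' := J.st s m J.d t le_rfl k
    simp only [FE.eval, a3 s _ k', Mem.set_same]
    rw [if_neg (by omega)]
    exact b3 (s, t) _ ⟨k', Mem.set_same _ _ _ _, ht⟩
  · intro t _ ht
    rw [mem_range] at ht
    have k' := J.st s m J.d t le_rfl k
    simp only [FE.eval, a3 s _ k', Mem.set_same]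
    rw [if_pos (by omega)]

theorem mn {g : σ → ℕ → ℕ} (hn : Rep J n) (hR : ∀ s m, J.I s m → n s ≤ m 7 0) (hf : Rep J f)
    (hg : Rep (J.ext fun s t => t < n s) fun p => g p.1 p.2) :
    Rep J fun s => (range (n s)).fold Min.min (f s) (g s) := by
  obtain ⟨e, a1, a2, a3⟩ := hn
  obtain ⟨e0, c1, c2, c3⟩ := hf
  obtain ⟨e1, b1, b2, b3⟩ := hg
  refine ⟨.mn J.d 0 e0 (.ifz (.sub e (.v J.d)) e0 e1), by simp [FE.noRd, a1, b1, c1],
    by simp [FE.noRd, a2, b2, c2], fun s m k => ?_⟩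
  have key : ∀ t, (FE.ifz (.sub e (.v J.d)) e0 e1).eval (m.set 6 J.d t) =
      if t < n s then g s t else f s := fun t => by
    have k' := J.st s m J.d t le_rfl k
    simp only [FE.eval, a3 s _ k', Mem.set_same, c3 s _ k']
    by_cases ht : t < n s
    · rw [if_neg (by omega), if_pos ht]
      exact b3 (s, t) _ ⟨k', Mem.set_same _ _ _ _, ht⟩
    · rw [if_pos (by omega), if_neg ht]
  rw [FE.eval, c3 s m k]
  simp only [key]
  have hr := hR s m k
  refine le_antisymm ((le_fold_min _).2 ⟨(fold_min_le _).2 (Or.inl le_rfl), fun t ht => ?_⟩)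
    ((le_fold_min _).2 ⟨(fold_min_le _).2 (Or.inl le_rfl), fun t _ => ?_⟩)
  · rw [mem_range] at ht
    exact (fold_min_le _).2 (Or.inr ⟨t, mem_range.2 (by omega), by rw [if_pos ht]⟩)
  · split_ifs with ht
    · exact (fold_min_le _).2 (Or.inr ⟨t, mem_range.2 ht, le_rfl⟩)
    · exact (fold_min_le _).2 (Or.inl le_rfl)

/-- Powers of two are read from array 18. -/
theorem pow2 (hf : Rep J f) (h : ∀ s m, J.I s m → m 18 (f s) = 2 ^ f s) :
    Rep J fun s => 2 ^ f s := rd 18 (by decide) (by decide) hf h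

end Rep

namespace RepP

theorem comap {J' : Inv τ} {π : τ → σ} (h : RepP J q) (hπ : Ov J' π J.I) :
    RepP J' fun t => q (π t) := by
  obtain ⟨e, a, b, c⟩ := h
  exact ⟨e, a, b, fun t m k => c _ _ (hπ _ _ k)⟩

theorem wk (h : RepP J q) : RepP (J.ext N) fun p => q p.1 := h.comap fun _ _ k => k.1
theorem wa (h : RepP J q) : RepP (J.and r) q := h.comap (π := fun s => s) fun _ _ k => k.1

theorem of (hf : Rep J f) (h : Al J fun s => f s = 0 ↔ q s) : RepP J q := by
  obtain ⟨e, a, b, c⟩ := hf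
  exact ⟨e, a, b, fun s m k => by rw [c s m k]; exact h s m k⟩

theorem congr (h : RepP J q) (h' : Al J fun s => q s ↔ r s) : RepP J r := by
  obtain ⟨e, a, b, c⟩ := h
  exact ⟨e, a, b, fun s m k => (c s m k).trans (h' s m k)⟩

theorem le (hf : Rep J f) (hg : Rep J g) : RepP J fun s => f s ≤ g s :=
  of (hf.sub hg) (Al.of fun _ => by omega)
theorem lt (hf : Rep J f) (hg : Rep J g) : RepP J fun s => f s < g s :=
  of ((hf.add (Rep.c 1)).sub hg) (Al.of fun _ => by omega)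
theorem eq (hf : Rep J f) (hg : Rep J g) : RepP J fun s => f s = g s :=
  of ((hf.sub hg).add (hg.sub hf)) (Al.of fun _ => by omega)

theorem not (h : RepP J q) : RepP J fun s => ¬q s := by
  classical
  exact of (Rep.ite' h (Rep.c 1) (Rep.c 0)) (Al.of fun s => by by_cases k : q s <;> simp [k])

theorem and (h : RepP J q) (h' : RepP J r) : RepP J fun s => q s ∧ r s := by
  classical
  exact of ((Rep.ite' h (Rep.c 0) (Rep.c 1)).add (Rep.ite' h' (Rep.c 0) (Rep.c 1)))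
    (Al.of fun s => by by_cases k : q s <;> by_cases k' : r s <;> simp [k, k'])

theorem or (h : RepP J q) (h' : RepP J r) : RepP J fun s => q s ∨ r s := by
  classical
  exact of ((Rep.ite' h (Rep.c 0) (Rep.c 1)).mul (Rep.ite' h' (Rep.c 0) (Rep.c 1)))
    (Al.of fun s => by by_cases k : q s <;> by_cases k' : r s <;> simp [k, k'])

theorem ne (hf : Rep J f) (hg : Rep J g) : RepP J fun s => f s ≠ g s := (eq hf hg).not

end RepP

theorem rep_nil (k : ℕ) : Rep J fun s => ([] : List ℕ).getD (f s - k) 0 := Rep.c 0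

/-- Lists of representable numbers, read at position `f s - k`. -/
theorem rep_cons {l : σ → List ℕ} {k : ℕ} (hf : Rep J f) (hg : Rep J g)
    (hl : Rep J fun s => (l s).getD (f s - (k + 1)) 0) :
    Rep J fun s => (g s :: l s).getD (f s - k) 0 := by
  refine (Rep.ite' (RepP.le hf (Rep.c k)) hg hl).congr' fun s => ?_
  split_ifs with h
  · rw [Nat.sub_eq_zero_of_le h, List.getD_cons_zero]
  · rw [show f s - k = f s - (k + 1) + 1 by omega, List.getD_cons_succ]

end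

end Vale.Agent.P315F
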