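import Vale.Agent.P315F.RepTab

/-! The block tables `nu` (array 13) and the reference path. -/

namespace Vale.Agent.P315F

open Vale.Agent.P315 Finset

variable {τ : Type} {J : Inv τ} {π : τ → Cx Cf} {j n g Q Q' d o : τ → ℕ}

/-- Reading a block table, provided that the entry is already written. -/
theorem jP_nuRd (hO : Ov J π JP.I) (hj : Rep J j) (hn : Rep J n) (hg : Rep J g) (hQ : Rep J Q)
    (hQ' : Rep J Q') (hb : Al J fun t => (π t).Sc (g t) ∧ j t < (π t).s.P.b ∧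
      j t + n t ≤ (π t).s.P.b ∧ Q t ≤ (π t).s.P.Qm)
    (hm : ∀ t m, J.I t m → Nat.dist (Q t) (Q' t) ≤ (π t).s.P.Rn →
      m 13 ((π t).s.P.nuIdx (g t - bi (π t).A) (j t) (n t) (Q t) (Q' t)) =
        (π t).s.P.nuG (π t).X (π t).A.k (bi (π t).A)
          ((π t).s.P.nuIdx (g t - bi (π t).A) (j t) (n t) (Q t) (Q' t))) :
    Rep J fun t => (π t).s.P.nu (π t).X (π t).A.k (g t) (j t) (n t) (Q t) (Q' t) := by
  have hF := jP_jf hO
  have H := bs_pr (jf_bs hF)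
  refine Rep.cases (RepP.le (hQ.dist hQ') H.Rn) ?_ ?_
  · refine Rep.rd 13 (by decide) (by decide) (((((((((hg.sub (jf_bi hF)).mul H.b).add hj).mul
      (H.b.add (Rep.c 1))).add hn).mul (H.Qm.add (Rep.c 1))).add hQ).mul H.DN).add
      ((hQ'.add H.Rn).sub hQ)).wa fun t m h => ?_
    obtain ⟨⟨h1, h2⟩, h3, h4, h5⟩ := hb t m h.1
    refine (hm t m h.1 h.2).trans ?_
    rw [(Pm.nuG_idx _ _ _ _ (by omega) h3 h4 h5 h.2).2, Nat.add_sub_cancel' h1]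
  · refine ((hQ.dist hQ').mul (H.ug hg (jP_gmx hO (hb.imp fun _ h => h.1)))).wa.congr
      fun t m h => (nuF_far _ _ _ _ _ _ (not_le.1 h.2).le).symm

theorem repnu_dec (P : Pm) {e : ℕ} (he : e < P.NuS) :
    e / P.DN / (P.Qm + 1) / (P.b + 1) / P.b < P.NG ∧
    e = (((e / P.DN / (P.Qm + 1) / (P.b + 1) / P.b * P.b + e / P.DN / (P.Qm + 1) / (P.b + 1) % P.b) *
      (P.b + 1) + e / P.DN / (P.Qm + 1) % (P.b + 1)) * (P.Qm + 1) + e / P.DN % (P.Qm + 1)) * P.DN +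
      e % P.DN := by
  refine ⟨?_, ?_⟩
  · rw [Nat.div_lt_iff_lt_mul P.b_pos, Nat.div_lt_iff_lt_mul (Nat.succ_pos _),
      Nat.div_lt_iff_lt_mul (Nat.succ_pos _), Nat.div_lt_iff_lt_mul P.DN_pos]
    exact he
  · simp only [Nat.div_add_mod']

theorem repnu_lt (P : Pm) {e i M : ℕ} (he : e < P.NuS)
    (hn : ¬e / P.DN / (P.Qm + 1) % (P.b + 1) = 0)
    (hd : Nat.dist (e / P.DN % (P.Qm + 1)) M ≤ P.Rn) :
    P.nuIdx (i + e / P.DN / (P.Qm + 1) / (P.b + 1) / P.b - i)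
      (e / P.DN / (P.Qm + 1) / (P.b + 1) % P.b) (e / P.DN / (P.Qm + 1) % (P.b + 1) - 1)
      (e / P.DN % (P.Qm + 1)) M < e := by
  have h := (repnu_dec P he).2
  rw [Pm.nuIdx, Nat.add_sub_cancel_left]
  generalize (e / P.DN / (P.Qm + 1) / (P.b + 1) / P.b * P.b +
    e / P.DN / (P.Qm + 1) / (P.b + 1) % P.b) * (P.b + 1) = u at *
  obtain ⟨n, hn'⟩ : ∃ n, e / P.DN / (P.Qm + 1) % (P.b + 1) = n + 1 := ⟨_, (Nat.succ_pred hn).symm⟩
  rw [hn'] at h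
  rw [hn', Nat.add_sub_cancel]
  generalize e / P.DN % (P.Qm + 1) = Q at *
  have h1 : M + P.Rn - Q < P.DN := by
    unfold Nat.dist at hd
    unfold Pm.DN
    omega
  have h2 : ((u + n) * (P.Qm + 1) + Q + 1) * P.DN ≤ ((u + (n + 1)) * (P.Qm + 1) + Q) * P.DN :=
    Nat.mul_le_mul_right _ (by rw [← add_assoc, add_mul (u + n) 1]; omega)
  rw [add_mul _ 1, one_mul] at h2
  omega

theorem nu_stp : Stp (fun c : Cx Cf => c.s.V) (fun c => c.s.R) (fun c => c.s.P.TS + 7)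
    (fun a => a < 12 ∨ 16 < a) JP.I JN.I := by
  have hO : Ov JP (fun c => c) JP.I := Ov.id
  have hB := jP_bs hO
  have H := bs_pr hB
  refine Stp.fill (β := fun _ => 0) (g := fun c e => c.s.P.nuG c.X c.A.k (bi c.A) e) rfl 13
    (by decide) (by decide) (keep := fun a => a < 12 ∨ 16 < a) (by decide) 4 (Rep.c 0) H.NuS ?_
    (fun c m n _ k => ⟨Sch.Jp_upd _ k.1 (by omega) (by omega) _ _ _, k.2⟩)
    (fun c m k => (hB c m k).2.sm) fun c m k => ⟨?_, ?_, fun e he => ?_, by omega⟩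
  · set J1 := JP.fil 13 (by decide) (fun _ => 0) (fun c => c.s.P.NuS)
      fun c e => c.s.P.nuG c.X c.A.k (bi c.A) e with hJ1
    have hO1 : Ov J1 (fun q => q.1) JP.I := hO.wf
    have hB1 := jP_bs hO1
    have H1 := bs_pr hB1
    have he : Rep J1 fun q => q.2 := Rep.varf
    have h2 := (he.div H1.DN).div (H1.Qm.add (Rep.c 1))
    have h3 := h2.div (H1.b.add (Rep.c 1))
    have hj := h3.mod H1.b
    have hn := h2.mod (H1.b.add (Rep.c 1))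
    have hg := (jf_bi (jP_jf hO1)).add (h3.div H1.b)
    have hQ := (he.div H1.DN).mod (H1.Qm.add (Rep.c 1))
    have hQ' := (hQ.add (he.mod H1.DN)).sub H1.Rn
    have hS : Al J1 fun q => q.1.Sc (bi q.1.A +
        q.2 / q.1.s.P.DN / (q.1.s.P.Qm + 1) / (q.1.s.P.b + 1) / q.1.s.P.b) := fun q m k =>
      ⟨Nat.le_add_right _ _, Nat.add_lt_add_left (repnu_dec _ k.2.2.1).1 _⟩
    have hgm := jP_gmx hO1 hS
    have hu := H1.ug hg hgm
    refine Rep.ite (RepP.le (hj.add hn) H1.b) (Rep.cases (RepP.eq hn (Rep.c 0)).wa ?_ ?_) (Rep.c 0)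
    · refine ((hQ.dist hQ').mul hu).wa.wa.congr fun q m k => ?_
      have : q.2 / q.1.s.P.DN / (q.1.s.P.Qm + 1) % (q.1.s.P.b + 1) = 0 := k.2
      beta_reduce
      rw [this]
      rfl
    · refine Rep.congr ?_ fun q m k => Eq.trans (nuF_loc _ _ _ _ _
        (q.2 / q.1.s.P.DN / (q.1.s.P.Qm + 1) % (q.1.s.P.b + 1) - 1) _ _).symm
        (by rw [Nat.sub_add_cancel (Nat.pos_of_ne_zero k.2)]; rfl)
      have hM : ∀ {r r' N}, Rep (((J1.and r).and r').ext N) _ := fun {_ _ _} =>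
        (H1.Qg hg hgm).wa.wa.wk.min ((hQ.wa.wa.wk.add Rep.var).sub H1.Rn.wa.wa.wk)
      refine ((hQ.dist hQ').mul hu).wa.wa.max (bs_mn hB1.wa.wa H1.DN.wa.wa
        (fun q => by have := q.1.s.P.small_ge; omega) (H1.Rn.mul hu).wa.wa (Rep.add
          (jP_nuRd hO1.wa.wa.wk hj.wa.wa.wk (hn.sub (Rep.c 1)).wa.wa.wk hg.wa.wa.wk hQ.wa.wa.wk hM
            (fun q m k => ?_) fun q m k hd => ?_)
          (jP_nu0 hO1.wa.wa.wk (hj.add (hn.sub (Rep.c 1))).wa.wa.wk hg.wa.wa.wk hM hQ'.wa.wa.wk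
            fun q m k => ?_)))
      · have a1 := k.1.1.2
        exact ⟨hS _ m k.1.1.1, Nat.mod_lt _ (Pm.b_pos _), by beta_reduce at a1 ⊢; omega,
          Nat.le_of_lt_succ (Nat.mod_lt _ (Nat.succ_pos _))⟩
      · have := k.1.1.1.2.2.2 _ (repnu_lt _ (i := bi q.1.1.A) k.1.1.1.2.2.1 k.1.2 hd)
        rwa [zero_add] at this
      · have a1 := k.1.1.2
        have a2 := k.1.2
        exact ⟨by beta_reduce at a1 a2 ⊢; omega, hS _ m k.1.1.1⟩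
  · have h1 : c.s.P.big ≤ c.s.V := (hB c m k).1.2.1
    have := c.s.P.big_ge
    show 0 + c.s.P.NuS ≤ c.s.V
    omega
  · have h1 : c.s.P.small ≤ c.s.R := (hB c m k).1.2.2.1
    have h2 := c.s.P.small_ge
    have h3 : c.s.P.Qm + 1 ≤ c.s.P.TS := Nat.le_mul_of_pos_right _ c.s.P.DW_pos
    have h4 : c.s.P.NG * c.s.P.b * (c.s.P.b + 1) * c.s.P.DN ≤ c.s.R * c.s.R * c.s.R * c.s.R :=
      Nat.mul_le_mul (Nat.mul_le_mul (Nat.mul_le_mul (by omega) (by omega)) (by omega)) (by omega)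
    have h5 := Nat.mul_le_mul h3 h4
    have h6 : 0 < c.s.R ^ 4 := Nat.pow_pos (by omega)
    have h7 : c.s.P.NuS = (c.s.P.Qm + 1) * (c.s.P.NG * c.s.P.b * (c.s.P.b + 1) * c.s.P.DN) := by
      unfold Pm.NuS; ring
    have h8 : c.s.R * c.s.R * c.s.R * c.s.R = c.s.R ^ 4 := by ring
    show c.s.P.NuS + 1 ≤ (c.s.P.TS + 7) * c.s.R ^ 4
    rw [h8, ← h7] at h5
    rw [add_mul]
    omega
  · have h1 : c.s.P.big ≤ c.s.V := (hB c m k).1.2.1
    have := c.s.P.big_ge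
    have := c.s.P.nuG_le c.X c.A.k (bi c.A) e (jP_arg hO c m k).2.2.2.2.1 he
    show c.s.P.nuG c.X c.A.k (bi c.A) e ≤ c.s.V
    omega

theorem jN_nu (hO : Ov J π JN.I) (hj : Rep J j) (hn : Rep J n) (hg : Rep J g) (hQ : Rep J Q)
    (hQ' : Rep J Q') (hb : Al J fun t => (π t).Sc (g t) ∧ j t < (π t).s.P.b ∧
      j t + n t ≤ (π t).s.P.b ∧ Q t ≤ (π t).s.P.Qm) :
    Rep J fun t => (π t).s.P.nu (π t).X (π t).A.k (g t) (j t) (n t) (Q t) (Q' t) :=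
  jP_nuRd (jN_jP hO) hj hn hg hQ hQ' hb fun t m k hd => by
    obtain ⟨⟨h1, h2⟩, h3, h4, h5⟩ := hb t m k
    have := (hO t m k).2 _ (Pm.nuG_idx _ (π t).X (π t).A.k (bi (π t).A)
      (g' := g t - bi (π t).A) (by omega) h3 h4 h5 hd).1
    rwa [zero_add] at this

theorem jN_cap (hO : Ov J π JN.I) (hg : Rep J g) (hQ : Rep J Q) (hQ' : Rep J Q')
    (hb : Al J fun t => (π t).Sc (g t) ∧ Q t ≤ (π t).s.P.Qg (g t)) :
    Rep J fun t => (π t).s.P.cap (π t).X (π t).A.k (g t) (Q t) (Q' t) :=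
  jN_nu hO (Rep.c 0) (bs_pr (jP_bs (jN_jP hO))).b hg hQ hQ' (hb.imp fun _ h =>
    ⟨h.1, Pm.b_pos _, (zero_add _).le, h.2.trans (Pm.Qg_le _ _)⟩)

theorem rep_cand (hQ : Rep J Q) (hQ' : Rep J Q') (hd : Rep J d) :
    Rep J fun t => cand (Q t) (Q' t) (d t) := (hQ.min hQ').add (hd.min (hQ.dist hQ'))

theorem cand_le {Q Q' M : ℕ} (h : Q ≤ M) (h' : Q' ≤ M) (d : ℕ) : cand Q Q' d ≤ M := by
  unfold cand Nat.dist
  omega

/-- The function that is minimised by the prediction. -/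
theorem jN_phi (hO : Ov J π JN.I) (hg : Rep J g) (hQ : Rep J Q) (hQ' : Rep J Q') (hj : Rep J j)
    (hd : Rep J d) (hb : Al J fun t => (π t).Sc (g t) ∧ Q t ≤ (π t).s.P.Qg (g t) ∧
      Q' t ≤ (π t).s.P.Qg (g t) ∧ j t < (π t).s.P.b) :
    Rep J fun t => phiN ((π t).s.P.ug (g t))
      ((π t).s.P.nu (π t).X (π t).A.k (g t) 0 (j t) (Q t) (cand (Q t) (Q' t) (d t)))
      ((π t).s.P.nu (π t).X (π t).A.k (g t) (j t) ((π t).s.P.b - j t) (cand (Q t) (Q' t) (d t))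
        (Q' t)) (Q t) (cand (Q t) (Q' t) (d t)) (Q' t) := by
  have H := bs_pr (jP_bs (jN_jP hO))
  have hM := rep_cand hQ hQ' hd
  have hx := jN_nu hO (Rep.c 0) hj hg hQ hM (hb.imp fun t h =>
    ⟨h.1, Pm.b_pos _, by omega, h.2.1.trans (Pm.Qg_le _ _)⟩)
  have hy := jN_nu hO hj (H.b.sub hj) hg hM hQ' (hb.imp fun t h =>
    ⟨h.1, h.2.2.2, by omega, (cand_le h.2.1 h.2.2.1 _).trans (Pm.Qg_le _ _)⟩)
  exact ((H.ug hg (jP_gmx (jN_jP hO) (hb.imp fun _ h => h.1))).mul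
    (((hM.mul (hx.add hy)).add (hQ.mul hx)).dist ((hQ.mul (hx.add hy)).add (hQ'.mul hx)))).div
    (hx.add hy)

theorem jN_ref (hO : Ov J π JN.I) (hg : Rep J g) (hQ : Rep J Q) (hQ' : Rep J Q') (hj : Rep J j)
    (hb : Al J fun t => (π t).Sc (g t) ∧ Q t ≤ (π t).s.P.Qg (g t) ∧
      Q' t ≤ (π t).s.P.Qg (g t) ∧ j t < (π t).s.P.b) :
    Rep J fun t => (π t).s.P.ref (π t).X (π t).A.k (g t) (Q t) (Q' t) (j t) := by
  have hB := jP_bs (jN_jP hO)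
  have hR := (bs_pr hB).Rn.add (Rep.c 1)
  exact rep_cand hQ hQ' ((bs_mn hB hR (fun t => by have := (π t).s.P.small_ge; omega)
    ((jN_phi hO hg hQ hQ' hj (Rep.c 0) hb).mul hR)
    (((jN_phi hO.wk hg.wk hQ.wk hQ'.wk hj.wk Rep.var hb.wk).mul hR.wk).add Rep.var)).mod hR)

theorem jN_q (hO : Ov J π JN.I) (hg : Rep J g) (hQ : Rep J Q) (hQ' : Rep J Q') (ho : Rep J o)
    (hj : Rep J j) (hb : Al J fun t => (π t).Sc (g t) ∧ Q t ≤ (π t).s.P.Qg (g t) ∧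
      Q' t ≤ (π t).s.P.Qg (g t) ∧ j t ≤ (π t).s.P.b) :
    Rep J fun t => (π t).s.P.q (π t).X (π t).A.k (g t) (Q t) (Q' t) (o t) (j t) := by
  have H := bs_pr (jP_bs (jN_jP hO))
  have hgm := jP_gmx (jN_jP hO) (hb.imp fun _ h => h.1)
  have hr := H.rad hg hgm
  exact Rep.ite' (RepP.eq hj (Rep.c 0)) hQ (Rep.ite (RepP.le H.b hj) hQ'.wa
    ((H.Qg hg hgm).wa.min (((jN_ref hO.wa hg.wa hQ.wa hQ'.wa hj.wa fun t m k =>
      ⟨(hb t m k.1).1, (hb t m k.1).2.1, (hb t m k.1).2.2.1, not_le.1 k.2⟩).add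
      (((ho.div (H.Bzp hj (hb.imp fun _ h => h.2.2.2))).mod H.Bz).mod
        (((Rep.c 2).mul hr).add (Rep.c 1))).wa).sub hr.wa)))

end Vale.Agent.P315F
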