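import Vale.Agent.P315F.RepNu
import Vale.Agent.P315F.RamArgs

/-! The post-processing of a sampled pass. -/

namespace Vale.Agent.P315F

open Vale.Agent.P315 Finset

variable {τ : Type} {J : Inv τ} {π : τ → Cx Cf} {k j n g Q Q' d o p p' : τ → ℕ}

/-- `(g, Q, Q')` lies in the range of the options. -/
def Cx.Op (c : Cx Cf) (g Q Q' : ℕ) : Prop := c.Sc g ∧ Q ≤ c.s.P.Qg g ∧ Q' ≤ c.s.P.Qg g

theorem q_le (c : Cx Cf) {g Q Q' : ℕ} (h : c.Op g Q Q') (o j : ℕ) :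
    c.s.P.q c.X c.A.k g Q Q' o j ≤ c.s.P.Qg g := Pm.qd_le2 _ _ _ _ h.2.1 h.2.2 _ _

theorem jN_val (hO : Ov J π JN.I) (hk : Rep J k) (hg : Rep J g) (hQ : Rep J Q) (hQ' : Rep J Q')
    (ho : Rep J o) (hb : Al J fun t => (π t).Op (g t) (Q t) (Q' t) ∧ k t ≤ (π t).A.k) :
    Rep J fun t => (π t).s.P.val ((π t).s.P.tb (π t).s.w (π t).s.ρ (π t).A (k t)) (g t)
      ((π t).s.P.q (π t).X (π t).A.k (g t) (Q t) (Q' t) (o t)) := by
  have hB := jP_bs (jN_jP hO)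
  exact bs_sum hB (bs_pr hB).b (fun t => by have := (π t).s.P.small_ge; omega)
    (jP_z (jN_jP hO).wk hk.wk Rep.var hg.wk
      (jN_q hO.wk hg.wk hQ.wk hQ'.wk ho.wk Rep.var fun q m h =>
        have a := (hb _ m h.1).1
        ⟨a.1, a.2.1, a.2.2, le_of_lt h.2.2⟩)
      (jN_q hO.wk hg.wk hQ.wk hQ'.wk ho.wk (Rep.var.add (Rep.c 1)) fun q m h =>
        have a := (hb _ m h.1).1
        ⟨a.1, a.2.1, a.2.2, h.2.2⟩)
      fun q m h => ⟨(hb _ m h.1).2, h.2.2, (hb _ m h.1).1.1, q_le _ (hb _ m h.1).1 _ _⟩)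

theorem jN_cum (hO : Ov J π JN.I) (hg : Rep J g) (hQ : Rep J Q) (hQ' : Rep J Q')
    (ho : Rep J o) (hb : Al J fun t => (π t).Op (g t) (Q t) (Q' t)) :
    Rep J fun t => (π t).s.P.cum (π t).X (π t).A.k (g t)
      ((π t).s.P.q (π t).X (π t).A.k (g t) (Q t) (Q' t) (o t)) := by
  have hF := jP_jf (jN_jP hO)
  have hB := jf_bs hF
  have H := bs_pr hB
  have h0 := ((jf_k hF).div H.K).mul H.K
  refine Rep.congr' ?_ fun t => (sum_Ico_eq_sum_range _ _ _).symm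
  refine Rep.sum ((jf_k hF).sub h0) (bs_rng hB ((bs_good hB).imp fun t h => ?_)) ?_
  · have := (π t).s.P.small_ge
    have := Nat.div_add_mod' (π t).A.k (π t).s.P.K
    have := Nat.mod_lt (π t).A.k h.K_pos
    omega
  · have key : Al (J.ext fun t u => u < (π t).A.k - (π t).A.k / (π t).s.P.K * (π t).s.P.K)
        fun q => (π q.1).A.k / (π q.1).s.P.K * (π q.1).s.P.K + q.2 < (π q.1).A.k :=
      Al.var.imp fun q h => by omega
    refine (jN_val hO.wk (h0.wk.add Rep.var) hg.wk hQ.wk hQ'.wk ho.wk fun q m h =>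
      ⟨hb _ m h.1, (key q m h).le⟩).congr fun q m h => ?_
    beta_reduce
    rw [X_eq _ (key q m h)]

theorem jP_wgt (hO : Ov J π JP.I) (hg : Rep J g) (hn : Rep J n)
    (hb : Al J fun t => (π t).Sc (g t) ∧ n t < (π t).s.P.N) :
    RepP J (fun t => (π t).s.P.act (bi (π t).A) (n t) ∧
      (π t).s.P.lo (g t) ≤ (π t).s.P.bd (bi (π t).A) (n t) ∧
      (π t).s.P.bd (bi (π t).A) (n t) ≤ (π t).s.P.hi (g t)) ∧
    Rep J fun t => (π t).s.P.wgt (bi (π t).A) (g t) (n t) := by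
  have hF := jP_jf hO
  have H := bs_pr (jf_bs hF)
  have hd := H.bd (jf_bi hF) hn
  have h1 := (H.act (jf_bi hF) hn (hb.imp fun _ h => h.2)).and ((RepP.le (H.lo hg) hd).and
    (RepP.le hd (hg.add (Rep.c 2))))
  refine ⟨h1, Rep.ite h1 ((H.p2' (H.lb.sub (hn.div H.b)) fun t => ?_).wa.mul
    (H.wa.p2 (hd.sub (H.lo hg)).wa fun t m h => ?_)) (Rep.c 0)⟩
  · have := (π t).s.P.pw_ge
    exact (Nat.sub_le _ _).trans (by omega)
  · have := (π t).s.P.pw_ge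
    have h3 : g t ≤ (π t).s.P.gmx := jP_gmx hO (hb.imp fun _ h => h.1) t m h.1
    have h4 : (π t).s.P.bd (bi (π t).A) (n t) ≤ g t + 2 := h.2.2.2
    beta_reduce
    omega

theorem jN_Yf (hO : Ov J π JN.I) (hg : Rep J g) (hQ : Rep J Q) (hQ' : Rep J Q')
    (ho : Rep J o) (hb : Al J fun t => (π t).Op (g t) (Q t) (Q' t)) :
    Rep J fun t => (π t).s.P.Yf (π t).s.w (π t).s.ρ (π t).A (g t)
      ((π t).s.P.q (π t).X (π t).A.k (g t) (Q t) (Q' t) (o t)) := by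
  have hP := jN_jP hO
  have hF := jP_jf hP
  have hB := jf_bs hF
  have H := bs_pr hB
  refine (jN_val hO (jf_k hF) hg hQ hQ' ho (hb.imp fun _ h => ⟨h, le_rfl⟩)).add
    (Rep.ite (jf_wb hF) (Rep.c 0) (bs_sum hB.wa H.N.wa
      (fun t => by have := (π t).s.P.small_ge; omega) ?_))
  obtain ⟨w1, w2⟩ := jP_wgt (n := fun q => q.2) hP.wa.wk hg.wa.wk (Rep.var (J := J.and
    fun t => ¬((π t).A.h - 1) % (π t).s.P.ell = 0) (N := fun t s => s < (π t).s.P.N))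
    fun q m h => ⟨(hb _ m h.1.1).1, h.2.2⟩
  refine Rep.cases w1 ?_ ((Rep.c 0).congr fun q m h => ?_)
  · have hJ := jf_Jc (hF.wa.wk.wa) (Rep.var.wa (J := (J.and
      fun t => ¬((π t).A.h - 1) % (π t).s.P.ell = 0).ext fun t s => s < (π t).s.P.N)
      (r := fun q => (π q.1).s.P.act (bi (π q.1).A) q.2 ∧
        (π q.1).s.P.lo (g q.1) ≤ (π q.1).s.P.bd (bi (π q.1).A) q.2 ∧
        (π q.1).s.P.bd (bi (π q.1).A) q.2 ≤ (π q.1).s.P.hi (g q.1)))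
    have q1 := jN_q hO.wa.wk.wa hg.wa.wk.wa hQ.wa.wk.wa hQ'.wa.wk.wa ho.wa.wk.wa hJ fun q m h =>
      have a := hb _ m h.1.1.1
      ⟨a.1, a.2.1, a.2.2, (Pm.Jc_lt _ _ _).le⟩
    have q2 := jN_q hO.wa.wk.wa hg.wa.wk.wa hQ.wa.wk.wa hQ'.wa.wk.wa ho.wa.wk.wa
      (hJ.add (Rep.c 1)) fun q m h =>
        have a := hb _ m h.1.1.1
        ⟨a.1, a.2.1, a.2.2, Pm.Jc_lt _ _ _⟩
    exact w2.wa.mul (((jP_Rr hP.wa.wk.wa Rep.var.wa hg.wa.wk.wa q1 q2 fun q m h =>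
      ⟨h.1.2.2, h.1.1.2, h.2.1, (hb _ m h.1.1.1).1, h.2.2.2, q_le _ (hb _ m h.1.1.1) _ _⟩).add
        H.U1.wa.wk.wa).sub (jP_tb hP.wa.wk.wa (jf_k hF).wa.wk.wa hJ
          (H.wa.wk.bd (jf_bi hF).wa.wk Rep.var).wa hg.wa.wk.wa q1 q2 fun q m h =>
            ⟨le_rfl, Pm.Jc_lt _ _ _, (hb _ m h.1.1.1).1, h.2.2.1, h.2.2.2,
              q_le _ (hb _ m h.1.1.1) _ _⟩))
  · beta_reduce
    rw [Pm.wgt, if_neg h.2, zero_mul]

theorem jP_cf (hO : Ov J π JP.I) (hg : Rep J g) (hb : Al J fun t => (π t).Sc (g t)) :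
    Rep J fun t => (π t).s.P.cf (π t).A (g t) := by
  have hF := jP_jf hO
  have hB := jf_bs hF
  have H := bs_pr hB
  exact Rep.ite' (jf_wb hF) (Rep.c 0) (bs_sum hB H.N
    (fun t => by have := (π t).s.P.small_ge; omega)
    ((jP_wgt hO.wk hg.wk Rep.var fun q m h => ⟨hb _ m h.1, h.2.2⟩).2.mul H.U1.wk))

theorem bs_EX {π : τ → Cf} {u : τ → ℕ} (hO : Ov J π Cf.Bs) (hg : Rep J g) (hu : Rep J u)
    (hb : Al J fun t => u t ≤ (π t).P.XB) :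
    Rep J fun t => EXg (π t).P.Wz ((π t).P.T (g t)) (u t) :=
  have H := bs_pr hO
  Rep.rd 20 (by decide) (by decide) (((H.ee hg).mul (H.XB.add (Rep.c 1))).add hu)
    fun t m k => (hO t m k).2.ex _ (Pm.ee_le _ _) _ (hb t m k)

theorem bs_Fh {π : τ → Cf} {Y : τ → ℕ → ℕ} (hO : Ov J π Cf.Bs) (hg : Rep J g)
    (hY : Rep (J.ext fun t o => o < (π t).P.Om) fun q => Y q.1 q.2)
    (hb : Al J fun t => ∀ o, Y t o ≤ (π t).P.XB) :
    Rep J fun t => (π t).P.FhP (g t) (Y t) := by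
  have H := bs_pr hO
  have h1 : Rep J fun t => (range (π t).P.Om).fold min (π t).P.Xmax (Y t) :=
    bs_mn hO H.Om (fun t => by have := (π t).P.small_ge; omega) H.Xmax hY
  have h2 : Rep J fun t => ∑ o ∈ range (π t).P.Om, EXg (π t).P.Wz ((π t).P.T (g t))
      (Y t o - (range (π t).P.Om).fold min (π t).P.Xmax (Y t)) :=
    bs_sum hO H.Om (fun t => by have := (π t).P.small_ge; omega)
      (bs_EX hO.wk hg.wk (hY.sub h1.wk) fun q m h => (Nat.sub_le _ _).trans (hb _ m h.1 _))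
  exact h1.add (bs_sum hO H.Xmax (fun t => by have := (π t).P.small_ge; omega)
    (Rep.ite' (RepP.le h2.wk (H.Om.wk.mul (bs_EX hO.wk hg.wk (Rep.var.add (Rep.c 1))
      (Al.var.imp fun q h => by unfold Pm.XB; omega)))) (Rep.c 1) (Rep.c 0)))

theorem jN_Ps (hO : Ov J π JN.I) (hg : Rep J g) (hQ : Rep J Q) (hQ' : Rep J Q')
    (hb : Al J fun t => (π t).Op (g t) (Q t) (Q' t)) :
    Rep J fun t => (π t).s.P.Ps (π t).s.w (π t).s.ρ (π t).A (g t) (Q t) (Q' t) := by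
  have hB := jP_bs (jN_jP hO)
  have h1 := jN_cum hO.wk hg.wk hQ.wk hQ'.wk (Rep.var (N := fun t o => o < (π t).s.P.Om)) hb.wk
  have h2 := jN_Yf hO.wk hg.wk hQ.wk hQ'.wk (Rep.var (N := fun t o => o < (π t).s.P.Om)) hb.wk
  exact ((bs_Fh hB hg (h1.add h2) ((bs_good hB).imp fun t h o =>
    Pm.cum_Yf_le _ h.K_pos _ _ _ _ _)).sub (bs_Fh hB hg h1 ((bs_good hB).imp fun t h o =>
      (Nat.le_add_right _ _).trans (Pm.cum_Yf_le _ h.K_pos _ _ _ _ _)))).sub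
    (jP_cf (jN_jP hO) hg (hb.imp fun _ h => h.1))

theorem jN_TN (hO : Ov J π JN.I) (hg : Rep J g) (hQ : Rep J Q) (hQ' : Rep J Q')
    (hb : Al J fun t => (π t).Op (g t) (Q t) (Q' t)) :
    Rep J fun t => (π t).s.P.TN (π t).X (π t).A.k (bi (π t).A)
      ((π t).s.P.Ps (π t).s.w (π t).s.ρ (π t).A) (g t) (Q t) (Q' t) := by
  have hF := jP_jf (jN_jP hO)
  have H := bs_pr (jf_bs hF)
  have h1 := jN_Ps hO hg hQ hQ' hb
  have hgm := jP_gmx (jN_jP hO) (hb.imp fun _ h => h.1)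
  refine (((Rep.ite' (RepP.lt (jf_k hF) H.K) h1
    ((jN_cap hO hg hQ hQ' (hb.imp fun _ h => ⟨h.1, h.2.1⟩)).min h1)).div
    (H.p2 ((jf_bi hF).sub (H.lo hg)) ((hgm.and hb).imp fun t h => ?_))).add (Rep.c 1)).add
    (H.p2 ((((hg.add H.fp).sub H.gp).sub H.rh).sub (jf_bi hF)) (hgm.imp fun t h => ?_))
  · have := (π t).s.P.pw_ge
    have := h.2.1.1
    omega
  · have := (π t).s.P.pw_ge
    omega

theorem jN_opt (hO : Ov J π JN.I) (hg : Rep J g) (hQ : Rep J Q) (hQ' : Rep J Q')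
    (hb : Al J fun t => (π t).Op (g t) (Q t) (Q' t)) :
    RepP J fun t => (π t).s.P.IsOpt (π t).X (π t).A.k (g t) (Q t) (Q' t) := by
  have H := bs_pr (jP_bs (jN_jP hO))
  refine (RepP.le (jN_cap hO hg hQ hQ' (hb.imp fun _ h => ⟨h.1, h.2.1⟩))
    (H.p2' (H.ga.add (H.ee hg)) fun t => ?_)).congr (hb.imp fun t h => ?_)
  · have := (π t).s.P.pw_ge
    have := (π t).s.P.ee_le (g t)
    omega
  · exact ⟨fun k => ⟨h.2.1, h.2.2, k⟩, fun k => k.2.2⟩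

theorem jN_VN (hO : Ov J π JN.I) (hp : Rep J p) (hp' : Rep J p') :
    Rep J fun t => (π t).s.P.VN (π t).X (π t).A.k (π t).A.h (bi (π t).A)
      ((π t).s.P.Ps (π t).s.w (π t).s.ρ (π t).A) (p t) (p' t) := by
  have hP := jN_jP hO
  have hF := jP_jf hP
  have hB := jf_bs hF
  have H := bs_pr hB
  have hi := jf_bi hF
  have him : Al J fun t => bi (π t).A ≤ (π t).s.P.gmx := (jP_arg hP).imp fun t h => by
    have := (π t).s.P.pw_ge
    omega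
  have hU := (Rep.c 2).mul H.U1
  have hW := ((Rep.c 2).mul H.RW).add (Rep.c 1)
  have hd := H.dN hi him hp hp'
  refine Rep.congr' ?_ fun t => (Pm.VN_loc _ _ _ _ _ _ _ _).symm
  refine hd.max (bs_mn hB H.NG (fun t => by have := (π t).s.P.small_ge; omega)
    (hU.min (hd.add (H.lenN (jf_h hF) ((jP_arg hP).imp fun _ h => h.2.2.2.1) hi)))
    (bs_mn hB.wk hW.wk (fun q => by have := (π q.1).s.P.small_ge; omega) hU.wk
      (bs_mn hB.wk.wk hW.wk.wk (fun q => by have := (π q.1.1).s.P.small_ge; omega) hU.wk.wk ?_)))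
  set J3 := ((J.ext fun t s => s < (π t).s.P.NG).ext
    fun t s => s < 2 * (π t.1).s.P.RW + 1).ext fun t s => s < 2 * (π t.1.1).s.P.RW + 1 with hJ3
  have hO3 : Ov J3 (fun q => π q.1.1.1) JN.I := hO.wk.wk.wk
  have H3 := bs_pr (jP_bs (jN_jP hO3))
  have hg : Rep J3 fun q => bi (π q.1.1.1).A + q.1.1.2 := (hi.wk.add Rep.var).wk.wk
  have hS : Al J3 fun q => (π q.1.1.1).Sc (bi (π q.1.1.1).A + q.1.1.2) := fun q m h =>
    ⟨Nat.le_add_right _ _, Nat.add_lt_add_left h.1.1.2.2 _⟩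
  have hgm := jP_gmx (jN_jP hO3) hS
  have hr := H3.r hg hgm
  have hQ : Rep J3 fun q => (π q.1.1.1).s.P.wq (bi (π q.1.1.1).A + q.1.1.2) (p q.1.1.1) q.1.2 :=
    (H3.Qg hg hgm).min (((hp.wk.wk.wk.div hr).add Rep.var.wk).sub H3.RW)
  have hQ' : Rep J3 fun q => (π q.1.1.1).s.P.wq (bi (π q.1.1.1).A + q.1.1.2) (p' q.1.1.1) q.2 :=
    (H3.Qg hg hgm).min (((hp'.wk.wk.wk.div hr).add Rep.var).sub H3.RW)
  have hb : Al J3 fun q => (π q.1.1.1).Op (bi (π q.1.1.1).A + q.1.1.2)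
      ((π q.1.1.1).s.P.wq (bi (π q.1.1.1).A + q.1.1.2) (p q.1.1.1) q.1.2)
      ((π q.1.1.1).s.P.wq (bi (π q.1.1.1).A + q.1.1.2) (p' q.1.1.1) q.2) :=
    hS.imp fun _ h => ⟨h, min_le_left _ _, min_le_left _ _⟩
  exact Rep.ite' (jN_opt hO3 hg hQ hQ' hb)
    (((H3.dN hi.wk.wk.wk him.wk.wk.wk hp.wk.wk.wk (hr.mul hQ)).add
      (H3.dN hi.wk.wk.wk him.wk.wk.wk hp'.wk.wk.wk (hr.mul hQ'))).add (jN_TN hO3 hg hQ hQ' hb))
    hU.wk.wk.wk

theorem gf_bd (hO : Ov J π sch.Jf.I) : Al J fun t => ∀ e,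
    (π t).s.P.GF (π t).s.x (π t).s.y (π t).s.ρ (π t).A e ≤ (π t).s.V := fun t m k e => by
  obtain ⟨-, h1, -, h2⟩ := (jf_bs hO t m k).1
  have h3 := (π t).s.P.small_ge
  have h4 := (π t).s.P.small_le_big
  exact (Pm.GF_le _ _ _ _ _ _).trans (max_le (by beta_reduce at h1; omega) h2)

theorem post_pass : sch.Post JP.I := by
  refine nu_stp.seq (post_fin rfl (fun _ _ k => k.1.1.1) (fun c m n g k =>
    ⟨⟨Sch.Jp_upd _ k.1.1 (by omega) (by omega) _ _ _, k.1.2⟩,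
      by rw [upd_arr _ _ _ _ (by decide)]; exact k.2⟩) ?_ (gf_bd fun _ _ k => k.1.1.1))
    fun _ _ _ => by omega
  have hO : Ov (JN.ext fun c e => e < c.s.P.TS) (fun q => q.1) JN.I := Ov.id.wk
  have hF := jP_jf (jN_jP hO)
  have H := bs_pr (jf_bs hF)
  have hr := H.rb (jf_bi hF) ((jP_arg (jN_jP hO)).imp fun q h => by
    have := q.1.s.P.pw_ge
    omega)
  have hp := Rep.var.div H.DW
  refine (bs_H (jf_bs hF) (jN_VN hO hp ((hp.add (hr.mul (Rep.var.mod H.DW))).sub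
    (hr.mul H.DH)))).congr ((jP_arg (jN_jP hO)).imp fun q h => ?_)
  rw [Pm.GF, if_neg (by omega), Pm.flat]
  exact (Pm.pass_eq _ _ _ h.1 h.2.1 _ _).symm

end Vale.Agent.P315F
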