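import Vale.Agent.P315F.RamLoc
import Vale.Agent.P315F.RamIdx
import Vale.Agent.P315F.RamWin

/-! Reading the tables of the subcalls. -/

namespace Vale.Agent.P315F

open Vale.Agent.P315 Finset

variable {τ : Type} {J : Inv τ} {π : τ → Cx Cf} {s i p p' k c g n Q Q' : τ → ℕ}

/-- The table of the subcall `s` at a state on the grid of its band. -/
theorem jp_tab (hO : Ov J π sch.Jp.I) (hs : Rep J s) (hi : Rep J i) (hp : Rep J p)
    (hp' : Rep J p') (hb : Al J fun t => s t < (π t).s.P.cntF (π t).A ∧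
      mo ((π t).s.P.subF (π t).s.ρ (π t).A (s t)) ≠ 2 ∧
      bi ((π t).s.P.subF (π t).s.ρ (π t).A (s t)) = i t ∧ i t ≤ (π t).s.P.gmx ∧
      p t ≤ (π t).s.P.Qm ∧ (π t).s.P.rb (i t) ∣ p t ∧ (π t).s.P.rb (i t) ∣ p' t) :
    Rep J fun t => (π t).s.P.tabF (π t).s.w (π t).s.ρ
      ((π t).s.P.subF (π t).s.ρ (π t).A (s t)) (p t) (p' t) := by
  have hB := jf_bs (jp_jf hO)
  have H := bs_pr hB
  have hg : Al J fun t => i t ≤ (π t).s.P.gmx := hb.imp fun _ h => h.2.2.2.1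
  refine Rep.cases (RepP.le (H.p2 (hi.add (Rep.c 1)) (hg.imp fun t h => by
    have := (π t).s.P.pw_ge; omega)) ((hp.dist hp').mul H.JJ)) ?_ ?_
  · refine (bs_H hB ((Rep.c 2).mul H.U1)).wa.congr fun t m h => ?_
    refine (Pm.tabF_far _ (bs_good hB t m h.1).S_pos _ _ _ ?_).symm
    rw [(hb t m h.1).2.2.1]
    exact h.2
  · have key : Al (J.and fun t => ¬2 ^ (i t + 1) ≤ Nat.dist (p t) (p' t) * (π t).s.P.J) fun t =>
        ∀ T, (π t).s.P.idx (i t) (p t) (p' t) < (π t).s.P.TS ∧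
          (π t).s.P.flat (i t) T ((π t).s.P.idx (i t) (p t) (p' t)) = T (p t) (p' t) :=
      fun t m h T => by
        obtain ⟨-, -, -, -, h1, h2, h3⟩ := hb t m h.1
        exact Pm.flat_idx _ T h1 h2 h3 (not_le.1 h.2)
    refine (jp_slot hO.wa hs.wa (H.idx hi hg hp hp').wa fun t m h =>
      ⟨(hb t m h.1).1, (key t m h fun _ _ => 0).1⟩).congr fun t m h => ?_
    obtain ⟨-, h1, h2, -⟩ := hb t m h.1
    show (π t).s.P.GF _ _ _ _ _ = _
    rw [Pm.GF, if_neg h1, h2]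
    exact (key t m h _).2

theorem reptab_sub {P : Pm} {A : Arg} (ρ : ℕ → Bool) (h1 : mo A = 1) (h2 : P.smp A.h (bi A))
    {k c β : ℕ} (hk : k ≤ A.k) (hc : c < P.b) (hβ : β < P.NB) :
    (c * (A.k + 1) + k) * P.NB + β < P.cntF A ∧ P.subF ρ A ((c * (A.k + 1) + k) * P.NB + β) =
      mkO k (A.h - 1) (A.a * P.b + c) (P.lo (bi A) + β) (P.rk A k) := by
  have e1 : ((c * (A.k + 1) + k) * P.NB + β) / P.NB = c * (A.k + 1) + k := by
    rw [mul_comm, Nat.mul_add_div (by omega), Nat.div_eq_of_lt hβ, add_zero]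
  have e2 : ((c * (A.k + 1) + k) * P.NB + β) % P.NB = β := by
    rw [mul_comm, Nat.mul_add_mod, Nat.mod_eq_of_lt hβ]
  have e3 : (c * (A.k + 1) + k) / (A.k + 1) = c := by
    rw [mul_comm, Nat.mul_add_div (by omega), Nat.div_eq_of_lt (by omega), add_zero]
  have e4 : (c * (A.k + 1) + k) % (A.k + 1) = k := by
    rw [mul_comm, Nat.mul_add_mod, Nat.mod_eq_of_lt (by omega)]
  have e5 : (c * (A.k + 1) + k) * P.NB + β < P.nO A := by
    have a1 : (c + 1) * (A.k + 1) ≤ P.b * (A.k + 1) := Nat.mul_le_mul_right _ hc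
    have a2 : (c * (A.k + 1) + k + 1) * P.NB ≤ P.b * (A.k + 1) * P.NB :=
      Nat.mul_le_mul_right _ (by rw [add_mul, one_mul] at a1; omega)
    rw [add_mul _ 1, one_mul] at a2
    unfold Pm.nO
    omega
  refine ⟨?_, ?_⟩
  · rw [Pm.cntF, if_neg (by omega), if_pos h1, if_pos h2]
    omega
  · rw [Pm.subF, if_neg (by omega), if_pos h1, if_pos e5, e1, e2, e3, e4]

/-- The official tables of the children. -/
theorem jP_tb (hO : Ov J π JP.I) (hk : Rep J k) (hc : Rep J c) (hi : Rep J i) (hg : Rep J g)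
    (hQ : Rep J Q) (hQ' : Rep J Q') (hb : Al J fun t => k t ≤ (π t).A.k ∧ c t < (π t).s.P.b ∧
      (π t).Sc (g t) ∧ (π t).s.P.lo (g t) ≤ i t ∧ i t ≤ (π t).s.P.hi (g t) ∧
      Q t ≤ (π t).s.P.Qg (g t)) :
    Rep J fun t => (π t).s.P.tb (π t).s.w (π t).s.ρ (π t).A (k t) (c t) (i t)
      ((π t).s.P.r (g t) * Q t) ((π t).s.P.r (g t) * Q' t) := by
  have hF := jP_jf hO
  have H := bs_pr (jf_bs hF)
  have hr := H.r hg (jP_gmx hO (hb.imp fun _ h => h.2.2.1))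
  have key : Al J fun t => ((c t * ((π t).A.k + 1) + k t) * (π t).s.P.NB +
      (i t - (π t).s.P.lo (bi (π t).A)) < (π t).s.P.cntF (π t).A ∧ i t ≤ (π t).s.P.gmx) ∧
      (π t).s.P.subF (π t).s.ρ (π t).A ((c t * ((π t).A.k + 1) + k t) * (π t).s.P.NB +
        (i t - (π t).s.P.lo (bi (π t).A))) = mkO (k t) ((π t).A.h - 1)
          ((π t).A.a * (π t).s.P.b + c t) (i t) ((π t).s.P.rk (π t).A (k t)) := fun t m h => by
    obtain ⟨h1, h2, ⟨h3, h4⟩, h5, h6, -⟩ := hb t m h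
    obtain ⟨a1, a2, -, -, a3, -⟩ := jP_arg hO t m h
    have a4 := (π t).s.P.pw_ge
    unfold Pm.hi at h6
    have a5 : (π t).s.P.lo (bi (π t).A) ≤ i t ∧
        i t - (π t).s.P.lo (bi (π t).A) < (π t).s.P.NB := by
      unfold Pm.lo at *
      omega
    have := reptab_sub (π t).s.ρ a1 a2 h1 h2 a5.2
    rw [Nat.add_sub_cancel' a5.1] at this
    exact ⟨⟨this.1, by omega⟩, this.2⟩
  refine (jp_tab (jP_jp hO) ((((hc.mul ((jf_k hF).add (Rep.c 1))).add hk).mul H.NB).add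
    (hi.sub (H.lo (jf_bi hF)))) hi (hr.mul hQ) (hr.mul hQ') fun t m h => ?_).congr
    fun t m h => ?_
  · obtain ⟨⟨a1, a2⟩, a3⟩ := key t m h
    obtain ⟨-, -, -, -, h6, h7⟩ := hb t m h
    have a4 := (π t).s.P.rb_dvd h6
    rw [a3]
    exact ⟨a1, by simp, by simp, a2, Pm.r_mul_le _ h7, a4.mul_right _, a4.mul_right _⟩
  · show (π t).s.P.tabF _ _ _ _ _ = _
    rw [(key t m h).2, Pm.tabF, if_pos (mo_mkO _ _ _ _ _), bi_mkO]
    rfl

/-- The sub-passes. -/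
theorem jP_Rr (hO : Ov J π JP.I) (hn : Rep J n) (hg : Rep J g) (hQ : Rep J Q) (hQ' : Rep J Q')
    (hb : Al J fun t => n t < (π t).s.P.N ∧ ¬((π t).A.h - 1) % (π t).s.P.ell = 0 ∧
      (π t).s.P.act (bi (π t).A) (n t) ∧ (π t).Sc (g t) ∧
      (π t).s.P.bd (bi (π t).A) (n t) ≤ (π t).s.P.hi (g t) ∧ Q t ≤ (π t).s.P.Qg (g t)) :
    Rep J fun t => (π t).s.P.Rr (π t).s.w (π t).s.ρ (π t).A (n t)
      ((π t).s.P.r (g t) * Q t) ((π t).s.P.r (g t) * Q' t) := by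
  have hF := jP_jf hO
  have H := bs_pr (jf_bs hF)
  have hr := H.r hg (jP_gmx hO (hb.imp fun _ h => h.2.2.2.1))
  have key : Al J fun t => (π t).s.P.nO (π t).A + n t < (π t).s.P.cntF (π t).A ∧
      (π t).s.P.subF (π t).s.ρ (π t).A ((π t).s.P.nO (π t).A + n t) =
        (π t).s.P.subP (π t).s.ρ (π t).A (n t) := fun t m h => by
    obtain ⟨h1, h2, h3, -⟩ := hb t m h
    obtain ⟨a1, a2, -⟩ := jP_arg hO t m h
    refine ⟨?_, ?_⟩
    · rw [Pm.cntF, if_neg (by omega), if_pos a1, if_pos a2, if_neg h2]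
      omega
    · rw [Pm.subF, if_neg (by omega), if_pos a1, if_neg (by omega), Nat.add_sub_cancel_left,
        if_pos h3]
  refine (jp_tab (jP_jp hO) ((jf_nO hF).add hn) (H.bd (jf_bi hF) hn) (hr.mul hQ) (hr.mul hQ')
    fun t m h => ?_).congr fun t m h => ?_
  · obtain ⟨a1, a3⟩ := key t m h
    obtain ⟨-, -, -, h5, h6, h7⟩ := hb t m h
    have a4 := (π t).s.P.rb_dvd h6
    have a5 := (jP_arg hO t m h).2.2.2.2.1
    have a6 := (π t).s.P.pw_ge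
    have a7 := h5.2
    unfold Pm.hi at h6
    rw [a3]
    exact ⟨a1, by simp [Pm.subP], by simp [Pm.subP], by omega, Pm.r_mul_le _ h7, a4.mul_right _,
      a4.mul_right _⟩
  · show (π t).s.P.tabF _ _ _ _ _ = _
    rw [(key t m h).2]
    rfl

/-- The value at scale `g` from band tables. -/
theorem bs_zX {π : τ → Cf} (hO : Ov J π Cf.Bs) {T : τ → ℕ → Tab} (hg : Rep J g)
    (hT : Rep ((J.ext fun t β => β < (π t).P.nbm).and
      fun q => (π q.1).P.lo (g q.1) + q.2 ≤ (π q.1).P.hi (g q.1))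
      fun q => T q.1 ((π q.1).P.lo (g q.1) + q.2) (p q.1) (p' q.1)) :
    Rep J fun t => (π t).P.zX (T t) (g t) (p t) (p' t) := by
  have H := bs_pr hO
  refine (H.U1.sub (H.U1.div H.mm)).add (bs_sum hO H.nbm
    (fun t => by have := (π t).P.small_ge; omega) (Rep.ite (RepP.le ((H.lo hg).wk.add Rep.var)
      (hg.add (Rep.c 2)).wk) (Rep.mul (H.wk.p2 Rep.var (Al.var.imp fun q h => ?_)).wa hT) (Rep.c 0)))
  have := (π q.1).P.pw_ge
  omega

theorem jP_z (hO : Ov J π JP.I) (hk : Rep J k) (hc : Rep J c) (hg : Rep J g) (hQ : Rep J Q)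
    (hQ' : Rep J Q') (hb : Al J fun t => k t ≤ (π t).A.k ∧ c t < (π t).s.P.b ∧ (π t).Sc (g t) ∧
      Q t ≤ (π t).s.P.Qg (g t)) :
    Rep J fun t => (π t).s.P.zX ((π t).s.P.tb (π t).s.w (π t).s.ρ (π t).A (k t) (c t)) (g t)
      ((π t).s.P.r (g t) * Q t) ((π t).s.P.r (g t) * Q' t) :=
  bs_zX (jP_bs hO) hg (jP_tb hO.wk.wa hk.wk.wa hc.wk.wa
    (((bs_pr (jP_bs hO)).lo hg).wk.add Rep.var).wa hg.wk.wa hQ.wk.wa hQ'.wk.wa fun q m h => by
      obtain ⟨h1, h2, h3, h4⟩ := hb _ m h.1.1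
      exact ⟨h1, h2, h3, Nat.le_add_right _ _, h.2, h4⟩)

theorem X_eq (c : Cx Cf) {k : ℕ} (hk : k < c.A.k) : c.X k = c.s.P.tb c.s.w c.s.ρ c.A k := by
  funext j i
  rw [Pm.tb, Pm.rk, if_pos (Or.inl hk)]
  rfl

theorem jP_zb (hO : Ov J π JP.I) (hc : Rep J c) (hg : Rep J g) (hQ : Rep J Q) (hQ' : Rep J Q')
    (hb : Al J fun t => c t < (π t).s.P.b ∧ (π t).Sc (g t) ∧ Q t ≤ (π t).s.P.Qg (g t)) :
    Rep J fun t => (π t).s.P.zb (π t).X (π t).A.k (g t) (c t) (Q t) (Q' t) := by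
  have hF := jP_jf hO
  have hB := jf_bs hF
  have H := bs_pr hB
  have hk := jf_k hF
  refine Rep.ite (RepP.lt hk H.K) (Rep.c 0) (bs_zX hB.wa hg.wa (Rep.div (bs_sum hB.wa.wk.wa
    H.K.wa.wk.wa (fun q => by have := (π q.1).s.P.small_ge; omega) ?_) H.K.wa.wk.wa))
  have key : Al ((((J.and fun t => ¬(π t).A.k < (π t).s.P.K).ext
      fun t β => β < (π t).s.P.nbm).and fun q => (π q.1).s.P.lo (g q.1) + q.2 ≤
        (π q.1).s.P.hi (g q.1)).ext fun q u => u < (π q.1).s.P.K) fun q =>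
      ((π q.1.1).A.k / (π q.1.1).s.P.K - 1) * (π q.1.1).s.P.K + q.2 < (π q.1.1).A.k :=
    fun q m h => by
      have h1 : q.2 < (π q.1.1).s.P.K := h.2.2
      have h2 : ¬(π q.1.1).A.k < (π q.1.1).s.P.K := h.1.1.1.2
      have h3 := Nat.div_mul_le_self (π q.1.1).A.k (π q.1.1).s.P.K
      have h4 : 1 ≤ (π q.1.1).A.k / (π q.1.1).s.P.K := Nat.div_pos (by omega) (by omega)
      beta_reduce
      rw [Nat.sub_mul, one_mul]
      have h5 := Nat.le_mul_of_pos_left (π q.1.1).s.P.K h4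
      omega
  refine (jP_tb hO.wa.wk.wa.wk (((((hk.div H.K).sub (Rep.c 1)).mul H.K).wa.wk.wa.wk).add Rep.var)
    hc.wa.wk.wa.wk ((H.lo hg).wa.wk.add Rep.var).wa.wk hg.wa.wk.wa.wk hQ.wa.wk.wa.wk
    hQ'.wa.wk.wa.wk fun q m h => ?_).congr fun q m h => ?_
  · obtain ⟨h1, h2, h3⟩ := hb _ m h.1.1.1.1
    exact ⟨(key q m h).le, h1, h2, Nat.le_add_right _ _, h.1.2, h3⟩
  · show _ = (π q.1.1).X _ _ _ _ _
    rw [X_eq _ (key q m h)]

theorem jP_nu0 (hO : Ov J π JP.I) (hc : Rep J c) (hg : Rep J g) (hQ : Rep J Q) (hQ' : Rep J Q')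
    (hb : Al J fun t => c t < (π t).s.P.b ∧ (π t).Sc (g t)) :
    Rep J fun t => (π t).s.P.nu0 (π t).X (π t).A.k (g t) (c t) (Q t) (Q' t) := by
  have hB := jP_bs hO
  have H := bs_pr hB
  have hgm := jP_gmx hO (hb.imp fun _ h => h.2)
  have hu := H.ug hg hgm
  have hM : Rep ((J.ext fun t d => d < 2 * (π t).s.P.Rn + 1).ext
      fun q d => d < 2 * (π q.1).s.P.Rn + 1) fun q =>
      min ((π q.1.1).s.P.Qg (g q.1.1)) (Q q.1.1 + q.1.2 - (π q.1.1).s.P.Rn) :=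
    ((H.Qg hg hgm).wk.min ((hQ.wk.add Rep.var).sub H.Rn.wk)).wk
  have hM' : Rep ((J.ext fun t d => d < 2 * (π t).s.P.Rn + 1).ext
      fun q d => d < 2 * (π q.1).s.P.Rn + 1) fun q =>
      min ((π q.1.1).s.P.Qg (g q.1.1)) (Q' q.1.1 + q.2 - (π q.1.1).s.P.Rn) :=
    (H.Qg hg hgm).wk.wk.min ((hQ'.wk.wk.add Rep.var).sub H.Rn.wk.wk)
  refine Rep.congr' ?_ fun t => (nuC_loc _ _ _ _ _ _).symm
  exact ((hQ.dist hQ').mul hu).max (bs_mn hB H.DN
    (fun t => by have := (π t).s.P.small_ge; omega) (H.Rn.mul hu) (bs_mn hB.wk H.DN.wk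
      (fun q => by have := (π q.1).s.P.small_ge; omega) (H.Rn.mul hu).wk
      ((((hQ.wk.wk.dist hM).add (hQ'.wk.wk.dist hM')).mul hu.wk.wk).add
        (jP_zb hO.wk.wk hc.wk.wk hg.wk.wk hM hM' fun q m h =>
          ⟨(hb _ m h.1.1).1, (hb _ m h.1.1).2, min_le_left _ _⟩))))

end Vale.Agent.P315F
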