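import Vale.Agent.P315F.Step
import Vale.Agent.P315F.Addr

namespace Vale.Agent.P315F

open Finset Vale.Agent.P315

theorem slots_mul (A b : ℕ) (F : ℕ → ℝ) :
    ∑ n ∈ range (A * b), F n = ∑ β ∈ range A, ∑ t ∈ range b, F (β * b + t) := by
  induction A with
  | zero => simp
  | succ A ih => rw [add_one_mul, sum_range_add, ih, sum_range_succ]

theorem slots_geo (lo n : ℕ) : ∑ x ∈ Ico lo n, (2 : ℝ) ^ (x - lo) ≤ 2 ^ (n - lo) := by
  rw [sum_Ico_eq_sum_range]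
  simp only [Nat.add_sub_cancel_left]
  have h : ((1 + ∑ β ∈ range (n - lo), 2 ^ β : ℕ) : ℝ) = (2 ^ (n - lo) : ℕ) := by
    rw [Pm.step_geom]
  push_cast at h
  linarith

/-- Binary value as an equivalence. -/
def slotsE (n : ℕ) : (Fin n → Bool) ≃ Fin (2 ^ n) :=
  (Equiv.piCongrRight fun _ => finTwoEquiv.symm).trans finFunctionFinEquiv

namespace Pm

variable {P : Pm}

theorem slotsE_val (P : Pm) (u : Fin P.lb → Bool) : (slotsE P.lb u : ℕ) = P.jb u := by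
  rw [slotsE, Equiv.trans_apply, finFunctionFinEquiv_apply, jb]
  refine sum_congr rfl fun t _ => ?_
  rw [Equiv.piCongrRight_apply, Pi.map_apply]
  cases u t
  · exact zero_mul _
  · exact one_mul _

theorem jb_lt (P : Pm) (u : Fin P.lb → Bool) : P.jb u < P.b :=
  P.slotsE_val u ▸ (slotsE P.lb u).2

theorem av_jb (P : Pm) (F : ℕ → ℝ) :
    av (fun u : Fin P.lb → Bool => F (P.jb u)) = (∑ j ∈ range P.b, F j) / P.b := by
  simp only [← slotsE_val]
  rw [av_equiv (slotsE P.lb) fun j => F j, av, Fin.sum_univ_eq_sum_range, Fintype.card_fin]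
  rfl

/-- Sampling weight of a slot. -/
noncomputable def wtR (P : Pm) (i g n : ℕ) : ℝ :=
  if P.act i n ∧ P.lo g ≤ P.bd i n ∧ P.bd i n ≤ P.hi g then 2 ^ (P.lb - n / P.b) else 0

theorem wtR_nonneg (P : Pm) (i g n : ℕ) : 0 ≤ P.wtR i g n := by
  unfold wtR; split_ifs <;> positivity

theorem wgt_cast (P : Pm) (i g n : ℕ) :
    (P.wgt i g n : ℝ) = P.wtR i g n * 2 ^ (P.bd i n - P.lo g) := by
  unfold wgt wtR
  split_ifs <;> simp

def bandsK (P : Pm) (g : ℕ) : Finset ℕ := Ico (P.lo g) (P.hi g + 1)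

def bandsS (P : Pm) (i g : ℕ) : Finset ℕ := (P.bandsK g).filter fun x => i ≤ x + (P.lm + P.lb)

theorem slot_sum (P : Pm) {i g : ℕ} (hg : g < i + P.NG) (f : ℕ → ℕ → ℝ) :
    ∑ n ∈ range P.N, P.wtR i g n * av (fun v : Fin P.lb → Bool => f (P.Jn n (P.jb v)) (P.bd i n)) =
      ∑ x ∈ P.bandsS i g, ∑ c ∈ range P.b, f c x := by
  have hb := P.b_pos
  have h1 : ∀ β, ∑ t ∈ range P.b, P.wtR i g (β * P.b + t) *
      av (fun v : Fin P.lb → Bool => f (P.Jn (β * P.b + t) (P.jb v)) (P.bd i (β * P.b + t))) =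
      if P.lm + P.lb ≤ i + β ∧ P.lo g ≤ i + β - (P.lm + P.lb) ∧ i + β - (P.lm + P.lb) ≤ P.hi g then
        ∑ c ∈ range P.b, f c (i + β - (P.lm + P.lb)) else 0 := fun β => by
    have e1 : ∀ t ∈ range P.b, (β * P.b + t) / P.b = β := fun t ht => by
      rw [mul_comm, Nat.mul_add_div hb, Nat.div_eq_of_lt (mem_range.1 ht), add_zero]
    have e2 : ∀ t ∈ range P.b, (β * P.b + t) % P.b = t := fun t ht => by
      rw [mul_comm, Nat.mul_add_mod, Nat.mod_eq_of_lt (mem_range.1 ht)]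
    have e3 : ∀ t ∈ range P.b, P.wtR i g (β * P.b + t) *
        av (fun v : Fin P.lb → Bool => f (P.Jn (β * P.b + t) (P.jb v)) (P.bd i (β * P.b + t))) =
        (if (P.lm + P.lb ≤ i + β ∧ t < 2 ^ β) ∧ P.lo g ≤ i + β - (P.lm + P.lb) ∧
          i + β - (P.lm + P.lb) ≤ P.hi g then 2 ^ (P.lb - β) else 0) *
        av (fun v : Fin P.lb → Bool => f (if P.lb ≤ β then t else P.jb v)
          (i + β - (P.lm + P.lb))) := fun t ht => by
      simp only [wtR, Jn, bd, act, e1 t ht, e2 t ht]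
    rw [sum_congr rfl e3]
    by_cases h : P.lm + P.lb ≤ i + β ∧ P.lo g ≤ i + β - (P.lm + P.lb) ∧
      i + β - (P.lm + P.lb) ≤ P.hi g
    swap
    · rw [if_neg h]
      exact sum_eq_zero fun t _ => by rw [if_neg fun h3 => h ⟨h3.1.1, h3.2⟩, zero_mul]
    rw [if_pos h]
    by_cases h2 : P.lb ≤ β
    · refine sum_congr rfl fun t ht => ?_
      have h3 : t < 2 ^ β := (mem_range.1 ht).trans_le (Nat.pow_le_pow_right two_pos h2)
      simp only [if_pos h2, if_pos (And.intro (And.intro h.1 h3) h.2)]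
      rw [Nat.sub_eq_zero_of_le h2, pow_zero, one_mul, av_const]
    · have h3 : 2 ^ β ≤ P.b := Nat.pow_le_pow_right two_pos (by omega)
      simp only [h.1, h.2.1, h.2.2, true_and, and_true, ite_mul, zero_mul, if_neg h2]
      rw [← sum_filter, sum_const, show (range P.b).filter (· < 2 ^ β) = range (2 ^ β) by
        ext t; simp only [mem_filter, mem_range]; omega, card_range, nsmul_eq_mul,
        P.av_jb fun c => f c (i + β - (P.lm + P.lb)), ← mul_assoc, Nat.cast_pow, Nat.cast_ofNat,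
        ← pow_add, Nat.add_sub_cancel' (by omega), b, Nat.cast_pow, Nat.cast_ofNat,
        mul_div_cancel₀ _ (by positivity)]
  rw [N, slots_mul, sum_congr rfl fun β _ => h1 β, ← sum_filter]
  refine sum_nbij' (fun β => i + β - (P.lm + P.lb)) (fun x => x + (P.lm + P.lb) - i) ?_ ?_ ?_ ?_
    fun _ _ => rfl
  all_goals
    intro x hx
    simp only [bandsS, bandsK, mem_filter, mem_range, mem_Ico] at hx ⊢
    simp only [hi, NS, NG] at hx hg ⊢
    omega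

theorem slot_sum' (P : Pm) {i g : ℕ} (hg : g < i + P.NG) (f : ℕ → ℝ) :
    ∑ n ∈ range P.N, P.wtR i g n * f (P.bd i n) = P.b * ∑ x ∈ P.bandsS i g, f x := by
  have h := P.slot_sum hg fun _ x => f x
  simp only [av_const, sum_const, card_range, nsmul_eq_mul, ← mul_sum] at h
  exact h

theorem bands_geo (P : Pm) (g : ℕ) :
    ∑ x ∈ P.bandsK g, (2 : ℝ) ^ (x - P.lo g) ≤ 2 ^ (g + 3 - P.lo g) := slots_geo _ _

theorem bands_card (P : Pm) (g : ℕ) : (P.bandsK g).card ≤ P.nbm := by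
  rw [bandsK, Nat.card_Ico]
  unfold hi lo nbm
  omega

theorem zR_eq (P : Pm) (t : ℕ → TabR) (g p p' : ℕ) : P.zR t g p p' =
    (P.U1 - P.U1 / P.mm : ℕ) + ∑ x ∈ P.bandsK g, 2 ^ (x - P.lo g) * t x p p' := by
  rw [zR, bandsK, sum_Ico_eq_sum_range, ← sum_filter]
  simp only [Nat.add_sub_cancel_left]
  refine congrArg _ (sum_congr ?_ fun _ _ => rfl)
  ext β
  simp only [mem_filter, mem_range]
  simp only [hi, lo, nbm]
  omega

theorem valR_eq (P : Pm) (t : ℕ → ℕ → TabR) (g : ℕ) (qq : ℕ → ℕ) : P.valR t g qq =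
    P.b * (P.U1 - P.U1 / P.mm : ℕ) + ∑ x ∈ range P.b ×ˢ P.bandsK g, 2 ^ (x.2 - P.lo g) *
      t (x.1 % P.b) x.2 (P.r g * qq (x.1 % P.b)) (P.r g * qq (x.1 % P.b + 1)) := by
  rw [valR, sum_product]
  simp only [zR_eq, sum_add_distrib, sum_const, card_range, nsmul_eq_mul]
  congr 1
  exact sum_congr rfl fun c hc => by rw [Nat.mod_eq_of_lt (mem_range.1 hc)]

theorem off_le (P : Pm) {i g : ℕ} (hg : g < i + P.NG) :
    ∑ n ∈ range P.N, P.wgt i g n ≤ P.b * 2 ^ P.nbm := by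
  have h1 := P.slot_sum' hg fun x => 2 ^ (x - P.lo g)
  have h2 : ∑ x ∈ P.bandsS i g, (2 : ℝ) ^ (x - P.lo g) ≤ 2 ^ P.nbm :=
    (sum_le_sum_of_subset_of_nonneg (filter_subset _ _) fun _ _ _ => by positivity).trans
      ((P.bands_geo g).trans (pow_le_pow_right₀ one_le_two (by unfold lo nbm; omega)))
  have h3 := h1.trans_le (mul_le_mul_of_nonneg_left h2 (Nat.cast_nonneg _))
  simp only [← wgt_cast] at h3
  exact_mod_cast h3

theorem smpS_le (P : Pm) {i g : ℕ} (hg : g < i + P.NG) (L : ℕ → ℕ → Tab) (Jc : ℕ → ℕ)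
    {Rr : ℕ → Tab} (hR : ∀ n p p', Rr n p p' ≤ P.U1) (qq : ℕ → ℕ) :
    P.smpS i L Jc Rr g qq ≤ 2 * (P.b * (P.U1 * 2 ^ P.nbm)) := by
  refine (sum_le_sum (g := fun n => P.wgt i g n * (2 * P.U1)) fun n _ =>
    Nat.mul_le_mul_left _ ?_).trans ?_
  · have := hR n (P.r g * qq (Jc n)) (P.r g * qq (Jc n + 1))
    omega
  · rw [← sum_mul]
    exact (Nat.mul_le_mul_right _ (P.off_le hg)).trans (le_of_eq (by ring))

theorem smpS_cast (P : Pm) (i : ℕ) {L : ℕ → ℕ → Tab} (hL : ∀ c x p p', L c x p p' ≤ P.U1)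
    (Jc : ℕ → ℕ) (Rr : ℕ → Tab) (g : ℕ) (qq : ℕ → ℕ) :
    (P.smpS i L Jc Rr g qq : ℝ) = ∑ n ∈ range P.N, P.wtR i g n * 2 ^ (P.bd i n - P.lo g) *
      ((Rr n (P.r g * qq (Jc n)) (P.r g * qq (Jc n + 1)) : ℝ) -
        L (Jc n) (P.bd i n) (P.r g * qq (Jc n)) (P.r g * qq (Jc n + 1))) + P.off i g := by
  rw [smpS, off, Nat.cast_sum, Nat.cast_sum, ← sum_add_distrib]
  refine sum_congr rfl fun n _ => ?_
  rw [Nat.cast_mul, Nat.cast_mul, Nat.cast_sub ((hL _ _ _ _).trans (Nat.le_add_left _ _)),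
    Nat.cast_add, wgt_cast]
  ring

theorem slots_qd_le (P : Pm) (X : Ctx) (k g : ℕ) {Q Q' : ℕ} (hQ : Q ≤ P.Qg g) (hQ' : Q' ≤ P.Qg g)
    (j d : ℕ) : P.r g * P.qd X k g Q Q' j d ≤ P.Qm := by
  refine le_trans (Nat.mul_le_mul_left _ (?_ : _ ≤ P.Qg g)) (Nat.mul_div_le _ _)
  unfold qd
  split_ifs
  · exact hQ
  · exact hQ'
  · exact min_le_left _ _

theorem qd_dR (P : Pm) (X : Ctx) (k g Q Q' j d d' : ℕ) :
    P.dR (P.r g * P.qd X k g Q Q' j d) (P.r g * P.qd X k g Q Q' j d') ≤ 2 * P.G g := by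
  have h1 : Nat.dist (P.qd X k g Q Q' j d) (P.qd X k g Q Q' j d') ≤ 2 * P.rad g := by
    have e1 : d % (2 * P.rad g + 1) < 2 * P.rad g + 1 := Nat.mod_lt _ (Nat.succ_pos _)
    have e2 : d' % (2 * P.rad g + 1) < 2 * P.rad g + 1 := Nat.mod_lt _ (Nat.succ_pos _)
    unfold qd Nat.dist
    split_ifs <;> omega
  have h2 : P.r g * P.rad g * (2 ^ P.gp * P.J) ≤ 2 ^ g := by
    rw [J, ← pow_add]
    exact (Nat.mul_le_mul_right _ (Nat.mul_div_le _ _)).trans (Nat.div_mul_le_self _ _)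
  have h3 : P.r g * Nat.dist (P.qd X k g Q Q' j d) (P.qd X k g Q Q' j d') * P.J * 2 ^ P.gp ≤
      2 * 2 ^ g := by
    refine le_trans (Nat.mul_le_mul_right _ (Nat.mul_le_mul_right _ (Nat.mul_le_mul_left _ h1)))
      (le_trans (le_of_eq (by ring)) (Nat.mul_le_mul_left 2 h2))
  rw [dR, Nat.dist_mul_left, G, ← mul_div_assoc, le_div_iff₀ (by positivity)]
  exact_mod_cast h3

/-- Oscillation allowance of an item of band `x` at scale `g`. -/
noncomputable def oscD (P : Pm) (g x : ℕ) : ℝ := 4 * P.G g * P.U1 / 2 ^ x + 6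

theorem tame_osc (P : Pm) {x : ℕ} {t : TabR} (ht : P.Tame x t) (X : Ctx) (k g Q Q' j o o' : ℕ) :
    |t (P.r g * P.q X k g Q Q' o j) (P.r g * P.q X k g Q Q' o (j + 1)) -
      t (P.r g * P.q X k g Q Q' o' j) (P.r g * P.q X k g Q Q' o' (j + 1))| ≤ P.oscD g x := by
  have h : ∀ o o', t (P.r g * P.q X k g Q Q' o j) (P.r g * P.q X k g Q Q' o (j + 1)) ≤
      t (P.r g * P.q X k g Q Q' o' j) (P.r g * P.q X k g Q Q' o' (j + 1)) + P.oscD g x := by
    intro o o'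
    refine (ht.2 _ _ (P.r g * P.q X k g Q Q' o' j) (P.r g * P.q X k g Q Q' o' (j + 1))).trans ?_
    rw [oscD, add_assoc]
    gcongr
    exact (add_le_add (P.qd_dR _ _ _ _ _ _ _ _) (P.qd_dR _ _ _ _ _ _ _ _)).trans_eq (by ring)
  exact abs_le.2 ⟨by linarith [h o' o], by linarith [h o o']⟩

theorem oscD_nonneg (P : Pm) (g x : ℕ) : 0 ≤ P.oscD g x := by unfold oscD G; positivity

theorem osc_sum (hP : P.Good) (g : ℕ) :
    4 * (P.b * ∑ x ∈ P.bandsK g, 2 ^ (x - P.lo g) * P.oscD g x) ≤ P.sig * tauT (P.T g) := by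
  have h0 := hP.fp1
  have h1 : ∀ x ∈ P.bandsK g, 2 ^ (x - P.lo g) * P.oscD g x =
      4 * 2 ^ P.ee g + 6 * 2 ^ (x - P.lo g) := fun x hx => by
    have hx' : P.lo g ≤ x := (mem_Ico.1 hx).1
    have e : (2 : ℝ) ^ (x - P.lo g) * 2 ^ g * 2 ^ P.fp = 2 ^ P.ee g * 2 ^ P.gp * 2 ^ x := by
      rw [← pow_add, ← pow_add, ← pow_add, ← pow_add]
      congr 1
      unfold ee lo at *
      omega
    rw [oscD, G, U1]
    push_cast
    field_simp
    linarith
  have h2 : (2 : ℝ) ^ (g + 3 - P.lo g) * 2 ^ 3 ≤ 2 ^ P.ee g := by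
    rw [← pow_add]
    refine pow_le_pow_right₀ one_le_two ?_
    unfold ee lo
    omega
  have h3 := P.bands_geo g
  have h4 : ((P.bandsK g).card : ℝ) ≤ P.nbm := by exact_mod_cast P.bands_card g
  have h5 : (1 : ℝ) ≤ P.nbm := by exact_mod_cast (show 1 ≤ P.nbm by unfold nbm; omega)
  have h6 : (40 : ℝ) * P.b * P.nbm * 2 ^ P.sg ≤ 2 ^ P.s0 := by exact_mod_cast hP.s0_ge
  have h7 := (tauT_bounds (step_T hP g)).2.1
  have h8 : (0 : ℝ) < 2 ^ P.ee g := by positivity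
  rw [sum_congr rfl h1, sum_add_distrib, sum_const, ← mul_sum, nsmul_eq_mul]
  have h9 : (P.bandsK g).card * (4 * 2 ^ P.ee g) + 6 * ∑ x ∈ P.bandsK g, (2 : ℝ) ^ (x - P.lo g) ≤
      5 * P.nbm * 2 ^ P.ee g := by nlinarith
  rw [show ((P.T g : ℕ) : ℝ) = 2 ^ P.ee g * 2 ^ P.s0 by rw [T, pow_add]; push_cast; rfl] at h7
  rw [sig, one_div, le_inv_mul_iff₀ (by positivity)]
  refine le_trans ?_ h7
  have h10 := mul_le_mul_of_nonneg_left h9 (by positivity : (0 : ℝ) ≤ 2 ^ P.sg * 4 * P.b)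
  have h11 := mul_le_mul_of_nonneg_left h6 h8.le
  linarith

end Pm

end Vale.Agent.P315F
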