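import Vale.Agent.P315F.Defs
import Vale.Agent.P315.Soft

namespace Vale.Agent.P315F

open Finset Vale.Agent.P315

theorem tauT_bounds {T : ℕ} (hT : 2 ≤ T) :
    0 < tauT T ∧ (T : ℝ) / 2 ≤ tauT T ∧ tauT T ≤ T := by
  have h : (2 : ℝ) ≤ T := by exact_mod_cast hT
  rw [tauT]
  generalize (T : ℝ) = t at h
  have t0 : 0 < t := by linarith
  have t1 : 0 < t - 1 := by linarith
  have e : 1 - 1 / t = (t - 1) / t := by field_simp
  have h0 : 0 < 1 - 1 / t := e ▸ div_pos t1 t0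
  have h1 : 1 / t ≤ -Real.log (1 - 1 / t) := by linarith [Real.log_le_sub_one_of_pos h0]
  have h2 : -Real.log (1 - 1 / t) ≤ 2 / t := by
    have := Real.one_sub_inv_le_log_of_pos h0
    have a : (1 - 1 / t)⁻¹ - 1 ≤ 2 / t := by
      rw [e, inv_div, div_sub_one t1.ne', div_le_div_iff₀ t1 t0]
      linarith
    linarith
  have h3 := (one_div_pos.2 t0).trans_le h1
  rw [← div_neg_eq_neg_div']
  exact ⟨one_div_pos.2 h3, (one_div_div 2 t).ge.trans (one_div_le_one_div_of_le h3 h2),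
    (one_div_le h3 t0).2 h1⟩

theorem softg_beta {T : ℕ} (hT : 2 ≤ T) : 0 < 1 - 1 / (T : ℝ) :=
  sub_pos.2 ((div_lt_one (Nat.cast_pos.2 (two_pos.trans_le hT))).2 (Nat.one_lt_cast.2 hT))

theorem exp_tauT {T : ℕ} (hT : 2 ≤ T) (x : ℕ) :
    Real.exp (-(x : ℝ) / tauT T) = (1 - 1 / (T : ℝ)) ^ x := by
  rw [tauT, neg_div, div_div_eq_mul_div, div_neg, div_one, neg_neg, Real.exp_nat_mul,
    Real.exp_log (softg_beta hT)]

theorem EXg_le (Wz T x : ℕ) : EXg Wz T x ≤ Wz := by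
  induction x with
  | zero => rfl
  | succ x ih => exact (Nat.sub_le _ _).trans ih

theorem softg_EX {T : ℕ} (hT : 2 ≤ T) (Wz x : ℕ) : Wz * (1 - 1 / (T : ℝ)) ^ x ≤ EXg Wz T x ∧
    (EXg Wz T x : ℝ) ≤ Wz * (1 - 1 / (T : ℝ)) ^ x + T := by
  have h0 := softg_beta hT
  have t0 : (0 : ℝ) < T := Nat.cast_pos.2 (two_pos.trans_le hT)
  induction x with
  | zero => simp [EXg]
  | succ x ih =>
    have a1 : ((EXg Wz T x / T : ℕ) : ℝ) ≤ EXg Wz T x / T := Nat.cast_div_le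
    have a2 := Nat.lt_floor_add_one (EXg Wz T x / T : ℝ)
    have a3 := mul_le_mul_of_nonneg_right ih.1 h0.le
    have a4 := mul_le_mul_of_nonneg_right ih.2 h0.le
    rw [Nat.floor_div_eq_div] at a2
    rw [add_mul, mul_sub (T : ℝ), mul_one_div_cancel t0.ne'] at a4
    rw [mul_sub (EXg Wz T x : ℝ), mul_one_div] at a3 a4
    rw [EXg, Nat.cast_sub (Nat.div_le_self _ _), pow_succ, ← mul_assoc]
    constructor <;> linarith

/-- The integer soft minimum is accurate up to 2. -/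
theorem Fh_err {Om Xm Wz T : ℕ} (hT : 2 ≤ T) (hn : 1 ≤ Om) (hWz : Om * T ^ 2 < Wz) {X : ℕ → ℕ}
    (hX : ∀ o < Om, X o ≤ Xm) :
    |(Fh Om Xm Wz T X : ℝ) - sm (tauT T) Om (fun o => (X o : ℝ))| ≤ 2 := by
  have hτ := (tauT_bounds hT).1
  have n0 : (0 : ℝ) < Om := Nat.cast_pos.2 hn
  have h0 := softg_beta hT
  have t0 : (0 : ℝ) < T := Nat.cast_pos.2 (two_pos.trans_le hT)
  have hW : (Om : ℝ) * T < Wz * (1 / T) := by
    rw [mul_one_div, lt_div_iff₀ t0, mul_assoc, ← sq]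
    exact_mod_cast hWz
  rw [Fh]
  set mn := (range Om).fold min Xm X
  have m1 : ∀ o < Om, mn ≤ X o := fun o ho => (fold_min_le _).2 (.inr ⟨o, mem_range.2 ho, le_rfl⟩)
  obtain ⟨o0, ho0, m2⟩ : ∃ o ∈ range Om, X o ≤ mn := ((fold_min_le _).1 le_rfl).elim
    (fun h => ⟨0, mem_range.2 hn, (hX 0 hn).trans h⟩) id
  have e1 : sm (tauT T) Om (fun o => (X o : ℝ)) =
      sm (tauT T) Om (fun o => ((X o - mn : ℕ) : ℝ)) + mn := by
    rw [← soft_shift hτ hn, sm, sm, sum_congr rfl fun o ho => ?_]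
    rw [Nat.cast_sub (m1 o (mem_range.1 ho)), sub_add_cancel]
  have y0 := sm_mono_add hτ hn (X := fun _ => 0) (Y := fun o => ((X o - mn : ℕ) : ℝ)) (c := 0)
    fun o _ => by simp
  have y1 := sm_mono_add hτ hn (X := fun o => ((X o - mn : ℕ) : ℝ)) (Y := fun _ => Xm) (c := 0)
    fun o ho => (add_zero _).trans_le (Nat.cast_le.2 ((Nat.sub_le _ _).trans (hX o ho)))
  rw [sm_const hτ hn, add_zero] at y0 y1
  have e2 : Om * Real.exp (-sm (tauT T) Om (fun o => ((X o - mn : ℕ) : ℝ)) / tauT T) =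
      ∑ o ∈ range Om, (1 - 1 / (T : ℝ)) ^ (X o - mn) := by
    rw [sm, neg_mul, neg_neg, mul_div_cancel_left₀ _ hτ.ne', Real.exp_log
      (div_pos (soft_pos hn _) n0), mul_div_cancel₀ _ n0.ne']
    simp only [exp_tauT hT]
  rw [e1]
  generalize sm (tauT T) Om (fun o => ((X o - mn : ℕ) : ℝ)) = ys at *
  have z1 := sum_le_sum (s := range Om) fun o _ => (softg_EX hT Wz (X o - mn)).1
  have z2 := sum_le_sum (s := range Om) fun o _ => (softg_EX hT Wz (X o - mn)).2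
  have s1 := single_le_sum (f := fun o => (1 - 1 / (T : ℝ)) ^ (X o - mn))
    (fun _ _ => by positivity) ho0
  simp only [Nat.sub_eq_zero_of_le m2, pow_zero] at s1
  rw [sum_add_distrib, sum_const, card_range, nsmul_eq_mul] at z2
  rw [← mul_sum, ← Nat.cast_sum] at z1 z2
  generalize ∑ o ∈ range Om, (1 - 1 / (T : ℝ)) ^ (X o - mn) = s at *
  generalize ∑ o ∈ range Om, EXg Wz T (X o - mn) = Z at *
  have w0 : (0 : ℝ) ≤ Wz * (1 / T) := by positivity
  have c1 : ∀ y : ℕ, Z ≤ Om * EXg Wz T (y + 1) → y < ys := fun y h => by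
    refine lt_of_not_ge fun hy => ?_
    have a1 : Om * (1 - 1 / (T : ℝ)) ^ y ≤ s := by
      rw [← e2, ← exp_tauT hT]
      gcongr
    have a2 : (Z : ℝ) ≤ Om * EXg Wz T (y + 1) := by exact_mod_cast h
    have a3 := mul_le_mul_of_nonneg_left (softg_EX hT Wz (y + 1)).2 n0.le
    have a4 := mul_le_mul_of_nonneg_left a1 (mul_nonneg (Nat.cast_nonneg (α := ℝ) Wz) h0.le)
    rw [pow_succ] at a3
    nlinarith [mul_le_mul_of_nonneg_left s1 w0]
  have c2 : ∀ y : ℕ, ((y + 1 + 1 : ℕ) : ℝ) ≤ ys → Z ≤ Om * EXg Wz T (y + 1) := fun y h => by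
    have a1 : s ≤ Om * (1 - 1 / (T : ℝ)) ^ (y + 1 + 1) := by
      rw [← e2, ← exp_tauT hT]
      gcongr
    have a3 := mul_le_mul_of_nonneg_left (softg_EX hT Wz (y + 1)).1 n0.le
    have a5 : 0 ≤ Om * (1 - 1 / (T : ℝ)) ^ (y + 1) := by positivity
    rw [pow_succ, ← mul_assoc] at a1
    rw [mul_left_comm] at a3
    generalize Om * (1 - 1 / (T : ℝ)) ^ (y + 1) = g at *
    have a2 : 1 ≤ g := by nlinarith [mul_nonneg a5 (one_div_pos.2 t0).le]
    have a4 := mul_le_mul_of_nonneg_left a1 (Nat.cast_nonneg (α := ℝ) Wz)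
    have : (Z : ℝ) ≤ Om * EXg Wz T (y + 1) := by nlinarith [mul_le_mul_of_nonneg_left a2 w0]
    exact_mod_cast this
  have d1 := card_le_card (show ((range Xm).filter fun y => Z ≤ Om * EXg Wz T (y + 1)) ⊆
    range ⌈ys⌉₊ from fun y hy => mem_range.2 (Nat.lt_ceil.2 (c1 y (mem_filter.1 hy).2)))
  have d2 := card_le_card (show range (⌊ys⌋₊ - 1) ⊆
      (range Xm).filter fun y => Z ≤ Om * EXg Wz T (y + 1) from fun y hy => by
    have := mem_range.1 hy
    have a := (Nat.le_floor_iff y0).1 (show y + 1 + 1 ≤ ⌊ys⌋₊ by omega)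
    have : y + 1 + 1 ≤ Xm := Nat.cast_le.1 (a.trans y1)
    exact mem_filter.2 ⟨mem_range.2 (by omega), c2 y a⟩)
  rw [card_range] at d1 d2
  rw [← card_filter]
  generalize ((range Xm).filter fun y => Z ≤ Om * EXg Wz T (y + 1)).card = c at d1 d2
  have d3 : (c : ℝ) ≤ ⌈ys⌉₊ := Nat.cast_le.2 d1
  have d4 : (⌊ys⌋₊ : ℝ) ≤ c + 1 := by exact_mod_cast (by omega : ⌊ys⌋₊ ≤ c + 1)
  have d5 := Nat.ceil_lt_add_one y0
  have d6 := Nat.lt_floor_add_one ys
  rw [Nat.cast_add, abs_le]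
  constructor <;> linarith

end Vale.Agent.P315F
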