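import Vale.Agent.P315F.Reg
import Vale.Agent.P315F.Pred

/-! Stage 2, one node: the gap of the potential and the choice of the scale. -/

namespace Vale.Agent.P315F

open Finset Vale.Agent.P315

namespace Pm

variable {P : Pm} {w : ℕ → ℕ → ℕ} {A : ℕ → ℕ → ℕ → ℕ → ℕ → Tab}

/-- Potential of the node `(h, a)` as a child, at the rounded state. -/
noncomputable def psC (P : Pm) (A : ℕ → ℕ → ℕ → ℕ → ℕ → Tab) (h a g p p' : ℕ) : ℝ :=
  PsiP (P.dR (P.r g * (p / P.r g)) (P.r g * (p' / P.r g)))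
    (P.nut A h (2 * P.K) a g (p / P.r g) (p' / P.r g))

/-- Potential of the node `(h + 1, a)` as a parent. -/
noncomputable def psR (P : Pm) (A : ℕ → ℕ → ℕ → ℕ → ℕ → Tab) (h a g p p' : ℕ) : ℝ :=
  PsiP (P.dR (P.r g * (p / P.r g)) (P.r g * (p' / P.r g)))
    (P.capt A h (2 * P.K) a g (p / P.r g) (p' / P.r g))

noncomputable def gapT (P : Pm) (A : ℕ → ℕ → ℕ → ℕ → ℕ → Tab) (h a g : ℕ) (m : ℕ → ℕ) : ℝ :=
  ∑ j ∈ range P.b, P.psC A h (a * P.b + j) g (m j) (m (j + 1)) - P.psR A h a g (m 0) (m P.b)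

theorem stagea_gap (P : Pm) (A : ℕ → ℕ → ℕ → ℕ → ℕ → Tab) (h a g : ℕ) (m : ℕ → ℕ) :
    P.gapT A h a g m = gapP (P.Qg g) (P.ug g) (P.Rn * P.ug g)
      (P.nu0 (P.ctx (A h) a) (2 * P.K) g) P.b (fun j => m j / P.r g) * P.un g := by
  unfold gapT gapP psC psR
  rw [sub_mul, Finset.sum_mul, ← PsiP_mul _ _ (P.un_pos g), dR_grid]
  refine congrArg₂ _ (Finset.sum_congr rfl fun j hj => ?_) rfl
  rw [← PsiP_mul _ _ (P.un_pos g), dR_grid, nu0_un P A h _ a g (mem_range.1 hj)]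

theorem stagea_one (P : Pm) (w : ℕ → ℕ → ℕ) (h a p p' : ℕ) : (1 : ℝ) ≤ P.En w h a p p' := by
  have h1 := P.En_ge (w := w) h a p p'
  have h2 : (1 : ℝ) ≤ P.J0 := by exact_mod_cast P.J0_pos
  linarith [P.dR_nonneg p p']

theorem stagea_eR (hP : P.Good) {g : ℕ} {k : ℝ} (h2 : P.G g ≤ 16 * k) :
    P.b * ((2 * (P.nbm + 1) + 3) * P.eR g) ≤ k ∧ P.eR g ≤ k := by
  have h1 := P.om1_G g
  have h3 := om1_le hP
  have h4 := eps_le hP
  have h5 := P.G_pos g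
  have h6 := P.eR_pos g
  have h7 : (1 : ℝ) ≤ P.b := by exact_mod_cast P.b_pos
  have h8 : (0 : ℝ) ≤ P.nbm := Nat.cast_nonneg _
  have h9 : P.om1 * P.G g ≤ k := by nlinarith
  have h10 : 0 ≤ P.b * P.eR g := by positivity
  have h11 : 0 ≤ P.nbm * (P.b * P.eR g) := by positivity
  have h12 : P.eR g ≤ P.b * P.eR g := le_mul_of_one_le_left h6.le h7
  constructor <;> nlinarith

theorem stagea_sum (hP : P.Good) (hS : P.Star w A) {h : ℕ} (hh : h + 1 ≤ P.D) {a : ℕ}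
    (ha : a < P.b ^ (P.D - (h + 1))) {g : ℕ} {m : ℕ → ℕ} (hm : ∀ j, m j ≤ P.Qm) {k : ℝ}
    (hsum : ∑ j ∈ range P.b, (P.En w h (a * P.b + j) (m j) (m (j + 1)) : ℝ) = k)
    (h2 : P.G g ≤ 16 * k) :
    ∑ j ∈ range P.b, P.nut A h (2 * P.K) (a * P.b + j) g (m j / P.r g) (m (j + 1) / P.r g) ≤
      (2 ^ P.an + 1) * k := by
  refine (Finset.sum_le_sum fun j hj => nut_round hP hS (by omega)
    (P.child_lt hh ha (mem_range.1 hj)) g (hm j) (hm (j + 1))).trans ?_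
  rw [Finset.sum_add_distrib, ← Finset.mul_sum, hsum, Finset.sum_const, card_range, nsmul_eq_mul]
  linarith [(stagea_eR hP h2).1]

theorem stagea_round (P : Pm) (g g' p : ℕ) :
    P.dR (P.r g' * (p / P.r g')) (P.r g * (p / P.r g)) ≤ P.eR g + P.eR g' := by
  have h1 := P.dR_tri (P.r g' * (p / P.r g')) p (P.r g * (p / P.r g))
  rw [P.dR_comm _ p] at h1
  linarith [P.dR_round g p, P.dR_round g' p]

theorem stagea_dR (P : Pm) (p p' q q' : ℕ) : P.dR p p' ≤ P.dR q q' + (P.dR p q + P.dR p' q') := by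
  have h1 := P.dR_tri p q p'
  have h2 := P.dR_tri q q' p'
  rw [P.dR_comm q' p'] at h2
  linarith

theorem stagea_abs (P : Pm) {p q : ℕ} {v : ℝ} (h : P.dR p q ≤ v) : |P.dR p q| ≤ v := by
  rwa [abs_of_nonneg (P.dR_nonneg p q)]

/-- `gapT = gapP * un` (`PsiP_mul`, `dR_grid`, `nu0_un`). -/
theorem gapT_nonneg (P : Pm) (A : ℕ → ℕ → ℕ → ℕ → ℕ → Tab) (h a g : ℕ) {m : ℕ → ℕ}
    (hm : ∀ j, m j ≤ P.Qm) : 0 ≤ P.gapT A h a g m := by
  rw [stagea_gap]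
  exact mul_nonneg (gapP_nonneg (P.nu0_ge _ _ g) _ _ fun j => P.div_le_Qg g (hm j))
    (P.un_pos g).le

theorem psC_leaf (hP : P.Good) (hS : P.Star w A) {h : ℕ} (hh : h ≤ P.D) {a : ℕ}
    (ha : a < P.b ^ (P.D - h)) (g : ℕ) {p p' : ℕ} (hp : p ≤ P.Qm) (hp' : p' ≤ P.Qm) :
    P.psC A h a g p p' ≤ 2 * 2 ^ P.an * P.En w h a p p' + P.cPsi * P.eR g := by
  have h1 := PsiP_le (P.stagea_abs (P.nut_ge A h (2 * P.K) a g (p / P.r g) (p' / P.r g)))
  have h2 := nut_round hP hS hh ha g hp hp'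
  have h3 := P.eR_pos g
  unfold psC cPsi
  linarith

/-- The two potentials of a node differ by the defect.  `β = capt ≤ ∑ nut ≤ (2^an + 1) En`
(`capt_chain`, `nut_round`), `capt_att`, `DEF`, `nut_le`, `Zb_le`, `avZ_lip`, `PsiP_lip`. -/
theorem psC_le (hP : P.Good) (hS : P.Star w A) {h : ℕ} (hh : h + 1 ≤ P.D) {a : ℕ}
    (ha : a < P.b ^ (P.D - (h + 1))) {g p p' : ℕ} (hp : p ≤ P.Qm) (hp' : p' ≤ P.Qm)
    (h1 : (P.En w (h + 1) a p p' : ℝ) ≤ 2 ^ P.r1 * P.G g)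
    (h2 : P.G g ≤ 16 * P.En w (h + 1) a p p') (g2 : ℕ) :
    P.psC A (h + 1) a g2 p p' ≤ P.psR A h a g p p' +
      P.kD * (2 ^ P.an + 1) * P.En w (h + 1) a p p' + P.cPsi * P.eR g + P.cPsi * P.eR g2 := by
  obtain ⟨m, hm0, hmb, hm, -, hsum⟩ := P.En_split (w := w) h a hp hp'
  have hQ := P.div_le_Qg g hp
  have hQ' := P.div_le_Qg g hp'
  have hG := P.G_pos g
  have b1 : P.capt A h (2 * P.K) a g (p / P.r g) (p' / P.r g) ≤
      (2 ^ P.an + 1) * P.En w (h + 1) a p p' := by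
    have h3 := (P.capt_chain A h (2 * P.K) a g (fun j => m j / P.r g)
      fun j => P.div_le_Qg g (hm j)).trans (stagea_sum hP hS hh ha hm hsum h2)
    rwa [hm0, hmb] at h3
  have b2 : P.capt A h (2 * P.K) a g (p / P.r g) (p' / P.r g) ≤ 2 ^ P.ga * P.G g := by
    have h3 : (2 : ℝ) ^ (P.an + P.r1 + 1) ≤ 2 ^ P.ga :=
      pow_le_pow_right₀ one_le_two (by have := hP.ga2; omega)
    have h4 : (1 : ℝ) ≤ 2 ^ P.an := one_le_pow₀ one_le_two
    have h5 := mul_le_mul (show (2 : ℝ) ^ P.an + 1 ≤ 2 ^ P.an * 2 by linarith) h1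
      (Nat.cast_nonneg _) (by positivity)
    rw [pow_succ, pow_add] at h3
    nlinarith [mul_le_mul_of_nonneg_right h3 hG.le]
  obtain ⟨ω, h3, h4, h5, h6⟩ := capt_att (A := A) (h := h) (k := 2 * P.K) (a := a) hQ hQ'
    (b2.trans_lt (by rw [pow_succ]; nlinarith [mul_pos (pow_pos two_pos P.ga) hG]))
  have h7 := DEF hP hS hh ha ω h5 h6 b2 g2
  rw [h3, h4] at h7
  have h8 := nut_le (A := A) (h := h + 1) (k := 2 * P.K) (a := a) (by omega)
    (P.div_le_Qg g2 hp) (P.div_le_Qg g2 hp')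
  rw [Nat.mul_div_cancel _ hP.K_pos] at h8
  have h9 := (Zb_le hP A 1 (h + 1) a g2 (P.r g2 * (p / P.r g2)) (P.r g2 * (p' / P.r g2))).1
  have h10 := avZ_lip hP hS 1 (h + 1) a g2 (P.r g2 * (p / P.r g2)) (P.r g2 * (p' / P.r g2))
    (P.r g * (p / P.r g)) (P.r g * (p' / P.r g))
  have r1 := P.stagea_round g g2 p
  have r2 := P.stagea_round g g2 p'
  have c1 : P.dR (P.r g * (p / P.r g)) (P.r g * (p' / P.r g)) ≤
      P.capt A h (2 * P.K) a g (p / P.r g) (p' / P.r g) := P.cap_ge _ _ g _ _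
  have d1 := P.stagea_dR (P.r g2 * (p / P.r g2)) (P.r g2 * (p' / P.r g2))
    (P.r g * (p / P.r g)) (P.r g * (p' / P.r g))
  have d2 := P.stagea_dR (P.r g * (p / P.r g)) (P.r g * (p' / P.r g))
    (P.r g2 * (p / P.r g2)) (P.r g2 * (p' / P.r g2))
  rw [P.dR_comm (P.r g * (p / P.r g)) (P.r g2 * _),
    P.dR_comm (P.r g * (p' / P.r g)) (P.r g2 * _)] at d2
  have e1 := P.eR_pos g
  have e2 := P.eR_pos g2
  have e3 := P.fl_le_eR g2
  have n0 : (0 : ℝ) ≤ P.nbm := Nat.cast_nonneg _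
  have k0 : 0 ≤ P.kD := by
    unfold kD
    linarith [P.del_pos, P.kap_pos.2.2]
  have k1 := mul_nonneg k0 ((P.dR_nonneg _ _).trans c1)
  have k2 := mul_le_mul_of_nonneg_left b1 k0
  have k3 := mul_le_mul_of_nonneg_left (add_le_add r1 r2) (show (0 : ℝ) ≤ P.nbm + 1 by linarith)
  have k4 := mul_nonneg n0 e1.le
  have k5 := mul_nonneg n0 e2.le
  have h11 := PsiP_lip (P.stagea_abs c1)
    (P.stagea_abs (P.nut_ge A (h + 1) (2 * P.K) a g2 (p / P.r g2) (p' / P.r g2)))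
    (D := P.kD * P.capt A h (2 * P.K) a g (p / P.r g) (p' / P.r g) +
      (2 * P.nbm + 4) * P.eR g + (2 * P.nbm + 5) * P.eR g2) (e := 2 * (P.eR g + P.eR g2))
    (by positivity) (h8.trans (max_le (by linarith) (by linarith)))
    (abs_le.2 ⟨by linarith, by linarith⟩)
  unfold psC psR cPsi
  linarith

/-- Either the option is degenerate or the prediction is good (`pred_err` times `un g`). -/
theorem pred_T (hP : P.Good) (hS : P.Star w A) {h : ℕ} (hh : h + 1 ≤ P.D) {a : ℕ}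
    (ha : a < P.b ^ (P.D - (h + 1))) {g : ℕ} {m : ℕ → ℕ} (hm : ∀ j, m j ≤ P.Qm)
    (hsum : ∑ j ∈ range P.b, (P.En w h (a * P.b + j) (m j) (m (j + 1)) : ℝ) =
      P.En w (h + 1) a (m 0) (m P.b))
    (h1 : (P.En w (h + 1) a (m 0) (m P.b) : ℝ) ≤ 2 ^ P.r1 * P.G g)
    (h2 : P.G g ≤ 16 * P.En w (h + 1) a (m 0) (m P.b)) :
    P.capt A h (2 * P.K) a g (m 0 / P.r g) (m P.b / P.r g) ≤
        (1 + P.eps) * (P.En w (h + 1) a (m 0) (m P.b) + 2 * P.eR g) ∨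
      ∀ j ≤ P.b, P.dR (P.r g * (m j / P.r g)) (P.r g *
          P.ref (P.ctx (A h) a) (2 * P.K) g (m 0 / P.r g) (m P.b / P.r g) j) ≤
        2 * 2 ^ P.eh * (2 * 2 ^ P.tt * P.gapT A h a g m +
          ((2 ^ P.an + 1) / (8 * 2 ^ P.tt) + 1 / P.U1) * P.En w (h + 1) a (m 0) (m P.b)) := by
  have hG := P.G_pos g
  have hu := P.un_pos g
  have e1 := P.eR_pos g
  have d1 : P.dR (P.r g * (m 0 / P.r g)) (P.r g * (m P.b / P.r g)) ≤
      P.En w (h + 1) a (m 0) (m P.b) + 2 * P.eR g := by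
    have h3 := P.stagea_dR (P.r g * (m 0 / P.r g)) (P.r g * (m P.b / P.r g)) (m 0) (m P.b)
    rw [P.dR_comm _ (m 0), P.dR_comm (P.r g * _) (m P.b)] at h3
    have h4 : (0 : ℝ) ≤ P.J0 := Nat.cast_nonneg _
    linarith [P.dR_round g (m 0), P.dR_round g (m P.b), P.En_ge (w := w) (h + 1) a (m 0) (m P.b)]
  have hε := P.eps_pos
  by_cases hc : (P.cap (P.ctx (A h) a) (2 * P.K) g (m 0 / P.r g) (m P.b / P.r g) : ℝ) ≤
      (1 + P.eps) * (Nat.dist (m 0 / P.r g) (m P.b / P.r g) * P.ug g : ℕ)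
  · left
    refine (mul_le_mul_of_nonneg_right hc hu.le).trans ?_
    rw [mul_assoc, ← dR_grid]
    exact mul_le_mul_of_nonneg_left d1 (by positivity)
  right
  intro j hj
  have hR : Nat.dist (m 0 / P.r g) (m P.b / P.r g) ≤ P.Rn := by
    refine P.dist_le_Rn (d1.trans ?_)
    have h3 : (2 : ℝ) ^ P.r1 ≤ 2 ^ P.ga := pow_le_pow_right₀ one_le_two (by have := hP.ga2; omega)
    have h4 : (2 : ℝ) ^ 1 ≤ 2 ^ P.ga := pow_le_pow_right₀ one_le_two (by have := hP.ga2; omega)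
    have h5 : P.eR g ≤ P.G g := by
      rw [P.G_eq g]
      exact le_mul_of_one_le_left e1.le (one_le_pow₀ one_le_two)
    rw [pow_succ]
    nlinarith [mul_le_mul_of_nonneg_right h3 hG.le, mul_le_mul_of_nonneg_right h4 hG.le]
  have h3 := mul_le_mul_of_nonneg_right (pred_err (P.nu0_lip (P.ctx (A h) a) (2 * P.K) g)
    (P.nu0_ge _ _ g) (fun j => m j / P.r g) (fun j => P.div_le_Qg g (hm j)) hR hε
    ((eps_le hP).trans (by norm_num)) (θ := 2 ^ P.tt) (by positivity) (not_le.1 hc) hj) hu.le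
  rw [← dR_grid, P.dR_comm] at h3
  refine h3.trans ?_
  have h4 := stagea_sum hP hS hh ha hm hsum h2
  rw [← Finset.sum_congr rfl fun j hj => nu0_un P A h (2 * P.K) a g (mem_range.1 hj) _ _,
    ← Finset.sum_mul] at h4
  have h5 : P.un g ≤ 1 / P.U1 * P.En w (h + 1) a (m 0) (m P.b) := by
    refine (P.un_le g).trans ?_
    rw [one_div_mul_eq_div]
    exact div_le_div_of_nonneg_right (max_le (P.stagea_one w _ _ _ _)
      ((P.fl_le_eR g).trans (stagea_eR hP h2).2)) (Nat.cast_nonneg _)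
  have h6 := div_le_div_of_nonneg_right h4 (show (0 : ℝ) ≤ 8 * 2 ^ P.tt by positivity)
  have e2 : 2 / P.eps = 2 * 2 ^ P.eh := by
    unfold eps
    field_simp
  rw [e2, mul_assoc, stagea_gap]
  refine mul_le_mul_of_nonneg_left ?_ (by positivity)
  rw [add_mul, add_mul, add_mul (_ / _), div_mul_eq_mul_div, div_mul_eq_mul_div (_ + _)]
  linarith

/-- Choice of the scales: `g'` for the potential, `g` for the regret bound.  `g1` least with
`En ≤ 2^r1 G`, `g` least `≥ g1` such that the rounded path is in the tube (`tube_triv` at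
`G ≥ 4 En`), `g' = max g1 (g - 1)`. -/
theorem scales (hP : P.Good) (hS : P.Star w A) {h : ℕ} (hh : h + 1 ≤ P.D) {a : ℕ}
    (ha : a < P.b ^ (P.D - (h + 1))) {m : ℕ → ℕ} (hm : ∀ j, m j ≤ P.Qm)
    (hd : ∀ j ≤ P.b, P.dR (m 0) (m j) ≤ P.En w (h + 1) a (m 0) (m P.b))
    (hsum : ∑ j ∈ range P.b, (P.En w h (a * P.b + j) (m j) (m (j + 1)) : ℝ) =
      P.En w (h + 1) a (m 0) (m P.b)) :
    ∃ g', (P.En w (h + 1) a (m 0) (m P.b) : ℝ) ≤ 2 ^ P.r1 * P.G g' ∧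
      P.G g' ≤ 16 * P.En w (h + 1) a (m 0) (m P.b) ∧
      (P.capt A h (2 * P.K) a g' (m 0 / P.r g') (m P.b / P.r g') ≤
          (1 + P.eps) * (P.En w (h + 1) a (m 0) (m P.b) + 2 * P.eR g') ∨
        ∃ g, (P.En w (h + 1) a (m 0) (m P.b) : ℝ) ≤ 2 ^ P.r1 * P.G g ∧
          P.G g ≤ P.k4 * P.En w (h + 1) a (m 0) (m P.b) +
            8 * 2 ^ P.eh * 2 ^ P.tt * P.gapT A h a g' m ∧
          ∀ j ≤ P.b, P.dR (P.r g * (m j / P.r g)) (P.r g *
            P.ref (P.ctx (A h) a) (2 * P.K) g (m 0 / P.r g) (m P.b / P.r g) j) ≤ P.G g) := by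
  have hk := P.stagea_one w (h + 1) a (m 0) (m P.b)
  set k : ℝ := (P.En w (h + 1) a (m 0) (m P.b) : ℝ) with hkd
  have hr : (0 : ℝ) < 2 ^ P.r1 := by positivity
  have hr2 : (2 : ℝ) ^ 1 ≤ 2 ^ P.r1 := pow_le_pow_right₀ one_le_two hP.r1_pos
  obtain ⟨g1, -, a1, a2⟩ := P.exists_scale (k / 2 ^ P.r1) 0
  have a3 : ∀ g, g1 ≤ g → k ≤ 2 ^ P.r1 * P.G g := fun g hg =>
    (div_le_iff₀' hr).1 (a1.trans (P.G_mono hg))
  have a4 : P.G g1 ≤ 2 / 2 ^ P.r1 * k := by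
    rcases a2 with rfl | a2
    · have h3 : (2 : ℝ) ^ P.r1 ≤ 2 ^ P.gp :=
        pow_le_pow_right₀ one_le_two (by have := hP.ga1; have := hP.gp2; omega)
      rw [G, pow_zero, div_mul_eq_mul_div]
      exact div_le_div₀ (by positivity) (by linarith) hr h3
    · rw [div_mul_eq_mul_div, mul_div_assoc]
      exact a2.le
  have a5 : P.G g1 ≤ k := a4.trans (mul_le_of_le_one_left (by linarith)
    ((div_le_one hr).2 (by linarith)))
  obtain ⟨g2, b1, b2, b3⟩ := P.exists_scale (4 * k) g1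
  have b4 : P.G g2 ≤ 8 * k := by
    rcases b3 with rfl | b3 <;> linarith
  have hex : ∃ g, g1 ≤ g ∧ ∀ j ≤ P.b, P.dR (P.r g * (m j / P.r g)) (P.r g *
      P.ref (P.ctx (A h) a) (2 * P.K) g (m 0 / P.r g) (m P.b / P.r g) j) ≤ P.G g :=
    ⟨g2, b1, fun j hj => tube_triv hP _ _ g2 m (fun i hi => by linarith [hd i hi]) hj⟩
  classical
  obtain ⟨c1, c2⟩ := Nat.find_spec hex
  have c3 : Nat.find hex ≤ g2 := Nat.find_min' hex
    ⟨b1, fun j hj => tube_triv hP _ _ g2 m (fun i hi => by linarith [hd i hi]) hj⟩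
  have c4 := fun g => Nat.find_min hex (m := g)
  generalize Nat.find hex = g at c1 c2 c3 c4
  have k1 : 0 ≤ 4 * 2 ^ P.eh * (((2 : ℝ) ^ P.an + 1) / (8 * 2 ^ P.tt) + 1 / P.U1) * k := by
    positivity
  have k2 : 0 ≤ 2 / 2 ^ P.r1 * k := by positivity
  rcases c1.eq_or_lt with rfl | c5
  · refine ⟨g1, a3 g1 le_rfl, by linarith, Or.inr ⟨g1, a3 g1 le_rfl, ?_, c2⟩⟩
    have h3 := mul_nonneg (show (0 : ℝ) ≤ 8 * 2 ^ P.eh * 2 ^ P.tt by positivity)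
      (P.gapT_nonneg A h a g1 hm)
    unfold k4
    linarith
  obtain ⟨g', rfl⟩ : ∃ g', g = g' + 1 := ⟨g - 1, by omega⟩
  have c6 : g1 ≤ g' := by omega
  have c7 : P.G g' ≤ 16 * k := by linarith [P.G_mono (show g' ≤ g2 by omega)]
  refine ⟨g', a3 g' c6, c7, (pred_T hP hS hh ha hm hsum (a3 g' c6) c7).imp_right fun h3 =>
    ⟨g' + 1, a3 _ c1, ?_, c2⟩⟩
  have h4 := c4 g' (Nat.lt_succ_self _)
  push Not at h4
  obtain ⟨j, hj, h5⟩ := h4 c6
  have h6 := h5.trans_le (h3 j hj)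
  rw [P.G_succ]
  unfold k4
  linarith

end Pm

end Vale.Agent.P315F
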