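import Vale.Agent.P315F.StageA

/-! Stage 2, the induction, and the correctness of the output. -/

namespace Vale.Agent.P315F

open Finset Vale.Agent.P315

namespace Pm

variable {P : Pm} {w : ℕ → ℕ → ℕ} {A : ℕ → ℕ → ℕ → ℕ → ℕ → Tab}

theorem stageb_k4 (P : Pm) : 0 ≤ P.k4 := by
  unfold k4
  positivity

theorem stageb_cPsi (P : Pm) : 0 ≤ P.cPsi := by
  unfold cPsi
  positivity

theorem stageb_leaf (hP : P.Good) (hS : P.Star w A) {a : ℕ} (ha : a < P.b ^ P.D) (g : ℕ)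
    {p p' : ℕ} (hp : p ≤ P.Qm) (hp' : p' ≤ P.Qm) :
    P.avZ A 2 0 a g p p' ≤ (1 + 3 * P.del) * P.En w 0 a p p' + 2 * P.fl g := by
  have hK : (0 : ℝ) < P.K := by exact_mod_cast hP.K_pos
  rw [avZ, div_le_iff₀ hK]
  have h1 := sum_le_sum fun k (hk : k ∈ range P.K) => Zt_leaf hP hS (k := 2 * P.K + k)
    (by have := mem_range.1 hk; unfold KK; omega) ha g hp hp'
  rw [sum_const, card_range, nsmul_eq_mul] at h1
  exact h1.trans_eq (mul_comm _ _)

theorem stageb_scale (hP : P.Good) {g : ℕ} {x : ℝ} (h : x ≤ 2 ^ P.r1 * P.G g) :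
    2 ^ P.cs * x ≤ 2 ^ P.ga * P.G g := by
  have h1 : (2 : ℝ) ^ (P.cs + P.r1) ≤ 2 ^ P.ga :=
    pow_le_pow_right₀ one_le_two (by have := hP.ga1; omega)
  calc 2 ^ P.cs * x ≤ 2 ^ P.cs * (2 ^ P.r1 * P.G g) := by gcongr
    _ = 2 ^ (P.cs + P.r1) * P.G g := by rw [pow_add, mul_assoc]
    _ ≤ _ := mul_le_mul_of_nonneg_right h1 (P.G_pos g).le

theorem stageb_om3 (P : Pm) {g : ℕ} {x : ℝ} (h : P.G g ≤ 16 * x) :
    (P.b + 1) * (P.cPsi * P.eR g) ≤ P.om3 * x := by
  have hb : (1 : ℝ) ≤ P.b := by exact_mod_cast P.b_pos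
  have h1 := P.stageb_cPsi
  have h2 := P.eR_pos g
  have h3 : P.eR g ≤ 16 * x / 2 ^ P.rh := by
    unfold eR
    gcongr
  calc (P.b + 1) * (P.cPsi * P.eR g) ≤ (2 * P.b) * (P.cPsi * (16 * x / 2 ^ P.rh)) := by
        gcongr
        linarith
    _ = P.om3 * x := by
        unfold om3
        ring

theorem stageb_eR (hP : P.Good) {g : ℕ} {x : ℝ} (h : P.G g ≤ 16 * x) :
    32 * P.eR g ≤ P.eps * x := by
  have hb : (1 : ℝ) ≤ P.b := by exact_mod_cast P.b_pos
  have h1 := P.om1_G g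
  have h2 := P.eR_pos g
  have h3 := om1_le hP
  have h4 := P.G_pos g
  have h5 := P.kap_pos.1
  have h6 : (1 : ℝ) ≤ P.b * (P.nbm + 1) :=
    one_le_mul_of_one_le_of_one_le hb (le_add_of_nonneg_left (Nat.cast_nonneg _))
  have h7 : P.om1 * P.G g ≤ P.om1 * (16 * x) := mul_le_mul_of_nonneg_left h h5
  have h8 : 16 * P.om1 * x ≤ P.eps * x := mul_le_mul_of_nonneg_right h3 (by linarith)
  nlinarith [mul_le_mul_of_nonneg_right h6 h2.le]

/-- Step: `En_split`, `scales`, `Gap = gapT g' + ∑ Gap j`; (i) by `psC_le` and (i) for the children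
at `g'` (`(b + 1) cPsi eR g' ≤ om3 En`); (ii) by `REGcap` at `g'` (`isOpt_round`, `ga1`) or by
`REGpath` at `g`. -/
theorem S2 (hP : P.Good) (hS : P.Star w A) {h : ℕ} (hh : h ≤ P.D) {a : ℕ}
    (ha : a < P.b ^ (P.D - h)) {p p' : ℕ} (hp : p ≤ P.Qm) (hp' : p' ≤ P.Qm) :
    ∃ Gap : ℝ, 0 ≤ Gap ∧
      (∀ g, P.psC A h a g p p' + Gap ≤ P.Th h * P.En w h a p p' + P.cPsi * P.eR g) ∧
      ∀ g, P.avZ A 2 h a g p p' ≤ (1 + 7 * P.del) ^ (h + 1) *
        ((1 + 2 * P.eps) * P.En w h a p p' + h * P.kap * P.k4 * P.En w h a p p' +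
          P.kap * (8 * 2 ^ P.eh * 2 ^ P.tt) * Gap) + 2 * P.fl g := by
  have hδ := P.del_pos
  have hε := P.eps_pos
  have hκ := P.kap_pos.2.2
  have hk4 := P.stageb_k4
  induction h generalizing a p p' with
  | zero =>
    refine ⟨0, le_rfl, fun g => ?_, fun g => ?_⟩
    · have := psC_leaf hP hS hh ha g hp hp'
      rw [Th]
      simpa using this
    · have h1 := stageb_leaf hP hS (by simpa using ha) g hp hp'
      have h2 : (0 : ℝ) ≤ P.En w 0 a p p' := Nat.cast_nonneg _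
      simp only [zero_add, pow_one, Nat.cast_zero, zero_mul, mul_zero, add_zero]
      nlinarith [mul_nonneg hδ.le h2, mul_nonneg hε.le h2, mul_nonneg hδ.le (mul_nonneg hε.le h2)]
  | succ h ih =>
    obtain ⟨m, rfl, rfl, hm, hd, hsum⟩ := P.En_split (w := w) h a hp hp'
    have ih' : ∀ j, ∃ Gp : ℝ, 0 ≤ Gp ∧ (j < P.b →
        (∀ g, P.psC A h (a * P.b + j) g (m j) (m (j + 1)) + Gp ≤
          P.Th h * P.En w h (a * P.b + j) (m j) (m (j + 1)) + P.cPsi * P.eR g) ∧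
        ∀ g, P.avZ A 2 h (a * P.b + j) g (m j) (m (j + 1)) ≤ (1 + 7 * P.del) ^ (h + 1) *
          ((1 + 2 * P.eps) * P.En w h (a * P.b + j) (m j) (m (j + 1)) +
            h * P.kap * P.k4 * P.En w h (a * P.b + j) (m j) (m (j + 1)) +
            P.kap * (8 * 2 ^ P.eh * 2 ^ P.tt) * Gp) + 2 * P.fl g) := fun j => by
      by_cases hj : j < P.b
      · obtain ⟨Gp, h0, h1⟩ := ih (by omega) (P.child_lt hh ha hj) (hm j) (hm (j + 1))
        exact ⟨Gp, h0, fun _ => h1⟩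
      · exact ⟨0, le_rfl, fun h => absurd h hj⟩
    choose Gp hG0 hG using ih'
    obtain ⟨g', h1, h2, h3⟩ := scales hP hS hh ha hm hd hsum
    have hgap := P.gapT_nonneg A h a g' hm
    have hs0 : 0 ≤ ∑ j ∈ range P.b, Gp j := sum_nonneg fun j _ => hG0 j
    have hE : (0 : ℝ) ≤ P.En w (h + 1) a (m 0) (m P.b) := Nat.cast_nonneg _
    have hc : (0 : ℝ) ≤ P.kap * (8 * 2 ^ P.eh * 2 ^ P.tt) := by positivity
    have hq : (1 : ℝ) ≤ (1 + 7 * P.del) ^ (h + 1) := one_le_pow₀ (by linarith)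
    refine ⟨P.gapT A h a g' m + ∑ j ∈ range P.b, Gp j, add_nonneg hgap hs0, fun g => ?_,
      fun g2 => ?_⟩
    · have a1 := psC_le hP hS hh ha hp hp' h1 h2 g
      have a2 := sum_le_sum fun j (hj : j ∈ range P.b) => (hG j (mem_range.1 hj)).1 g'
      rw [sum_add_distrib, sum_add_distrib, ← mul_sum, hsum, sum_const, card_range,
        nsmul_eq_mul] at a2
      have a3 := P.stageb_om3 h2
      have a4 : P.Th (h + 1) = P.Th h + (P.kD * (2 ^ P.an + 1) + P.om3) := by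
        unfold Th
        push_cast
        ring
      rw [a4, gapT]
      linarith
    · generalize hx : (P.En w (h + 1) a (m 0) (m P.b) : ℝ) = x at *
      have hY : 0 ≤ (h + 1 : ℕ) * P.kap * P.k4 * x + P.kap * (8 * 2 ^ P.eh * 2 ^ P.tt) *
          (P.gapT A h a g' m + ∑ j ∈ range P.b, Gp j) := by positivity
      have hX : 0 ≤ (1 + 2 * P.eps) * x := by positivity
      have key : ∀ y, P.avZ A 2 (h + 1) a g2 (m 0) (m P.b) ≤ (1 + 6 * P.del) * y + 2 * P.fl g2 →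
          y ≤ (1 + 7 * P.del) ^ (h + 1) * ((1 + 2 * P.eps) * x + (h + 1 : ℕ) * P.kap * P.k4 * x +
            P.kap * (8 * 2 ^ P.eh * 2 ^ P.tt) * (P.gapT A h a g' m + ∑ j ∈ range P.b, Gp j)) →
          P.avZ A 2 (h + 1) a g2 (m 0) (m P.b) ≤ (1 + 7 * P.del) ^ (h + 1 + 1) *
            ((1 + 2 * P.eps) * x + (h + 1 : ℕ) * P.kap * P.k4 * x +
            P.kap * (8 * 2 ^ P.eh * 2 ^ P.tt) * (P.gapT A h a g' m + ∑ j ∈ range P.b, Gp j)) +
            2 * P.fl g2 := fun y y1 y2 => by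
        rw [pow_succ' _ (h + 1), mul_assoc]
        refine y1.trans (add_le_add_left ((mul_le_mul_of_nonneg_left y2 (by linarith)).trans
          (mul_le_mul_of_nonneg_right (by linarith) (mul_nonneg (by linarith) (by linarith)))) _)
      have hK := hP.K_pos
      rcases h3 with h3 | ⟨g, b1, b2, b3⟩
      · have ho := isOpt_round hP hS hh (k := 2 * P.K) (by omega) (by unfold KK; omega) ha hp hp'
          (g := g') (by rw [hx]; exact stageb_scale hP h1)
        refine key _ (REGcap hP hS hh (s := 2) one_le_two (by norm_num) ha ho g2 hp hp') ?_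
        have c1 := P.dR_round g' (m 0)
        have c2 := P.dR_round g' (m P.b)
        have c3 := stageb_eR hP h2
        have c4 := P.eR_pos g'
        have c5 := eps_le hP
        refine le_trans ?_ (le_mul_of_one_le_left (by linarith) hq)
        nlinarith [mul_le_mul_of_nonneg_right c5 c4.le]
      · refine key _ (REGpath hP hS hh (s := 2) one_le_two (by norm_num) ha m hm
          (by rw [hx]; exact stageb_scale hP b1) (fun j _ hj => b3 j hj.le) _
          (c := 2 * P.fl g) (by linarith [P.fl_pos g]) (fun j hj => (hG j hj).2 g) g2) ?_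
        rw [← mul_sum, sum_add_distrib, sum_add_distrib, ← mul_sum, ← mul_sum, ← mul_sum, hsum]
        have c1 : P.kap * P.G g ≤ (1 + 7 * P.del) ^ (h + 1) * (P.kap * (P.k4 * x +
            8 * 2 ^ P.eh * 2 ^ P.tt * P.gapT A h a g' m)) :=
          (mul_le_mul_of_nonneg_left b2 hκ).trans (le_mul_of_one_le_left (by positivity) hq)
        push_cast
        linarith

/-- (i) at the scale `0` gives `Gap ≤ (Th D + 1) En`. -/
theorem root_le (hP : P.Good) (hS : P.Star w A) (g : ℕ) {p p' : ℕ} (hp : p ≤ P.Qm)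
    (hp' : p' ≤ P.Qm) :
    P.avZ A 2 P.D 0 g p p' ≤ (1 + 6 * P.eps) * P.En w P.D 0 p p' + 2 * P.fl g := by
  obtain ⟨Gap, h0, h1, h2⟩ := S2 hP hS le_rfl (a := 0) (by simp) hp hp'
  have hψ : 0 ≤ P.psC A P.D 0 0 p p' :=
    PsiP_nonneg (mul_nonneg (Nat.cast_nonneg _) (P.un_pos 0).le)
  have hE : (1 : ℝ) ≤ P.En w P.D 0 p p' := by
    have a1 := P.En_ge (w := w) P.D 0 p p'
    have a2 := P.dR_nonneg p p'
    have a3 : (1 : ℝ) ≤ P.J0 := by exact_mod_cast P.J0_pos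
    linarith
  have hG : P.G 0 ≤ 16 * (1 / 16) := by
    rw [G, pow_zero, mul_one_div_cancel (by norm_num), div_le_one (by positivity)]
    exact one_le_pow₀ one_le_two
  have hc : P.cPsi * P.eR 0 ≤ 1 := by
    have hb : (1 : ℝ) ≤ P.b := by exact_mod_cast P.b_pos
    have a1 := P.om1_G 0
    have a2 := P.eR_pos 0
    have a3 := om1_le hP
    have a4 := eps_le hP
    have a5 := mul_le_mul_of_nonneg_left hG P.kap_pos.1
    have a6 : (0 : ℝ) ≤ P.nbm := Nat.cast_nonneg _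
    have a7 : (P.nbm + 1) * P.eR 0 ≤ P.b * ((P.nbm + 1) * P.eR 0) :=
      le_mul_of_one_le_left (by positivity) hb
    unfold cPsi
    nlinarith [mul_nonneg a6 a2.le]
  have h3 := h1 0
  have h4 := h2 g
  have h5 := pow_del hP (le_refl (P.D + 1))
  have h6 := hP.fin1
  have h7 := hP.fin2
  have hε := P.eps_pos
  have hε' := eps_le hP
  have hκ := P.kap_pos.2.2
  have hk4 := P.stageb_k4
  generalize (P.En w P.D 0 p p' : ℝ) = x at *
  have hx : 0 ≤ x := by linarith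
  have hc' : (0 : ℝ) ≤ P.kap * (8 * 2 ^ P.eh * 2 ^ P.tt) := by positivity
  have b1 : P.kap * (8 * 2 ^ P.eh * 2 ^ P.tt) * Gap ≤
      P.kap * (8 * 2 ^ P.eh * 2 ^ P.tt) * ((P.Th P.D + 1) * x) :=
    mul_le_mul_of_nonneg_left (by linarith) hc'
  have b2 := mul_le_mul_of_nonneg_right h6 hx
  have b3 := mul_le_mul_of_nonneg_right h7 hx
  have b4 : (1 + 7 * P.del) ^ (P.D + 1) * ((1 + 2 * P.eps) * x + P.D * P.kap * P.k4 * x +
      P.kap * (8 * 2 ^ P.eh * 2 ^ P.tt) * Gap) ≤ (1 + P.eps) * ((1 + 4 * P.eps) * x) :=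
    mul_le_mul h5 (by linarith) (by positivity) (by linarith)
  nlinarith [mul_le_mul_of_nonneg_right hε' (mul_nonneg hε.le hx), mul_nonneg hε.le hx]

end Pm

end Vale.Agent.P315F
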