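import Vale.Agent.P315F.Basic
import Vale.Agent.P315F.SoftG

namespace Vale.Agent.P315F

open Finset Vale.Agent.P315

namespace Pm

variable {P : Pm}

theorem step_b4 (hP : P.Good) : 4 ≤ P.b := Nat.pow_le_pow_right two_pos hP.lb_ge

theorem step_mm (hP : P.Good) : 16 ≤ P.mm := by
  have h1 : 2 ^ 11 ≤ 2 ^ P.rh := by
    refine le_trans ?_ hP.rh_ge
    have := Nat.mul_le_mul (Nat.mul_le_mul (Nat.mul_le_mul_left 512 (step_b4 hP))
      (Nat.le_add_left 1 P.nbm)) (Nat.one_le_two_pow (n := P.eh))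
    omega
  have h2 := (Nat.pow_le_pow_iff_right one_lt_two).1 h1
  have h3 := hP.th_le
  have h4 := hP.th_ge
  unfold nbm at h4
  unfold mm
  omega

theorem step_lo (hP : P.Good) {i g : ℕ} (hg : g < i + P.NG) : P.lo g ≤ i := by
  have := hP.lb_ge
  unfold NG at hg
  unfold lo
  omega

theorem step_Om (P : Pm) : 1 ≤ P.Om := Nat.one_le_pow _ _ (by unfold Bz; positivity)

theorem step_s0 (hP : P.Good) : 1 ≤ P.s0 := by
  have h1 := hP.s0_ge
  have h2 := Nat.mul_le_mul (Nat.mul_le_mul (Nat.mul_le_mul_left 40 (step_b4 hP))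
      (show 1 ≤ P.nbm by unfold nbm; omega)) (Nat.one_le_two_pow (n := P.sg))
  by_contra h
  rw [show P.s0 = 0 by omega] at h1
  omega

theorem step_T (hP : P.Good) (g : ℕ) : 2 ≤ P.T g :=
  Nat.pow_le_pow_right (n := 2) (i := 1) two_pos (by have := step_s0 hP; omega)

theorem step_tau (hP : P.Good) (g : ℕ) : 0 < tauT (P.T g) := (tauT_bounds (step_T hP g)).1

theorem FhP_err (hP : P.Good) (g : ℕ) {Y : ℕ → ℕ} (hY : ∀ o, Y o ≤ P.Xmax) :
    |(P.FhP g Y : ℝ) - sm (tauT (P.T g)) P.Om (fun o => (Y o : ℝ))| ≤ 2 := by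
  refine Fh_err (step_T hP g) P.step_Om (lt_of_le_of_lt (Nat.mul_le_mul_left _
    (Nat.pow_le_pow_left (Nat.pow_le_pow_right two_pos ?_) 2)) hP.Wz_gt) fun o _ => hY o
  unfold ee emax lo
  omega

theorem step_geom (n : ℕ) : 1 + ∑ β ∈ range n, 2 ^ β = 2 ^ n := by
  induction n with
  | zero => rfl
  | succ n ih => rw [sum_range_succ, ← add_assoc, ih, pow_succ, mul_two]

theorem step_zX_le (P : Pm) {t : ℕ → Tab} (ht : ∀ i p p', t i p p' ≤ P.U1) (g p p' : ℕ) :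
    P.zX t g p p' ≤ P.U1 * 2 ^ P.nbm := by
  rw [← step_geom, mul_add, mul_one, mul_sum]
  refine add_le_add (Nat.sub_le _ _) (sum_le_sum fun β _ => ?_)
  split_ifs
  · rw [mul_comm]; exact Nat.mul_le_mul_right _ (ht _ _ _)
  · exact Nat.zero_le _

theorem val_le (P : Pm) {t : ℕ → ℕ → Tab} (ht : ∀ j i p p', t j i p p' ≤ P.U1) (g : ℕ)
    (qq : ℕ → ℕ) : P.val t g qq ≤ P.b * (P.U1 * 2 ^ P.nbm) := by
  simpa [val] using sum_le_card_nsmul (range P.b) _ _ fun j _ =>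
    P.step_zX_le (ht j) g (P.r g * qq j) (P.r g * qq (j + 1))

theorem cum_le (hP : P.Good) {X : Ctx} (hX : ∀ k j i p p', X k j i p p' ≤ P.U1) (k g : ℕ)
    (qq : ℕ → ℕ) : P.cum X k g qq ≤ P.K * (P.b * (P.U1 * 2 ^ P.nbm)) := by
  have h := sum_le_card_nsmul (Ico (k / P.K * P.K) k) _ _ fun k' _ => P.val_le (hX k') g qq
  rw [Nat.card_Ico, smul_eq_mul] at h
  refine h.trans (Nat.mul_le_mul_right _ ?_)
  have h1 := Nat.div_add_mod' k P.K
  have h2 := Nat.mod_lt k hP.K_pos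
  omega

theorem step_val_cast (P : Pm) (t : ℕ → ℕ → Tab) (g : ℕ) (qq : ℕ → ℕ) :
    (P.val t g qq : ℝ) = P.valR (fun c i => P.toR (t c i)) g qq := by
  simp only [val, valR, zX, zR, toR, Nat.cast_sum, Nat.cast_add, Nat.cast_ite, Nat.cast_mul,
    Nat.cast_pow, Nat.cast_ofNat, Nat.cast_zero]

theorem PsN_err (hP : P.Good) {X : Ctx} (hX : ∀ k j i p p', X k j i p p' ≤ P.U1) (k : ℕ)
    {Y : ℕ → (ℕ → ℕ) → ℕ} {c : ℕ → ℕ} {Yr : ℕ → (ℕ → ℕ) → ℝ} (g : ℕ)
    (hY : ∀ qq, Y g qq ≤ 3 * (P.b * (P.U1 * 2 ^ P.nbm)))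
    (hYr : ∀ qq, (Y g qq : ℝ) = Yr g qq + c g) (Q Q' : ℕ) :
    |(P.PsN X k Y c g Q Q' : ℝ) - max 0 (P.PsR X k Yr g Q Q')| ≤ 4 := by
  have hx : P.K * (P.b * (P.U1 * 2 ^ P.nbm)) + 3 * (P.b * (P.U1 * 2 ^ P.nbm)) ≤ P.Xmax := by
    rw [Xmax, ← add_mul, mul_assoc, mul_assoc]
    exact Nat.mul_le_mul (by omega) (Nat.mul_le_mul_left _ (Nat.mul_le_mul_left _
      (Nat.pow_le_pow_right two_pos (by omega))))
  have h1 := FhP_err hP g (Y := fun o => P.cum X k g (P.q X k g Q Q' o) + Y g (P.q X k g Q Q' o))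
    fun o => (add_le_add (cum_le hP hX _ _ _) (hY _)).trans hx
  have h2 := FhP_err hP g (Y := fun o => P.cum X k g (P.q X k g Q Q' o))
    fun o => (cum_le hP hX _ _ _).trans ((Nat.le_add_right _ _).trans hx)
  simp only [Nat.cast_add, hYr, ← add_assoc] at h1
  rw [soft_shift (step_tau hP g) P.step_Om] at h1
  rw [PsN, PsR, Nat.sub_sub]
  generalize P.FhP g (fun o => P.cum X k g (P.q X k g Q Q' o) + Y g (P.q X k g Q Q' o)) = F1 at *
  generalize P.FhP g (fun o => P.cum X k g (P.q X k g Q Q' o)) = F2 at *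
  have h3 : ((F1 - (F2 + c g) : ℕ) : ℝ) = max 0 ((F1 : ℝ) - F2 - c g) := by
    rcases le_total (F2 + c g) F1 with h | h
    · have h3 : ((F2 + c g : ℕ) : ℝ) ≤ F1 := by exact_mod_cast h
      push_cast at h3
      rw [Nat.cast_sub h, max_eq_right (by linarith)]
      push_cast; ring
    · have h3 : (F1 : ℝ) ≤ ((F2 + c g : ℕ) : ℝ) := by exact_mod_cast h
      push_cast at h3
      rw [Nat.sub_eq_zero_of_le h, max_eq_left (by linarith), Nat.cast_zero]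
  rw [h3]
  refine (abs_max_sub_max_le_max _ _ _ _).trans (max_le (by simp) ?_)
  exact abs_le.2 ⟨by linarith [(abs_le.1 h1).1, (abs_le.1 h2).2],
    by linarith [(abs_le.1 h1).2, (abs_le.1 h2).1]⟩

theorem step_mem_opts (P : Pm) (X : Ctx) (k i : ℕ) {o : ℕ × ℕ × ℕ} (h : o ∈ P.opts X k i) :
    i ≤ o.1 ∧ o.1 < i + P.NG ∧ P.IsOpt X k o.1 o.2.1 o.2.2 := by
  simp only [opts, mem_filter, mem_product, mem_Ico] at h
  exact ⟨h.1.1.1, h.1.1.2, h.2⟩

theorem step_un (P : Pm) {i g : ℕ} (h : P.lo g ≤ i) :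
    P.un g * P.U1 / 2 ^ i = 1 / 2 ^ (i - P.lo g) := by
  have hU : (0 : ℝ) < P.U1 := by exact_mod_cast P.U1_pos
  obtain ⟨d, rfl⟩ := Nat.exists_eq_add_of_le h
  rw [un, Nat.add_sub_cancel_left, pow_add]
  field_simp

theorem step_eR (hP : P.Good) {i g : ℕ} (h : i ≤ g) :
    P.eR g * P.U1 / 2 ^ i = 2 ^ (g + P.fp - P.gp - P.rh - i) := by
  have h1 := hP.fp1
  have e : g + P.fp = g + P.fp - P.gp - P.rh - i + P.gp + P.rh + i := by omega
  rw [eR, G, U1]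
  push_cast
  field_simp
  rw [← pow_add, ← pow_add, ← pow_add, ← pow_add]
  congr 1
  omega

theorem eR_nonneg (P : Pm) (g : ℕ) : 0 ≤ P.eR g := by unfold eR G; positivity

theorem TmR_nonneg (P : Pm) (X : Ctx) (k : ℕ) (Ps : ℕ → ℕ → ℕ → ℝ) (g Q Q' : ℕ) :
    0 ≤ P.TmR X k Ps g Q Q' := by
  unfold TmR
  split_ifs
  · exact le_max_left _ _
  · exact le_min (Nat.cast_nonneg _) (le_max_left _ _)

theorem step_scale {α : Type} (s : Finset α) (b : ℝ) (f : α → ℝ) {c : ℝ} (hc : 0 ≤ c) :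
    s.fold min b f * c = s.fold min (b * c) (fun x => f x * c) :=
  (fold_hom (op := min) (op' := min) (m := fun x : ℝ => x * c) fun _ _ => min_mul_of_nonneg _ _ hc).symm

/-- The integer step is close to the real step with the same soft-min arguments. -/
theorem VN_err (hP : P.Good) (X : Ctx) (k h i : ℕ) {Ps : ℕ → ℕ → ℕ → ℕ} {Pr : ℕ → ℕ → ℕ → ℝ}
    (hPs : ∀ g, i ≤ g → g < i + P.NG → ∀ Q Q', |(Ps g Q Q' : ℝ) - max 0 (Pr g Q Q')| ≤ 4)
    (p p' : ℕ) : |(P.H (P.VN X k h i Ps p p') : ℝ) - P.bandR i (P.VG X k h i Pr p p')| ≤ 7 := by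
  refine (H_band hP i (c := 6) (P.VG_nonneg _ _ _ _ _ _ _) ?_).trans (by norm_num)
  have hU : (0 : ℝ) < P.U1 := by exact_mod_cast P.U1_pos
  have hc : (0 : ℝ) ≤ P.U1 / 2 ^ i := by positivity
  have hd : ∀ p q, (P.dN i p q : ℝ) ≤ P.dR p q * (P.U1 / 2 ^ i) ∧
      P.dR p q * (P.U1 / 2 ^ i) < P.dN i p q + 1 := fun p q => by
    rw [← mul_div_assoc]; exact P.dN_real i p q
  have ho : ∀ o ∈ P.opts X k i, |(P.dN i p (P.r o.1 * o.2.1) : ℝ) + P.dN i p' (P.r o.1 * o.2.2) +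
      P.TN X k i Ps o.1 o.2.1 o.2.2 - P.xo X k Pr o.1 o.2.1 o.2.2 p p' * (P.U1 / 2 ^ i)| ≤ 6 := by
    rintro ⟨g, Q, Q'⟩ ho
    obtain ⟨h1, h2, -⟩ := P.step_mem_opts X k i ho
    have h3 : |(P.TmN X k Ps g Q Q' : ℝ) - P.TmR X k Pr g Q Q'| ≤ 4 := by
      unfold TmN TmR
      split_ifs
      · exact hPs g h1 h2 Q Q'
      · rw [Nat.cast_min]
        exact (abs_min_sub_min_le_max _ _ _ _).trans (max_le (by simp) (hPs g h1 h2 Q Q'))
    have h4 := basic_div (P.TmN X k Ps g Q Q') (i - P.lo g)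
    have h5 := P.step_un (step_lo hP h2)
    have h6 := step_eR hP h1
    have h7 : |(P.TmN X k Ps g Q Q' : ℝ) / 2 ^ (i - P.lo g) -
        P.TmR X k Pr g Q Q' / 2 ^ (i - P.lo g)| ≤ 4 := by
      rw [← sub_div, abs_div, abs_of_pos (by positivity : (0 : ℝ) < 2 ^ (i - P.lo g))]
      exact (div_le_self (abs_nonneg _) (one_le_pow₀ one_le_two)).trans h3
    have e : P.xo X k Pr g Q Q' p p' * (P.U1 / 2 ^ i) = P.dR p (P.r g * Q) * (P.U1 / 2 ^ i) +
        P.dR p' (P.r g * Q') * (P.U1 / 2 ^ i) + P.TmR X k Pr g Q Q' / 2 ^ (i - P.lo g) +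
        2 ^ (g + P.fp - P.gp - P.rh - i) := by
      rw [← h6, div_eq_mul_one_div (P.TmR X k Pr g Q Q'), ← h5, xo]
      ring
    simp only [e, TN]
    rw [Nat.cast_add, Nat.cast_add, Nat.cast_pow, Nat.cast_one, Nat.cast_ofNat]
    have a1 := hd p (P.r g * Q)
    have a2 := hd p' (P.r g * Q')
    exact abs_le.2 ⟨by linarith [(abs_le.1 h7).1, a1.2, a2.2, h4.2],
      by linarith [(abs_le.1 h7).2, a1.1, a2.1, h4.1]⟩
  have hb : |min (2 * P.U1 : ℝ) (P.dN i p p' + P.lenN h i) -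
      min (2 ^ (i + 1)) (P.dR p p' + P.lenR h i) * (P.U1 / 2 ^ i)| ≤ 6 := by
    have e1 : (2 : ℝ) ^ (i + 1) * (P.U1 / 2 ^ i) = 2 * P.U1 := by rw [pow_succ]; field_simp
    have e2 : P.lenR h i * (P.U1 / 2 ^ i) = P.lenN h i := by unfold lenR; field_simp
    rw [min_mul_of_nonneg _ _ hc, add_mul, e1, e2]
    refine (abs_min_sub_min_le_max _ _ _ _).trans (max_le (by simp) ?_)
    exact abs_le.2 ⟨by linarith [(hd p p').2], by linarith [(hd p p').1]⟩
  rw [VN_cast, VG, mul_div_assoc, max_mul_of_nonneg _ _ hc, step_scale _ _ _ hc]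
  refine (abs_max_sub_max_le_max _ _ _ _).trans (max_le ?_ (abs_le.2 ⟨?_, ?_⟩))
  · exact abs_le.2 ⟨by linarith [(hd p p').2], by linarith [(hd p p').1]⟩
  · rw [neg_le_sub_iff_le_add]
    exact basic_fold _ (by linarith [(abs_le.1 hb).1]) fun o h => by linarith [(abs_le.1 (ho o h)).1]
  · rw [sub_le_iff_le_add']
    exact basic_fold _ (by linarith [(abs_le.1 hb).2]) fun o h => by linarith [(abs_le.1 (ho o h)).2]

theorem step_sat {c x y η B : ℝ} (hx : 0 ≤ x) (hB : 0 ≤ B) (hη0 : 0 ≤ η) (hη : η ≤ 1 / 4)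
    (h : |y - x| ≤ η * (x + B)) :
    (|max 0 y - max 0 x| ≤ 4 * η * B ∨ (2 * B ≤ max 0 y ∧ 2 * B ≤ max 0 x)) ∧
    (|min c (max 0 y) - min c (max 0 x)| ≤ 4 * η * B ∨
      (2 * B ≤ min c (max 0 y) ∧ 2 * B ≤ min c (max 0 x))) := by
  have h0 : 0 ≤ 4 * η * B := by positivity
  have h1 : |max 0 y - max 0 x| ≤ 4 * η * B ∨ (2 * B ≤ max 0 y ∧ 2 * B ≤ max 0 x) := by
    rcases le_total x (3 * B) with h2 | h2
    · exact Or.inl ((abs_max_sub_max_le_max _ _ _ _).trans (max_le (by simpa using h0)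
        (h.trans (by nlinarith))))
    · refine Or.inr ⟨le_max_of_le_right ?_, le_max_of_le_right (by linarith)⟩
      nlinarith [(abs_le.1 h).1]
  refine ⟨h1, h1.elim (fun h2 => Or.inl ((abs_min_sub_min_le_max _ _ _ _).trans
    (max_le (by simpa using h0) h2))) fun h2 => ?_⟩
  rcases le_total c (2 * B) with h3 | h3
  · left
    rw [min_eq_left (h3.trans h2.1), min_eq_left (h3.trans h2.2), sub_self, abs_zero]
    exact h0
  · exact Or.inr ⟨le_min h3 h2.1, le_min h3 h2.2⟩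

/-- Relative stability of the step under relative errors of the soft-min increments. -/
theorem VG_stab (hP : P.Good) (X : Ctx) (k h i : ℕ) {Ps Ps' : ℕ → ℕ → ℕ → ℝ} {η : ℝ}
    (hη0 : 0 ≤ η) (hη : η ≤ 1 / (8 * P.mm)) (p p' : ℕ)
    (H : ∀ g Q Q', i ≤ g → g < i + P.NG → Q ≤ P.Qg g → Q' ≤ P.Qg g →
      P.dR p (P.r g * Q) < 2 ^ (i + 1) → P.dR p' (P.r g * Q') < 2 ^ (i + 1) →
      0 ≤ Ps g Q Q' ∧ |Ps' g Q Q' - Ps g Q Q'| ≤ η * (Ps g Q Q' + 2 ^ (i - P.lo g) * P.U1)) :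
    P.Near (48 * P.mm * η) (P.bandR i (P.VG X k h i Ps' p p')) (P.bandR i (P.VG X k h i Ps p p')) := by
  have hU : (0 : ℝ) < P.U1 := by exact_mod_cast P.U1_pos
  have hm : (16 : ℝ) ≤ P.mm := by exact_mod_cast step_mm hP
  have hη4 : η ≤ 1 / 4 := hη.trans (one_div_le_one_div_of_le (by norm_num) (by linarith))
  have h1 : |P.VG X k h i Ps' p p' - P.VG X k h i Ps p p'| ≤ 4 * η * 2 ^ i := by
    have h0 : (0 : ℝ) ≤ 4 * η * 2 ^ i := by positivity
    refine (abs_max_sub_max_le_max _ _ _ _).trans (max_le (by simpa using h0)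
      (step_fold_abs _ _ h0 ?_))
    rintro ⟨g, Q, Q'⟩ ho
    obtain ⟨g1, g2, g3, g4, -⟩ := P.step_mem_opts X k i ho
    have hun := P.un_pos g
    have a1 := mul_nonneg (P.TmR_nonneg X k Ps g Q Q') hun.le
    have a2 := mul_nonneg (P.TmR_nonneg X k Ps' g Q Q') hun.le
    have a3 := P.eR_nonneg g
    have a4 := P.dR_nonneg p (P.r g * Q)
    have a5 := P.dR_nonneg p' (P.r g * Q')
    have a6 := min_le_left ((2 : ℝ) ^ (i + 1)) (P.dR p p' + P.lenR h i)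
    simp only [xo]
    rcases lt_or_ge (P.dR p (P.r g * Q)) (2 ^ (i + 1)) with b1 | b1
    swap
    · exact Or.inr ⟨by linarith, by linarith⟩
    rcases lt_or_ge (P.dR p' (P.r g * Q')) (2 ^ (i + 1)) with b2 | b2
    swap
    · exact Or.inr ⟨by linarith, by linarith⟩
    obtain ⟨c1, c2⟩ := H g Q Q' g1 g2 g3 g4 b1 b2
    have c3 := step_sat (c := P.cap X k g Q Q') c1 (by positivity) hη0 hη4 c2
    have c4 : |P.TmR X k Ps' g Q Q' - P.TmR X k Ps g Q Q'| ≤ 4 * η * (2 ^ (i - P.lo g) * P.U1) ∨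
        (2 * (2 ^ (i - P.lo g) * P.U1) ≤ P.TmR X k Ps' g Q Q' ∧
          2 * (2 ^ (i - P.lo g) * P.U1) ≤ P.TmR X k Ps g Q Q') := by
      unfold TmR
      split_ifs
      · exact c3.1
      · exact c3.2
    have e : 2 ^ (i - P.lo g) * P.U1 * P.un g = 2 ^ i := by
      have := P.step_un (step_lo hP g2)
      field_simp at this
      linarith
    rcases c4 with c4 | ⟨c4, c5⟩
    · left
      have := mul_le_mul_of_nonneg_right c4 hun.le
      rw [mul_assoc, e, ← abs_of_pos hun, ← abs_mul] at this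
      refine le_trans (le_of_eq (congrArg _ ?_)) this
      ring
    · have d1 := mul_le_mul_of_nonneg_right c4 hun.le
      have d2 := mul_le_mul_of_nonneg_right c5 hun.le
      rw [mul_assoc, e, ← pow_succ'] at d1 d2
      exact Or.inr ⟨by linarith, by linarith⟩
  have h2 := hh_rel (step_mm hP) (y := P.VG X k h i Ps p p' / 2 ^ i)
    (y' := P.VG X k h i Ps' p p' / 2 ^ i) (δ := 4 * η) (tiny := 1 / 2 ^ P.th)
    (div_nonneg (P.VG_nonneg _ _ _ _ _ _ _) (by positivity))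
    (div_nonneg (P.VG_nonneg _ _ _ _ _ _ _) (by positivity))
    (by rwa [← sub_div, abs_div, abs_of_pos (by positivity : (0 : ℝ) < 2 ^ i),
      div_le_iff₀ (by positivity)])
    (by
      rw [le_div_iff₀ (by positivity)] at hη ⊢
      linarith)
    (one_div_le_one_div_of_le (by positivity) (pow_le_pow_right₀ one_le_two hP.th_le))
  rw [Near, bandR, bandR, ← mul_sub, abs_mul, abs_of_pos hU, t0]
  refine (mul_le_mul_of_nonneg_left h2 hU.le).trans (le_of_eq ?_)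
  ring

end Pm

end Vale.Agent.P315F
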