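import Vale.Agent.P315F.Scale
import Vale.Agent.P315F.Nu
import Vale.Agent.P315F.SoftG

/-! Tubes, options and elementary facts about the soft-min increments. -/

namespace Vale.Agent.P315F

open Finset Vale.Agent.P315

namespace Pm

variable {P : Pm} {X : Ctx} {k g Q Q' : ℕ}

theorem nu0_lip (P : Pm) (X : Ctx) (k g j : ℕ) : LipN (P.ug g) (P.nu0 X k g j) := nuC_lip

theorem nu0_ge (P : Pm) (X : Ctx) (k g j Q Q' : ℕ) :
    Nat.dist Q Q' * P.ug g ≤ P.nu0 X k g j Q Q' := nuC_ge Q Q'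

theorem cap_ge (P : Pm) (X : Ctx) (k g Q Q' : ℕ) :
    P.dR (P.r g * Q) (P.r g * Q') ≤ P.cap X k g Q Q' * P.un g := by
  rw [dR_grid]
  refine mul_le_mul_of_nonneg_right ?_ (P.un_pos g).le
  exact_mod_cast nuF_ge 0 P.b Q Q'

theorem cap_zero (hk : k < P.K) (hQ : Q ≤ P.Qg g) (hQ' : Q' ≤ P.Qg g) :
    P.cap X k g Q Q' * P.un g = P.dR (P.r g * Q) (P.r g * Q') := by
  have h : P.nu0 X k g = fun _ => nuC (P.Qg g) (P.ug g) (P.Rn * P.ug g) (fun _ _ => 0) := by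
    funext j
    unfold nu0 zb
    simp only [hk, if_true]
  rw [dR_grid, cap, nu, h, nuF_zero _ hQ hQ']

theorem isOpt_iff (hP : P.Good) : P.IsOpt X k g Q Q' ↔
    Q ≤ P.Qg g ∧ Q' ≤ P.Qg g ∧ P.cap X k g Q Q' * P.un g ≤ 2 ^ P.ga * P.G g := by
  have h : P.cap X k g Q Q' ≤ 2 ^ (P.ga + P.ee g) ↔
      P.cap X k g Q Q' * P.un g ≤ 2 ^ P.ga * P.G g := by
    rw [← ee_un hP g, ← mul_assoc, ← pow_add, mul_le_mul_iff_left₀ (P.un_pos g)]
    exact_mod_cast Iff.rfl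
  rw [IsOpt, h]

theorem mem_opts {i : ℕ} {o : ℕ × ℕ × ℕ} :
    o ∈ P.opts X k i ↔ i ≤ o.1 ∧ o.1 < i + P.NG ∧ P.IsOpt X k o.1 o.2.1 o.2.2 := by
  rw [opts, mem_filter, mem_product, mem_product, mem_Ico, mem_range, mem_range]
  refine ⟨fun h => ⟨h.1.1.1, h.1.1.2, h.2⟩, fun h => ⟨⟨⟨h.1, h.2.1⟩, ?_, ?_⟩, h.2.2⟩⟩
  · exact Nat.lt_succ_of_le (h.2.2.1.trans (P.Qg_le _))
  · exact Nat.lt_succ_of_le (h.2.2.2.1.trans (P.Qg_le _))

/-- The data of a round depend on the stage only. -/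
theorem nu0_stage (hK : 1 ≤ P.K) {k k' : ℕ} (h : k / P.K = k' / P.K) :
    P.nu0 X k = P.nu0 X k' ∧ P.nu X k = P.nu X k' ∧ P.cap X k = P.cap X k' ∧
      P.ref X k = P.ref X k' ∧ P.q X k = P.q X k' ∧ P.IsOpt X k = P.IsOpt X k' := by
  have hlt : k < P.K ↔ k' < P.K := by
    rw [← Nat.div_eq_zero_iff_lt hK, ← Nat.div_eq_zero_iff_lt hK, h]
  have hz : P.zb X k = P.zb X k' := by
    funext g j Q Q'
    unfold zb
    simp only [hlt, h]
  have h0 : P.nu0 X k = P.nu0 X k' := by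
    funext g j
    unfold nu0
    rw [hz]
  have h1 : P.nu X k = P.nu X k' := by
    funext g
    unfold nu
    rw [h0]
  have h2 : P.cap X k = P.cap X k' := by
    funext g Q Q'
    unfold cap
    rw [h1]
  have h3 : P.ref X k = P.ref X k' := by
    funext g Q Q' j
    unfold ref
    rw [h1]
  refine ⟨h0, h1, h2, h3, ?_, ?_⟩
  · funext g Q Q' o j
    unfold q qd
    rw [h3]
  · funext g Q Q'
    unfold IsOpt
    rw [h2]

theorem ref_le (hQ : Q ≤ P.Qg g) (hQ' : Q' ≤ P.Qg g) (j : ℕ) : P.ref X k g Q Q' j ≤ P.Qg g :=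
  (pred_mem _ _ _ _ _ _ _).2.trans (max_le hQ hQ')

theorem ref_near (P : Pm) (X : Ctx) (k g Q Q' j : ℕ) :
    Nat.dist Q (P.ref X k g Q Q' j) ≤ Nat.dist Q Q' := by
  have h := pred_mem (P.nu X k g) P.Rn (P.ug g) P.b Q Q' j
  unfold ref
  unfold Nat.dist
  omega

theorem q_zero (P : Pm) (X : Ctx) (k g Q Q' o : ℕ) : P.q X k g Q Q' o 0 = Q := by
  unfold q qd
  rw [if_pos rfl]

theorem q_last (P : Pm) (X : Ctx) (k g Q Q' o : ℕ) : P.q X k g Q Q' o P.b = Q' := by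
  unfold q qd
  rw [if_neg P.b_pos.ne', if_pos le_rfl]

theorem qd_le (hQ : Q ≤ P.Qg g) (hQ' : Q' ≤ P.Qg g) (j d : ℕ) :
    P.qd X k g Q Q' j d ≤ P.Qg g := by
  unfold qd
  split_ifs
  · exact hQ
  · exact hQ'
  · exact min_le_left _ _

theorem q_le (hQ : Q ≤ P.Qg g) (hQ' : Q' ≤ P.Qg g) (o j : ℕ) : P.q X k g Q Q' o j ≤ P.Qg g :=
  qd_le hQ hQ' _ _

theorem q_near (hQ : Q ≤ P.Qg g) (hQ' : Q' ≤ P.Qg g) (o : ℕ) {j : ℕ} (h0 : 0 < j)
    (hj : j < P.b) : Nat.dist (P.q X k g Q Q' o j) (P.ref X k g Q Q' j) ≤ P.rad g := by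
  have h1 := ref_le (X := X) (k := k) hQ hQ' j
  unfold q qd
  rw [if_neg h0.ne', if_neg (not_le.2 hj)]
  have h2 : o / P.Bz ^ j % P.Bz % (2 * P.rad g + 1) < 2 * P.rad g + 1 :=
    Nat.mod_lt _ (Nat.succ_pos _)
  unfold Nat.dist
  omega

/-- Two members of a tube are close. -/
theorem q_osc (hQ : Q ≤ P.Qg g) (hQ' : Q' ≤ P.Qg g) (o o' j : ℕ) :
    P.dR (P.r g * P.q X k g Q Q' o j) (P.r g * P.q X k g Q Q' o' j) ≤ 2 * P.G g := by
  have hG := P.G_pos g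
  by_cases h0 : j = 0
  · rw [h0, q_zero, q_zero, dR_self]; linarith
  by_cases hj : P.b ≤ j
  · unfold q qd
    rw [if_neg h0, if_pos hj, if_neg h0, if_pos hj, dR_self]; linarith
  have h1 := P.tube_le (q_near (X := X) (k := k) hQ hQ' o (Nat.pos_of_ne_zero h0) (not_le.1 hj))
  have h2 := P.tube_le (q_near (X := X) (k := k) hQ hQ' o' (Nat.pos_of_ne_zero h0) (not_le.1 hj))
  have h3 := P.dR_tri (P.r g * P.q X k g Q Q' o j) (P.r g * P.ref X k g Q Q' j)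
    (P.r g * P.q X k g Q Q' o' j)
  rw [P.dR_comm] at h2
  linarith

theorem tube_digits {M : ℕ} (n : ℕ) (dig : ℕ → ℕ) (h : ∀ j, dig j < M) :
    ∃ o < M ^ n, ∀ j < n, o / M ^ j % M = dig j := by
  induction n generalizing dig with
  | zero => exact ⟨0, by simp, by simp⟩
  | succ n ih =>
    obtain ⟨o, ho, hd⟩ := ih (fun j => dig (j + 1)) (fun j => h _)
    have h0 := h 0
    refine ⟨dig 0 + M * o, ?_, fun j hj => ?_⟩
    · have : M * (o + 1) ≤ M * M ^ n := Nat.mul_le_mul_left _ ho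
      rw [pow_succ']
      rw [mul_add] at this
      omega
    · cases j with
      | zero => simp [Nat.mod_eq_of_lt h0]
      | succ j =>
        rw [pow_succ', ← Nat.div_div_eq_div_mul, Nat.add_mul_div_left _ _ (by omega),
          Nat.div_eq_of_lt h0, zero_add]
        exact hd j (by omega)

/-- Every path close to the reference path is a member of the tube. -/
theorem exists_member (ω : ℕ → ℕ) (h0 : ω 0 = Q) (hb : ω P.b = Q') (hω : ∀ j, ω j ≤ P.Qg g)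
    (hn : ∀ j, 0 < j → j < P.b → Nat.dist (ω j) (P.ref X k g Q Q' j) ≤ P.rad g) :
    ∃ o < P.Om, ∀ j ≤ P.b, P.q X k g Q Q' o j = ω j := by
  have hB := P.rad_Bz g
  have hlt : ∀ j, (if 0 < j ∧ j < P.b then ω j + P.rad g - P.ref X k g Q Q' j else 0) <
      2 * P.rad g + 1 := by
    intro j
    split_ifs with h
    · have := hn j h.1 h.2
      unfold Nat.dist at this
      omega
    · omega
  obtain ⟨o, ho, hd⟩ := tube_digits (M := P.Bz) P.b
    (fun j => if 0 < j ∧ j < P.b then ω j + P.rad g - P.ref X k g Q Q' j else 0)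
    (fun j => (hlt j).trans_le hB)
  refine ⟨o, ho, fun j hj => ?_⟩
  by_cases hj0 : j = 0
  · rw [hj0, q_zero, h0]
  by_cases hjb : j = P.b
  · rw [hjb, q_last, hb]
  have hj1 : j < P.b := lt_of_le_of_ne hj hjb
  have hj2 : 0 < j := Nat.pos_of_ne_zero hj0
  have h1 := hlt j
  have h2 := hn j hj2 hj1
  have h3 := hω j
  unfold q qd
  rw [if_neg hj0, if_neg (not_le.2 hj1), hd j hj1, Nat.mod_eq_of_lt h1, if_pos ⟨hj2, hj1⟩]
  unfold Nat.dist at h2
  omega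

theorem PsR_le (hP : P.Good) (Y : ℕ → (ℕ → ℕ) → ℝ) {c : ℝ}
    (h : ∀ o < P.Om, Y g (P.q X k g Q Q' o) ≤ c) : P.PsR X k Y g Q Q' ≤ c := by
  have hτ := (tauT_bounds (T_ge hP g)).1
  have := sm_mono_add hτ P.Om_pos (c := -c)
    (X := fun o => (P.cum X k g (P.q X k g Q Q' o) : ℝ) + Y g (P.q X k g Q Q' o))
    (Y := fun o => (P.cum X k g (P.q X k g Q Q' o) : ℝ)) (fun o ho => by linarith [h o ho])
  unfold PsR
  linarith

theorem PsR_ge (hP : P.Good) (Y : ℕ → (ℕ → ℕ) → ℝ) {c : ℝ}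
    (h : ∀ o < P.Om, c ≤ Y g (P.q X k g Q Q' o)) : c ≤ P.PsR X k Y g Q Q' := by
  have hτ := (tauT_bounds (T_ge hP g)).1
  have := sm_mono_add hτ P.Om_pos (c := c)
    (Y := fun o => (P.cum X k g (P.q X k g Q Q' o) : ℝ) + Y g (P.q X k g Q Q' o))
    (X := fun o => (P.cum X k g (P.q X k g Q Q' o) : ℝ)) (fun o ho => by linarith [h o ho])
  unfold PsR
  linarith

theorem zX_cast (P : Pm) (t : ℕ → Tab) (g p p' : ℕ) :
    (P.zX t g p p' : ℝ) = P.zR (fun i => P.toR (t i)) g p p' := by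
  unfold zX zR toR
  rw [Nat.cast_add, Nat.cast_sum]
  refine congrArg _ (sum_congr rfl fun β _ => ?_)
  split_ifs
  · push_cast; rfl
  · exact Nat.cast_zero

theorem val_cast (P : Pm) (t : ℕ → ℕ → Tab) (g : ℕ) (qq : ℕ → ℕ) :
    (P.val t g qq : ℝ) = P.valR (fun j i => P.toR (t j i)) g qq := by
  unfold val valR
  rw [Nat.cast_sum]
  exact sum_congr rfl fun j _ => P.zX_cast _ _ _ _

/-- Telescoping of the soft-min increments over a stage. -/
theorem sum_PsR_le (hP : P.Good) (X : Ctx) (s g Q Q' : ℕ) {o : ℕ} (ho : o < P.Om) :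
    (∑ k ∈ range P.K, P.PsR X (s * P.K + k)
        (P.valR (fun j i => P.toR (X (s * P.K + k) j i))) g Q Q') * P.un g ≤
      (∑ k ∈ range P.K, (P.val (X (s * P.K + k)) g (P.q X (s * P.K) g Q Q' o) : ℝ)) * P.un g +
        P.K * (P.kR * P.G g) := by
  obtain ⟨hτ, -, hτT⟩ := tauT_bounds (T_ge hP g)
  have hK := hP.K_pos
  have hun := P.un_pos g
  set C : ℕ → ℕ → ℝ := fun n o => ∑ k ∈ range n,
    (P.val (X (s * P.K + k)) g (P.q X (s * P.K) g Q Q' o) : ℝ) with hC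
  have hstep : ∀ k ∈ range P.K, P.PsR X (s * P.K + k)
      (P.valR (fun j i => P.toR (X (s * P.K + k) j i))) g Q Q' =
      sm (tauT (P.T g)) P.Om (C (k + 1)) - sm (tauT (P.T g)) P.Om (C k) := by
    intro k hk
    have hk' := mem_range.1 hk
    have hd : (s * P.K + k) / P.K = s := by
      rw [add_comm, Nat.add_mul_div_right _ _ hK, Nat.div_eq_of_lt hk', zero_add]
    have hd0 : (s * P.K) / P.K = s := Nat.mul_div_cancel _ hK
    have hq : P.q X (s * P.K + k) = P.q X (s * P.K) :=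
      (nu0_stage (X := X) hK (hd.trans hd0.symm)).2.2.2.2.1
    have hc : ∀ qq, (P.cum X (s * P.K + k) g qq : ℝ) =
        ∑ k' ∈ range k, (P.val (X (s * P.K + k')) g qq : ℝ) := by
      intro qq
      unfold cum
      rw [hd, sum_Ico_eq_sum_range, Nat.add_sub_cancel_left, Nat.cast_sum]
    unfold PsR
    rw [hq]
    refine congrArg₂ _ (congrArg _ ?_) (congrArg _ ?_)
    · funext o'
      rw [hc, hC, ← val_cast]
      exact (sum_range_succ _ _).symm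
    · funext o'
      rw [hc]
  rw [sum_congr rfl hstep, sum_range_sub (fun k => sm (tauT (P.T g)) P.Om (C k))]
  have h0 : sm (tauT (P.T g)) P.Om (C 0) = 0 := by
    have : C 0 = fun _ => 0 := by
      funext o'
      rw [hC]
      exact sum_range_zero _
    rw [this, sm_const hτ P.Om_pos]
  have h1 := sm_le hτ ho (C P.K)
  have h2 : Real.log P.Om ≤ P.b * (P.rh + 2) := by
    have hl : Real.log 2 ≤ 1 := by
      have := Real.log_le_sub_one_of_pos (x := 2) (by norm_num)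
      linarith
    unfold Om Bz
    push_cast
    rw [Real.log_pow, Real.log_pow]
    push_cast
    have : (0 : ℝ) ≤ P.b * (P.rh + 2) := by positivity
    nlinarith
  have h3 : 0 ≤ Real.log P.Om := Real.log_nonneg (by exact_mod_cast P.Om_pos)
  have h4 : tauT (P.T g) * Real.log P.Om ≤ P.T g * (P.b * (P.rh + 2)) :=
    mul_le_mul hτT h2 h3 (Nat.cast_nonneg _)
  have h5 : (P.K : ℝ) * (P.kR * P.G g) = P.T g * (P.b * (P.rh + 2)) * P.un g := by
    have hK' : (P.K : ℝ) ≠ 0 := by exact_mod_cast (Nat.pos_iff_ne_zero.1 hK)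
    rw [mul_right_comm, T_un hP, kR]
    field_simp
  rw [h0, sub_zero, h5, ← add_mul]
  exact mul_le_mul_of_nonneg_right (h1.trans (by linarith)) hun.le

theorem VG_ge (P : Pm) (X : Ctx) (k h i : ℕ) (Ps : ℕ → ℕ → ℕ → ℝ) (p p' : ℕ) :
    P.dR p p' ≤ P.VG X k h i Ps p p' := le_max_left _ _

theorem VG_le_cap (P : Pm) (X : Ctx) (k h i : ℕ) (Ps : ℕ → ℕ → ℕ → ℝ) (p p' : ℕ) :
    P.VG X k h i Ps p p' ≤ max (P.dR p p') (2 ^ (i + 1)) :=
  max_le_max le_rfl ((fold_min_le _).2 (Or.inl (min_le_left _ _)))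

theorem VG_le_triv (P : Pm) (X : Ctx) (k h i : ℕ) (Ps : ℕ → ℕ → ℕ → ℝ) (p p' : ℕ) :
    P.VG X k h i Ps p p' ≤ P.dR p p' + P.lenR h i := by
  have h0 : 0 ≤ P.lenR h i := by unfold lenR; positivity
  exact max_le (by linarith) ((fold_min_le _).2 (Or.inl (min_le_right _ _)))

theorem VG_le_opt {h i : ℕ} (Ps : ℕ → ℕ → ℕ → ℝ) (h1 : i ≤ g) (h2 : g < i + P.NG)
    (ho : P.IsOpt X k g Q Q') (p p' : ℕ) :
    P.VG X k h i Ps p p' ≤ max (P.dR p p') (P.xo X k Ps g Q Q' p p') :=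
  max_le_max le_rfl ((fold_min_le _).2
    (Or.inr ⟨(g, Q, Q'), mem_opts.2 ⟨h1, h2, ho⟩, le_rfl⟩))

/-- The value is the cap, the trivial bound or the value of an option (or larger). -/
theorem VG_cases (P : Pm) (X : Ctx) (k h i : ℕ) (Ps : ℕ → ℕ → ℕ → ℝ) (p p' : ℕ) :
    2 ^ (i + 1) ≤ P.VG X k h i Ps p p' ∨ P.dR p p' + P.lenR h i ≤ P.VG X k h i Ps p p' ∨
      ∃ g Q Q', i ≤ g ∧ g < i + P.NG ∧ P.IsOpt X k g Q Q' ∧
        P.xo X k Ps g Q Q' p p' ≤ P.VG X k h i Ps p p' := by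
  rcases (fold_min_le _).1 (le_max_right _ _ : _ ≤ P.VG X k h i Ps p p') with h1 | ⟨o, ho, h1⟩
  · rcases min_le_iff.1 h1 with h2 | h2
    · exact Or.inl h2
    · exact Or.inr (Or.inl h2)
  · obtain ⟨a1, a2, a3⟩ := mem_opts.1 ho
    exact Or.inr (Or.inr ⟨o.1, o.2.1, o.2.2, a1, a2, a3, h1⟩)

theorem tube_fold {α : Type} (s : Finset α) {b b' : ℝ} {f g : α → ℝ} {c : ℝ} (hb : b ≤ b' + c)
    (h : ∀ x ∈ s, f x ≤ g x + c) : s.fold min b f ≤ s.fold min b' g + c := by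
  rcases (fold_min_le (s := s) (b := b') (f := g) _).1 le_rfl with h1 | ⟨x, hx, h1⟩
  · have : s.fold min b f ≤ b := (fold_min_le _).2 (Or.inl le_rfl)
    linarith
  · have : s.fold min b f ≤ f x := (fold_min_le _).2 (Or.inr ⟨x, hx, le_rfl⟩)
    linarith [h x hx]

theorem VG_lip2 (P : Pm) (X : Ctx) (k h i : ℕ) (Ps : ℕ → ℕ → ℕ → ℝ) (p p' q q' : ℕ) :
    P.VG X k h i Ps p p' ≤ P.VG X k h i Ps q q' + P.dR p q + P.dR p' q' := by
  have h0 := add_nonneg (P.dR_nonneg p q) (P.dR_nonneg p' q')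
  have h1 : P.dR p p' ≤ P.dR q q' + (P.dR p q + P.dR p' q') := by
    have a1 := P.dR_tri p q p'
    have a2 := P.dR_tri q q' p'
    rw [P.dR_comm q' p'] at a2
    linarith
  rw [add_assoc]
  unfold VG
  refine max_le (h1.trans (add_le_add_left (le_max_left _ _) _))
    (le_trans (tube_fold _ ?_ fun o _ => ?_) (add_le_add_left (le_max_right _ _) _))
  · rw [← min_add_add_right]
    exact min_le_min (by linarith) (by linarith)
  · have h2 := P.dR_tri p q (P.r o.1 * o.2.1)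
    have h3 := P.dR_tri p' q' (P.r o.1 * o.2.2)
    unfold xo
    linarith

end Pm

end Vale.Agent.P315F
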