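import Vale.Agent.P315F.Band
import Vale.Agent.P315F.Tube
import Vale.Agent.P315F.EPath

/-! Lower bounds: all values are (almost) upper bounds for the true cost, up to the caps. -/

namespace Vale.Agent.P315F

open Finset Vale.Agent.P315

namespace Pm

variable {P : Pm} {w : ℕ → ℕ → ℕ} {A : ℕ → ℕ → ℕ → ℕ → ℕ → Tab}

theorem VA_smp {h k a i : ℕ} (hs : P.smp (h + 1) i) : P.VA w A (h + 1) k a i =
    P.VG (P.ctx (A h) a) k (h + 1) i (P.PsA A h k a) := by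
  rw [VA, if_pos hs]; rfl

theorem VA_leaf (hw : WOk w) {k a i : ℕ} (hi : i ≤ P.ie + P.sh) {p p' : ℕ} (hp : p ≤ P.Qm)
    (hp' : p' ≤ P.Qm) : P.VA w A 0 k a i p p' = P.En w 0 a p p' := by
  rw [VA, if_neg (fun h => absurd h.1 (by omega)), detR, if_pos ⟨rfl, hi⟩, En, pow_zero, mul_one,
    mul_one, E_leaf hw a hp hp']

theorem VA_triv {h k a i : ℕ} (hi : h * P.lb + P.ie + P.sh < i) (p p' : ℕ) :
    P.VA w A h k a i p p' = P.dR p p' + P.lenR h i := by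
  rw [VA, if_neg (fun h => absurd h.2 (by omega)), detR,
    if_neg (fun h => by rw [h.1] at hi; omega)]

theorem VA_ge (hw : WOk w) (h k a i : ℕ) {p p' : ℕ} (hp : p ≤ P.Qm) (hp' : p' ≤ P.Qm) :
    P.dR p p' ≤ P.VA w A h k a i p p' := by
  by_cases hi : h * P.lb + P.ie + P.sh < i
  · rw [VA_triv hi]
    exact le_add_of_nonneg_right (by unfold lenR; positivity)
  · cases h with
    | zero =>
      rw [VA_leaf hw (by omega) hp hp']
      exact le_trans (le_add_of_nonneg_right (Nat.cast_nonneg _)) (P.En_ge 0 a p p')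
    | succ h =>
      rw [VA_smp ⟨by omega, by omega⟩]
      exact P.VG_ge _ _ _ _ _ _ _

theorem VA_lip (hw : WOk w) (h k a i : ℕ) {p p' q q' : ℕ} (hp : p ≤ P.Qm) (hp' : p' ≤ P.Qm)
    (hq : q ≤ P.Qm) (hq' : q' ≤ P.Qm) :
    P.VA w A h k a i p p' ≤ P.VA w A h k a i q q' + P.dR p q + P.dR p' q' := by
  by_cases hi : h * P.lb + P.ie + P.sh < i
  · rw [VA_triv hi, VA_triv hi]
    linarith [P.dR_tri p q p', P.dR_tri q q' p', P.dR_comm q' p']
  · cases h with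
    | zero =>
      rw [VA_leaf hw (by omega) hp hp', VA_leaf hw (by omega) hq hq']
      exact P.En_lip 0 a p p' q q'
    | succ h =>
      rw [VA_smp ⟨by omega, by omega⟩]
      exact P.VG_lip2 _ _ _ _ _ _ _ _ _

/-- The tables of every node are tame (the node `a` is the child `a % b` of `a / b`). -/
theorem Star.lip (hS : P.Star w A) (h k a i : ℕ) : ∀ p p' q q', (A h k a i P.k0 p p' : ℝ) ≤
    A h k a i P.k0 q q' + (P.dR p q + P.dR p' q') * P.U1 / 2 ^ i + 5 := by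
  have := (hS.tame h (a / P.b)).1 k (a % P.b) i
  simp only [ctx, Nat.div_add_mod'] at this
  exact this

theorem Star.le (hS : P.Star w A) (h k a i p p' : ℕ) : A h k a i P.k0 p p' ≤ P.U1 := by
  have := (hS.tame h (a / P.b)).2 k (a % P.b) i p p'
  simp only [ctx, Nat.div_add_mod'] at this
  exact this

theorem Zt_lip (hP : P.Good) (hS : P.Star w A) (h k a g p p' q q' : ℕ) :
    P.Zt A h k a g p p' ≤ P.Zt A h k a g q q' + (P.nbm + 1) * (P.dR p q + P.dR p' q') + P.fl g :=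
  ZLip hP (fun i => A h k a i P.k0) g (fun i p p' q q' =>
    (hS.lip h k a i p p' q q').trans (by unfold toR; linarith)) p p' q q'

theorem avZ_lip (hP : P.Good) (hS : P.Star w A) (s h a g p p' q q' : ℕ) :
    P.avZ A s h a g p p' ≤
      P.avZ A s h a g q q' + (P.nbm + 1) * (P.dR p q + P.dR p' q') + P.fl g := by
  have hK : (0 : ℝ) < P.K := by exact_mod_cast hP.K_pos
  have h1 := sum_le_sum fun k (_ : k ∈ range P.K) => Zt_lip hP hS h (s * P.K + k) a g p p' q q'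
  simp only [add_assoc] at h1 ⊢
  rw [sum_add_distrib, sum_const, card_range, nsmul_eq_mul] at h1
  rw [avZ, avZ, div_add' _ _ _ hK.ne', mul_comm _ (P.K : ℝ)]
  exact div_le_div_of_nonneg_right h1 hK.le

theorem Zb_le (hP : P.Good) (A : ℕ → ℕ → ℕ → ℕ → ℕ → Tab) (s h a g p p' : ℕ) :
    P.Zb A s h a g p p' ≤ P.avZ A s h a g p p' ∧
      P.avZ A s h a g p p' ≤ P.Zb A s h a g p p' + P.fl g :=
  ⟨zX_avg_le hP (fun k i => A h (s * P.K + k) a i P.k0) g p p',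
    zX_avg_ge hP (fun k i => A h (s * P.K + k) a i P.k0) g p p'⟩

theorem val_un (P : Pm) (A : ℕ → ℕ → ℕ → ℕ → ℕ → Tab) (h k a g : ℕ) (qq : ℕ → ℕ) :
    (P.val (P.ctx (A h) a k) g qq : ℝ) * P.un g =
      ∑ j ∈ range P.b, P.Zt A h k (a * P.b + j) g (P.r g * qq j) (P.r g * qq (j + 1)) := by
  rw [val, Nat.cast_sum, sum_mul]; rfl

theorem nu0_un (P : Pm) (A : ℕ → ℕ → ℕ → ℕ → ℕ → Tab) (h k a g : ℕ) {j : ℕ} (hj : j < P.b)
    (Q Q' : ℕ) : (P.nu0 (P.ctx (A h) a) k g j Q Q' : ℝ) * P.un g =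
      P.nut A h k (a * P.b + j) g Q Q' := by
  rw [nut, (P.child_div a hj).1, (P.child_div a hj).2]

theorem nut_ge (P : Pm) (A : ℕ → ℕ → ℕ → ℕ → ℕ → Tab) (h k a g Q Q' : ℕ) :
    P.dR (P.r g * Q) (P.r g * Q') ≤ P.nut A h k a g Q Q' := by
  rw [dR_grid]
  exact mul_le_mul_of_nonneg_right (Nat.cast_le.2 (P.nu0_ge _ _ _ _ _ _)) (P.un_pos g).le

theorem valid_zb {h k a g : ℕ} (hk : P.K ≤ k) (M M' : ℕ) :
    (P.zb (P.ctx (A h) (a / P.b)) k g (a % P.b) M M' : ℝ) * P.un g =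
      P.Zb A (k / P.K - 1) h a g (P.r g * M) (P.r g * M') := by
  rw [zb, if_neg (not_lt.2 hk), Zb]
  congr 3
  funext i p p'
  simp only [avT, ctx, Nat.div_add_mod']

theorem nut_le {h k a g Q Q' : ℕ} (hk : P.K ≤ k) (hQ : Q ≤ P.Qg g) (hQ' : Q' ≤ P.Qg g) :
    P.nut A h k a g Q Q' ≤ max (P.dR (P.r g * Q) (P.r g * Q'))
      (P.Zb A (k / P.K - 1) h a g (P.r g * Q) (P.r g * Q')) := by
  rw [dR_grid, ← valid_zb hk, ← max_mul_of_nonneg _ _ (P.un_pos g).le, ← Nat.cast_max]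
  exact mul_le_mul_of_nonneg_right (Nat.cast_le.2 (nuC_le hQ hQ')) (P.un_pos g).le

theorem nut_att {h k a g Q Q' : ℕ} (hk : P.K ≤ k)
    (hlt : P.nut A h k a g Q Q' < 2 ^ (P.ga + 1) * P.G g) : ∃ M ≤ P.Qg g, ∃ M' ≤ P.Qg g,
      P.dR (P.r g * Q) (P.r g * M) + P.dR (P.r g * Q') (P.r g * M') +
        P.Zb A (k / P.K - 1) h a g (P.r g * M) (P.r g * M') ≤ P.nut A h k a g Q Q' := by
  obtain ⟨M, hM, M', hM', h1⟩ := nuC_att (Nat.cast_lt.1 (lt_of_mul_lt_mul_right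
    (hlt.trans_le (P.Cn_ge g)) (P.un_pos g).le))
  refine ⟨M, hM, M', hM', ?_⟩
  rw [dR_grid, dR_grid, ← valid_zb hk, ← add_mul, ← add_mul, ← Nat.cast_add, ← Nat.cast_add,
    ← add_mul]
  exact mul_le_mul_of_nonneg_right (Nat.cast_le.2 h1) (P.un_pos g).le

theorem capt_chain (P : Pm) (A : ℕ → ℕ → ℕ → ℕ → ℕ → Tab) (h k a g : ℕ) (ω : ℕ → ℕ)
    (hω : ∀ j, ω j ≤ P.Qg g) : P.capt A h k a g (ω 0) (ω P.b) ≤
      ∑ j ∈ range P.b, P.nut A h k (a * P.b + j) g (ω j) (ω (j + 1)) := by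
  have h1 := nuF_chain (Cn := P.Rn * P.ug g) (P.nu0_ge (P.ctx (A h) a) k g) 0 P.b ω hω
  simp only [zero_add] at h1
  rw [← sum_congr rfl fun j hj => P.nu0_un A h k a g (mem_range.1 hj) (ω j) (ω (j + 1)),
    ← sum_mul, ← Nat.cast_sum]
  exact mul_le_mul_of_nonneg_right (Nat.cast_le.2 h1) (P.un_pos g).le

theorem capt_att {h k a g Q Q' : ℕ} (hQ : Q ≤ P.Qg g) (hQ' : Q' ≤ P.Qg g)
    (hlt : P.capt A h k a g Q Q' < 2 ^ (P.ga + 1) * P.G g) :
    ∃ ω : ℕ → ℕ, ω 0 = Q ∧ ω P.b = Q' ∧ (∀ j, ω j ≤ P.Qg g) ∧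
      ∑ j ∈ range P.b, P.nut A h k (a * P.b + j) g (ω j) (ω (j + 1)) ≤
        P.capt A h k a g Q Q' := by
  obtain ⟨ω, h1, h2, h3, h4⟩ := nuF_att (P.nu0_lip (P.ctx (A h) a) k g) P.b_pos hQ hQ'
    (Nat.cast_lt.1 (lt_of_mul_lt_mul_right (hlt.trans_le (P.Cn_ge g)) (P.un_pos g).le))
  refine ⟨ω, h1, h2, h3, ?_⟩
  rw [← sum_congr rfl fun j hj => P.nu0_un A h k a g (mem_range.1 hj) (ω j) (ω (j + 1)),
    ← sum_mul, ← Nat.cast_sum]
  exact mul_le_mul_of_nonneg_right (Nat.cast_le.2 h4) (P.un_pos g).le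

end Pm

end Vale.Agent.P315F
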