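import Vale.Agent.P315F.Valid

/-! Validity, by induction on the height. -/

namespace Vale.Agent.P315F

open Finset Vale.Agent.P315

theorem valid2_min (s : Finset ℕ) (x : ℕ → ℝ) (hx : ∀ j, 0 ≤ x j) {C : ℝ} (hC : 0 ≤ C) :
    min (∑ j ∈ s, x j) C ≤ ∑ j ∈ s, min (x j) C := by
  by_cases h : ∀ j ∈ s, x j ≤ C
  · exact (min_le_left _ _).trans (sum_congr rfl fun j hj => (min_eq_left (h j hj)).symm).le
  · simp only [not_forall, not_le] at h
    obtain ⟨j, hj, h⟩ := h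
    refine (min_le_right _ _).trans ((min_eq_right h.le).ge.trans ?_)
    exact single_le_sum (f := fun j => min (x j) C) (fun j _ => le_min (hx j) hC) hj

theorem valid2_lip {c x y d C : ℝ} (h0 : 0 ≤ c) (h1 : c ≤ 1) (hd : 0 ≤ d) (h : x ≤ y + d) :
    c * min x C ≤ c * min y C + d := by
  have h2 : min x C ≤ min y C + d := by
    rw [← min_add_add_right]
    exact min_le_min h (by linarith)
  have h3 := mul_le_mul_of_nonneg_left h2 h0
  have h4 := mul_le_of_le_one_left hd h1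
  linarith

namespace Pm

variable {P : Pm} {w : ℕ → ℕ → ℕ} {A : ℕ → ℕ → ℕ → ℕ → ℕ → Tab}

/-- The induction statement. -/
def valid2V (P : Pm) (w : ℕ → ℕ → ℕ) (A : ℕ → ℕ → ℕ → ℕ → ℕ → Tab) (h : ℕ) : Prop :=
  ∀ k < P.KK, ∀ a < P.b ^ (P.D - h), ∀ i, ∀ p ≤ P.Qm, ∀ p' ≤ P.Qm,
    min ((1 - 2 * P.eta * h) * P.En w h a p p') (2 ^ (i + 1)) ≤ P.VA w A h k a i p p'

theorem valid2_c (hP : P.Good) {h : ℕ} (hh : h ≤ P.D + 1) :
    1 - P.del ≤ 1 - 2 * P.eta * h ∧ 1 - 2 * P.eta * h ≤ 1 ∧ 1 / 2 ≤ 1 - P.del := by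
  have h1 := eta_le hP
  have h2 := del_le hP
  have h3 := eps_le hP
  have h4 := P.eta_pos
  have h5 := P.del_pos
  have h6 : (h : ℝ) ≤ P.D + 1 := by exact_mod_cast hh
  have h7 := mul_le_mul_of_nonneg_left h6 h4.le
  have h8 : 0 ≤ P.eta * h := by positivity
  have h9 : 0 ≤ P.del * P.D := by positivity
  refine ⟨by linarith, by linarith, by linarith⟩

theorem valid2_G (hP : P.Good) (g : ℕ) : 2 ^ P.ga * P.G g ≤ 2 ^ g := by
  rw [P.two_pow_eq g]
  exact mul_le_mul_of_nonneg_right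
    (pow_le_pow_right₀ one_le_two (by have := hP.gp2; omega)) (P.G_pos g).le

theorem valid2_lt (P : Pm) (g : ℕ) : 2 ^ P.ga * P.G g < 2 ^ (P.ga + 1) * P.G g :=
  mul_lt_mul_of_pos_right (pow_lt_pow_right₀ one_lt_two (Nat.lt_succ_self _)) (P.G_pos g)

theorem valid2_band (hP : P.Good) (hS : P.Star w A) {h : ℕ} (hh : h ≤ P.D) (hV : P.valid2V w A h)
    {k : ℕ} (hk : k < P.KK) {a : ℕ} (ha : a < P.b ^ (P.D - h)) (i : ℕ) {p p' : ℕ}
    (hp : p ≤ P.Qm) (hp' : p' ≤ P.Qm) :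
    (1 - P.eta) * P.bandR i ((1 - 2 * P.eta * h) * P.En w h a p p') - P.eta * P.t0 ≤
      A h k a i P.k0 p p' := by
  obtain ⟨c1, c2, c3⟩ := valid2_c hP (h := h) (by omega)
  obtain ⟨c4, -, -⟩ := valid2_c hP (h := 1) (by omega)
  have h0 : 0 ≤ (1 - 2 * P.eta * h) * P.En w h a p p' :=
    mul_nonneg (by linarith) (Nat.cast_nonneg _)
  have h1 := (abs_le.1 (hS.near h hh k hk a ha i p hp p' hp')).1
  have h2 := P.bandR_mono i (le_min h0 (by positivity)) (hV k hk a ha i p hp p' hp')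
  rw [bandR_min hP i h0] at h2
  have h3 := mul_le_mul_of_nonneg_left h2
    (show 0 ≤ 1 - P.eta by push_cast at c4; linarith [P.eta_pos])
  linarith

theorem valid2_ZL (hP : P.Good) {h : ℕ} (hh : h ≤ P.D) (t : ℕ → Tab) (g p p' : ℕ) {v : ℝ}
    (hv : 0 ≤ v) (H : ∀ i, (1 - P.eta) * P.bandR i ((1 - 2 * P.eta * h) * v) - 2 * P.eta * P.t0 ≤
      t i p p') :
    (1 - 2 * P.eta * (h + 1 : ℕ)) * min v (2 ^ (g + 2)) ≤ P.zX t g p p' * P.un g := by
  obtain ⟨c1, c2, c3⟩ := valid2_c hP (h := h) (by omega)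
  obtain ⟨c4, -, -⟩ := valid2_c hP (h := 1) (by omega)
  rw [Nat.cast_one, mul_one] at c4
  refine le_trans ?_ (ZL hP t g p p' (mul_nonneg (by linarith) hv) fun i _ _ => H i)
  have h1 : (1 - 2 * P.eta * h) * min v (2 ^ (g + 2)) ≤
      min ((1 - 2 * P.eta * h) * v) (2 ^ P.hi g) := by
    rw [mul_min_of_nonneg _ _ (by linarith)]
    exact min_le_min le_rfl (mul_le_of_le_one_left (by positivity) c2)
  refine le_trans ?_ (mul_le_mul_of_nonneg_left h1 (by linarith))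
  rw [← mul_assoc]
  refine mul_le_mul_of_nonneg_right ?_ (le_min hv (by positivity))
  have h2 : 0 ≤ P.eta * P.eta * h := by have := P.eta_pos; positivity
  push_cast
  linarith

theorem valid2_Zt (hP : P.Good) (hS : P.Star w A) {h : ℕ} (hh : h ≤ P.D) (hV : P.valid2V w A h)
    {k : ℕ} (hk : k < P.KK) {a : ℕ} (ha : a < P.b ^ (P.D - h)) (g : ℕ) {p p' : ℕ}
    (hp : p ≤ P.Qm) (hp' : p' ≤ P.Qm) :
    (1 - 2 * P.eta * (h + 1 : ℕ)) * min (P.En w h a p p' : ℝ) (2 ^ (g + 2)) ≤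
      P.Zt A h k a g p p' :=
  valid2_ZL hP hh _ g p p' (Nat.cast_nonneg _) fun i => by
    linarith [valid2_band hP hS hh hV hk ha i hp hp', eta_t0 hP]

theorem valid2_Zb (hP : P.Good) (hS : P.Star w A) {h : ℕ} (hh : h ≤ P.D) (hV : P.valid2V w A h)
    {s : ℕ} (hs : s < 3) {a : ℕ} (ha : a < P.b ^ (P.D - h)) (g : ℕ) {p p' : ℕ}
    (hp : p ≤ P.Qm) (hp' : p' ≤ P.Qm) :
    (1 - 2 * P.eta * (h + 1 : ℕ)) * min (P.En w h a p p' : ℝ) (2 ^ (g + 2)) ≤
      P.Zb A s h a g p p' := by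
  refine valid2_ZL hP hh _ g p p' (Nat.cast_nonneg _) fun i => ?_
  have hK : (0 : ℝ) < P.K := by exact_mod_cast hP.K_pos
  have h1 := card_nsmul_le_sum (range P.K) (fun k => (A h (s * P.K + k) a i P.k0 p p' : ℝ)) _
    fun k hk => valid2_band hP hS hh hV (k := s * P.K + k) (by
      have := Nat.mul_le_mul_right P.K (show s ≤ 2 by omega)
      have := mem_range.1 hk
      unfold KK
      omega) ha i hp hp'
  rw [card_range, nsmul_eq_mul, ← le_div_iff₀' hK, ← Nat.cast_sum] at h1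
  have h2 := Nat.lt_floor_add_one
    (((∑ k ∈ range P.K, A h (s * P.K + k) a i P.k0 p p' : ℕ) : ℝ) / P.K)
  rw [Nat.floor_div_eq_div] at h2
  linarith [eta_t0 hP]

theorem valid2_nut (hP : P.Good) (hS : P.Star w A) {h : ℕ} (hh : h ≤ P.D) (hV : P.valid2V w A h)
    {k : ℕ} (hK : P.K ≤ k) (hk : k < P.KK) {a : ℕ} (ha : a < P.b ^ (P.D - h)) {g Q Q' : ℕ}
    (hlt : P.nut A h k a g Q Q' < 2 ^ (P.ga + 1) * P.G g) :
    (1 - 2 * P.eta * (h + 1 : ℕ)) * min (P.En w h a (P.r g * Q) (P.r g * Q') : ℝ) (2 ^ (g + 2)) ≤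
      P.nut A h k a g Q Q' := by
  obtain ⟨c1, c2, c3⟩ := valid2_c hP (h := h + 1) (by omega)
  obtain ⟨M, hM, M', hM', h1⟩ := nut_att hK hlt
  have h2 : k / P.K < 3 := (Nat.div_lt_iff_lt_mul hP.K_pos).2 hk
  have h3 := valid2_Zb hP hS hh hV (s := k / P.K - 1) (by omega) ha g (P.rQ_le hM) (P.rQ_le hM')
  have h4 := valid2_lip (C := 2 ^ (g + 2)) (by linarith) c2
    (add_nonneg (P.dR_nonneg _ _) (P.dR_nonneg _ _))
    ((P.En_lip (w := w) h a (P.r g * Q) (P.r g * Q') (P.r g * M) (P.r g * M')).trans_eq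
      (add_assoc _ _ _))
  linarith

theorem valid2_chain (hP : P.Good) {h : ℕ} (hh : h + 1 ≤ P.D) (a g : ℕ) (ω : ℕ → ℕ)
    (z : ℕ → ℝ) (hz : ∀ j < P.b, (1 - 2 * P.eta * (h + 1 : ℕ)) *
      min (P.En w h (a * P.b + j) (P.r g * ω j) (P.r g * ω (j + 1)) : ℝ) (2 ^ (g + 2)) ≤ z j) :
    (1 - 2 * P.eta * (h + 1 : ℕ)) *
      min (P.En w (h + 1) a (P.r g * ω 0) (P.r g * ω P.b) : ℝ) (2 ^ (g + 2)) ≤
      ∑ j ∈ range P.b, z j := by
  obtain ⟨c1, c2, c3⟩ := valid2_c hP (h := h + 1) (by omega)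
  refine le_trans ?_ (sum_le_sum fun j hj => hz j (mem_range.1 hj))
  rw [← mul_sum]
  refine mul_le_mul_of_nonneg_left (le_trans (min_le_min_right _ ?_)
    (valid2_min _ _ (fun j => Nat.cast_nonneg _) (by positivity))) (by linarith)
  exact_mod_cast P.En_chain (w := w) h a fun j => P.r g * ω j

theorem valid2_cap (hP : P.Good) (hS : P.Star w A) {h : ℕ} (hh : h + 1 ≤ P.D)
    (hV : P.valid2V w A h) {k : ℕ} (hK : P.K ≤ k) (hk : k < P.KK) {a : ℕ}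
    (ha : a < P.b ^ (P.D - (h + 1))) {g Q Q' : ℕ} (ho : P.IsOpt (P.ctx (A h) a) k g Q Q') :
    (1 - 2 * P.eta * (h + 1 : ℕ)) *
      min (P.En w (h + 1) a (P.r g * Q) (P.r g * Q') : ℝ) (2 ^ (g + 2)) ≤
      P.cap (P.ctx (A h) a) k g Q Q' * P.un g := by
  obtain ⟨hQ, hQ', h1⟩ := (isOpt_iff hP).1 ho
  have h2 : P.capt A h k a g Q Q' < 2 ^ (P.ga + 1) * P.G g := h1.trans_lt (P.valid2_lt g)
  obtain ⟨ω, rfl, rfl, -, h3⟩ := capt_att hQ hQ' h2
  refine le_trans (valid2_chain hP hh a g ω _ fun j hj => ?_) h3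
  refine valid2_nut hP hS (by omega) hV hK hk (P.child_lt hh ha hj) (lt_of_le_of_lt ?_ h2)
  exact le_trans (single_le_sum
    (f := fun j => P.nut A h k (a * P.b + j) g (ω j) (ω (j + 1)))
    (fun j _ => (P.dR_nonneg _ _).trans (P.nut_ge A _ _ _ _ _ _)) (mem_range.2 hj)) h3

theorem valid2_Tm (hP : P.Good) (hS : P.Star w A) {h : ℕ} (hh : h + 1 ≤ P.D)
    (hV : P.valid2V w A h) {k : ℕ} (hk : k < P.KK) {a : ℕ}
    (ha : a < P.b ^ (P.D - (h + 1))) {g Q Q' : ℕ} (ho : P.IsOpt (P.ctx (A h) a) k g Q Q') :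
    (1 - 2 * P.eta * (h + 1 : ℕ)) *
      min (P.En w (h + 1) a (P.r g * Q) (P.r g * Q') : ℝ) (2 ^ (g + 2)) ≤
      P.TmR (P.ctx (A h) a) k (P.PsA A h k a) g Q Q' * P.un g := by
  have hu := P.un_pos g
  have h1 : (1 - 2 * P.eta * (h + 1 : ℕ)) *
      min (P.En w (h + 1) a (P.r g * Q) (P.r g * Q') : ℝ) (2 ^ (g + 2)) / P.un g ≤
      P.PsA A h k a g Q Q' := by
    refine PsR_ge hP _ fun o _ => ?_
    have h2 := valid2_chain (w := w) hP hh a g (P.q (P.ctx (A h) a) k g Q Q' o) _ fun j hj =>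
      valid2_Zt hP hS (by omega) hV hk (P.child_lt hh ha hj) g
        (P.rQ_le (q_le ho.1 ho.2.1 o j)) (P.rQ_le (q_le ho.1 ho.2.1 o (j + 1)))
    rw [q_zero, q_last, ← val_un, val_cast] at h2
    rw [div_le_iff₀ hu]
    exact h2
  have h3 := h1.trans (le_max_right 0 _)
  rw [← div_le_iff₀ hu, TmR]
  split_ifs with h4
  · exact h3
  · exact le_min ((div_le_iff₀ hu).2 (valid2_cap hP hS hh hV (not_lt.1 h4) hk ha ho)) h3

theorem valid2_all (hP : P.Good) (hS : P.Star w A) (h : ℕ) (hh : h ≤ P.D) : P.valid2V w A h := by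
  have triv : ∀ h ≤ P.D, ∀ a i, ∀ p ≤ P.Qm, ∀ p', ∀ v : ℝ, P.dR p p' + P.lenR h i ≤ v →
      min ((1 - 2 * P.eta * h) * P.En w h a p p') (2 ^ (i + 1)) ≤ v :=
    fun h hh a i p hp p' v hv => (min_le_left _ _).trans ((mul_le_of_le_one_left (Nat.cast_nonneg _)
      (valid2_c hP (h := h) (by omega)).2.1).trans ((En_le hP hS.wok h a i hp p').trans hv))
  induction h with
  | zero =>
    intro k hk a ha i p hp p' hp'
    rcases le_or_gt i (P.ie + P.sh) with hi | hi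
    · rw [VA_leaf hS.wok hi hp hp', Nat.cast_zero, mul_zero, sub_zero, one_mul]
      exact min_le_left _ _
    · exact triv 0 hh a i p hp p' _ (VA_triv (by omega) p p').ge
  | succ h ih =>
    intro k hk a ha i p hp p' hp'
    by_cases hs : P.smp (h + 1) i
    swap
    · exact triv _ hh a i p hp p' _ (VA_triv (by unfold smp at hs; omega) p p').ge
    rw [VA_smp hs]
    rcases P.VG_cases (P.ctx (A h) a) k (h + 1) i (P.PsA A h k a) p p' with
      h1 | h1 | ⟨g, Q, Q', hg, -, ho, h1⟩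
    · exact (min_le_right _ _).trans h1
    · exact triv _ hh a i p hp p' _ h1
    obtain ⟨c1, c2, c3⟩ := valid2_c hP (h := h + 1) (by omega)
    have h2 := valid2_Tm hP hS hh (ih (by omega)) hk ha ho
    have h3 := valid2_lip (C := 2 ^ (g + 2)) (by linarith) c2
      (add_nonneg (P.dR_nonneg _ _) (P.dR_nonneg _ _))
      ((P.En_lip (w := w) (h + 1) a p p' (P.r g * Q) (P.r g * Q')).trans_eq (add_assoc _ _ _))
    have h4 : min ((1 - 2 * P.eta * (h + 1 : ℕ)) * P.En w (h + 1) a p p') (2 ^ (i + 1)) ≤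
        (1 - 2 * P.eta * (h + 1 : ℕ)) * min (P.En w (h + 1) a p p' : ℝ) (2 ^ (g + 2)) := by
      rw [mul_min_of_nonneg _ _ (by linarith)]
      refine min_le_min le_rfl ?_
      have h5 : (2 : ℝ) ^ (i + 1) ≤ 2 ^ (g + 1) := pow_le_pow_right₀ one_le_two (by omega)
      have h6 := mul_le_mul_of_nonneg_right (c3.trans c1) (show (0 : ℝ) ≤ 2 ^ (g + 2) by positivity)
      rw [pow_succ 2 (g + 1)] at h6 ⊢
      linarith
    unfold xo at h1
    linarith [P.eR_pos g]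

theorem valid (hP : P.Good) (hS : P.Star w A) {h : ℕ} (hh : h ≤ P.D) {k : ℕ} (hk : k < P.KK)
    {a : ℕ} (ha : a < P.b ^ (P.D - h)) (i : ℕ) {p p' : ℕ} (hp : p ≤ P.Qm) (hp' : p' ≤ P.Qm) :
    min ((1 - 2 * P.eta * h) * P.En w h a p p') (2 ^ (i + 1)) ≤ P.VA w A h k a i p p' :=
  valid2_all hP hS h hh k hk a ha i p hp p' hp'

theorem valid' (hP : P.Good) (hS : P.Star w A) {h : ℕ} (hh : h ≤ P.D) {k : ℕ} (hk : k < P.KK)
    {a : ℕ} (ha : a < P.b ^ (P.D - h)) (i : ℕ) {p p' : ℕ} (hp : p ≤ P.Qm) (hp' : p' ≤ P.Qm)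
    (hlt : P.VA w A h k a i p p' < 2 ^ (i + 1)) :
    (1 - P.del) * P.En w h a p p' ≤ P.VA w A h k a i p p' :=
  (mul_le_mul_of_nonneg_right (valid2_c hP (h := h) (by omega)).1 (Nat.cast_nonneg _)).trans
    ((min_le_iff.1 (valid hP hS hh hk ha i hp hp')).resolve_right hlt.not_ge)

theorem Zt_valid (hP : P.Good) (hS : P.Star w A) {h : ℕ} (hh : h ≤ P.D) {k : ℕ} (hk : k < P.KK)
    {a : ℕ} (ha : a < P.b ^ (P.D - h)) (g : ℕ) {p p' : ℕ} (hp : p ≤ P.Qm) (hp' : p' ≤ P.Qm) :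
    (1 - P.del) * min (P.En w h a p p' : ℝ) (2 ^ (g + 2)) ≤ P.Zt A h k a g p p' :=
  (mul_le_mul_of_nonneg_right (valid2_c hP (h := h + 1) (by omega)).1
    (le_min (Nat.cast_nonneg _) (by positivity))).trans
    (valid2_Zt hP hS hh (valid2_all hP hS h hh) hk ha g hp hp')

theorem Zb_valid (hP : P.Good) (hS : P.Star w A) {h : ℕ} (hh : h ≤ P.D) {s : ℕ} (hs : s < 3)
    {a : ℕ} (ha : a < P.b ^ (P.D - h)) (g : ℕ) {p p' : ℕ} (hp : p ≤ P.Qm) (hp' : p' ≤ P.Qm) :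
    (1 - P.del) * min (P.En w h a p p' : ℝ) (2 ^ (g + 2)) ≤ P.Zb A s h a g p p' :=
  (mul_le_mul_of_nonneg_right (valid2_c hP (h := h + 1) (by omega)).1
    (le_min (Nat.cast_nonneg _) (by positivity))).trans
    (valid2_Zb hP hS hh (valid2_all hP hS h hh) hs ha g hp hp')

theorem valid2_small (hP : P.Good) {c x : ℝ} (hc : 1 / 2 ≤ c) {g : ℕ}
    (h : c * min x (2 ^ (g + 2)) ≤ 2 ^ P.ga * P.G g) : x ≤ 2 ^ (g + 2) := by
  refine le_of_not_gt fun h1 => ?_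
  rw [min_eq_right h1.le] at h
  have h2 := valid2_G hP g
  have h3 : (0 : ℝ) < 2 ^ g := by positivity
  have h4 := mul_le_mul_of_nonneg_right hc (show (0 : ℝ) ≤ 2 ^ (g + 2) by positivity)
  rw [pow_add] at h h4
  linarith

theorem nut_valid (hP : P.Good) (hS : P.Star w A) {h : ℕ} (hh : h ≤ P.D) {k : ℕ} (hK : P.K ≤ k)
    (hk : k < P.KK) {a : ℕ} (ha : a < P.b ^ (P.D - h)) {g Q Q' : ℕ}
    (hle : P.nut A h k a g Q Q' ≤ 2 ^ P.ga * P.G g) :
    (1 - P.del) * P.En w h a (P.r g * Q) (P.r g * Q') ≤ P.nut A h k a g Q Q' := by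
  obtain ⟨c1, c2, c3⟩ := valid2_c hP (h := h + 1) (by omega)
  have h1 := valid2_nut hP hS hh (valid2_all hP hS h hh) hK hk ha (hle.trans_lt (P.valid2_lt g))
  rw [min_eq_left (valid2_small hP (c3.trans c1) (h1.trans hle))] at h1
  exact (mul_le_mul_of_nonneg_right c1 (Nat.cast_nonneg _)).trans h1

/-- Options after stage 0 have a small true cost, and their values are valid. -/
theorem opt_valid (hP : P.Good) (hS : P.Star w A) {h : ℕ} (hh : h + 1 ≤ P.D) {k : ℕ}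
    (hK : P.K ≤ k) (hk : k < P.KK) {a : ℕ} (ha : a < P.b ^ (P.D - (h + 1))) {g Q Q' : ℕ}
    (ho : P.IsOpt (P.ctx (A h) a) k g Q Q') :
    (P.En w (h + 1) a (P.r g * Q) (P.r g * Q') : ℝ) ≤ 2 ^ (P.ga + 1) * P.G g ∧
      ∀ p p', (1 - P.del) * P.En w (h + 1) a p p' ≤ P.xA A h k a g Q Q' p p' := by
  obtain ⟨c1, c2, c3⟩ := valid2_c hP (h := h + 1) (by omega)
  have hV := valid2_all hP hS h (by omega)
  have h1 := (valid2_cap hP hS hh hV hK hk ha ho).trans ((isOpt_iff hP).1 ho).2.2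
  have h2 := valid2_Tm hP hS hh hV hk ha ho
  have h0 := min_eq_left (valid2_small hP (c3.trans c1) h1)
  rw [h0] at h1 h2
  refine ⟨?_, fun p p' => ?_⟩
  · have h3 := mul_le_mul_of_nonneg_right (c3.trans c1)
      (Nat.cast_nonneg (α := ℝ) (P.En w (h + 1) a (P.r g * Q) (P.r g * Q')))
    rw [pow_succ]
    linarith
  · have h3 := mul_le_mul_of_nonneg_left
      (P.En_lip (w := w) (h + 1) a p p' (P.r g * Q) (P.r g * Q')) (show 0 ≤ 1 - P.del by linarith)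
    have h4 := mul_le_mul_of_nonneg_right c1
      (Nat.cast_nonneg (α := ℝ) (P.En w (h + 1) a (P.r g * Q) (P.r g * Q')))
    have h5 := mul_nonneg P.del_pos.le (P.dR_nonneg p (P.r g * Q))
    have h6 := mul_nonneg P.del_pos.le (P.dR_nonneg p' (P.r g * Q'))
    unfold xA xo
    linarith [P.eR_pos g]

end Pm

end Vale.Agent.P315F
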