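import Vale.Agent.P315F.Level

namespace Vale.Agent.P315F

open Finset Vale.Agent.P315

namespace Pm

variable {P : Pm}

theorem alpha_pos (P : Pm) (j : ℕ) : 0 < P.alpha j := by unfold alpha; positivity

theorem alpha_le (P : Pm) (j : ℕ) : P.alpha j ≤ 1 :=
  (div_le_one (by positivity)).2 (one_le_pow₀ one_le_two)

theorem win_seven (hP : P.Good) {j : ℕ} (hj : j ≤ P.k0) : 16 ≤ P.sig * P.alpha j * P.t0 := by
  have h1 := hP.fp4
  have h2 := Nat.mul_le_mul_left P.ch hj
  rw [sig, alpha, t0, U1_cast, div_mul_div_comm, div_mul_div_comm, one_mul, one_mul, ← pow_add,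
    ← pow_add, le_div_iff₀ (by positivity), show (16 : ℝ) = 2 ^ 4 by norm_num, ← pow_add]
  exact scale_pow (by omega)

theorem beta_ge (hP : P.Good) (m : ℕ) : P.sig ≤ P.beta m := by
  have hm : (16 : ℝ) ≤ P.mm := by exact_mod_cast mm_ge hP
  exact le_mul_of_one_le_left P.sig_pos.le (one_le_pow₀ (by linarith))

theorem beta_succ (P : Pm) (m : ℕ) : P.beta (m + 1) = 2048 * P.mm * P.beta m := by
  unfold beta; ring

theorem beta_le (hP : P.Good) {m : ℕ} (hm : m < P.ell) : P.beta m ≤ 1 / 2 ^ (P.ch + 1) := by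
  have h1 := hP.sg_ge
  have h2 := Nat.mul_le_mul_right (11 + P.mh) hm
  rw [beta, sig, mm_cast, show (2048 : ℝ) = 2 ^ 11 by norm_num, ← pow_add, ← pow_mul, mul_one_div,
    ← pow_zero (2 : ℝ)]
  refine scale_div ?_
  rw [mul_comm]
  rw [Nat.succ_eq_add_one] at h2
  omega

theorem Mc_pos (P : Pm) : 1 ≤ P.Mc := by
  unfold Mc nOpt NG
  exact Nat.succ_le_of_lt (by positivity)

theorem pf_nonneg (P : Pm) (m : ℕ) : 0 ≤ P.pf m := by unfold pf; positivity

theorem pf_mono (P : Pm) {m m' : ℕ} (h : m ≤ m') : P.pf m ≤ P.pf m' := by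
  have : (1 : ℝ) ≤ P.Mc := by exact_mod_cast P.Mc_pos
  unfold pf
  gcongr

theorem pf_succ (P : Pm) (m : ℕ) : P.nOpt * (4 * Real.exp (-(2 ^ P.lm * P.sig ^ 2) / 32) +
    P.N * P.Bz ^ 2 * P.pf m) ≤ P.pf (m + 1) := by
  have h1 := P.pf_mono (Nat.zero_le m)
  have h2 : P.pf (m + 1) = P.nOpt * (P.pf m + P.N * P.Bz ^ 2 * P.pf m) := by
    rw [pf, pow_succ, pf, Mc]
    push_cast
    ring
  rw [pf, pow_zero, mul_one] at h1
  rw [h2]
  gcongr

theorem near_refl (P : Pm) {α v : ℝ} (hα : 0 ≤ α) (hv : 0 ≤ v) : P.Near α v v := by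
  rw [Near, sub_self, abs_zero]
  exact mul_nonneg hα (add_nonneg hv P.t0_nonneg)

theorem near_of_abs (P : Pm) {α x v c : ℝ} (hα : 0 ≤ α) (hv : 0 ≤ v) (h : |x - v| ≤ c)
    (hc : c ≤ α * P.t0) : P.Near α x v :=
  h.trans (hc.trans (mul_le_mul_of_nonneg_left (le_add_of_nonneg_left hv) hα))

theorem pass0_err (hP : P.Good) {X : Ctx} (hX : ∀ k j i p p', X k j i p p' ≤ P.U1)
    (k h i p p' : ℕ) : |(P.pass0 X k h i p p' : ℝ) -
      P.stepR X k h i (fun c x => P.toR (X k c x)) p p'| ≤ 7 :=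
  VN_err hP X k h i (fun g _ _ => PsN_err hP hX k g
    (fun qq => (P.val_le (hX k) g qq).trans (Nat.le_mul_of_pos_left _ (by norm_num)))
    fun qq => by rw [step_val_cast, Nat.cast_zero, add_zero]) p p'

/-- Splitting of a seed into the seeds of the slots. -/
def winE (P : Pm) (m : ℕ) :
    (P.Idx (m + 1) → Bool) ≃ (Fin P.N → (Fin P.lb → Bool) × (P.Idx m → Bool)) where
  toFun s := fun i => (fun t => s (i, Sum.inl t), fun u => s (i, Sum.inr u))
  invFun u := fun x : Fin P.N × (Fin P.lb ⊕ P.Idx m) => Sum.elim (u x.1).1 (u x.1).2 x.2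
  left_inv s := by
    funext x
    obtain ⟨i, t | u⟩ := x <;> rfl
  right_inv u := rfl

theorem refV_succ (P : Pm) (w : ℕ → ℕ → ℕ) (A : ℕ → ℕ → ℕ → ℕ → ℕ → Tab) (k h a i : ℕ) :
    P.refV w A k (h + 1) a i = if P.smp (h + 1) i then
      P.stepR (P.ctx (A h) a) k (h + 1) i (fun c i' =>
        if h % P.ell = 0 then P.toR (A h k (a * P.b + c) i' P.k0)
        else P.refV w A k h (a * P.b + c) i')
    else P.toR (P.det w (h + 1) a i) := rfl

/-- Failure probability of a pass inside a window, for one state. -/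
theorem window (hP : P.Good) {w : ℕ → ℕ → ℕ} (hw : WOk w) {A : ℕ → ℕ → ℕ → ℕ → ℕ → Tab}
    (hA : ∀ h k a i j, P.Tame i (P.toR (A h k a i j))) {k j hb : ℕ} (hk : k < P.KK)
    (hj : j ≤ P.k0) (hhb : hb % P.ell = 0) (m : ℕ) (hm : m < P.ell) (hD : hb + m + 1 ≤ P.D)
    (hG : ∀ h ≤ hb + m, P.GoodAt w A h) {a : ℕ} (ha : a < P.b ^ (P.D - (hb + m + 1)))
    (i p p' : ℕ) :
    pr (fun s => ¬ P.Near (P.beta m * P.alpha (j - 1)) (P.passS w A k j hb m a i s p p')
      (P.refV w A k (hb + m + 1) a i p p')) ≤ P.pf m := by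
  have hU : ∀ h a k j i p p', P.ctx (A h) a k j i p p' ≤ P.U1 := fun h a k j i p p' =>
    Nat.cast_le.1 ((hA h k _ i _).1 p p').2
  have hα := P.alpha_pos (j - 1)
  have h7 : 7 ≤ P.sig * P.alpha (j - 1) * P.t0 :=
    le_trans (by norm_num) (win_seven hP ((Nat.sub_le _ _).trans hj))
  have hβ : ∀ m, 0 ≤ P.beta m * P.alpha (j - 1) := fun m =>
    mul_nonneg (P.sig_pos.le.trans (beta_ge hP m)) hα.le
  induction m generalizing a i p p' with
  | zero =>
    refine pr_empty (fun s => not_not.2 ?_) (P.pf_nonneg 0)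
    rw [Nat.add_zero, refV_succ, passS]
    simp only [if_pos hhb]
    split_ifs
    · refine P.near_of_abs (hβ 0) ((P.stepR_tame _ _ _ _ _).1 p p').1
        (pass0_err hP (hU hb a) k (hb + 1) i p p') (h7.trans ?_)
      exact mul_le_mul_of_nonneg_right (mul_le_mul_of_nonneg_right (beta_ge hP 0) hα.le)
        P.t0_nonneg
    · exact P.near_refl (hβ 0) (Nat.cast_nonneg _)
  | succ m ih =>
    have e : (hb + m + 1) % P.ell ≠ 0 := by
      rw [add_assoc, addr_mod hhb hm]; exact Nat.succ_ne_zero m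
    rw [← add_assoc] at hD ha hG
    rw [← add_assoc, refV_succ]
    simp only [passS, if_neg e]
    split_ifs
    swap
    · exact pr_empty (fun s => not_not.2 (P.near_refl (hβ _) (Nat.cast_nonneg _))) (P.pf_nonneg _)
    have hm16 : (16 : ℝ) ≤ P.mm := by exact_mod_cast mm_ge hP
    have h1 := level hP (hU (hb + m + 1) a) k (hb + m + 2) i
      (L := fun c i' => A (hb + m + 1) k (a * P.b + c) i' (j - 1))
      (V := fun c i' => P.refV w A k (hb + m + 1) (a * P.b + c) i')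
      (R := fun c i' s => P.passS w A k j hb m (a * P.b + c) i' s) (π := P.pf m) hα
      (P.alpha_le _) (beta_ge hP m) (by
        have a1 := (beta_le hP hm).trans ((div_le_one (by positivity)).2 (one_le_pow₀ one_le_two))
        have a2 := P.sig_pos.le.trans (beta_ge hP m)
        rw [beta_succ] at a1
        rw [le_div_iff₀ (by positivity)]
        nlinarith) h7
      (fun c x => hA _ _ _ _ _) (fun c x => refV_tame hP hw A k _ _ x)
      (fun c x s => tame_of (passS_le hP w A k j hb m _ x s) (passS_lip hP hw A k j hb m _ x s)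
        (by norm_num))
      (fun c hc x p hp p' hp' => hG _ le_rfl k hk _ (P.child_lt hD ha hc) x _
        ((Nat.sub_le _ _).trans hj) p hp p' hp')
      (fun c hc x p _ p' _ => ih (by omega) (by omega) (fun h hh => hG h (by omega))
        (P.child_lt hD ha hc) x p p') p p'
    rw [← beta_succ, ← pr_equiv (P.winE m)] at h1
    exact h1.trans (P.pf_succ m)

theorem win_av {σ : Type} [Fintype σ] [Nonempty σ] {X : σ → ℝ} {v c U : ℝ} (hc : 0 ≤ c)
    (hU : ∀ s, |X s - v| ≤ U) : |av X - v| ≤ c + U * pr (fun s => ¬ |X s - v| ≤ c) := by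
  classical
  have h : av X - v = av fun s => X s - v := by
    simp only [sub_eq_add_neg]
    rw [av_add, av_const]
  rw [h, pr_eq_av, ← av_mul, ← av_const (σ := σ) c, ← av_add]
  refine (abs_av_le _).trans (av_mono fun s => ?_)
  rw [av_const]
  split_ifs with h1
  · linarith
  · linarith [hU s]

/-- The average of `S` independent passes is accurate with high probability. -/
theorem window_tail (hP : P.Good) {w : ℕ → ℕ → ℕ} (hw : WOk w) {A : ℕ → ℕ → ℕ → ℕ → ℕ → Tab}
    (hA : ∀ h k a i j, P.Tame i (P.toR (A h k a i j))) {k j hb : ℕ} (hk : k < P.KK) (hj1 : 1 ≤ j)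
    (hj : j ≤ P.k0) (hhb : hb % P.ell = 0) (m : ℕ) (hm : m < P.ell) (hD : hb + m + 1 ≤ P.D)
    (hG : ∀ h ≤ hb + m, P.GoodAt w A h) {a : ℕ} (ha : a < P.b ^ (P.D - (hb + m + 1))) (i : ℕ) :
    pr (fun s : Fin P.S × P.Idx m → Bool => ∃ p ≤ P.Qm, ∃ p' ≤ P.Qm, ¬ P.Near (P.alpha j)
      (((∑ t : Fin P.S, P.passS w A k j hb m a i (fun u => s (t, u)) p p') / P.S : ℕ) : ℝ)
      (P.refV w A k (hb + m + 1) a i p p')) ≤ P.fail1 := by
  have hS := hP.S_pos
  have hU : (1 : ℝ) ≤ P.U1 := by exact_mod_cast P.U1_pos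
  set X : ℕ × ℕ → (P.Idx m → Bool) → ℝ := fun y u => P.passS w A k j hb m a i u y.1 y.2 with hX
  have hX1 : ∀ y u, 0 ≤ X y u ∧ X y u ≤ P.U1 := fun y u =>
    ⟨Nat.cast_nonneg _, Nat.cast_le.2 (passS_le hP _ _ _ _ _ _ _ _ _ _ _)⟩
  have hu := pr_union (range (P.Qm + 1) ×ˢ range (P.Qm + 1))
    (fun y (s : Fin P.S × P.Idx m → Bool) =>
      1 < |(∑ t, X y (Equiv.curry _ _ _ s t)) / P.S - av (X y)|)
    fun y _ => (pr_equiv (Equiv.curry (Fin P.S) (P.Idx m) Bool)
      (fun u => 1 < |(∑ t, X y (u t)) / P.S - av (X y)|)).trans_le (hoeffding (X y) hU (hX1 y) hS)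
  rw [card_product, card_range, ← sq] at hu
  refine (pr_mono ?_).trans hu
  rintro s ⟨p, hp, p', hp', hs⟩
  refine ⟨(p, p'), by simp only [mem_product, mem_range]; omega, ?_⟩
  by_contra hn
  refine hs ?_
  have hv := (refV_tame hP hw A k (hb + m + 1) a i).1 p p'
  have h0 := window hP hw hA hk hj hhb m hm hD hG ha i p p'
  have ht := P.t0_nonneg
  have hα := P.alpha_pos (j - 1)
  have hβ := P.sig_pos.le.trans (beta_ge hP m)
  unfold Near at h0 ⊢
  generalize P.refV w A k (hb + m + 1) a i p p' = v at *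
  have h1 := win_av (X := X (p, p')) (v := v) (c := P.beta m * P.alpha (j - 1) * (v + P.t0))
    (U := P.U1) (mul_nonneg (mul_nonneg hβ hα.le) (add_nonneg hv.1 ht)) fun u =>
    abs_le.2 ⟨by linarith [(hX1 (p, p') u).1, hv.2], by linarith [(hX1 (p, p') u).2, hv.1]⟩
  have h2 := (mul_le_mul_of_nonneg_left (h0.trans (P.pf_mono hm.le)) (Nat.cast_nonneg P.U1)).trans
    ((mul_comm _ _).trans_le hP.pf_le)
  have h3 : P.beta m * P.alpha (j - 1) ≤ P.alpha j / 2 := by
    refine (mul_le_mul_of_nonneg_right (beta_le hP hm) hα.le).trans (le_of_eq ?_)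
    obtain ⟨j, rfl⟩ := Nat.exists_eq_add_of_le' hj1
    rw [Nat.add_sub_cancel, alpha, alpha]
    field_simp
    ring
  have h4 := mul_le_mul_of_nonneg_right h3 (add_nonneg hv.1 ht)
  have h5 := win_seven hP hj
  have h6 := mul_le_mul_of_nonneg_right P.sig_le (mul_nonneg (P.alpha_pos j).le ht)
  have h7 := mul_nonneg (P.alpha_pos j).le hv.1
  have h8 := basic_avg hS (∑ t : Fin P.S, P.passS w A k j hb m a i (fun u => s (t, u)) p p')
  have h9 : (∑ t, X (p, p') (Equiv.curry _ _ _ s t)) =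
      ((∑ t : Fin P.S, P.passS w A k j hb m a i (fun u => s (t, u)) p p' : ℕ) : ℝ) := by
    rw [Nat.cast_sum]; rfl
  rw [h9, not_lt] at hn
  have h10 := h1.trans (add_le_add h4 h2)
  exact abs_le.2 ⟨by linarith [(abs_le.1 hn).1, (abs_le.1 h10).1, h8.2],
    by linarith [(abs_le.1 hn).2, (abs_le.1 h10).2, h8.1]⟩

/-- The table of rank zero is trivially accurate. -/
theorem low_near (hP : P.Good) (X : Ctx) (k h i : ℕ) (V : ℕ → ℕ → TabR) (p p' : ℕ) :
    P.Near (P.alpha 0) (P.low i p p') (P.stepR X k h i V p p') := by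
  have hU : (0 : ℝ) < P.U1 := by exact_mod_cast P.U1_pos
  have h1 : (P.low i p p' : ℝ) ≤ P.bandR i (P.dR p p') := by
    refine (H_le_real hP _).trans (mul_le_mul_of_nonneg_left
      (hh_mono P.mm_pos (by positivity) ?_) hU.le)
    rw [div_le_iff₀ hU, div_mul_eq_mul_div]
    exact P.dN_le i p p'
  have h2 := h1.trans (P.bandR_mono i (P.dR_nonneg p p')
    (P.dR_le_VG X k h i (P.PsR X k (P.valR V)) p p'))
  have h3 : (0 : ℝ) ≤ P.low i p p' := Nat.cast_nonneg _
  have h4 := P.t0_nonneg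
  rw [Near, alpha, mul_zero, pow_zero, div_one, one_mul, stepR]
  exact abs_le.2 ⟨by linarith, by linarith⟩

theorem det_near (hP : P.Good) (w : ℕ → ℕ → ℕ) (h a i p p' : ℕ) :
    P.Near P.eta (P.det w h a i p p') (P.bandR i (P.detR w h a i p p')) := by
  have hU : (0 : ℝ) < P.U1 := by exact_mod_cast P.U1_pos
  have h0 : 0 ≤ P.detR w h a i p p' := by
    unfold detR
    split_ifs
    · exact Nat.cast_nonneg _
    · exact add_nonneg (P.dR_nonneg _ _) (by unfold lenR; positivity)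
  refine P.near_of_abs P.eta_pos.le (P.bandR_nonneg i h0) (H_band hP i (c := 1) h0 ?_)
    (le_trans (by norm_num) (eta_t0 hP))
  unfold detR
  split_ifs
  · have h1 := basic_div ((P.J * leafE w a p p' + P.J0) * P.U1) i
    rw [Nat.cast_mul] at h1
    exact abs_le.2 ⟨by linarith [h1.2], by linarith [h1.1]⟩
  · have h1 := P.dN_real i p p'
    have e2 : P.lenR h i * P.U1 / 2 ^ i = P.lenN h i := by unfold lenR; field_simp
    rw [add_mul, add_div, e2, Nat.cast_add]
    exact abs_le.2 ⟨by linarith [h1.2], by linarith [h1.1]⟩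

theorem star_num {m α η t v v' x : ℝ} (hm : 16 ≤ m) (hα : 0 ≤ α) (hη : 512 * m * α ≤ η)
    (hη1 : η ≤ 1) (ht : 0 ≤ t) (hv : 0 ≤ v) (h1 : |x - v| ≤ α * (v + t))
    (h2 : |v' - v| ≤ 48 * m * (3 * α) * (v + t)) : |x - v'| ≤ η * (v' + t) := by
  have a0 : 0 ≤ v + t := add_nonneg hv ht
  have a1 := mul_le_mul_of_nonneg_right hη a0
  have a2 := mul_le_mul_of_nonneg_right hη1 a0
  have a3 := mul_le_mul_of_nonneg_right hm (mul_nonneg hα a0)
  have a4 : v + t ≤ 2 * (v' + t) := by linarith [(abs_le.1 h2).1]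
  have a5 := mul_le_mul_of_nonneg_left a4 (le_trans (by positivity) hη)
  have a6 := mul_nonneg hα a0
  exact abs_le.2 ⟨by linarith [(abs_le.1 h1).1, (abs_le.1 h2).2],
    by linarith [(abs_le.1 h1).2, (abs_le.1 h2).1]⟩

/-- The good event gives the hypothesis of the deterministic analysis. -/
theorem star_of_good (hP : P.Good) {w : ℕ → ℕ → ℕ} (hw : WOk w) (ρ : ℕ → Bool)
    (hG : ∀ h ≤ P.D, P.GoodAt w (P.A w ρ) h) : P.Star w (P.A w ρ) := by
  refine ⟨hw, tameX_A hP hw ρ, fun h hh k hk a ha i p hp p' hp' => ?_⟩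
  unfold VA
  split_ifs with hs
  swap
  · have e : P.A w ρ h k a i P.k0 p p' = P.det w h a i p p' := by
      cases h with
      | zero => rfl
      | succ h => rw [A_succ, if_neg hs]
    rw [e]
    exact det_near hP w h a i p p'
  obtain ⟨h, rfl⟩ := Nat.exists_eq_add_of_le' hs.1
  have hm : (16 : ℝ) ≤ P.mm := by exact_mod_cast mm_ge hP
  have hα := P.alpha_pos P.k0
  have hη : 512 * P.mm * P.alpha P.k0 ≤ P.eta := by
    have := hP.k0_ge
    rw [alpha, eta, mm_cast, show (512 : ℝ) = 2 ^ 9 by norm_num, ← pow_add, mul_one_div,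
      ← pow_zero (2 : ℝ)]
    exact scale_div (by omega)
  have hη1 : P.eta ≤ 1 := (div_le_one (by positivity)).2 (one_le_pow₀ one_le_two)
  have h1 := hG (h + 1) hh k hk a ha i P.k0 le_rfl p hp p' hp'
  rw [refV_succ, if_pos hs] at h1
  set V : ℕ → ℕ → TabR := fun c i' => if h % P.ell = 0 then
    P.toR (P.A w ρ h k (a * P.b + c) i' P.k0) else P.refV w (P.A w ρ) k h (a * P.b + c) i' with hV
  have hVt : ∀ c x, P.Tame x (V c x) := fun c x => by
    simp only [hV]
    split_ifs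
    · exact tame_A hP hw ρ _ _ _ _ _
    · exact refV_tame hP hw _ _ _ _ _
  have h2 := VG_stab hP (P.ctx (P.A w ρ h) a) k (h + 1) i
    (Ps := P.PsR (P.ctx (P.A w ρ h) a) k (P.valR V)) (Ps' := P.PsA (P.A w ρ) h k a)
    (η := 3 * P.alpha P.k0) (by positivity) (by
      rw [le_div_iff₀ (by positivity)]
      nlinarith) p p' fun g Q Q' _ g2 g3 g4 _ _ =>
    Psi_stab hP _ k g2 g3 g4 hα.le (fun c x => tame_A hP hw ρ _ _ _ _ _) hVt
      fun c hc x q hq q' hq' => by
        simp only [hV]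
        split_ifs
        · exact P.near_refl hα.le (Nat.cast_nonneg _)
        · exact hG h (by omega) k hk _ (P.child_lt hh ha hc) x _ le_rfl q hq q' hq'
  exact star_num hm hα.le hη hη1 P.t0_nonneg ((P.stepR_tame _ k (h + 1) i V).1 p p').1 h1 h2

end Pm

end Vale.Agent.P315F
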